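import Vale.Agent.P264.C.Psi

/-!
# P264 C/AlgF  (TASK; notes/P264.md section C, notes/P264C.md)

Pointwise algebra in the fine zone.  Put `N = √(NQ ξ a)`: `|a 1|, |a 2|, |a 3|, vp ξ |a 0| ≤ N`, `vp ξ (a 0)² ≤ N²`.  If `|A1|, |A1d|, |A1dd| ≤ b`, `|A0|, |A0d| ≤ b vp ξ` then
`|Ahat| ≤ 6 b N`, `|Ader| ≤ 25 b N`; `|sig1| ≤ 91 N`.  `Ahat`, `Ader` are linear in the weights: weights `= p (g..) + δ`, `δ` bounded with `b = 6 kk B p`, total weights with `b = 2 B p` (`B = 10^14`).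
`P0 - p * (main LHS) = T1 + .. + T6`, `n = ξ a0`, `b1 = ξ a1`:
`T1 = 2 (Y² Ader δ + 2 Y Y1 Ahat δ) sig1`, `T2 = 2 ξ² (Y1/Y) a0 Ahat δ` (`ξ² |Y1| ≤ 10^6 vp`), `T3 = pd flux q a` (`|flux| ≤ 9 B N²`), `T4 = 2 (yt² - Y²) Ader G sig1` (`|yt² - Y²| ≤ 9 eta`),
`T5 = 4 (yt yt1 - Y Y1) Ahat G sig1` with `yt yt1 - Y Y1 = -n Y1 - yt n - yt b1`; in the `b1` part use `b1 a0 = n a1` for the `G0` term, the rest is
`≤ 5824 B p |b1| (|a1| + |a2|) N ≤ p N²/16 + 10^38 p b1² (a1² + a2²)`; `T6 = 2 ξ² e Ahat G`, `ξ² |e| ≤ 2 ξ² |R| + 3 eta 111 10^6 vp |a0|`, `48 B p N ξ²|R| ≤ p N²/16 + 10^32 p (ξ² R)²`.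
All small terms together are below `p N² / 1000`.  Prove each `T` in its own lemma (prefix `algF_`).
-/

open Set MeasureTheory Filter Topology

noncomputable section

namespace Vale.Agent.P264

theorem algF_m {x y a b : ℝ} (hx : |x| ≤ a) (hy : |y| ≤ b) : |x * y| ≤ a * b :=
  (abs_mul x y).trans_le (mul_le_mul hx hy (abs_nonneg _) ((abs_nonneg _).trans hx))

theorem algF_a {x y a b : ℝ} (hx : |x| ≤ a) (hy : |y| ≤ b) : |x + y| ≤ a + b :=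
  (abs_add_le x y).trans (add_le_add hx hy)

theorem algF_s {x y a b : ℝ} (hx : |x| ≤ a) (hy : |y| ≤ b) : |x - y| ≤ a + b :=
  (abs_sub x y).trans (add_le_add hx hy)

theorem algF_c {c : ℝ} (h : 0 ≤ c) : |c| ≤ c := (abs_of_nonneg h).le

/-- the bounds on the jet -/
structure algF_J (v N : ℝ) (a : ℕ → ℝ) : Prop where
  v0 : 0 < v
  v1 : v ≤ 1
  h0 : v * |a 0| ≤ N
  h00 : v * a 0 ^ 2 ≤ N ^ 2
  h1 : |a 1| ≤ N
  h2 : |a 2| ≤ N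
  h3 : |a 3| ≤ N

theorem algF_jet {ξ : ℝ} (hξ : 0 < ξ) (a : ℕ → ℝ) : algF_J (vp ξ) √(NQ ξ a) a := by
  obtain ⟨v0, v1, -⟩ := vp_pos hξ
  have a0 := mul_nonneg v0.le (sq_nonneg (a 0))
  have a1 := sq_nonneg (a 1)
  have a2 := sq_nonneg (a 2)
  have a3 := sq_nonneg (a 3)
  refine ⟨v0, v1, Real.le_sqrt_of_sq_le ?_, ?_, Real.abs_le_sqrt ?_, Real.abs_le_sqrt ?_,
    Real.abs_le_sqrt ?_⟩
  · rw [mul_pow, sq_abs, NQ]
    nlinarith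
  · rw [Real.sq_sqrt (by rw [NQ]; linarith), NQ]
    linarith
  all_goals rw [NQ]; linarith

section
variable {v N b : ℝ} {a : ℕ → ℝ} (J : algF_J v N a)
include J

theorem algF_z {A : ℝ} (h : |A| ≤ b * v) : |A * a 0| ≤ b * N :=
  (algF_m h le_rfl).trans ((mul_assoc _ _ _).trans_le (mul_le_mul_of_nonneg_left J.h0
    (nonneg_of_mul_nonneg_left ((abs_nonneg _).trans h) J.v0)))

theorem algF_v {A : ℝ} (h : |A| ≤ b * v) : |A| ≤ b :=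
  h.trans (mul_le_of_le_one_right (nonneg_of_mul_nonneg_left ((abs_nonneg _).trans h) J.v0) J.v1)

theorem algF_hat {A1 A1d A0 : ℝ} (h1 : |A1| ≤ b) (h2 : |A1d| ≤ b) (h3 : |A0| ≤ b * v) :
    |Ahat A1 A1d A0 a| ≤ 6 * b * N :=
  (algF_a (algF_s (algF_m ((abs_neg _).trans_le h1) J.h2) (algF_m (algF_a (algF_m
    (algF_c zero_le_three) h1) h2) J.h1)) (algF_z J h3)).trans_eq (by ring)

theorem algF_der {A1 A1d A1dd A0 A0d : ℝ} (h1 : |A1| ≤ b) (h2 : |A1d| ≤ b) (h3 : |A1dd| ≤ b)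
    (h4 : |A0| ≤ b * v) (h5 : |A0d| ≤ b * v) : |Ader A1 A1d A1dd A0 A0d a| ≤ 25 * b * N :=
  (algF_a (algF_a (algF_s (algF_m ((abs_neg _).trans_le h1) J.h3) (algF_m (algF_m
    (algF_c zero_le_two) (algF_a (algF_m (algF_c zero_le_three) h1) h2)) J.h2))
    (algF_m (algF_s (algF_v J h4) (algF_a (algF_a (algF_m (algF_c (by norm_num)) h1)
      (algF_m (algF_c (by norm_num)) h2)) h3)) J.h1))
    (algF_z J (b := 2 * b) ((algF_a h4 h5).trans_eq (by ring)))).trans_eq (by ring)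

theorem algF_sig : |sig1 a| ≤ 91 * N :=
  (algF_a (algF_a J.h3 (algF_m (algF_c (by norm_num)) J.h2))
    (algF_m (algF_c (by norm_num)) J.h1)).trans_eq (by ring)

theorem algF_flux {q : ℕ → ℝ} (hq : ∀ i, |q i| ≤ b) (hq0 : ∀ i, i ≤ 2 → |q i| ≤ b * v) :
    |flux q a| ≤ 9 * b * N ^ 2 := by
  have t : ∀ i, i ≤ 2 → |2 * q i * a 0| ≤ 2 * b * N := fun i hi =>
    algF_z J ((algF_m (algF_c zero_le_two) (hq0 i hi)).trans_eq (by ring))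
  have s : ∀ {x : ℝ}, |x| ≤ N → |x ^ 2| ≤ N ^ 2 := fun h =>
    (abs_pow _ _).trans_le (pow_le_pow_left₀ (abs_nonneg _) h 2)
  have u : |q 0 * a 0 ^ 2| ≤ b * N ^ 2 := (algF_m (hq0 0 zero_le_two) (algF_c (sq_nonneg _))).trans
    ((mul_assoc _ _ _).trans_le (mul_le_mul_of_nonneg_left J.h00 ((abs_nonneg _).trans (hq 0))))
  exact (algF_a (algF_a (algF_a (algF_a (algF_a u (algF_m (t 1 one_le_two) J.h1))
    (algF_m (t 2 le_rfl) J.h2)) (algF_m (hq 3) (s J.h1)))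
    (algF_m (algF_m (algF_m (algF_c zero_le_two) (hq 4)) J.h1) J.h2))
    (algF_m (hq 5) (s J.h2))).trans_eq (by ring)

theorem algF_T5 {p yt b1 G1 G1d : ℝ} (hp : 0 < p) (hy : |yt| ≤ 2) (h1 : |G1| ≤ 2 * 10 ^ 14 * p)
    (h2 : |G1d| ≤ 2 * 10 ^ 14 * p) : 4 * yt * b1 * (G1 * a 2 + (3 * G1 + G1d) * a 1) * sig1 a ≤
      p * N ^ 2 / 16 + 10 ^ 38 * p * b1 ^ 2 * (a 1 ^ 2 + a 2 ^ 2) := by
  refine (le_abs_self _).trans ((algF_m (algF_m (algF_m (algF_m (algF_c zero_le_four) hy)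
    (le_refl |b1|)) (algF_a (algF_m h1 (le_refl |a 2|)) (algF_m (algF_a (algF_m
      (algF_c zero_le_three) h1) h2) (le_refl |a 1|)))) (algF_sig J)).trans ?_)
  rw [← sq_abs b1, ← sq_abs (a 1), ← sq_abs (a 2)]
  nlinarith [mul_nonneg hp.le (sq_nonneg (N / 6 - 10 ^ 18 * (|b1| * |a 1|) * 2)),
    mul_nonneg hp.le (sq_nonneg (N / 6 - 10 ^ 18 * (|b1| * |a 2|) * 2)),
    mul_nonneg hp.le (sq_nonneg N), mul_nonneg hp.le (sq_nonneg (|b1| * |a 1|)),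
    mul_nonneg hp.le (sq_nonneg (|b1| * |a 2|)),
    mul_nonneg (mul_nonneg hp.le ((abs_nonneg _).trans J.h1))
      (mul_nonneg (abs_nonneg b1) (abs_nonneg (a 1))),
    mul_nonneg (mul_nonneg hp.le ((abs_nonneg _).trans J.h1))
      (mul_nonneg (abs_nonneg b1) (abs_nonneg (a 2)))]

end

theorem algF_cube {ξ x c : ℝ} (hξ : 0 < ξ) (h : |x| * (1 + ξ) ^ 3 ≤ c) :
    |ξ ^ 3 * x| ≤ c * vp ξ ∧ |ξ * x| ≤ c := by
  have h1 : 0 < 1 + ξ := by linarith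
  have h2 := abs_nonneg x
  rw [abs_mul, abs_mul, abs_pow, abs_of_pos hξ, vp, ← mul_div_assoc, le_div_iff₀ h1]
  refine ⟨le_trans ?_ (mul_le_mul_of_nonneg_right h hξ.le), le_trans ?_ h⟩
  · nlinarith [mul_nonneg (mul_nonneg h2 hξ.le) (mul_nonneg h1.le (show 0 ≤ 1 + 2 * ξ by linarith))]
  · nlinarith [mul_nonneg h2 (show 0 ≤ 1 + 2 * ξ + 3 * ξ ^ 2 + ξ ^ 3 by positivity)]

theorem algF_id (ξ Y Y1 R SW p pd pdd g1 g1d g1dd g0 g0d h0 h0d : ℝ) (q qd a : ℕ → ℝ) :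
    P0 ξ Y Y1 (Y - ξ * a 0) (Y1 - ξ * (a 0 + a 1))
        (R - 2 * (ξ * a 0) * R / Y - (ξ * a 0) ^ 2 * SW) p pd pdd 0 0
        g1 g1d g1dd g0 g0d h0 h0d q qd a =
      p * (prod2 ξ Y Y1 g1 g1d g1dd g0 g0d a + ξ * flux qd a + fluxD q a) +
      2 * (Y * Y * Ader 0 (pd * g1) (pdd * g1 + 2 * pd * g1d) (p * h0) (pd * (g0 + h0) + p * h0d) a +
        2 * Y * Y1 * Ahat 0 (pd * g1) (p * h0) a) * sig1 a +
      2 * Y⁻¹ * (ξ ^ 2 * Y1 * a 0) * Ahat 0 (pd * g1) (p * h0) a + pd * flux q a +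
      2 * (ξ * a 0 * (-Y - (Y - ξ * a 0))) * Ader (p * g1) (pd * g1 + p * g1d)
        (pdd * g1 + 2 * pd * g1d + p * g1dd) (p * (g0 + h0) + 0)
        (pd * (g0 + h0) + p * (g0d + h0d) + 0) a * sig1 a +
      4 * (ξ * a 0 * (-Y1 - (Y - ξ * a 0))) *
        Ahat (p * g1) (pd * g1 + p * g1d) (p * (g0 + h0) + 0) a * sig1 a +
      4 * -(Y - ξ * a 0) * (ξ * a 0) * ((p * (g0 + h0) + 0) * a 1) * sig1 a +
      4 * (Y - ξ * a 0) * (ξ * a 1) * (p * g1 * a 2 + (3 * (p * g1) + (pd * g1 + p * g1d)) * a 1) *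
        sig1 a +
      2 * (ξ ^ 2 * R * (1 - 2 * (ξ * a 0) * Y⁻¹)) *
        Ahat (p * g1) (pd * g1 + p * g1d) (p * (g0 + h0) + 0) a +
      2 * -(ξ * a 0) * (ξ ^ 3 * SW * a 0) *
        Ahat (p * g1) (pd * g1 + p * g1d) (p * (g0 + h0) + 0) a := by
  simp only [P0, prod2, Ahat, Ader]
  ring

theorem algF_T10 {p N x : ℝ} (hp : 0 < p) : 2 * (|x| * 2) * (6 * (2 * 10 ^ 14 * p) * N) ≤
    p * N ^ 2 / 16 + 10 ^ 32 * p * x ^ 2 := by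
  rw [← sq_abs x]
  nlinarith [mul_nonneg hp.le (sq_nonneg (N / 4 - 96 * 10 ^ 14 * |x|)),
    mul_nonneg hp.le (sq_nonneg |x|)]

theorem alg_fine {ξ Y Y1 R SW p pd pdd g1 g1d g1dd g0 g0d h0 h0d : ℝ} {q qd a : ℕ → ℝ}
    (hξ : 0 < ξ) (hY : 1 / 20 ≤ Y ∧ Y ≤ 1) (hY1 : |Y1| * (1 + ξ) ^ 3 ≤ 10 ^ 6 * ξ)
    (hSW : |SW| * (1 + ξ) ^ 3 ≤ 111 * 10 ^ 6)
    (hp : 0 < p) (hpd : |pd| ≤ kk * p) (hpdd : |pdd| ≤ 4 * kk * p)
    (hg1 : |g1| ≤ 10 ^ 14 ∧ |g1d| ≤ 10 ^ 14 ∧ |g1dd| ≤ 10 ^ 14)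
    (hg0 : |g0| ≤ 10 ^ 14 * vp ξ ∧ |g0d| ≤ 10 ^ 14 * vp ξ)
    (hh : |h0| ≤ eps2 * vp ξ ∧ |h0d| ≤ eps2 * vp ξ)
    (hq : ∀ i, |q i| ≤ 10 ^ 14) (hq0 : ∀ i, i ≤ 2 → |q i| ≤ 10 ^ 14 * vp ξ)
    (hn : |ξ * a 0| ≤ 3 * eta)
    (hmain : prod2 ξ Y Y1 g1 g1d g1dd g0 g0d a + ξ * flux qd a + fluxD q a ≤ -NQ ξ a) :
    P0 ξ Y Y1 (Y - ξ * a 0) (Y1 - ξ * (a 0 + a 1))
        (R - 2 * (ξ * a 0) * R / Y - (ξ * a 0) ^ 2 * SW) p pd pdd 0 0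
        g1 g1d g1dd g0 g0d h0 h0d q qd a ≤
      -(3 / 4) * p * NQ ξ a + 10 ^ 38 * p * (ξ * a 1) ^ 2 * (a 1 ^ 2 + a 2 ^ 2)
        + 10 ^ 32 * p * (ξ ^ 2 * R) ^ 2 := by
  have J := algF_jet hξ a
  have e : NQ ξ a = √(NQ ξ a) ^ 2 :=
    (Real.sq_sqrt (by have := (vp_pos hξ).1; rw [NQ]; positivity)).symm
  generalize √(NQ ξ a) = N at J e
  rw [e] at hmain ⊢
  obtain ⟨y1, y2⟩ := algF_cube (x := Y1 / ξ) (c := 10 ^ 6) hξ (by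
    rwa [abs_div, abs_of_pos hξ, div_mul_eq_mul_div, div_le_iff₀ hξ])
  rw [pow_succ ξ 2, mul_assoc, mul_div_cancel₀ _ hξ.ne'] at y1
  rw [mul_div_cancel₀ _ hξ.ne'] at y2
  have y3 := (algF_cube hξ hSW).1
  have v0 := J.v0
  generalize vp ξ = v at *
  have pv := mul_pos hp v0
  have pN := mul_nonneg hp.le (sq_nonneg N)
  unfold kk eps2 eta at *
  have p1 := algF_c hp.le
  have Y0 : |Y| ≤ 1 := abs_le.2 ⟨by linarith, hY.2⟩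
  have Yi : |Y⁻¹| ≤ 20 := by
    rw [abs_inv, abs_of_pos (by linarith)]
    exact inv_le_of_inv_le₀ (by norm_num) (by linarith)
  have yt : |Y - ξ * a 0| ≤ 2 := (algF_s Y0 hn).trans (by norm_num)
  have d1 : |(0 : ℝ)| ≤ 6 / 10 ^ 16 * p := abs_zero.trans_le (by positivity)
  have d2 : |pd * g1| ≤ 6 / 10 ^ 16 * p := (algF_m hpd hg1.1).trans (by linarith)
  have d3 : |pdd * g1 + 2 * pd * g1d| ≤ 6 / 10 ^ 16 * p := (algF_a (algF_m hpdd hg1.1)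
    (algF_m (algF_m (algF_c zero_le_two) hpd) hg1.2.1)).trans (by linarith)
  have d4 : |p * h0| ≤ 6 / 10 ^ 16 * p * v := (algF_m p1 hh.1).trans (by linarith)
  have d5 : |pd * (g0 + h0) + p * h0d| ≤ 6 / 10 ^ 16 * p * v :=
    (algF_a (algF_m hpd (algF_a hg0.1 hh.1)) (algF_m p1 hh.2)).trans (by linarith)
  have w1 : |p * g1| ≤ 2 * 10 ^ 14 * p := (algF_m p1 hg1.1).trans (by linarith)
  have w2 : |pd * g1 + p * g1d| ≤ 2 * 10 ^ 14 * p :=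
    (algF_a d2 (algF_m p1 hg1.2.1)).trans (by linarith)
  have w3 : |pdd * g1 + 2 * pd * g1d + p * g1dd| ≤ 2 * 10 ^ 14 * p :=
    (algF_a d3 (algF_m p1 hg1.2.2)).trans (by linarith)
  have w4 : |p * (g0 + h0) + 0| ≤ 2 * 10 ^ 14 * p * v :=
    (algF_a (algF_m p1 (algF_a hg0.1 hh.1)) (algF_c le_rfl)).trans (by linarith)
  have w5 : |pd * (g0 + h0) + p * (g0d + h0d) + 0| ≤ 2 * 10 ^ 14 * p * v :=
    (algF_a (algF_a (algF_m hpd (algF_a hg0.1 hh.1)) (algF_m p1 (algF_a hg0.2 hh.2)))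
      (algF_c le_rfl)).trans (by linarith)
  have s := algF_sig J
  have hd := algF_hat J d1 d2 d4
  have hw := algF_hat J w1 w2 w4
  have two := algF_c (zero_le_two (α := ℝ))
  have four := algF_c (zero_le_four (α := ℝ))
  have T1 := le_of_abs_le (algF_m (algF_m two (algF_a (algF_m (algF_m Y0 Y0)
    (algF_der J d1 d2 d3 d4 d5)) (algF_m (algF_m (algF_m two Y0) y2) hd))) s)
  have T2 := le_of_abs_le (algF_m (algF_m (algF_m two Yi) (algF_z J y1)) hd)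
  have T3 := le_of_abs_le (algF_m hpd (algF_flux J hq hq0))
  have T4 := le_of_abs_le (algF_m (algF_m (algF_m two (algF_m hn (algF_s ((abs_neg _).trans_le Y0)
    yt))) (algF_der J w1 w2 w3 w4 w5)) s)
  have T5 := le_of_abs_le (algF_m (algF_m (algF_m four (algF_m hn (algF_s ((abs_neg _).trans_le y2)
    yt))) hw) s)
  have T6 := le_of_abs_le (algF_m (algF_m (algF_m (algF_m four ((abs_neg _).trans_le yt)) hn)
    (algF_m (algF_v J w4) J.h1)) s)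
  have T7 := algF_T5 J (b1 := ξ * a 1) hp yt w1 w2
  have T8 := le_of_abs_le (algF_m (algF_m two (algF_m (le_refl |ξ ^ 2 * R|)
    ((algF_s (algF_c zero_le_one) (algF_m (algF_m two hn) Yi)).trans (by norm_num : _ ≤ (2 : ℝ))))) hw)
  have T9 := le_of_abs_le (algF_m (algF_m (algF_m two ((abs_neg _).trans_le hn)) (algF_z J y3)) hw)
  have T0 := mul_le_mul_of_nonneg_left hmain hp.le
  rw [algF_id]
  refine (add_le_add (add_le_add (add_le_add (add_le_add (add_le_add (add_le_add (add_le_add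
    (add_le_add (add_le_add T0 T1) T2) T3) T4) T5) T6) T7) (T8.trans (algF_T10 hp))) T9).trans ?_
  clear * - pN
  linarith

end Vale.Agent.P264
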