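import Vale.Agent.P264.C.Psi

/-!
# P264 C/AlgG  (TASK; notes/P264.md section C, notes/P264C.md)

Pointwise algebra: the `γ` terms and the crude zone.
`alg_tail`: `ct (a1² + 2 a0 a1 + 3/2 a0²) ≥ (ct / 5) (a0² + a1²)`, `vp ≥ 32/33`, `ct kk ≤ 10^-16`.
`alg_core`: `|GT| ≤ ξ² κ p (7 B vp a0² + 2 B a1²)`, `ξ² a0² = ξ (1 + ξ) vp a0²`.
`alg_crude`: `r = √om`, all weights are `≤ C1 r`; the `a3²` term is `-2 yt² om ct a3² ≤ -(1/160) r² a3²`, the other terms with `a3` are `≤ C2 r |a3| Z`, `Z = |a0| + |a1| + |a2|`,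
the rest is `≤ C3 (Z² + Z / ξ)`; `ξ flux qd a = flux (fun i => ξ qd i) a`.
-/

open Set MeasureTheory Filter Topology

noncomputable section

namespace Vale.Agent.P264

theorem algG_vp {ξ : ℝ} (hξ : 0 < ξ) : 0 < vp ξ ∧ vp ξ ≤ 1 ∧ vp ξ * (1 + ξ) = ξ := by
  have h : 0 < 1 + ξ := by linarith
  refine ⟨div_pos hξ h, (div_le_one h).2 (by linarith), div_mul_cancel₀ _ h.ne'⟩

theorem algG_eq (ξ ch p pd κ ε ct g1 g0 v w : ℝ) (a : ℕ → ℝ) :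
    GT ξ ch (-κ * v * p) (-κ * (w * p + v * pd)) g1 g0 (ε * v) ct a =
      -(κ * ch * ξ ^ 2) * (v * (p * (g1 * a 1 ^ 2 + (g0 + 2 * ct) * a 0 ^ 2 + 2 * ct * a 0 * a 1)
        + ct * pd * a 0 ^ 2) + (v * p * (ε * v) + ct * (w * p)) * a 0 ^ 2) := by
  unfold GT
  ring

theorem algG_pd {p pd ct x : ℝ} (hp : 0 < p) (hpd : |pd| ≤ kk * p) (hct : 5 ≤ ct)
    (hct' : ct ≤ 10 ^ 14) : -(1 / 10 ^ 16 * (p * x ^ 2)) ≤ ct * pd * x ^ 2 := by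
  have h1 : -(kk * p) ≤ pd := (abs_le.1 hpd).1
  have h2 : -(1 / 10 ^ 16 * p) ≤ ct * pd := by
    have h3 := mul_le_mul_of_nonneg_left h1 (by linarith : 0 ≤ ct)
    have h4 := mul_le_mul_of_nonneg_right hct' hp.le
    unfold kk at h3
    linarith
  have h3 := mul_le_mul_of_nonneg_right h2 (sq_nonneg x)
  linarith

theorem alg_tail {ξ ch p pd κ ε ct : ℝ} {a : ℕ → ℝ} (hξ : 32 ≤ ξ) (hch : 0 ≤ ch) (hp : 0 < p)
    (hpd : |pd| ≤ kk * p) (hκ : 0 ≤ κ) (hε : 0 ≤ ε) (hct : 5 ≤ ct) (hct' : ct ≤ 10 ^ 14) :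
    GT ξ ch (-κ * vp ξ * p) (-κ * (ξ / (1 + ξ) ^ 2 * p + vp ξ * pd)) ct (-ct / 2) (ε * vp ξ) ct a ≤
      -(κ / 2) * (ch * p) * (ξ ^ 2 * (a 0 ^ 2 + a 1 ^ 2)) := by
  obtain ⟨v0, v1, v2⟩ := algG_vp (ξ := ξ) (by linarith)
  have v3 : 2 / 3 ≤ vp ξ := by nlinarith
  have h1 := algG_pd (x := a 0) hp hpd hct hct'
  have h2 : a 0 ^ 2 + a 1 ^ 2 ≤
      ct * a 1 ^ 2 + (-ct / 2 + 2 * ct) * a 0 ^ 2 + 2 * ct * a 0 * a 1 := by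
    have h3 : 0 ≤ 4 / 5 * a 1 ^ 2 + 2 * a 0 * a 1 + 13 / 10 * a 0 ^ 2 := by
      nlinarith [sq_nonneg (4 * a 1 + 5 * a 0), sq_nonneg (a 0)]
    nlinarith [mul_nonneg (by linarith : 0 ≤ ct) h3,
      mul_nonneg (sub_nonneg.2 hct) (add_nonneg (sq_nonneg (a 0)) (sq_nonneg (a 1)))]
  have h3 := mul_le_mul_of_nonneg_left h2 hp.le
  have h4 : 0 ≤ p * a 0 ^ 2 := by positivity
  have h5 : 0 ≤ p * a 1 ^ 2 := by positivity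
  have h6 : 3 / 4 * (p * (a 0 ^ 2 + a 1 ^ 2)) ≤
      p * (ct * a 1 ^ 2 + (-ct / 2 + 2 * ct) * a 0 ^ 2 + 2 * ct * a 0 * a 1) + ct * pd * a 0 ^ 2 := by
    linarith
  have h7 := mul_le_mul v3 h6 (by positivity) v0.le
  have h8 : 0 ≤ (vp ξ * p * (ε * vp ξ) + ct * (ξ / (1 + ξ) ^ 2 * p)) * a 0 ^ 2 := by
    have : 0 < ξ := by linarith
    have : 0 < ct := by linarith
    positivity
  have h9 := mul_le_mul_of_nonneg_left (h7.trans (le_add_of_nonneg_right h8))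
    (by positivity : 0 ≤ κ * ch * ξ ^ 2)
  rw [algG_eq]
  linarith

theorem alg_core {ξ p pd κ ε ct g1 g0 : ℝ} {a : ℕ → ℝ} (hξ : 0 < ξ) (hξ' : ξ ≤ 1000) (hp : 0 < p)
    (hpd : |pd| ≤ kk * p) (hκ : 0 ≤ κ) (hκ' : κ ≤ kk) (hε : 0 ≤ ε) (hε' : ε ≤ eps2)
    (hct : 5 ≤ ct) (hct' : ct ≤ 10 ^ 14) (hg1 : |g1| ≤ 10 ^ 14) (hg0 : |g0| ≤ 10 ^ 14) :
    GT ξ 1 (-κ * vp ξ * p) (-κ * (ξ / (1 + ξ) ^ 2 * p + vp ξ * pd)) g1 g0 (ε * vp ξ) ct a ≤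
      -(κ / 2) * p * (ξ ^ 2 * (a 0 ^ 2 + a 1 ^ 2)) + 1 / 8 * p * NQ ξ a := by
  obtain ⟨v0, v1, v2⟩ := algG_vp hξ
  have h1 := algG_pd (x := a 0) hp hpd hct hct'
  have h2 : -(2 * 10 ^ 14 * (a 0 ^ 2 + a 1 ^ 2)) ≤
      g1 * a 1 ^ 2 + (g0 + 2 * ct) * a 0 ^ 2 + 2 * ct * a 0 * a 1 := by
    have h3 := mul_le_mul_of_nonneg_right (abs_le.1 hg1).1 (sq_nonneg (a 1))
    have h4 := mul_le_mul_of_nonneg_right (abs_le.1 hg0).1 (sq_nonneg (a 0))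
    have h5 := mul_le_mul_of_nonneg_right hct' (sq_nonneg (a 1))
    nlinarith [mul_nonneg (by linarith : 0 ≤ ct) (sq_nonneg (a 0 + a 1)),
      mul_nonneg (by linarith : 0 ≤ ct) (sq_nonneg (a 0)), sq_nonneg (a 0)]
  have h3 := mul_le_mul_of_nonneg_left h2 hp.le
  have h4 : 0 ≤ p * a 0 ^ 2 := by positivity
  have h5 : 0 ≤ p * a 1 ^ 2 := by positivity
  have h6 : -(3 * 10 ^ 14 * (p * (a 0 ^ 2 + a 1 ^ 2))) ≤
      p * (g1 * a 1 ^ 2 + (g0 + 2 * ct) * a 0 ^ 2 + 2 * ct * a 0 * a 1) + ct * pd * a 0 ^ 2 := by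
    linarith
  have h7 := mul_le_mul_of_nonneg_left h6 v0.le
  have h8 : 0 ≤ (vp ξ * p * (ε * vp ξ) + ct * (ξ / (1 + ξ) ^ 2 * p)) * a 0 ^ 2 := by
    have : 0 < ct := by linarith
    positivity
  have h9 := mul_le_mul_of_nonneg_left (h7.trans (le_add_of_nonneg_right h8))
    (by positivity : 0 ≤ κ * 1 * ξ ^ 2)
  have k1 : κ * ξ ^ 2 ≤ 1 / 10 ^ 30 * 1000 ^ 2 :=
    mul_le_mul hκ' (pow_le_pow_left₀ hξ.le hξ' 2) (by positivity) (by positivity)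
  have k2 : κ * ξ ^ 2 ≤ 1 / 10 ^ 30 * (1000 * 1001) * vp ξ := by
    have e : κ * ξ ^ 2 = κ * (ξ * (1 + ξ)) * vp ξ := by linear_combination (-κ * ξ) * v2
    rw [e]
    exact mul_le_mul_of_nonneg_right (mul_le_mul hκ' (mul_le_mul hξ' (by linarith) (by positivity)
      (by positivity)) (by positivity) (by positivity)) v0.le
  have k3 := mul_le_mul_of_nonneg_right k2 h4
  have k4 := mul_le_mul_of_nonneg_right k1 h5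
  have k5 := mul_le_mul_of_nonneg_right k1 (mul_nonneg v0.le h4)
  have k6 := mul_le_mul_of_nonneg_right (mul_le_mul k1 v1 v0.le (by positivity)) h5
  have k7 : 0 ≤ p * a 2 ^ 2 := by positivity
  have k8 : 0 ≤ p * a 3 ^ 2 := by positivity
  have k9 := mul_nonneg v0.le h4
  rw [algG_eq, NQ]
  linarith

end Vale.Agent.P264
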