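import Vale.Agent.P264.C.Psi

/-!
# P264 C/AlgZ  (TASK; notes/P264.md section C, notes/P264C.md)

Pointwise algebra: the `γ` terms and the crude zone.
`alg_tail`: `ct (a1² + 2 a0 a1 + 3/2 a0²) ≥ (ct / 5) (a0² + a1²)`, `vp ≥ 32/33`, `ct kk ≤ 10^-16`.
`alg_core`: `|GT| ≤ ξ² κ p (7 B vp a0² + 2 B a1²)`, `ξ² a0² = ξ (1 + ξ) vp a0²`.
`alg_crude`: `r = √om`, all weights are `≤ C1 r`; the `a3²` term is `-2 yt² om ct a3² ≤ -(1/160) r² a3²`, the other terms with `a3` are `≤ C2 r |a3| Z`, `Z = |a0| + |a1| + |a2|`,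
the rest is `≤ C3 (Z² + Z / ξ)`; `ξ flux qd a = flux (fun i => ξ qd i) a`.
-/

open Set MeasureTheory Filter Topology

noncomputable section

namespace Vale.Agent.P264

theorem algz_mul {x y X Y : ℝ} (hx : |x| ≤ X) (hy : |y| ≤ Y) : |x * y| ≤ X * Y :=
  (abs_mul x y).trans_le (mul_le_mul hx hy (abs_nonneg _) ((abs_nonneg _).trans hx))

theorem algz_lin {w0 w1 w2 M : ℝ} (a : ℕ → ℝ) (h0 : |w0| ≤ M) (h1 : |w1| ≤ M) (h2 : |w2| ≤ M) :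
    |w0 * a 0 + w1 * a 1 + w2 * a 2| ≤ M * (|a 0| + |a 1| + |a 2|) := by
  linarith [abs_add_three (w0 * a 0) (w1 * a 1) (w2 * a 2), algz_mul h0 (le_refl |a 0|),
    algz_mul h1 (le_refl |a 1|), algz_mul h2 (le_refl |a 2|)]

theorem algz_A {g1 g1d g1dd g0 g0d W : ℝ} (a : ℕ → ℝ) (h1 : |g1| ≤ W) (h2 : |g1d| ≤ W)
    (h3 : |g1dd| ≤ W) (h4 : |g0| ≤ W) (h5 : |g0d| ≤ W) :
    |Ahat g1 g1d g0 a| ≤ 4 * W * (|a 0| + |a 1| + |a 2|) ∧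
      |Ader g1 g1d g1dd g0 g0d a + g1 * a 3| ≤ 14 * W * (|a 0| + |a 1| + |a 2|) := by
  rw [abs_le] at h1 h2 h3 h4 h5
  constructor
  · rw [show Ahat g1 g1d g0 a = g0 * a 0 + -(3 * g1 + g1d) * a 1 + -g1 * a 2 by rw [Ahat]; ring]
    refine algz_lin a ?_ ?_ ?_ <;> exact abs_le.2 ⟨by linarith, by linarith⟩
  · rw [show Ader g1 g1d g1dd g0 g0d a + g1 * a 3 = (g0 + g0d) * a 0 +
      (g0 - (6 * g1 + 6 * g1d + g1dd)) * a 1 + -2 * (3 * g1 + g1d) * a 2 by rw [Ader]; ring]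
    refine algz_lin a ?_ ?_ ?_ <;> exact abs_le.2 ⟨by linarith, by linarith⟩

theorem algz_flux {q : ℕ → ℝ} {C : ℝ} (a : ℕ → ℝ) (h : ∀ i, |q i| ≤ C) :
    |flux q a| ≤ C * (|a 0| + |a 1| + |a 2|) * (|a 0| + |a 1| + |a 2|) ∧
      fluxD q a ≤ 6 * (C * (|a 0| + |a 1| + |a 2|)) * (|a 0| + |a 1| + |a 2|) +
        2 * (C * (|a 0| + |a 1| + |a 2|) * |a 3|) := by
  have h0 := algz_lin a (h 0) (h 1) (h 2)
  have h1 := algz_lin a (h 1) (h 3) (h 4)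
  have h2 := algz_lin a (h 2) (h 4) (h 5)
  refine ⟨le_of_eq_of_le (congrArg _ (by rw [flux]; ring)) (algz_lin a h0 h1 h2), ?_⟩
  have h3 := (abs_le.1 (algz_mul h2 (le_refl |a 3|))).2
  rw [fluxD]
  generalize q 0 * a 0 + q 1 * a 1 + q 2 * a 2 = l0 at *
  generalize q 1 * a 0 + q 3 * a 1 + q 4 * a 2 = l1 at *
  generalize q 2 * a 0 + q 4 * a 1 + q 5 * a 2 = l2 at *
  generalize C * (|a 0| + |a 1| + |a 2|) = M at *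
  rw [abs_le] at h0 h1 h2
  have h4 := (abs_le.1 (algz_lin (w0 := 0) (w1 := 2 * l0 + 2 * l1) (w2 := 2 * l1 + 4 * l2)
    (M := 6 * M) a (abs_le.2 ⟨by linarith, by linarith⟩) (abs_le.2 ⟨by linarith, by linarith⟩)
    (abs_le.2 ⟨by linarith, by linarith⟩))).2
  linarith

theorem algz_end {D x y Z S P : ℝ} (hD : 1 ≤ D) (hS : Z ^ 2 ≤ 3 * S)
    (h : P ≤ -(x ^ 2 / 160) + 1154 * (D * x * Z) + 41544 * (D * Z ^ 2) + 32 * (D * Z * y)) :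
    P ≤ 10 ^ 9 * D ^ 2 * (S + y ^ 2) := by
  have h1 : D * Z ^ 2 ≤ D ^ 2 * Z ^ 2 := by nlinarith [mul_nonneg (sub_nonneg.2 hD) (sq_nonneg Z)]
  have h2 : y ^ 2 ≤ D ^ 2 * y ^ 2 := le_mul_of_one_le_left (sq_nonneg y) (one_le_pow₀ hD)
  have h3 := mul_le_mul_of_nonneg_left hS (sq_nonneg D)
  nlinarith [sq_nonneg (x - 92320 * D * Z), sq_nonneg (D * Z - y), sq_nonneg (D * Z), sq_nonneg y]

theorem algz_main {C r Z y a s A B yt yt1 ct v o F1 F2 F3 : ℝ} (hC : 1 ≤ C) (r0 : 0 ≤ r)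
    (r1 : r ≤ 1) (hZ : 0 ≤ Z) (hy : 0 ≤ y) (y1 : 1 / 40 ≤ yt) (y2 : yt ≤ 2) (y3 : |yt1| ≤ C)
    (t1 : 5 ≤ ct) (g1 : |r ^ 2 * ct| ≤ r * C) (hA : |A| ≤ 4 * (4 * (C * (C * r))) * Z)
    (hB : |B + r ^ 2 * ct * a| ≤ 14 * (4 * (C * (C * r))) * Z) (hs : |s| ≤ 72 * Z)
    (hv : |v| ≤ C * (2 * Z + y)) (ho : |o| ≤ C * r) (f1 : |F1| ≤ C * Z * Z) (f3 : |F2| ≤ C * Z * Z)
    (f2 : F3 ≤ 6 * (C * Z) * Z + 2 * (C * Z * |a|)) :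
    2 * (yt ^ 2 * B + 2 * yt * yt1 * A) * (a + s) + 2 * v * A + o * F1 + r ^ 2 * (F2 + F3) ≤
      -((r * |a|) ^ 2 / 160) + 1154 * (C ^ 3 * (r * |a|) * Z) + 41544 * (C ^ 3 * Z ^ 2) +
        32 * (C ^ 3 * Z * y) := by
  have C0 : 0 < C := one_pos.trans_le hC
  have ha := abs_nonneg a
  have o1 : r ^ 2 ≤ 1 := pow_le_one₀ r0 r1
  have y0 : 0 ≤ yt := by linarith
  have y4 : |yt| ≤ 2 := (abs_of_nonneg y0).trans_le y2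
  have y5 : |yt ^ 2| ≤ 2 ^ 2 := (abs_pow yt 2).trans_le (pow_le_pow_left₀ (abs_nonneg _) y4 2)
  have p3 : C * (C * r) * Z ≤ C * (C * (C * r) * Z) := le_mul_of_one_le_left (by positivity) hC
  have hU : |yt ^ 2 * (B + r ^ 2 * ct * a) + 2 * (yt * yt1 * A)| ≤ 288 * (C ^ 3 * r * Z) := by
    refine (abs_add_le _ _).trans ?_
    rw [abs_mul 2, abs_two]
    linarith [algz_mul y5 hB, algz_mul (algz_mul y4 y3) hA]
  have q1 : (1 / 40) ^ 2 * 5 * (r ^ 2 * a ^ 2) ≤ yt ^ 2 * ct * (r ^ 2 * a ^ 2) := by gcongr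
  have q2 := (abs_le.1 (algz_mul (algz_mul (algz_mul y5 g1) hs) (le_refl |a|))).1
  have q3 := (abs_le.1 (algz_mul hU (le_refl |a|))).2
  have q4 := (abs_le.1 (algz_mul hU hs)).2
  have q5 := (abs_le.1 (algz_mul hv hA)).2
  have q6 := (abs_le.1 (algz_mul ho f1)).2
  have q7 := mul_le_mul_of_nonneg_left (abs_le.1 f3).2 (sq_nonneg r)
  have q8 := mul_le_mul_of_nonneg_left f2 (sq_nonneg r)
  have C3 : C ≤ C ^ 3 := le_self_pow₀ hC (by norm_num)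
  have C2 : C ^ 2 ≤ C ^ 3 := pow_le_pow_right₀ hC (by norm_num)
  have u1 : C * (r * |a| * Z) ≤ C ^ 3 * (r * |a| * Z) := by gcongr
  have u2 : r * (C * (r * |a| * Z)) ≤ C * (r * |a| * Z) :=
    mul_le_of_le_one_left (by positivity) r1
  have u3 : r * (C ^ 3 * Z ^ 2) ≤ C ^ 3 * Z ^ 2 := mul_le_of_le_one_left (by positivity) r1
  have u4 : r * (C ^ 3 * Z * y) ≤ C ^ 3 * Z * y := mul_le_of_le_one_left (by positivity) r1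
  have u5 : r * (C ^ 2 * Z ^ 2) ≤ 1 * (C ^ 3 * Z ^ 2) := by gcongr
  have u7 : r ^ 2 * (C * Z ^ 2) ≤ 1 * (C ^ 3 * Z ^ 2) := by gcongr
  rw [mul_pow, sq_abs]
  linarith

theorem algz_rt {C r z : ℝ} (hC : 1 ≤ C) (r0 : 0 ≤ r) (hz : z ^ 2 ≤ C * r ^ 2) : |z| ≤ C * r :=
  abs_le.2 (abs_le_of_sq_le_sq' (hz.trans (by
    nlinarith [mul_nonneg (sub_nonneg.2 hC) (sq_nonneg r)])) (by positivity))

theorem algz_Z (a : ℕ → ℝ) :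
    (|a 0| + |a 1| + |a 2|) ^ 2 ≤ 3 * (a 0 ^ 2 + a 1 ^ 2 + a 2 ^ 2) := by
  linarith [sq_abs (a 0), sq_abs (a 1), sq_abs (a 2), sq_nonneg (|a 0| - |a 1|),
    sq_nonneg (|a 0| - |a 2|), sq_nonneg (|a 1| - |a 2|)]

theorem alg_crude (C : ℝ) (hC : 1 ≤ C) : ∃ CZ : ℝ, 0 ≤ CZ ∧
    ∀ (ξ Y Y1 yt yt1 e om omd omdd c cd ct h0 h0d : ℝ) (q qd a : ℕ → ℝ), 0 < ξ →
      |ξ ^ 2 * (Y1 / Y)| ≤ C → 1 / 40 ≤ yt → yt ≤ 2 → |yt1| ≤ C →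
      |ξ ^ 2 * e| ≤ C * (|a 0| + 1 / ξ) → 0 ≤ om → om ≤ 1 → omd ^ 2 ≤ C * om →
      omdd ^ 2 ≤ C * om → c ^ 2 ≤ C * om → cd ^ 2 ≤ C * om → 5 ≤ ct → ct ≤ C →
      |h0| ≤ 1 → |h0d| ≤ 1 → (∀ i, |q i| ≤ C ∧ |ξ * qd i| ≤ C) →
      P0 ξ Y Y1 yt yt1 e om omd omdd c cd ct 0 0 (-ct / 2) 0 h0 h0d q qd a ≤
        CZ * (a 0 ^ 2 + a 1 ^ 2 + a 2 ^ 2 + 1 / ξ ^ 2) := by
  refine ⟨10 ^ 9 * (C ^ 3) ^ 2, by positivity, fun ξ Y Y1 yt yt1 e om omd omdd c cd ct h0 h0d q qd a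
    hξ hY y1 y2 y3 he o0 o1 o2 o3 c1 c2 t1 t2 k0 k1 hq => ?_⟩
  obtain ⟨r, r0, rfl⟩ : ∃ r, 0 ≤ r ∧ om = r ^ 2 := ⟨√om, Real.sqrt_nonneg _, (Real.sq_sqrt o0).symm⟩
  have r1 : r ≤ 1 := (sq_le_one_iff₀ r0).1 o1
  have C0 : 0 < C := one_pos.trans_le hC
  replace o2 := algz_rt hC r0 o2
  replace o3 := algz_rt hC r0 o3
  replace c1 := algz_rt hC r0 c1
  replace c2 := algz_rt hC r0 c2
  have w0 : |r ^ 2| ≤ r := (abs_of_nonneg o0).trans_le (pow_le_of_le_one r0 r1 two_ne_zero)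
  have w1 : |ct| ≤ C := abs_le.2 ⟨by linarith, t2⟩
  have w2 : |-ct / 2 + h0| ≤ 2 * C := by
    rw [abs_le] at k0 ⊢
    constructor <;> linarith
  have p1 : r ≤ C * r := le_mul_of_one_le_left r0 hC
  have p2 : C * r ≤ C * (C * r) := le_mul_of_one_le_left (by positivity) hC
  have g1 := algz_mul w0 w1
  obtain ⟨hA, hB⟩ := algz_A (W := 4 * (C * (C * r))) (g1 := r ^ 2 * ct) (g1d := omd * ct + r ^ 2 * 0)
    (g1dd := omdd * ct + 2 * omd * 0 + r ^ 2 * 0) (g0 := r ^ 2 * (-ct / 2 + h0) + c)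
    (g0d := omd * (-ct / 2 + h0) + r ^ 2 * (0 + h0d) + cd) a (by linarith)
    (by rw [mul_zero, add_zero]; linarith [algz_mul o2 w1])
    (by simp only [mul_zero, add_zero]; linarith [algz_mul o3 w1])
    ((abs_add_le _ _).trans (by linarith [algz_mul w0 w2]))
    ((abs_add_three _ _ _).trans (by rw [zero_add]; linarith [algz_mul o2 w2, algz_mul w0 k1]))
  obtain ⟨f1, f2⟩ := algz_flux a fun i => (hq i).1
  have hv : |ξ ^ 2 * (Y1 / Y) * a 0 + ξ ^ 2 * e| ≤ C * (2 * (|a 0| + |a 1| + |a 2|) + 1 / ξ) := by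
    linarith [abs_add_le (ξ ^ 2 * (Y1 / Y) * a 0) (ξ ^ 2 * e), algz_mul hY (le_refl |a 0|),
      mul_nonneg C0.le (abs_nonneg (a 1)), mul_nonneg C0.le (abs_nonneg (a 2))]
  rw [← one_div_pow]
  refine algz_end (one_le_pow₀ hC) (algz_Z a) (le_of_eq_of_le ?_ (algz_main hC r0 r1 (by positivity)
    (by positivity) y1 y2 y3 t1 g1 hA hB (algz_lin (w0 := 0) (w1 := 72) (w2 := 18) a (by norm_num)
      (by norm_num) (by norm_num)) hv o2 f1 (algz_flux a fun i => (hq i).2).1 f2))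
  rw [P0, show ξ * flux qd a = flux (fun i => ξ * qd i) a by simp only [flux]; ring, sig1]
  ring

end Vale.Agent.P264
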