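import Vale.Agent.P264.C.BaseA

/-!
# P264 C/Base  (TASK; notes/P264.md section C, notes/P264C.md)

The rescaled solution.  `hasDerivAt_mm`: `(t, x) ↦ S.w t x k` is differentiable for `t > 0` (`hasStrictFDerivAt_uncurry_coprod` with `S.dt`, `S.dx`, `S.cv`, `S.cw`),
chain rule with `tt' = exp (-s) = lam²`, `(lam ξ)' = -lam ξ / 2`.  `S2 (S.w t x) x = lam⁻³ S2 (wt ..) ξ`.
`v1_eq`: differentiate `S.pde` in `x` (uniqueness of the derivative, `S.dv`).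
`mm_bd`: `S.b0` on `[0, exp (-s0)]`, `K.bW` (`|ξ^k W_k| ≤ 10^6 √ξ` for `k ≥ 1`), `ξ ≤ 1 / (2 lam s1)`, `lam s ≤ lam s0`.
-/

open Set MeasureTheory Filter Topology

noncomputable section

namespace Vale.Agent.P264

variable (K : Cert) (S : Sol) (s0 : ℝ)

theorem base_W {ξ : ℝ} (h0 : 0 < ξ) :
    |K.W ξ 0| ≤ 10 ^ 6 ∧ ∀ k, 1 ≤ k → k ≤ 3 → ξ ^ k * |K.W ξ k| ≤ 10 ^ 6 * √ξ := by
  refine ⟨le_trans (le_mul_of_one_le_right (abs_nonneg _) (one_le_pow₀ (by linarith)))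
    (K.bW 0 ξ (by norm_num) h0.le), fun k k1 k3 => ?_⟩
  obtain ⟨j, rfl⟩ := Nat.exists_eq_add_of_le' k1
  have b := K.bW (j + 1) ξ (by omega) h0.le
  have r0 := Real.sqrt_nonneg ξ
  have r1 : √ξ ≤ 1 + ξ := Real.sqrt_le_iff.2 ⟨by linarith, by nlinarith⟩
  have r2 : ξ ≤ √ξ * (1 + ξ) ^ 2 := by
    calc ξ = √ξ * √ξ := (Real.mul_self_sqrt h0.le).symm
      _ ≤ √ξ * (1 + ξ) ^ 2 := by
        gcongr
        nlinarith
  calc ξ ^ (j + 1) * |K.W ξ (j + 1)| = ξ ^ j * ξ * |K.W ξ (j + 1)| := by rw [pow_succ]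
    _ ≤ (1 + ξ) ^ j * (√ξ * (1 + ξ) ^ 2) * |K.W ξ (j + 1)| := by
        gcongr
        linarith
    _ = |K.W ξ (j + 1)| * (1 + ξ) ^ (j + 1 + 1) * √ξ := by ring
    _ ≤ _ := by gcongr

theorem base_abs (c z : ℝ) (hc : 0 ≤ c) : |c * z| = c * |z| := by
  rw [abs_mul, abs_of_nonneg hc]

theorem base_u0 {l σ r M y w0 w1 A : ℝ} (r0 : 0 < r) (σ0 : 0 < σ) (hl : l = σ * σ) (lM : l ≤ M)
    (σM : σ ≤ M) (rM : r ≤ M) (xM : r * r ≤ M) (hy : |y| ≤ M) (h0 : |w0| ≤ M)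
    (h1 : l * (r * r) * |w1| ≤ M) (hA : (l * (r * r)) ^ 2 * |A| ≤ M * (σ * r)) :
    |(r * r) ^ 2 * (l ^ 3 * (-y ^ 2 * A) - (l * w0 + r * r * (l ^ 2 * w1)) / 2)| ≤
      (M ^ 5 + M ^ 4) * r := by
  have l0 : 0 < l := by rw [hl]; positivity
  have M0 : 0 < M := r0.trans_le rM
  have e : (r * r) ^ 2 * (l ^ 3 * (-y ^ 2 * A) - (l * w0 + r * r * (l ^ 2 * w1)) / 2) =
      -(l * y ^ 2 * ((l * (r * r)) ^ 2 * A)) -
        (r * r * r * l * r / 2 * w0 + r * r * r * l * r / 2 * (l * (r * r) * w1)) := by ring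
  have t1 : |-(l * y ^ 2 * ((l * (r * r)) ^ 2 * A))| ≤ M * M ^ 2 * (M * (M * r)) := by
    rw [abs_neg, base_abs (l * y ^ 2) _ (by positivity), base_abs ((l * (r * r)) ^ 2) _ (by positivity), ← sq_abs y]
    exact mul_le_mul (by gcongr) (hA.trans (by gcongr)) (by positivity) (by positivity)
  have t2 : |r * r * r * l * r / 2 * w0| ≤ M * M * M * r / 2 * M := by
    rw [base_abs (r * r * r * l * r / 2) _ (by positivity)]
    gcongr
  have t3 : |r * r * r * l * r / 2 * (l * (r * r) * w1)| ≤ M * M * M * r / 2 * M := by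
    rw [base_abs (r * r * r * l * r / 2) _ (by positivity), base_abs (l * (r * r)) _ (by positivity)]
    gcongr
  rw [e]
  refine (abs_sub _ _).trans ?_
  have := abs_add_le (r * r * r * l * r / 2 * w0) (r * r * r * l * r / 2 * (l * (r * r) * w1))
  linarith

theorem base_u1 {l σ r M y w0 w1 w2 A B : ℝ} (r0 : 0 < r) (σ0 : 0 < σ) (hl : l = σ * σ)
    (lM : l ≤ M) (σM : σ ≤ M) (rM : r ≤ M) (xM : r * r ≤ M) (hy : |y| ≤ M) (h0 : |w0| ≤ M)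
    (h1 : l * (r * r) * |w1| ≤ M) (h2 : (l * (r * r)) ^ 2 * |w2| ≤ M)
    (hA : (l * (r * r)) ^ 2 * |A| ≤ M * (σ * r)) (hB : (l * (r * r)) ^ 3 * |B| ≤ M * (σ * r)) :
    r * |(r * r) ^ 2 * (l ^ 4 * (2 * y * (w0 + l * (r * r) * w1) * A - y ^ 2 * B) -
      (2 * (l ^ 2 * w1) + r * r * (l ^ 3 * w2)) / 2)| ≤ 4 * M ^ 8 + M ^ 5 + 2 * M ^ 4 := by
  have l0 : 0 < l := by rw [hl]; positivity
  have M0 : 0 < M := r0.trans_le rM
  have e : r * ((r * r) ^ 2 * (l ^ 4 * (2 * y * (w0 + l * (r * r) * w1) * A - y ^ 2 * B) -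
      (2 * (l ^ 2 * w1) + r * r * (l ^ 3 * w2)) / 2)) =
      r * l ^ 2 * 2 * y * (w0 + l * (r * r) * w1) * ((l * (r * r)) ^ 2 * A)
        - y ^ 2 * l * (r ^ 5 * l ^ 3 * B) -
        (r * (r * r) * l * (l * (r * r) * w1) + r * (r * r) * l / 2 * ((l * (r * r)) ^ 2 * w2)) := by
    ring
  have s1 : |w0 + l * (r * r) * w1| ≤ 2 * M := by
    refine (abs_add_le _ _).trans ?_
    rw [base_abs (l * (r * r)) _ (by positivity)]
    linarith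
  have s2 : r ^ 5 * l ^ 3 * |B| ≤ M * M := by
    refine le_trans (le_of_mul_le_mul_right ?_ r0) (mul_le_mul_of_nonneg_left σM M0.le)
    linarith
  have t1 : |r * l ^ 2 * 2 * y * (w0 + l * (r * r) * w1) * ((l * (r * r)) ^ 2 * A)| ≤
      M * M ^ 2 * 2 * M * (2 * M) * (M * (M * M)) := by
    rw [abs_mul, abs_mul, base_abs (r * l ^ 2 * 2) _ (by positivity), base_abs ((l * (r * r)) ^ 2) _ (by positivity)]
    exact mul_le_mul (by gcongr) (hA.trans (by gcongr)) (by positivity) (by positivity)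
  have t2 : |y ^ 2 * l * (r ^ 5 * l ^ 3 * B)| ≤ M ^ 2 * M * (M * M) := by
    rw [base_abs (y ^ 2 * l) _ (by positivity), base_abs (r ^ 5 * l ^ 3) _ (by positivity), ← sq_abs y]
    gcongr
  have t3 : |r * (r * r) * l * (l * (r * r) * w1)| ≤ M * M * M * M := by
    rw [base_abs (r * (r * r) * l) _ (by positivity), base_abs (l * (r * r)) _ (by positivity)]
    gcongr
  have t4 : |r * (r * r) * l / 2 * ((l * (r * r)) ^ 2 * w2)| ≤ M * M * M / 2 * M := by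
    rw [base_abs (r * (r * r) * l / 2) _ (by positivity), base_abs ((l * (r * r)) ^ 2) _ (by positivity)]
    gcongr
  rw [← base_abs r _ (by positivity), e]
  refine (abs_sub _ _).trans ?_
  have := abs_add_le (r * (r * r) * l * (l * (r * r) * w1))
    (r * (r * r) * l / 2 * ((l * (r * r)) ^ 2 * w2))
  have := abs_sub (r * l ^ 2 * 2 * y * (w0 + l * (r * r) * w1) * ((l * (r * r)) ^ 2 * A))
    (y ^ 2 * l * (r ^ 5 * l ^ 3 * B))
  have : 0 ≤ M ^ 4 := by positivity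
  linarith

theorem mm_bd (s1 : ℝ) : ∃ C : ℝ, 0 ≤ C ∧ ∀ s ∈ Icc s0 s1, ∀ ξ, 0 < ξ → lam s * ξ ≤ 1 / 2 →
    |sc (mm K S s0 s) ξ 0| ≤ C ∧ (∀ k, 1 ≤ k → k ≤ 3 → |sc (mm K S s0 s) ξ k| ≤ C * √ξ) ∧
    |sc (mm K S s0 s) ξ 1| ≤ C ∧
    (s0 < s → |ξ ^ 2 * ut S s0 s ξ 0| ≤ C * √ξ ∧ √ξ * |ξ ^ 2 * ut S s0 s ξ 1| ≤ C) := by
  obtain ⟨C0, hC0⟩ := S.b0 (Real.exp (-s0))
  obtain ⟨C1, C11, hC1⟩ := c1_b0 S (Real.exp (-s0))
  have p0 := lam_pos s0
  have p1 : 0 < 1 / (2 * lam s1) := by have := lam_pos s1; positivity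
  obtain ⟨M, M0, M1, M2, M3, M4⟩ : ∃ M : ℝ, C0 ≤ M ∧ C1 ≤ M ∧ lam s0 + 1 ≤ M ∧
      1 / (2 * lam s1) + 1 ≤ M ∧ 10 ^ 6 ≤ M := by
    have := le_abs_self C0
    have := abs_nonneg C0
    refine ⟨|C0| + C1 + lam s0 + 1 / (2 * lam s1) + 10 ^ 6, ?_, ?_, ?_, ?_, ?_⟩ <;> linarith
  have Mp : 0 < M := by linarith
  refine ⟨(M * M + M) + (M ^ 3 + M) + (M ^ 3 + M) * M + (M ^ 5 + M ^ 4) +
    (4 * M ^ 8 + M ^ 5 + 2 * M ^ 4), by positivity, fun s hs ξ h0 h1 => ?_⟩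
  have q1 : 0 ≤ M * M + M := by positivity
  have q2 : 0 ≤ M ^ 3 + M := by positivity
  have q3 : 0 ≤ (M ^ 3 + M) * M := by positivity
  have q4 : 0 ≤ M ^ 5 + M ^ 4 := by positivity
  have q5 : 0 ≤ 4 * M ^ 8 + M ^ 5 + 2 * M ^ 4 := by positivity
  have l0 := lam_pos s
  have x0 : 0 < lam s * ξ := mul_pos l0 h0
  have ht : tt s0 s ∈ Icc 0 (Real.exp (-s0)) := ⟨tt_nonneg s0 hs.1, tt_le s0 s⟩
  obtain ⟨-, a1⟩ := hC0 _ ht _ ⟨x0, h1⟩
  obtain ⟨b0, b1, b2, -, -, b3, b4⟩ := hC1 _ ht _ ⟨x0, h1⟩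
  have sq : ∀ z : ℝ, 0 < z → √z ≤ z + 1 := fun z hz =>
    Real.sqrt_le_iff.2 ⟨by linarith, by nlinarith⟩
  have lM : lam s + 1 ≤ M := by linarith [lam_anti hs.1]
  have xM : ξ + 1 ≤ M := by
    have : ξ ≤ 1 / (2 * lam s1) := by
      rw [le_div_iff₀ (by have := lam_pos s1; positivity)]
      nlinarith [lam_anti hs.2]
    linarith
  have σM : √(lam s) ≤ M := (sq _ l0).trans lM
  have rM : √ξ ≤ M := (sq _ h0).trans xM
  have r0 : 0 < √ξ := Real.sqrt_pos.2 h0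
  have σ0 : 0 < √(lam s) := Real.sqrt_pos.2 l0
  have es : √(lam s * ξ) = √(lam s) * √ξ := Real.sqrt_mul l0.le ξ
  obtain ⟨w0, wk⟩ := base_W K h0
  have A : |sc (mm K S s0 s) ξ 0| ≤ M * M + M := by
    rw [sc, mm, wt, pow_zero, one_mul, zero_add, pow_one]
    refine (abs_sub _ _).trans (add_le_add ?_ (w0.trans M4))
    rw [abs_mul, abs_of_pos l0]
    exact mul_le_mul (by linarith) (b0.trans M1) (abs_nonneg _) Mp.le
  have B : ∀ k, 1 ≤ k → k ≤ 3 → |sc (mm K S s0 s) ξ k| ≤ (M ^ 3 + M) * √ξ := by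
    intro k k1 k3
    have e : sc (mm K S s0 s) ξ k = lam s * ((lam s * ξ) ^ k * S.w (tt s0 s) (lam s * ξ) k) -
        ξ ^ k * K.W ξ k := by
      rw [sc, mm, wt]
      ring
    have t1 : lam s * ((lam s * ξ) ^ k * |S.w (tt s0 s) (lam s * ξ) k|) ≤ M * (M * (M * √ξ)) := by
      refine mul_le_mul (by linarith) ((a1 k k1 (by omega)).trans ?_) (by positivity) Mp.le
      rw [es]
      gcongr
    have t2 := (wk k k1 k3).trans (mul_le_mul_of_nonneg_right M4 r0.le)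
    rw [e]
    refine (abs_sub _ _).trans ?_
    rw [abs_mul, abs_mul, abs_mul, abs_of_pos l0, abs_of_pos (pow_pos x0 k),
      abs_of_pos (pow_pos h0 k)]
    linarith
  refine ⟨by linarith, fun k k1 k3 => (B k k1 k3).trans (mul_le_mul_of_nonneg_right (by linarith)
    r0.le), ?_, fun hs' => ?_⟩
  · have := (B 1 le_rfl (by norm_num)).trans (mul_le_mul_of_nonneg_left rM q2)
    linarith
  have hx : lam s * ξ ∈ Ioo (0:ℝ) 1 := ⟨x0, by linarith⟩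
  have er : √ξ * √ξ = ξ := Real.mul_self_sqrt h0.le
  have c2 : (lam s * ξ) ^ 2 * |S.w (tt s0 s) (lam s * ξ) 2| ≤ M := by
    refine (a1 2 (by norm_num) (by norm_num)).trans ?_
    refine (mul_le_mul_of_nonneg_right M0 (Real.sqrt_nonneg _)).trans ?_
    exact mul_le_of_le_one_right Mp.le (Real.sqrt_le_one.2 hx.2.le)
  have c3 := b3.trans (mul_le_mul_of_nonneg_right M1 (Real.sqrt_nonneg _))
  have c4 := b4.trans (mul_le_mul_of_nonneg_right M1 (Real.sqrt_nonneg _))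
  rw [es] at c3 c4
  have U0 := base_u0 (l := lam s) (w1 := S.w (tt s0 s) (lam s * ξ) 1)
    (A := S2 (S.w (tt s0 s) (lam s * ξ)) (lam s * ξ)) r0 σ0 (Real.mul_self_sqrt l0.le).symm
    (by linarith) σM rM (by rw [er]; linarith) (b2.trans M1) (b0.trans M1)
    (by rw [er]; exact b1.trans M1) (by rw [er]; exact c3)
  have U1 := base_u1 (l := lam s) (w1 := S.w (tt s0 s) (lam s * ξ) 1)
    (w2 := S.w (tt s0 s) (lam s * ξ) 2) (A := S2 (S.w (tt s0 s) (lam s * ξ)) (lam s * ξ))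
    (B := S3 (S.w (tt s0 s) (lam s * ξ)) (lam s * ξ)) r0 σ0 (Real.mul_self_sqrt l0.le).symm
    (by linarith) σM rM (by rw [er]; linarith) (b2.trans M1) (b0.trans M1)
    (by rw [er]; exact b1.trans M1) (by rw [er]; exact c2) (by rw [er]; exact c3)
    (by rw [er]; exact c4)
  rw [er] at U0 U1
  constructor
  · refine le_trans (le_of_eq ?_) (U0.trans (mul_le_mul_of_nonneg_right (by linarith) r0.le))
    rw [ut, wt, wt, S.pde _ _ (tt_pos s0 hs') hx]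
    congr 1
    push_cast
    ring
  · refine le_trans (le_of_eq ?_) (U1.trans (by linarith))
    rw [ut, wt, wt, v1_eq S (tt_pos s0 hs') hx]
    congr 2
    push_cast
    ring

theorem base_d {s ξ : ℝ} (hs : s0 ≤ s) {k : ℕ} (hk : k ≤ 2) (h0 : 0 < ξ) (h1 : lam s * ξ < 1) :
    HasDerivAt (fun y => mm K S s0 s y k) (mm K S s0 s ξ (k + 1)) ξ :=
  (hasDerivAt_wt S s0 hs h0 h1 k).sub (K.dW k ξ hk h0.le)

theorem base_du {s ξ : ℝ} (hs : s0 < s) (k : ℕ) (h0 : 0 < ξ) (h1 : lam s * ξ < 1) :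
    HasDerivAt (fun y => ut S s0 s y k) (ut S s0 s ξ (k + 1)) ξ := by
  have d1 := (S.dv k _ _ (tt_pos s0 hs) ⟨mul_pos (lam_pos s) h0, h1⟩).comp ξ
    ((hasDerivAt_id' ξ).const_mul (lam s))
  have d2 := (d1.const_mul (lam s ^ (k + 3))).sub
    ((((hasDerivAt_wt S s0 hs.le h0 h1 k).const_mul ((k : ℝ) + 1)).add
      ((hasDerivAt_id' ξ).mul (hasDerivAt_wt S s0 hs.le h0 h1 (k + 1)))).div_const 2)
  refine HasDerivAt.congr_deriv d2 ?_
  rw [ut]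
  push_cast
  ring

theorem jet1_mm {s : ℝ} (hs : s0 ≤ s) : Jet1 (lam s) (mm K S s0 s) := by
  obtain ⟨C, -, hC⟩ := mm_bd K S s0 s
  exact ⟨lam_pos s, fun ξ h0 h1 => base_d K S s0 hs (by norm_num) h0 h1,
    fun ξ h => (base_d K S s0 hs (by norm_num) h.1 h.2).continuousAt.continuousWithinAt,
    C, fun ξ h0 h1 => ⟨(hC s ⟨hs, le_rfl⟩ ξ h0 h1).1, (hC s ⟨hs, le_rfl⟩ ξ h0 h1).2.2.1⟩⟩

theorem jet4_mm {s : ℝ} (hs : s0 < s) : Jet4 K (lam s) (mm K S s0 s) (ut S s0 s) := by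
  obtain ⟨C, -, hC⟩ := mm_bd K S s0 s
  refine ⟨lam_pos s, fun k ξ hk h0 h1 => base_d K S s0 hs.le hk h0 h1,
    fun ξ h0 h1 hB => (hasDerivAt_wt S s0 hs.le h0 h1 3).sub (K.dW3 ξ h0 hB), ?_,
    fun ξ h0 h1 => base_du S s0 hs 0 h0 h1,
    fun ξ h => (base_du S s0 hs 1 h.1 h.2).continuousAt.continuousWithinAt, fun ξ h0 h1 => ?_,
    C, fun ξ h0 h1 => ?_⟩
  · exact ContinuousOn.sub
      (fun ξ h => (hasDerivAt_wt S s0 hs.le h.1 h.2 3).continuousAt.continuousWithinAt)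
      (K.cW3.mono fun ξ h => h.1.le)
  · rw [ut, S.pde _ _ (tt_pos s0 hs) ⟨mul_pos (lam_pos s) h0, h1⟩]
    simp only [YY, S2, mm, wt]
    push_cast
    ring
  · obtain ⟨a, b, -, c⟩ := hC s ⟨hs.le, le_rfl⟩ ξ h0 h1
    exact ⟨a, b, c hs⟩

end Vale.Agent.P264
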