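import Vale.Agent.P264.C.Psi

/-!
# P264 C/BaseA  (TASK; notes/P264.md section C, notes/P264C.md)

The rescaled solution.  `hasDerivAt_mm`: `(t, x) ↦ S.w t x k` is differentiable for `t > 0` (`hasStrictFDerivAt_uncurry_coprod` with `S.dt`, `S.dx`, `S.cv`, `S.cw`),
chain rule with `tt' = exp (-s) = lam²`, `(lam ξ)' = -lam ξ / 2`.  `S2 (S.w t x) x = lam⁻³ S2 (wt ..) ξ`.
`v1_eq`: differentiate `S.pde` in `x` (uniqueness of the derivative, `S.dv`).
`mm_bd`: `S.b0` on `[0, exp (-s0)]`, `K.bW` (`|ξ^k W_k| ≤ 10^6 √ξ` for `k ≥ 1`), `ξ ≤ 1 / (2 lam s1)`, `lam s ≤ lam s0`.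
-/

open Set MeasureTheory Filter Topology

noncomputable section

namespace Vale.Agent.P264

variable (K : Cert) (S : Sol) (s0 : ℝ)

theorem tt_nonneg {s : ℝ} (hs : s0 ≤ s) : 0 ≤ tt s0 s := by
  unfold tt
  exact sub_nonneg.2 (Real.exp_le_exp.2 (neg_le_neg hs))

theorem tt_pos {s : ℝ} (hs : s0 < s) : 0 < tt s0 s := by
  unfold tt
  exact sub_pos.2 (Real.exp_lt_exp.2 (neg_lt_neg hs))

theorem tt_self : tt s0 s0 = 0 := by
  unfold tt
  exact sub_self _

theorem tt_le (s : ℝ) : tt s0 s ≤ Real.exp (-s0) := by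
  unfold tt
  exact sub_le_self _ (Real.exp_pos _).le

theorem tt_mono {s s' : ℝ} (h : s ≤ s') : tt s0 s ≤ tt s0 s' := by
  unfold tt
  exact sub_le_sub_left (Real.exp_le_exp.2 (neg_le_neg h)) _

theorem baseA_tt (s : ℝ) : HasDerivAt (tt s0) (lam s ^ 2) s := by
  have h := ((hasDerivAt_neg s).exp).const_sub (Real.exp (-s0))
  rw [lam_sq]
  exact h.congr_deriv (by ring)

theorem baseA_ctt : Continuous (tt s0) :=
  continuous_iff_continuousAt.2 fun s => (baseA_tt s0 s).continuousAt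

theorem baseA_chain {a b : ℝ → ℝ} {a' b' s : ℝ} (ha : HasDerivAt a a' s) (hb : HasDerivAt b b' s)
    (h0 : 0 < a s) (h1 : b s ∈ Ioo (0:ℝ) 1) (k : ℕ) :
    HasDerivAt (fun σ => S.w (a σ) (b σ) k)
      (S.v (a s) (b s) k * a' + S.w (a s) (b s) (k + 1) * b') s := by
  have hU : (Ioi (0:ℝ) ×ˢ Ioo (0:ℝ) 1) ∈ 𝓝 (a s, b s) :=
    (isOpen_Ioi.prod isOpen_Ioo).mem_nhds ⟨h0, h1⟩
  have hU' : (Ici (0:ℝ) ×ˢ Ioo (0:ℝ) 1) ∈ 𝓝 (a s, b s) :=
    mem_of_superset hU (prod_mono Ioi_subset_Ici_self subset_rfl)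
  have hF := hasStrictFDerivAt_uncurry_coprod (𝕜 := ℝ) (u := (a s, b s))
    (f := fun t x => S.w t x k) (f₁ := fun t x => S.v t x k • (1 : ℝ →L[ℝ] ℝ))
    (f₂ := fun t x => S.w t x (k + 1) • (1 : ℝ →L[ℝ] ℝ))
    (by
      filter_upwards [hU] with p hp
      refine hasFDerivAt_iff_hasDerivAt.2 ((S.dt k p.1 p.2 hp.1 hp.2).congr_deriv ?_)
      simp [Function.HasUncurry.uncurry])
    (by
      filter_upwards [hU] with p hp
      refine hasFDerivAt_iff_hasDerivAt.2 ((S.dx k p.1 p.2 (le_of_lt hp.1) hp.2).congr_deriv ?_)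
      simp [Function.HasUncurry.uncurry])
    (((S.cv k).continuousAt hU).smul continuousAt_const)
    (((S.cw (k + 1)).continuousAt hU').smul continuousAt_const)
  have h2 := hF.hasFDerivAt.comp_hasDerivAt s (ha.prodMk hb)
  refine h2.congr_deriv ?_
  simp [Function.HasUncurry.uncurry]

theorem baseA_cW {k : ℕ} (hk : k ≤ 3) : ContinuousOn (fun y => K.W y k) (Ici 0) := by
  rcases Nat.lt_or_ge k 3 with h | h
  · exact fun y hy => (K.dW k y (by omega) hy).continuousAt.continuousWithinAt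
  · obtain rfl : k = 3 := le_antisymm hk h
    exact K.cW3

theorem tt_surj {s1 t : ℝ} (hs : s0 ≤ s1) (ht : t ∈ Icc 0 (tt s0 s1)) :
    ∃ s ∈ Icc s0 s1, tt s0 s = t := by
  have h := intermediate_value_Icc hs (baseA_ctt s0).continuousOn
  rw [tt_self] at h
  exact h ht

theorem v1_eq {t x : ℝ} (ht : 0 < t) (hx : x ∈ Ioo (0:ℝ) 1) :
    S.v t x 1 = 2 * (1 - x * S.w t x 0) * (S.w t x 0 + x * S.w t x 1) * S2 (S.w t x) x
      - (1 - x * S.w t x 0) ^ 2 * S3 (S.w t x) x := by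
  have hd := fun k => S.dx k t x ht.le hx
  have hi := hasDerivAt_id' x
  have h1 := ((((hi.mul (hd 0)).const_sub 1).pow 2).neg).mul
    ((((hi.pow 2).mul (hd 4)).add ((hi.const_mul 20).mul (hd 3))).add ((hd 2).const_mul 90))
  have h2 : (fun y => S.v t y 0) =ᶠ[𝓝 x] fun y => -(1 - y * S.w t y 0) ^ 2 *
      (y ^ 2 * S.w t y 4 + 20 * y * S.w t y 3 + 90 * S.w t y 2) := by
    filter_upwards [isOpen_Ioo.mem_nhds hx] with y hy
    rw [S.pde t y ht hy, S2]
  have h3 := (S.dv 0 t x ht hx).unique (HasDerivAt.congr_of_eventuallyEq h1 h2)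
  rw [zero_add] at h3
  rw [h3]
  simp only [S2, S3, Pi.neg_apply, Pi.pow_apply, Pi.add_apply, Pi.mul_apply]
  norm_num
  ring

theorem hasDerivAt_wt {s ξ : ℝ} (hs : s0 ≤ s) (h0 : 0 < ξ) (h1 : lam s * ξ < 1) (k : ℕ) :
    HasDerivAt (fun y => wt S s0 s y k) (wt S s0 s ξ (k + 1)) ξ := by
  have hl := lam_pos s
  have h2 := S.dx k (tt s0 s) (lam s * ξ) (tt_nonneg s0 hs) ⟨mul_pos hl h0, h1⟩
  have h3 : HasDerivAt (fun y : ℝ => lam s * y) (lam s * 1) ξ := (hasDerivAt_id' ξ).const_mul _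
  have h4 := (HasDerivAt.comp (h₂ := fun y => S.w (tt s0 s) y k) ξ h2 h3).const_mul
    (lam s ^ (k + 1))
  refine h4.congr_deriv ?_
  unfold wt
  ring

theorem hasDerivAt_mm {s ξ : ℝ} (hs : s0 < s) (h0 : 0 < ξ) (h1 : lam s * ξ < 1) (k : ℕ) :
    HasDerivAt (fun σ => mm K S s0 σ ξ k) (ut S s0 s ξ k) s := by
  have hl := lam_pos s
  have h2 := baseA_chain S (baseA_tt s0 s) ((hasDerivAt_lam s).mul_const ξ) (tt_pos s0 hs)
    ⟨mul_pos hl h0, h1⟩ k
  have h3 := (((hasDerivAt_lam s).pow (k + 1)).mul h2).sub_const (K.W ξ k)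
  refine h3.congr_deriv ?_
  unfold ut wt
  simp only [Pi.pow_apply, Nat.add_sub_cancel]
  push_cast
  ring

theorem continuousOn_mm {k : ℕ} (hk : k ≤ 3) :
    ContinuousOn (fun z : ℝ × ℝ => mm K S s0 z.1 z.2 k)
      {z | s0 ≤ z.1 ∧ 0 < z.2 ∧ lam z.1 * z.2 < 1} := by
  have h1 : Continuous fun z : ℝ × ℝ => lam z.1 := continuous_lam.comp continuous_fst
  have h2 : Continuous fun z : ℝ × ℝ => (tt s0 z.1, lam z.1 * z.2) :=
    ((baseA_ctt s0).comp continuous_fst).prodMk (h1.mul continuous_snd)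
  have h3 : ContinuousOn (fun z : ℝ × ℝ => S.w (tt s0 z.1) (lam z.1 * z.2) k)
      {z | s0 ≤ z.1 ∧ 0 < z.2 ∧ lam z.1 * z.2 < 1} :=
    (S.cw k).comp h2.continuousOn fun z hz =>
      ⟨tt_nonneg s0 hz.1, mul_pos (lam_pos _) hz.2.1, hz.2.2⟩
  have h4 : ContinuousOn (fun z : ℝ × ℝ => K.W z.2 k)
      {z | s0 ≤ z.1 ∧ 0 < z.2 ∧ lam z.1 * z.2 < 1} :=
    (baseA_cW K hk).comp continuous_snd.continuousOn fun z hz => le_of_lt hz.2.1
  exact ((h1.pow (k + 1)).continuousOn.mul h3).sub h4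

theorem crudeX_mm {C s : ℝ} (h : Crude S C (tt s0 s)) :
    CrudeX K C (lam s) (mm K S s0 s) := by
  have hl := lam_pos s
  have he : ∀ ξ k, K.W ξ k + mm K S s0 s ξ k =
      lam s ^ (k + 1) * S.w (tt s0 s) (lam s * ξ) k := fun ξ k => by
    unfold mm wt
    ring
  refine ⟨fun ξ h1 h2 => ?_, ?_⟩
  · obtain ⟨h3, h4⟩ := h.1 (lam s * ξ) ⟨h1, h2⟩
    rw [he, he, abs_mul, abs_mul, abs_of_pos (pow_pos hl _), abs_of_pos (pow_pos hl _)]
    constructor
    · rw [zero_add, pow_one, mul_comm]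
      exact mul_le_mul_of_nonneg_right h3 hl.le
    · rw [mul_comm]
      exact mul_le_mul_of_nonneg_right h4 (pow_pos hl _).le
  · simp only [he, mul_pow]
    rw [intervalIntegral.integral_const_mul,
      intervalIntegral.integral_comp_mul_left (fun x => S.w (tt s0 s) x 2 ^ 2) hl.ne']
    have e1 : lam s * (1 / (4 * lam s)) = 1 / 4 := by field_simp
    have e2 : lam s * (1 / (2 * lam s)) = 1 / 2 := by field_simp
    rw [e1, e2, smul_eq_mul, ← mul_assoc]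
    have e3 : (lam s ^ (2 + 1)) ^ 2 * (lam s)⁻¹ = lam s ^ 5 := by
      field_simp
      ring
    rw [e3, mul_comm]
    exact mul_le_mul_of_nonneg_right h.2 (pow_pos hl _).le

theorem continuousOn_PP (h : lam s0 * K.xt ≤ 1 / 4) : ContinuousOn (PP K S s0) (Ici s0) := by
  have key : ∀ x, 0 < x → x < K.xt → ContinuousOn (fun s => mm K S s0 s x 0) (Ici s0) := by
    intro x h0 h1
    have h2 : Continuous fun s : ℝ => (s, x) := continuous_id.prodMk continuous_const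
    have h5 := continuousOn_mm K S s0 (k := 0) (by norm_num)
    refine ContinuousOn.comp (g := fun z : ℝ × ℝ => mm K S s0 z.1 z.2 0)
      (f := fun s : ℝ => (s, x)) h5 h2.continuousOn fun s hs => ⟨hs, h0, ?_⟩
    have h3 : lam s * x ≤ lam s0 * K.xt :=
      mul_le_mul (lam_anti hs) h1.le h0.le (lam_pos s0).le
    show lam s * x < 1
    linarith
  have h1 := K.hx1
  have h2 := K.hx12
  have h3 := K.hx2t
  exact (key K.x1 (by linarith) (by linarith)).prodMk (key K.x2 (by linarith) h3)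

end Vale.Agent.P264
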