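import Vale.Agent.P264.C.Integ
import Vale.Agent.P264.C.Base

/-!
# P264 C/Loc  (TASK; notes/P264.md section C, notes/P264C.md)

Continuity of `Trap` in time.  `F (z, s) = Loc (mm s) (z / (4 lam s))` is continuous on `(0,1] × [s0, ∞)` (substitute `ξ = τ u`, `τ ∈ [1/2, 1]`, `continuousOn_mm`) and
`Loc m u ≤ 2 C² u²` by `mm_bd`, so small `u` are harmless; for `z ∈ [z0, 1]` use compactness (tube lemma, `IsCompact.eventually_forall_of_forall_eventually`).
-/

open Set MeasureTheory Filter Topology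

noncomputable section

namespace Vale.Agent.P264

variable (K : Cert) (S : Sol) (s0 : ℝ)

theorem loc_lam (s : ℝ) : 0 < lam s := Real.exp_pos _

theorem loc_cont : ContinuousOn (fun q : ℝ × ℝ => Loc (mm K S s0 q.1) (q.2 / lam q.1))
    (Ici s0 ×ˢ Ioo 0 1) := by
  have h0 := continuousOn_mm K S s0 (k := 0) (by norm_num)
  have h1 := continuousOn_mm K S s0 (k := 1) (by norm_num)
  have h2 : ContinuousOn (fun z : ℝ × ℝ => nn (mm K S s0 z.1) z.2)
      {z | s0 ≤ z.1 ∧ 0 < z.2 ∧ lam z.1 * z.2 < 1} := by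
    unfold nn sc
    fun_prop
  have hl : Continuous lam := by unfold lam; fun_prop
  have h3 : Continuous fun q : (Ici s0 ×ˢ Ioo (0:ℝ) 1 : Set (ℝ × ℝ)) => q.1.2 / lam q.1.1 :=
    Continuous.div (by fun_prop) (by fun_prop) fun q => (loc_lam _).ne'
  have h4 : Continuous (Function.uncurry fun (q : (Ici s0 ×ˢ Ioo (0:ℝ) 1 : Set (ℝ × ℝ))) (τ : ℝ) =>
      nn (mm K S s0 q.1.1) (q.1.2 / lam q.1.1 * max (1 / 2) (min τ 1))) := by
    refine h2.comp_continuous (f := fun q : (Ici s0 ×ˢ Ioo (0:ℝ) 1 : Set (ℝ × ℝ)) × ℝ =>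
      (q.1.1.1, q.1.1.2 / lam q.1.1.1 * max (1 / 2) (min q.2 1)))
      (Continuous.prodMk (by fun_prop) ((h3.comp continuous_fst).mul (by fun_prop))) fun q => ?_
    obtain ⟨a0, a1, a2⟩ := q.1.2
    have l0 := loc_lam q.1.1.1
    refine ⟨a0, by positivity, ?_⟩
    rw [← mul_assoc, mul_div_cancel₀ _ l0.ne']
    exact mul_lt_one_of_nonneg_of_lt_one_left a1.le a2 (max_le (by norm_num) (min_le_right _ _))
  rw [continuousOn_iff_continuous_domRestrict]
  refine (h3.smul (intervalIntegral.continuous_parametric_intervalIntegral_of_continuous'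
    (μ := volume) h4 (1 / 2) 1)).congr fun q => ?_
  change (_ : ℝ) • (∫ τ in (1 / 2 : ℝ)..1, nn _ _) = Loc _ _
  rw [Loc, intervalIntegral.integral_congr (g := fun τ =>
    nn (mm K S s0 q.1.1) (q.1.2 / lam q.1.1 * τ)) fun τ hτ => ?_,
    intervalIntegral.smul_integral_comp_mul_left, mul_one, mul_one_div]
  rw [uIcc_of_le (by norm_num)] at hτ
  simp only [min_eq_left hτ.2, max_eq_right hτ.1]

theorem trap_closed {s1 b : ℝ} (hs : s0 < s1)
    (h : ∀ s ∈ Ico s0 s1, Trap (lam s) (mm K S s0 s) b) : Trap (lam s1) (mm K S s0 s1) b := by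
  intro u u0 u1
  have l0 := loc_lam s1
  have z0 : 0 < lam s1 * u := by positivity
  have h1 : ContinuousOn (fun s => Loc (mm K S s0 s) (lam s1 * u / lam s)) (Ici s0) :=
    (loc_cont K S s0).comp (f := fun s => (s, lam s1 * u)) (by fun_prop)
      fun s hs => ⟨hs, z0, by linarith⟩
  have h2 := ((h1.continuousAt (Ici_mem_nhds hs)).tendsto).mono_left (nhdsWithin_le_nhds (s := Iio s1))
  rw [mul_div_cancel_left₀ _ l0.ne'] at h2
  refine le_of_tendsto h2 (mem_of_superset (Ico_mem_nhdsLT hs) fun s hs => h s hs _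
    (div_pos z0 (loc_lam s)) ?_)
  rwa [mul_div_cancel₀ _ (loc_lam s).ne']

theorem trap_open {s1 b b' : ℝ} (hs : s0 ≤ s1) (hb' : 0 ≤ b') (hb : b' < b)
    (h : Trap (lam s1) (mm K S s0 s1) b') :
    ∃ δ, 0 < δ ∧ ∀ s ∈ Icc s1 (s1 + δ), Trap (lam s) (mm K S s0 s) b := by
  obtain ⟨C, C0, hC⟩ := mm_bd K S s0 (s1 + 1)
  obtain ⟨r, r0, hr⟩ : ∃ r : ℝ, 0 < r ∧ ∀ u, 0 < u → u ≤ r → C ^ 2 * u ^ 2 ≤ b := by
    obtain ⟨r, r0, hr⟩ := Metric.eventually_nhds_iff.1 ((Continuous.tendsto'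
      (f := fun u : ℝ => C ^ 2 * u ^ 2) (by fun_prop) 0 0 (by simp)).eventually
        (ge_mem_nhds (hb'.trans_lt hb)))
    exact ⟨r / 2, half_pos r0, fun u u0 u1 => hr (by
      rw [Real.dist_eq, sub_zero, abs_of_pos u0]; linarith)⟩
  have z0 : 0 < lam (s1 + 1) * r := mul_pos (loc_lam _) r0
  have h1 := (isCompact_Icc (a := lam (s1 + 1) * r) (b := 1 / 4)).eventually_forall_of_forall_eventually
    (x₀ := s1) (P := fun s z => (s, z) ∈ Ici s0 ×ˢ Ioo (0:ℝ) 1 →
      Loc (mm K S s0 s) (z / lam s) ≤ b) fun z hz => by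
      have z1 := z0.trans_le hz.1
      refine eventually_nhdsWithin_iff.1 ((loc_cont K S s0 (s1, z)
        ⟨hs, z1, by linarith [hz.2]⟩).eventually (ge_mem_nhds (lt_of_le_of_lt ?_ hb)))
      exact h _ (div_pos z1 (loc_lam _)) (by rw [mul_div_cancel₀ _ (loc_lam _).ne']; exact hz.2)
  obtain ⟨δ, δ0, hδ⟩ := Metric.eventually_nhds_iff.1 h1
  refine ⟨min (δ / 2) 1, by positivity, fun s hs' u u0 u1 => ?_⟩
  have s2 : s ≤ s1 + 1 := hs'.2.trans (by linarith [min_le_right (δ / 2) 1])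
  have l0 := loc_lam s
  rcases le_total u r with h2 | h2
  · have h3 := intervalIntegral.norm_integral_le_of_norm_le_const (a := u / 2) (b := u)
      (f := nn (mm K S s0 s)) (C := u * (C ^ 2 + C ^ 2)) fun ξ hξ => by
        rw [uIoc_of_le (by linarith)] at hξ
        have x0 : 0 < ξ := (half_pos u0).trans hξ.1
        obtain ⟨a0, -, a1, -⟩ := hC s ⟨hs.trans hs'.1, s2⟩ ξ x0 (by nlinarith [hξ.2])
        rw [nn, Real.norm_of_nonneg (by positivity), ← sq_abs, ← sq_abs (sc _ ξ 1)]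
        gcongr
        exact hξ.2
    rw [abs_of_pos (by linarith)] at h3
    exact (le_abs_self _).trans (h3.trans ((le_of_eq (by ring)).trans (hr u u0 h2)))
  have h3 : lam (s1 + 1) ≤ lam s := Real.exp_le_exp.2 (by linarith)
  have h4 := hδ (y := s) (by
    rw [Real.dist_eq, abs_of_nonneg (sub_nonneg.2 hs'.1)]
    linarith [hs'.2, min_le_left (δ / 2) 1]) (lam s * u) ⟨by gcongr, u1⟩
    ⟨hs.trans hs'.1, by positivity, by linarith⟩
  rwa [mul_div_cancel_left₀ _ l0.ne'] at h4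

end Vale.Agent.P264
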