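import Vale.Agent.P264.C.BootA
import Vale.Agent.P264.C.Loc

/-!
# P264 C/Boot  (TASK; notes/P264.md section C, notes/P264C.md)

The bootstrap.  `boot_NN`: `H = En psi0 eps2`; `H s0 ≤ mu/4 + eps2 N1 ≤ mu/2`; `barrier` with `c = mu/2`: `H ≤ 6 B NN`, so `NN ≥ mu / (12 B)` and `Good.mas` (`κ = kk/2`, `ε = eps2`, `β = 1`)
gives a negative derivative; `QQ ≤ H`, `hardy` gives `NN ≤ 10^-78`.
`boot_far`: weight `psiD_scale` with `r = lam s1 u`; `E - 10^-228 (4/kk) arctan (r^kk exp (kk s/2)) + 10^-200 exp (s0 - s)` is nonincreasing (`le_of_deriv_nonpos`, `beta_scale`),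
`E s0 ≤ 5 B N1` (`abs_En_le`, `NN_le_N1`); `loc_le_far`, `loc_le_near`.
`boot`: `cont_ind` for `Trap (eta²)` with `trap_closed`, `trap_open`; `-mu ≤ QQ` on `Icc s0 s` by continuity when `s0 < s1`; for `s = s0` use `i1`, `i2`, `loc_le_N1`.
-/

open Set MeasureTheory Filter Topology

noncomputable section

namespace Vale.Agent.P264

variable {K : Cert} {X : Cut} {S : Sol} {s0 : ℝ}

theorem boot (h : Good K X S s0) {s1 : ℝ} (hs : s0 ≤ s1)
    (hQ : ∀ s ∈ Ico s0 s1, -mu < QQ K X S s0 s) :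
    ∀ s ∈ Icc s0 s1, Trap (lam s) (mm K S s0 s) (eta ^ 2 / 2) ∧ QQ K X S s0 s ≤ mu ∧
      (s0 < s → -mu ≤ QQ K X S s0 s) := by
  have he : (0:ℝ) < eta ^ 2 := by unfold eta; positivity
  have hmu : (0:ℝ) < mu := by unfold mu; positivity
  have hQ' : ∀ s ∈ Icc s0 s1, s0 < s → -mu ≤ QQ K X S s0 s := by
    intro s hs' hlt
    have hc : ContinuousWithinAt (QQ K X S s0) (Ico s0 s) s :=
      (continuousOn_QQ K X S s0 s (mem_Ici.2 hlt.le)).mono fun σ hσ => hσ.1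
    have hcl : s ∈ closure (Ico s0 s) := by
      rw [closure_Ico hlt.ne]; exact right_mem_Icc.2 hlt.le
    exact ContinuousWithinAt.closure_le hcl continuousWithinAt_const hc
      fun σ hσ => (hQ σ ⟨hσ.1, lt_of_lt_of_le hσ.2 hs'.2⟩).le
  have h0 : Trap (lam s0) (mm K S s0 s0) (eta ^ 2 / 2) := by
    intro u hu hu'
    refine (loc_le_N1 X (jet1_mm K S s0 le_rfl) hu hu').trans (h.i1.trans ?_)
    unfold eta
    norm_num
  have key : ∀ s ∈ Icc s0 s1, (∀ σ ∈ Icc s0 s, Trap (lam σ) (mm K S s0 σ) (eta ^ 2)) →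
      Trap (lam s) (mm K S s0 s) (eta ^ 2 / 2) ∧ QQ K X S s0 s ≤ mu := by
    intro s hs' hT
    rcases eq_or_lt_of_le hs'.1 with e | hlt
    · subst e
      exact ⟨h0, by linarith [h.i2]⟩
    · obtain ⟨a, b⟩ := boot_NN h hs'.1 hT (hQ' s hs' hlt)
      exact ⟨boot_far h hs'.1 hT b, a⟩
  have all : ∀ s ∈ Icc s0 s1, Trap (lam s) (mm K S s0 s) (eta ^ 2) := by
    refine cont_ind (P := fun s => Trap (lam s) (mm K S s0 s) (eta ^ 2))
      (fun u hu hu' => (h0 u hu hu').trans (by linarith)) (fun s hs' hT => ?_) fun s hs' hT => ?_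
    · exact trap_closed K S s0 hs'.1 hT
    · exact trap_open K S s0 hs'.1 (by linarith) (by linarith) (key s ⟨hs'.1, hs'.2.le⟩ hT).1
  intro s hs'
  obtain ⟨a, b⟩ := key s hs' fun σ hσ => all σ ⟨hσ.1, hσ.2.trans hs'.2⟩
  exact ⟨a, b, hQ' s hs'⟩

end Vale.Agent.P264
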