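import Vale.Agent.P264.C.Integ
import Vale.Agent.P264.C.Base

/-!
# P264 C/Deriv  (TASK; notes/P264.md section C, notes/P264C.md)

Differentiation of the energy.  For `σ` near `s` put `L = 7 / (16 lam s)`: `lam σ L ∈ (3/8, 1/2)`, the densities vanish for `lam σ ξ ≥ 3/8 ≥ 1/4 + h`, so
`En(σ) = ∫_0^L ed`.  `intervalIntegral.hasDerivAt_integral_of_dominated_loc_of_deriv_le` with a constant bound (`mm_bd`, `bd_G`); continuity by
`intervalIntegral.continuousWithinAt_of_dominated_interval` (or `continuousWithinAt_of_dominated`).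
-/

open Set MeasureTheory Filter Topology

noncomputable section

namespace Vale.Agent.P264

variable (K : Cert) (X : Cut) (S : Sol) (s0 : ℝ) {κ : ℝ} {p : ℝ → ℝ → ℕ → ℝ}

theorem deriv_cut {f : ℝ → ℝ} {L b : ℝ} (hL : 0 ≤ L) (hb : L ≤ b) (hf : ∀ x, L < x → f x = 0) :
    ∫ x in (0:ℝ)..b, f x = ∫ x in (0:ℝ)..L, f x := by
  rw [intervalIntegral.integral_of_le hL, intervalIntegral.integral_of_le (hL.trans hb)]
  refine setIntegral_eq_of_subset_of_forall_sdiff_eq_zero measurableSet_Ioc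
    (Ioc_subset_Ioc_right hb) fun x hx => hf x ?_
  by_contra h
  exact hx.2 ⟨hx.1.1, not_lt.1 h⟩

theorem deriv_zero {l x : ℝ} (h : 3 / 8 ≤ l * x) :
    X.c (l * x) 0 = 0 ∧ X.c (l * x) 1 = 0 ∧ X.c (l * x) 2 = 0 :=
  X.zero _ (by linarith [X.h1])

theorem deriv_ed_cut {l L : ℝ} (hl : 0 < l) (h1 : 3 / 8 < l * L) (h2 : l * L < 1 / 2)
    (q : ℝ → ℕ → ℝ) (ε : ℝ) (m : ℝ → ℕ → ℝ) :
    En K X l q ε m = ∫ ξ in (0:ℝ)..L, ed K X l q ε m ξ := by
  have hL : 0 < L := (mul_pos_iff_of_pos_left hl).1 (by linarith)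
  refine deriv_cut hL.le (by rw [le_div_iff₀ (by positivity)]; linarith) fun x hx => ?_
  obtain ⟨e0, e1, -⟩ := deriv_zero X (l := l) (x := x) (by nlinarith)
  simp [ed, G1, G0, om, cc, e0, e1]

theorem deriv_eds_cut {l L : ℝ} (hl : 0 < l) (h1 : 3 / 8 < l * L) (h2 : l * L < 1 / 2)
    (κ : ℝ) (q : ℝ → ℕ → ℝ) (ε : ℝ) (m u : ℝ → ℕ → ℝ) :
    ∫ ξ in (0:ℝ)..(1 / (2 * l)), eds K X l κ q ε m u ξ =
      ∫ ξ in (0:ℝ)..L, eds K X l κ q ε m u ξ := by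
  have hL : 0 < L := (mul_pos_iff_of_pos_left hl).1 (by linarith)
  refine deriv_cut hL.le (by rw [le_div_iff₀ (by positivity)]; linarith) fun x hx => ?_
  obtain ⟨e0, e1, e2⟩ := deriv_zero X (l := l) (x := x) (by nlinarith)
  simp [eds, G1, G0, G1s, G0s, om, omd, cc, ccd, e0, e1, e2]

/-- A neighbourhood of `s` on which `L = 7 / (16 lam s)` is a common cut. -/
theorem deriv_nhds (s : ℝ) : ∃ L : ℝ, 0 < L ∧
    ∀ᶠ σ in 𝓝 s, 3 / 8 < lam σ * L ∧ lam σ * L < 1 / 2 ∧ σ < s + 1 := by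
  have hl := lam_pos s
  refine ⟨7 / (16 * lam s), by positivity, ?_⟩
  have e : lam s * (7 / (16 * lam s)) = 7 / 16 := by field_simp
  have c : ContinuousAt (fun σ => lam σ * (7 / (16 * lam s))) s :=
    (continuous_lam.mul continuous_const).continuousAt
  exact (c.eventually (lt_mem_nhds (by simp only [e]; norm_num))).and
    ((c.eventually (gt_mem_nhds (by simp only [e]; norm_num))).and (gt_mem_nhds (by linarith)))

theorem deriv_sq {g a C D ξ L : ℝ} (h0 : 0 < ξ) (hL : ξ ≤ L) (hg : |g| ≤ D) (ha : |a| ≤ C) :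
    |ξ * (g * a ^ 2)| ≤ L * (D * C ^ 2) := by
  rw [abs_mul, abs_mul, abs_pow, abs_of_pos h0]
  have := (abs_nonneg g).trans hg
  have := h0.le.trans hL
  gcongr

theorem hasDerivAt_ed (hp : PsiD κ p) (ε : ℝ) {s ξ : ℝ} (hs : s0 < s) (h0 : 0 < ξ)
    (h1 : lam s * ξ < 1) :
    HasDerivAt (fun σ => ed K X (lam σ) (p σ) ε (mm K S s0 σ) ξ)
      (eds K X (lam s) κ (p s) ε (mm K S s0 s) (ut S s0 s) ξ) s := by
  have hl : HasDerivAt (fun σ => lam σ * ξ) (-lam s / 2 * ξ) s := (hasDerivAt_lam s).mul_const ξ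
  have c0 : HasDerivAt (fun σ => X.c (lam σ * ξ) 0) (X.c (lam s * ξ) 1 * (-lam s / 2 * ξ)) s :=
    HasDerivAt.comp (h₂ := fun y => X.c y 0) s (X.d 0 _ (by norm_num)) hl
  have c1 : HasDerivAt (fun σ => X.c (lam σ * ξ) 1) (X.c (lam s * ξ) 2 * (-lam s / 2 * ξ)) s :=
    HasDerivAt.comp (h₂ := fun y => X.c y 1) s (X.d 1 _ le_rfl) hl
  have hq := hp.ds s ξ h0
  have a0 := (hasDerivAt_mm K S s0 hs h0 h1 0).const_mul (ξ ^ 0)
  have a1 := (hasDerivAt_mm K S s0 hs h0 h1 1).const_mul (ξ ^ 1)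
  have o := c0.mul hq
  have g1 := o.mul_const (K.g1 ξ 0)
  have g0 := (o.mul_const (K.g0 ξ 0 + ε * vp ξ)).add ((hq.const_mul (-K.ct)).mul (hl.mul c1))
  have key := ((g1.mul (a1.pow 2)).add (g0.mul (a0.pow 2))).const_mul ξ
  refine HasDerivAt.congr_deriv (f := fun σ => ed K X (lam σ) (p σ) ε (mm K S s0 σ) ξ) key ?_
  simp only [eds, G1, G0, G1s, G0s, om, omd, cc, ccd, gam, sc, Pi.mul_apply, Pi.add_apply,
    Pi.pow_apply, Nat.cast_ofNat, Nat.add_one_sub_one]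
  ring

theorem deriv_eds_bd {ξ L C D g1 g0 g1s g0s a0 a1 u0 u1 : ℝ} (h0 : 0 < ξ) (hL : ξ ≤ L)
    (hC : 0 ≤ C) (hD : 0 ≤ D) (b0 : |a0| ≤ C) (b1 : |a1| ≤ C * √ξ) (b2 : |a1| ≤ C)
    (b3 : |ξ ^ 2 * u0| ≤ C * √ξ) (b4 : √ξ * |ξ ^ 2 * u1| ≤ C) (d1 : |g1| ≤ D) (d2 : |g0| ≤ D * ξ)
    (d3 : |g1s| ≤ D) (d4 : |g0s| ≤ D) :
    ‖ξ * (g1 * (2 * a1 * (ξ ^ 1 * u1)) + g0 * (2 * a0 * (ξ ^ 0 * u0)) + g1s * a1 ^ 2
      + g0s * a0 ^ 2)‖ ≤
      2 * D * C * C + 2 * D * C * (C * √L) + L * (D * C ^ 2) + L * (D * C ^ 2) := by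
  have e : ξ * (g1 * (2 * a1 * (ξ ^ 1 * u1)) + g0 * (2 * a0 * (ξ ^ 0 * u0)) + g1s * a1 ^ 2
      + g0s * a0 ^ 2) = 2 * g1 * a1 * (ξ ^ 2 * u1) + 2 * g0 * a0 * (ξ * u0) + ξ * (g1s * a1 ^ 2)
      + ξ * (g0s * a0 ^ 2) := by ring
  have t1 : |2 * g1 * a1 * (ξ ^ 2 * u1)| ≤ 2 * D * C * C := by
    rw [abs_mul, abs_mul, abs_mul, abs_two]
    calc 2 * |g1| * |a1| * |ξ ^ 2 * u1| ≤ 2 * D * (C * √ξ) * |ξ ^ 2 * u1| := by gcongr
      _ = 2 * D * C * (√ξ * |ξ ^ 2 * u1|) := by ring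
      _ ≤ _ := by gcongr
  have t2 : |2 * g0 * a0 * (ξ * u0)| ≤ 2 * D * C * (C * √L) := by
    rw [abs_mul, abs_mul, abs_mul, abs_two]
    have e2 : |ξ ^ 2 * u0| = ξ * |ξ * u0| := by
      rw [sq, mul_assoc, abs_mul, abs_of_pos h0]
    calc 2 * |g0| * |a0| * |ξ * u0| ≤ 2 * (D * ξ) * C * |ξ * u0| := by gcongr
      _ = 2 * D * C * |ξ ^ 2 * u0| := by rw [e2]; ring
      _ ≤ 2 * D * C * (C * √ξ) := by gcongr
      _ ≤ _ := by gcongr
  rw [Real.norm_eq_abs, e]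
  exact (abs_add_le _ _).trans (add_le_add ((abs_add_le _ _).trans (add_le_add
    ((abs_add_le _ _).trans (add_le_add t1 t2)) (deriv_sq h0 hL d3 b2))) (deriv_sq h0 hL d4 b0))

theorem hasDerivAt_En (hp : PsiD κ p) (ε : ℝ) {s : ℝ} (hs : s0 < s) :
    HasDerivAt (fun σ => En K X (lam σ) (p σ) ε (mm K S s0 σ))
      (∫ ξ in (0:ℝ)..(1 / (2 * lam s)), eds K X (lam s) κ (p s) ε (mm K S s0 s) (ut S s0 s) ξ) s := by
  obtain ⟨L, hL, hU⟩ := deriv_nhds s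
  have hU' := hU.and (lt_mem_nhds hs)
  obtain ⟨C, hC0, hC⟩ := mm_bd K S s0 (s + 1)
  obtain ⟨D, hD0, hD⟩ := bd_G K X (lam s0) κ ε
  have hs' := hU.self_of_nhds
  rw [deriv_eds_cut K X (lam_pos s) hs'.1 hs'.2.1]
  have key := intervalIntegral.hasDerivAt_integral_of_dominated_loc_of_deriv_le (μ := volume)
    (a := 0) (b := L) (F := fun σ ξ => ed K X (lam σ) (p σ) ε (mm K S s0 σ) ξ)
    (F' := fun σ ξ => eds K X (lam σ) κ (p σ) ε (mm K S s0 σ) (ut S s0 σ) ξ)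
    (bound := fun _ => 2 * D * C * C + 2 * D * C * (C * √L) + L * (D * C ^ 2) + L * (D * C ^ 2))
    hU' (hU'.mono fun σ h => ((jet1_mm K S s0 h.2.le).ii_ed K X (hp.st σ) ε le_rfl hL.le
      h.1.2.1.le).aestronglyMeasurable_restrict_uIoc)
    ((jet1_mm K S s0 hs.le).ii_ed K X (hp.st s) ε le_rfl hL.le hs'.2.1.le)
    ((jet4_mm K S s0 hs).ii_eds X κ (hp.st s) ε le_rfl hL.le
      hs'.2.1.le).aestronglyMeasurable_restrict_uIoc
    (Eventually.of_forall fun ξ hξ σ h => by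
      rw [uIoc_of_le hL.le] at hξ
      have h1 : lam σ * ξ ≤ 1 / 2 :=
        (mul_le_mul_of_nonneg_left hξ.2 (lam_pos σ).le).trans h.1.2.1.le
      obtain ⟨b0, b1, b2, b3⟩ := hC σ ⟨h.2.le, h.1.2.2.le⟩ ξ hξ.1 h1
      obtain ⟨d1, -, -, d2, d3, d4, -⟩ := hD _ (lam_pos σ) (lam_anti h.2.le) _ (hp.st σ) ξ hξ.1 h1
      exact deriv_eds_bd hξ.1 hξ.2 hC0 hD0 b0 (b1 1 le_rfl (by norm_num)) b2 (b3 h.2).1 (b3 h.2).2
        d1 d2 d3 d4)
    intervalIntegrable_const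
    (Eventually.of_forall fun ξ hξ σ h => by
      rw [uIoc_of_le hL.le] at hξ
      exact hasDerivAt_ed K X S s0 hp ε h.2 hξ.1
        (((mul_le_mul_of_nonneg_left hξ.2 (lam_pos σ).le).trans_lt h.1.2.1).trans (by norm_num)))
  exact key.2.congr_of_eventuallyEq
    (hU.mono fun σ h => deriv_ed_cut K X (lam_pos σ) h.1 h.2.1 _ _ _)

theorem deriv_cont_ed (hp : PsiD κ p) (ε : ℝ) {s ξ : ℝ} (hs : s0 ≤ s) (h0 : 0 < ξ)
    (h1 : lam s * ξ < 1) :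
    ContinuousWithinAt (fun σ => ed K X (lam σ) (p σ) ε (mm K S s0 σ) ξ) (Ici s0) s := by
  have hl : Continuous fun σ => lam σ * ξ := continuous_lam.mul continuous_const
  have c : ∀ j, j ≤ 1 → ContinuousWithinAt (fun σ => X.c (lam σ * ξ) j) (Ici s0) s := fun j hj =>
    (ContinuousAt.comp (g := fun y => X.c y j) (X.d j _ hj).continuousAt
      hl.continuousAt).continuousWithinAt
  have hq : ContinuousWithinAt (fun σ => p σ ξ 0) (Ici s0) s :=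
    (hp.ds s ξ h0).continuousAt.continuousWithinAt
  have a : ∀ k, k ≤ 3 → ContinuousWithinAt (fun σ => sc (mm K S s0 σ) ξ k) (Ici s0) s := by
    intro k hk
    have h2 := ContinuousWithinAt.comp (f := fun σ : ℝ => (σ, ξ))
      (s := {σ | s0 ≤ σ ∧ lam σ * ξ < 1}) (x := s) (continuousOn_mm K S s0 hk (s, ξ) ⟨hs, h0, h1⟩)
      (continuous_id.prodMk continuous_const).continuousWithinAt fun σ h => ⟨h.1, h0, h.2⟩
    refine continuousWithinAt_const.mul (h2.mono_of_mem_nhdsWithin ?_)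
    exact Filter.Eventually.and self_mem_nhdsWithin
      ((hl.continuousAt.eventually (gt_mem_nhds h1)).filter_mono nhdsWithin_le_nhds)
  have o := (c 0 (by norm_num)).mul hq
  exact continuousWithinAt_const.mul (((o.mul continuousWithinAt_const).mul
    ((a 1 (by norm_num)).pow 2)).add (((o.mul continuousWithinAt_const).add
      ((continuousWithinAt_const.mul hq).mul (hl.continuousWithinAt.mul (c 1 le_rfl)))).mul
        ((a 0 (by norm_num)).pow 2)))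

theorem continuousOn_En (hp : PsiD κ p) (ε : ℝ) :
    ContinuousOn (fun σ => En K X (lam σ) (p σ) ε (mm K S s0 σ)) (Ici s0) := by
  intro s hs
  obtain ⟨L, hL, hU⟩ := deriv_nhds s
  have hU' : ∀ᶠ σ in 𝓝[Ici s0] s, (3 / 8 < lam σ * L ∧ lam σ * L < 1 / 2 ∧ σ < s + 1) ∧ s0 ≤ σ :=
    (hU.filter_mono nhdsWithin_le_nhds).and self_mem_nhdsWithin
  obtain ⟨C, hC0, hC⟩ := mm_bd K S s0 (s + 1)
  obtain ⟨D, hD0, hD⟩ := bd_G K X (lam s0) κ ε
  have hs' := hU.self_of_nhds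
  have key := intervalIntegral.continuousWithinAt_of_dominated_interval (μ := volume)
    (a := 0) (b := L) (F := fun σ ξ => ed K X (lam σ) (p σ) ε (mm K S s0 σ) ξ) (x₀ := s)
    (s := Ici s0) (bound := fun _ => L * (D * C ^ 2) + L * (D * C ^ 2))
    (hU'.mono fun σ h => ((jet1_mm K S s0 h.2).ii_ed K X (hp.st σ) ε le_rfl hL.le
      h.1.2.1.le).aestronglyMeasurable_restrict_uIoc)
    (hU'.mono fun σ h => Eventually.of_forall fun ξ hξ => by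
      rw [uIoc_of_le hL.le] at hξ
      have h1 : lam σ * ξ ≤ 1 / 2 :=
        (mul_le_mul_of_nonneg_left hξ.2 (lam_pos σ).le).trans h.1.2.1.le
      obtain ⟨b0, -, b2, -⟩ := hC σ ⟨h.2, h.1.2.2.le⟩ ξ hξ.1 h1
      obtain ⟨d1, -, d2, -⟩ := hD _ (lam_pos σ) (lam_anti h.2) _ (hp.st σ) ξ hξ.1 h1
      rw [Real.norm_eq_abs, ed, mul_add]
      exact (abs_add_le _ _).trans
        (add_le_add (deriv_sq hξ.1 hξ.2 d1 b2) (deriv_sq hξ.1 hξ.2 d2 b0)))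
    intervalIntegrable_const
    (Eventually.of_forall fun ξ hξ => by
      rw [uIoc_of_le hL.le] at hξ
      exact deriv_cont_ed K X S s0 hp ε hs hξ.1
        (((mul_le_mul_of_nonneg_left hξ.2 (lam_pos s).le).trans_lt hs'.2.1).trans (by norm_num)))
  exact key.congr_of_eventuallyEq
    (hU'.mono fun σ h => deriv_ed_cut K X (lam_pos σ) h.1.1 h.1.2.1 _ _ _)
    (deriv_ed_cut K X (lam_pos s) hs'.1 hs'.2.1 _ _ _)

theorem continuousOn_QQ : ContinuousOn (QQ K X S s0) (Ici s0) :=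
  continuousOn_En K X S s0 psiD_psi0 0

end Vale.Agent.P264
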