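import Vale.Agent.P264.C.StatA

/-!
# P264 C/StatC  (TASK; notes/P264.md section C, notes/P264C.md)

Static facts II.  `index_le`: on `(0,x1]`, `[x1,x2]`, `[x2, 1/(2l)]` apply `flux_le` / `int_le_off` to `φ = om nn / 2 - ed`, `g = r_i om ξ² a0²` (`K.index`, `K.dr`, `K.cr`, `K.br`;
`|r χ ξ p'| ≤ B kk om`; where `χ' ≠ 0` we have `ξ ≥ xt`, `r 2 = ct`, which cancels `cc`).
`hardy`: flux `ξ² (2 - ξ) a0²` on `[0,2]` gives `∫_0^2 ξ a0² ≤ 9/2 ∫_0^2 ξ vp a0² + ∫_0^2 ξ a1²`; `1/2 ≤ psi0 ≤ 1` and `χ = 1` there, `vp ≥ 2/3` beyond `2`;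
with `E0 = ∫ om ξ vp a0²`, `A1 = ∫ om ξ a1² ≤ En 0 + B E0` (`g1 ≥ 1`, `g0 ≥ -B vp`, `cc ≥ 0`) and `NN ≤ 3 A1 + 11 E0`.
`small_lo`, `small_hi`: on `(0, e]`, `χ = 1`, `cc = 0`, `|g0| ξ a0² ≤ B n²`, `n² ≤ 9 eta²`; `ξ a1² ≤ e² a1² / ξ ≤ e² dd`.
-/

open Set MeasureTheory Filter Topology

noncomputable section

namespace Vale.Agent.P264

variable {l : ℝ} {p m u : ℝ → ℕ → ℝ}

theorem statC_lo (K : Cert) (X : Cut) (hl : 0 < l) (hp : PsiS p) (m : ℝ → ℕ → ℝ) {ξ : ℝ}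
    (h0 : 0 < ξ) : ξ * (om X l p ξ * sc m ξ 1 ^ 2) -
      10 ^ 14 * vp ξ * (ξ * (om X l p ξ * sc m ξ 0 ^ 2)) ≤ ed K X l p 0 m ξ := by
  have a0 := (om_range X l hp h0).1
  have a1 := mul_le_mul_of_nonneg_left (K.bg1 ξ h0).1
    (mul_nonneg h0.le (mul_nonneg a0 (sq_nonneg (sc m ξ 1))))
  have a2 := mul_le_mul_of_nonneg_left (abs_le.1 (K.bg0 ξ h0).1).1
    (mul_nonneg h0.le (mul_nonneg a0 (sq_nonneg (sc m ξ 0))))
  have a3 := mul_nonneg h0.le (mul_nonneg (cc_nonneg K X hl hp h0) (sq_nonneg (sc m ξ 0)))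
  simp only [ed, G1, G0, vp]
  linarith

theorem statC_n (X : Cut) (h : Jet1 l m) (hp : PsiS p) (hT : Trap l m (eta ^ 2)) {ξ : ℝ}
    (h0 : 0 < ξ) (h1 : l * ξ ≤ 1 / 4) :
    10 ^ 14 * vp ξ * (ξ * (om X l p ξ * sc m ξ 0 ^ 2)) ≤ 1 := by
  have a1 := pow_le_pow_left₀ (abs_nonneg _) (h.n_le hT h0 h1) 2
  rw [sq_abs] at a1
  obtain ⟨a2, -, a3⟩ := om_range X l hp h0
  obtain ⟨a4, -, a5⟩ := vp_pos h0
  calc _ ≤ 10 ^ 14 * ξ * (ξ * (1 * sc m ξ 0 ^ 2)) := by gcongr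
    _ = 10 ^ 14 * (ξ * sc m ξ 0) ^ 2 := by ring
    _ ≤ 10 ^ 14 * (3 * eta) ^ 2 := by gcongr
    _ ≤ 1 := by norm_num [eta]

theorem hardy (K : Cert) (X : Cut) (h : Jet1 l m) (hl : l * K.xt ≤ 1 / 4) {ε : ℝ} (hε : 0 < ε) :
    ε * NN X l psi0 m ≤ 3 * ε * En K X l psi0 0 m
      + 4 * 10 ^ 14 * (En K X l psi0 ε m - En K X l psi0 0 m) := by
  have l0 := h.l0
  have hp := psiD_psi0.st 0
  have l2 : l * 2 ≤ 1 / 4 := le_trans (mul_le_mul_of_nonneg_left (by linarith [K.hxt]) l0.le) hl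
  have hL : l * (1 / (2 * l)) ≤ 1 / 2 := le_of_eq (by field_simp)
  have h2L : 2 ≤ 1 / (2 * l) := by
    rw [le_div_iff₀ (by positivity)]
    linarith
  set φ : ℝ → ℝ := fun ξ => ε * (om X l psi0 ξ * nn m ξ) - 3 * ε * ed K X l psi0 0 m ξ
    - 4 * 10 ^ 14 * (ed K X l psi0 ε m ξ - ed K X l psi0 0 m ξ) with hφ
  have ii : ∀ a b, 0 ≤ a → a ≤ b → l * b ≤ 1 / 2 → IntervalIntegrable φ volume a b :=
    fun a b ha hab hb => (((h.ii_om_nn X hp ha hab hb).const_mul _).sub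
      ((h.ii_ed K X hp 0 ha hab hb).const_mul _)).sub
      (((h.ii_ed K X hp ε ha hab hb).sub (h.ii_ed K X hp 0 ha hab hb)).const_mul _)
  have pt : ∀ ξ, 0 < ξ → φ ξ ≤ ε * ξ * (om X l psi0 ξ * sc m ξ 0 ^ 2 - om X l psi0 ξ *
      (2 * sc m ξ 1 ^ 2 + 10 ^ 14 * vp ξ * sc m ξ 0 ^ 2)) := fun ξ h0 => by
    have := mul_le_mul_of_nonneg_left (statC_lo K X l0 hp m h0) hε.le
    simp only [hφ, ed, G0, nn] at this ⊢
    linarith
  have i1 : ∫ ξ in (0:ℝ)..2, φ ξ ≤ 0 := by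
    have hd : ∀ ξ, 0 < ξ → ξ ≤ 2 → HasDerivAt (fun y => ε / 2 * (y ^ 2 * (2 - y)) * sc m y 0 ^ 2)
        (ε * ξ * ((2 - 3 / 2 * ξ) * sc m ξ 0 ^ 2 + (2 - ξ) * (sc m ξ 0 * sc m ξ 1))) ξ := by
      intro ξ h0 h1
      refine (((((hasDerivAt_id' ξ).fun_pow 2).fun_mul ((hasDerivAt_id' ξ).const_sub 2)).const_mul
        (ε / 2)).fun_mul ((h.d_sc h0 (by nlinarith)).fun_pow 2)).congr_deriv ?_
      simp only [Nat.cast_ofNat, Nat.add_one_sub_one, pow_one]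
      field_simp
      ring
    refine (flux_le two_pos ∅ (fun ξ hξ => (hd ξ hξ.1 hξ.2).continuousAt.continuousWithinAt) ?_
      (ii 0 2 le_rfl zero_le_two (by linarith))
      fun ξ hξ _ => ⟨_, hd ξ hξ.1 hξ.2.le, (pt ξ hξ.1).trans ?_⟩).trans_eq (by simp)
    · obtain ⟨C, hC⟩ := h.bd
      have t : Tendsto (fun y : ℝ => ε / 2 * (y ^ 2 * (2 - y)) * C ^ 2) (𝓝[>] 0) (𝓝 0) :=
        (Continuous.tendsto' (by fun_prop) 0 0 (by simp)).mono_left nhdsWithin_le_nhds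
      refine squeeze_zero_norm' ?_ t
      filter_upwards [Ioo_mem_nhdsGT two_pos] with y hy
      have a1 : 0 ≤ ε / 2 * (y ^ 2 * (2 - y)) :=
        mul_nonneg (by positivity) (mul_nonneg (sq_nonneg _) (by linarith [hy.2]))
      rw [Real.norm_of_nonneg (mul_nonneg a1 (sq_nonneg _)), ← sq_abs (sc m y 0)]
      exact mul_le_mul_of_nonneg_left (pow_le_pow_left₀ (abs_nonneg _)
        (hC y hy.1 (by nlinarith [hy.2])).1 2) a1
    · obtain ⟨h0, h1⟩ := hξ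
      refine mul_le_mul_of_nonneg_left ?_ (by positivity)
      have a1 := (om_range X l hp h0).2.2
      have a2 : 1 / 2 ≤ om X l psi0 ξ := by
        rw [om, (X.one _ (by nlinarith)).1, one_mul]
        exact psi0_half h0 (by linarith)
      have a3 : ξ / 3 ≤ vp ξ := div_le_div_of_nonneg_left h0.le (by linarith) (by linarith)
      have a4 := mul_le_mul_of_nonneg_right a1 (sq_nonneg (sc m ξ 0))
      have a5 := mul_le_mul_of_nonneg_right a2 (show 0 ≤ 2 * sc m ξ 1 ^ 2 +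
        10 ^ 14 * vp ξ * sc m ξ 0 ^ 2 by have := (vp_pos h0).1; positivity)
      have a6 := mul_le_mul_of_nonneg_right a3 (sq_nonneg (sc m ξ 0))
      have a7 := mul_le_mul_of_nonneg_right h1.le (mul_nonneg h0.le (sq_nonneg (sc m ξ 0)))
      have a8 := mul_nonneg h0.le (sq_nonneg (sc m ξ 0))
      nlinarith [sq_nonneg (sc m ξ 1 + (2 - ξ) / 2 * sc m ξ 0)]
  have i2 : ∫ ξ in (2:ℝ)..(1 / (2 * l)), φ ξ ≤ 0 := by
    rw [← neg_nonneg, ← intervalIntegral.integral_neg]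
    refine intervalIntegral.integral_nonneg h2L fun ξ hξ => neg_nonneg.2 ?_
    have h0 : 0 < ξ := two_pos.trans_le hξ.1
    refine (pt ξ h0).trans (mul_nonpos_of_nonneg_of_nonpos (by positivity) ?_)
    have a3 : 1 / 2 ≤ vp ξ := by
      rw [vp, le_div_iff₀ (by linarith)]
      linarith [hξ.1]
    have a6 := mul_le_mul_of_nonneg_right a3 (sq_nonneg (sc m ξ 0))
    rw [← mul_sub]
    exact mul_nonpos_of_nonneg_of_nonpos (om_range X l hp h0).1
      (by nlinarith [sq_nonneg (sc m ξ 0), sq_nonneg (sc m ξ 1)])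
  have i3 := intervalIntegral.integral_add_adjacent_intervals
    (ii 0 2 le_rfl zero_le_two (by linarith)) (ii 2 _ zero_le_two h2L hL)
  have i4 : ∫ ξ in (0:ℝ)..(1 / (2 * l)), φ ξ ≤ 0 := by
    rw [← i3]
    linarith
  have h0L : 0 ≤ 1 / (2 * l) := by positivity
  have j1 := h.ii_om_nn X hp le_rfl h0L hL
  have j2 := h.ii_ed K X hp 0 le_rfl h0L hL
  have j3 := h.ii_ed K X hp ε le_rfl h0L hL
  rw [hφ, intervalIntegral.integral_sub ((j1.const_mul _).sub (j2.const_mul _))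
    ((j3.sub j2).const_mul _), intervalIntegral.integral_sub (j1.const_mul _) (j2.const_mul _),
    intervalIntegral.integral_const_mul, intervalIntegral.integral_const_mul,
    intervalIntegral.integral_const_mul, intervalIntegral.integral_sub j3 j2] at i4
  simp only [NN, En]
  linarith

theorem small_lo (K : Cert) (X : Cut) (h : Jet1 l m) (hp : PsiS p) (hT : Trap l m (eta ^ 2))
    {e : ℝ} (he : 0 < e) (hl : l * e ≤ 1 / 4) :
    -e ≤ ∫ ξ in (0:ℝ)..e, ed K X l p 0 m ξ := by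
  have := intervalIntegral.integral_mono_on_of_le_Ioo he.le
    (intervalIntegrable_const (c := (-1 : ℝ))) (h.ii_ed K X hp 0 le_rfl he.le (by linarith))
    fun ξ hξ => by
      have a1 := statC_lo K X h.l0 hp m hξ.1
      have a2 := statC_n X h hp hT hξ.1 (by nlinarith [hξ.2, h.l0])
      have a3 := mul_nonneg hξ.1.le (mul_nonneg (om_range X l hp hξ.1).1 (sq_nonneg (sc m ξ 1)))
      linarith
  simpa using this

theorem small_hi {K : Cert} (X : Cut) (h : Jet4 K l m u) (hp : PsiS p) (hT : Trap l m (eta ^ 2))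
    {e : ℝ} (he : 0 < e) (hl : l * e ≤ 1 / 4) :
    ∫ ξ in (0:ℝ)..e, ed K X l p 0 m ξ ≤ e + 10 ^ 14 * e ^ 2 * DD l p m := by
  have l0 := h.l0
  have j1 := h.ii_dd hp le_rfl he.le (show l * e ≤ 1 / 2 by linarith)
  have i1 := intervalIntegral.integral_mono_on_of_le_Ioo he.le
    (h.jet1.ii_ed K X hp 0 le_rfl he.le (by linarith))
    ((intervalIntegrable_const (c := (1 : ℝ))).add (j1.const_mul (10 ^ 14 * e ^ 2))) fun ξ hξ => by
      obtain ⟨h0, h1⟩ := hξ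
      have a0 : l * ξ ≤ 1 / 4 := by nlinarith
      have a2 := statC_n X h.jet1 hp hT h0 a0
      have a3 : ξ * sc m ξ 1 ^ 2 ≤ e ^ 2 * dd m ξ := by
        rw [dd, NQ, ← mul_div_assoc, le_div_iff₀ h0]
        have := (vp_pos h0).1
        have b1 : ξ ^ 2 ≤ e ^ 2 := pow_le_pow_left₀ h0.le h1.le 2
        have b2 := mul_nonneg this.le (sq_nonneg (sc m ξ 0))
        have b3 := mul_le_mul_of_nonneg_right b1 (sq_nonneg (sc m ξ 1))
        have b4 := mul_nonneg (sq_nonneg e) (add_nonneg (add_nonneg b2 (sq_nonneg (sc m ξ 2)))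
          (sq_nonneg (sc m ξ 3)))
        linarith
      have a4 := mul_le_mul (K.bg1 ξ h0).2.1 a3 (by positivity) (by norm_num)
      have a5 := mul_le_mul_of_nonneg_left a4 (hp.pos ξ h0).1.le
      have a6 := mul_le_mul_of_nonneg_left (abs_le.1 (K.bg0 ξ h0).1).2
        (mul_nonneg h0.le (mul_nonneg (hp.pos ξ h0).1.le (sq_nonneg (sc m ξ 0))))
      simp only [ed, G1, G0, cc, om, (X.one _ a0).1, (X.one _ a0).2.1, vp] at a2 ⊢
      linarith
  have i2 : ∫ ξ in (0:ℝ)..e, p ξ 0 * dd m ξ ≤ DD l p m := by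
    have h4 : e ≤ 1 / (4 * l) := by
      rw [le_div_iff₀ (by positivity)]
      linarith
    refine intervalIntegral.integral_mono_interval le_rfl he.le h4 ?_
      (h.ii_dd hp le_rfl (by positivity) (le_trans (le_of_eq (b := 1 / 4) (by field_simp))
        (by norm_num)))
    filter_upwards [ae_restrict_mem measurableSet_Ioc] with ξ hξ
    exact mul_nonneg (hp.pos ξ hξ.1).1.le (dd_nonneg m hξ.1.le)
  rw [intervalIntegral.integral_add intervalIntegrable_const (j1.const_mul _),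
    intervalIntegral.integral_const_mul] at i1
  simp only [intervalIntegral.integral_const, sub_zero, smul_eq_mul, mul_one] at i1
  exact i1.trans (by gcongr)

end Vale.Agent.P264
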