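import Vale.Agent.P264.C.StatB
import Vale.Agent.P264.C.StatC
import Vale.Agent.P264.C.Deriv

/-!
# P264 C/BootA  (TASK; notes/P264.md section C, notes/P264C.md)

The bootstrap.  `boot_NN`: `H = En psi0 eps2`; `H s0 ≤ mu/4 + eps2 N1 ≤ mu/2`; `barrier` with `c = mu/2`: `H ≤ 6 B NN`, so `NN ≥ mu / (12 B)` and `Good.mas` (`κ = kk/2`, `ε = eps2`, `β = 1`)
gives a negative derivative; `QQ ≤ H`, `hardy` gives `NN ≤ 10^-78`.
`boot_far`: weight `psiD_scale` with `r = lam s1 u`; `E - 10^-228 (4/kk) arctan (r^kk exp (kk s/2)) + 10^-200 exp (s0 - s)` is nonincreasing (`le_of_deriv_nonpos`, `beta_scale`),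
`E s0 ≤ 5 B N1` (`abs_En_le`, `NN_le_N1`); `loc_le_far`, `loc_le_near`.
`boot`: `cont_ind` for `Trap (eta²)` with `trap_closed`, `trap_open`; `-mu ≤ QQ` on `Icc s0 s` by continuity when `s0 < s1`; for `s = s0` use `i1`, `i2`, `loc_le_N1`.
-/

open Set MeasureTheory Filter Topology

noncomputable section

namespace Vale.Agent.P264

variable {K : Cert} {X : Cut} {S : Sol} {s0 : ℝ}

theorem BootA_neg {N D e E' H Q : ℝ} (hD : 0 ≤ D) (he : e ≤ 1)
    (hQ : Q ≤ 5 * 10 ^ 14 * N) (hH : H ≤ Q + eps2 * N) (hc : mu / 2 < H)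
    (hE : E' ≤ -(kk / 2 / 2 - eps2) * N - D / 4 + 1 / 10 ^ 228 + e / 10 ^ 200) : E' ≤ 0 := by
  unfold mu at hc
  unfold eps2 at hH hE
  unfold kk at hE
  linarith

theorem BootA_H (h : Good K X S s0) {s1 : ℝ} (hs : s0 ≤ s1)
    (hT : ∀ s ∈ Icc s0 s1, Trap (lam s) (mm K S s0 s) (eta ^ 2)) :
    En K X (lam s1) psi0 eps2 (mm K S s0 s1) ≤ mu / 2 := by
  have hp : PsiS psi0 := psiD_psi0.st 0
  have he : 0 ≤ eps2 := by
    unfold eps2
    positivity
  refine barrier (f := fun σ => En K X (lam σ) psi0 eps2 (mm K S s0 σ)) hs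
    ((continuousOn_En K X S s0 psiD_psi0 eps2).mono Icc_subset_Ici_self) ?_ fun s hs' hc => ?_
  · have hj := jet1_mm K S s0 le_rfl
    have h1 := (En_eps_le K X hj hp he).2
    have h2 := (NN_le_N1 X hj hp).trans h.i1
    have h3 := h.i2
    unfold QQ at h3
    unfold mu at h3 ⊢
    unfold eps2 at h1 ⊢
    linarith
  · have hj := jet1_mm K S s0 hs'.1.le
    obtain ⟨E', hd, hE⟩ := h.mas s hs'.1 (hT s (Ioo_subset_Icc_self hs')) _ _ psiD_psi0 eps2 he
      le_rfl 1 fun ξ hξ => hp.beta_one hξ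
    exact ⟨E', hd, BootA_neg (DD_nonneg (lam_pos s) hp _)
      (Real.exp_le_one_iff.2 (sub_nonpos.2 hs'.1.le)) (le_of_abs_le (abs_En_le K X hj hp))
      (En_eps_le K X hj hp he).2 hc hE⟩

theorem BootA_arc (c s : ℝ) :
    HasDerivAt (fun σ => 4 / kk * Real.arctan (c * Real.exp (kk * σ / 2)))
      (2 * (c * Real.exp (kk * s / 2)) / (1 + (c * Real.exp (kk * s / 2)) ^ 2)) s := by
  have hk : kk ≠ 0 := by
    unfold kk
    positivity
  have h1 : HasDerivAt (fun σ => kk * σ / 2) (kk * 1 / 2) s :=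
    ((hasDerivAt_id s).const_mul kk).div_const 2
  refine (((h1.exp.const_mul c).arctan).const_mul (4 / kk)).congr_deriv ?_
  have h2 : 1 + (c * Real.exp (kk * s / 2)) ^ 2 ≠ 0 := by positivity
  field_simp
  ring

theorem BootA_E (h : Good K X S s0) {s1 : ℝ} (hs : s0 ≤ s1)
    (hT : ∀ s ∈ Icc s0 s1, Trap (lam s) (mm K S s0 s) (eta ^ 2)) {p : ℝ → ℝ → ℕ → ℝ}
    (hp : PsiD 0 p) {c : ℝ} (hb : ∀ s ξ, 0 < ξ → p s ξ 0 * ξ ^ 3 / (1 + ξ) ^ 6 ≤
      2 * (c * Real.exp (kk * s / 2)) / (1 + (c * Real.exp (kk * s / 2)) ^ 2) / (1 + ξ) ^ 2) :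
    En K X (lam s1) (p s1) 0 (mm K S s0 s1) ≤ 1 / 10 ^ 85 := by
  have he : 0 ≤ eps2 := by
    unfold eps2
    positivity
  have hx : ∀ s, HasDerivAt (fun σ => Real.exp (s0 - σ) / 10 ^ 200)
      (Real.exp (s0 - s) * (-1) / 10 ^ 200) s := fun s =>
    (((hasDerivAt_id s).const_sub s0).exp).div_const _
  have key := le_of_deriv_nonpos (f := fun σ => En K X (lam σ) (p σ) 0 (mm K S s0 σ)
      - 4 / kk * Real.arctan (c * Real.exp (kk * σ / 2)) / 10 ^ 228
      + Real.exp (s0 - σ) / 10 ^ 200) hs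
    ((((continuousOn_En K X S s0 hp 0).mono Icc_subset_Ici_self).sub fun s _ =>
      ((BootA_arc c s).div_const _).continuousAt.continuousWithinAt).add fun s _ =>
      (hx s).continuousAt.continuousWithinAt) fun s hs' => by
      obtain ⟨E', hd, hE⟩ := h.mas s hs'.1 (hT s (Ioo_subset_Icc_self hs')) _ _ hp 0 le_rfl
        he _ (hb s)
      refine ⟨_, (hd.sub ((BootA_arc c s).div_const _)).add (hx s), ?_⟩
      have hD := DD_nonneg (lam_pos s) (hp.st s) (mm K S s0 s)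
      linarith
  have hj := jet1_mm K S s0 le_rfl
  have h1 := le_of_abs_le (abs_En_le K X hj (hp.st s0))
  have h2 := (NN_le_N1 X hj (hp.st s0)).trans h.i1
  have h3 := Real.arctan_lt_pi_div_two (c * Real.exp (kk * s1 / 2))
  have h4 := Real.neg_pi_div_two_lt_arctan (c * Real.exp (kk * s0 / 2))
  have h5 := Real.pi_le_four
  have h6 := Real.exp_pos (s0 - s1)
  have h7 : 4 / kk = 4 * 10 ^ 30 := by
    unfold kk
    norm_num
  simp only [sub_self, Real.exp_zero, h7] at key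
  linarith

theorem boot_NN (h : Good K X S s0) {s1 : ℝ} (hs : s0 ≤ s1)
    (hT : ∀ s ∈ Icc s0 s1, Trap (lam s) (mm K S s0 s) (eta ^ 2)) (hQ : -mu ≤ QQ K X S s0 s1) :
    QQ K X S s0 s1 ≤ mu ∧ NN X (lam s1) psi0 (mm K S s0 s1) ≤ 1 / 10 ^ 78 := by
  have hp : PsiS psi0 := psiD_psi0.st 0
  have he : 0 < eps2 := by
    unfold eps2
    positivity
  have hj := jet1_mm K S s0 hs
  have h1 := BootA_H h hs hT
  have h2 := (En_eps_le K X hj hp he.le).1
  have hl : lam s1 * K.xt ≤ 1 / 4 :=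
    (mul_le_mul_of_nonneg_right (lam_anti hs) (by linarith [K.hxt])).trans h.top
  have h3 := hardy K X hj hl he
  unfold QQ at hQ ⊢
  unfold mu at h1 hQ ⊢
  unfold eps2 at h1 h2 h3
  constructor <;> linarith

theorem boot_far (h : Good K X S s0) {s1 : ℝ} (hs : s0 ≤ s1)
    (hT : ∀ s ∈ Icc s0 s1, Trap (lam s) (mm K S s0 s) (eta ^ 2))
    (hN : NN X (lam s1) psi0 (mm K S s0 s1) ≤ 1 / 10 ^ 78) :
    Trap (lam s1) (mm K S s0 s1) (eta ^ 2 / 2) := by
  intro u h0 h1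
  have hj := jet1_mm K S s0 hs
  by_cases h2 : u ≤ 2000
  · have h3 := loc_le_near X hj h0 h1 h2
    unfold eta
    linarith
  · obtain ⟨P, hP, hz, hq⟩ := exists_Ps
    have hl := lam_pos s1
    have hr : 0 < lam s1 * u := mul_pos hl h0
    have hp := psiD_scale hP hr
    have h3 := BootA_E h hs hT hp (c := (lam s1 * u) ^ kk) fun s ξ hξ => by
      simpa only [pow_zero, one_mul] using beta_scale hz hr s hξ
    have h4 := loc_le_far K X hj (hp.st s1) h1 (by linarith [K.hxt']) fun ξ hξ => by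
      have e : lam s1 * ξ / (lam s1 * u) = ξ / u := mul_div_mul_left _ _ hl.ne'
      simp only [pow_zero, one_mul, e]
      exact hq _ ⟨(le_div_iff₀ h0).2 (by linarith [hξ.1]), (div_le_one h0).2 hξ.2⟩
    unfold eta
    linarith

end Vale.Agent.P264
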