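import Vale.Agent.P264.C.C1a

/-! P264 block C1: estimates at the level of the scalar curvature (notes/P264.md, C1). -/

open Set MeasureTheory Filter Topology

namespace Vale.Agent.P264

/-- squared distance of the scalar curvatures -/
noncomputable def JJ (A B : Sol) (t : ℝ) : ℝ :=
  ∫ x in (0:ℝ)..1, (S0 (A.w t x) x - S0 (B.w t x) x) ^ 2 * x ^ 6

/-- Calabi energy -/
noncomputable def Ca (A : Sol) (t : ℝ) : ℝ := ∫ x in (0:ℝ)..1, (S0 (A.w t x) x - 56) ^ 2 * x ^ 6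

/-- differentiation under the integral sign on a compact interval -/
theorem c1_dint {F F' : ℝ → ℝ → ℝ} {a b t : ℝ} (hab : a ≤ b) (ht : 0 < t)
    (hF : ContinuousOn (fun p : ℝ × ℝ => F p.1 p.2) (Ioi 0 ×ˢ Icc a b))
    (hF' : ContinuousOn (fun p : ℝ × ℝ => F' p.1 p.2) (Ioi 0 ×ˢ Icc a b))
    (hd : ∀ τ, 0 < τ → ∀ x ∈ Icc a b, HasDerivAt (fun τ => F τ x) (F' τ x) τ) :
    HasDerivAt (fun τ => ∫ x in a..b, F τ x) (∫ x in a..b, F' t x) t := by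
  have hs : Icc (t / 2) (2 * t) ⊆ Ioi 0 := fun τ h => (half_pos ht).trans_le h.1
  obtain ⟨C, hC⟩ := (isCompact_Icc.prod isCompact_Icc).exists_bound_of_continuousOn
    (hF'.mono (prod_mono hs Subset.rfl))
  have c (G : ℝ → ℝ → ℝ) (hG : ContinuousOn (fun p : ℝ × ℝ => G p.1 p.2) (Ioi 0 ×ˢ Icc a b)) (τ : ℝ)
      (h : 0 < τ) : IntervalIntegrable (G τ) volume a b :=
    (hG.comp (f := fun x => (τ, x)) (by fun_prop) fun x hx => ⟨h, hx⟩).intervalIntegrable_of_Icc hab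
  have hu : uIoc a b ⊆ Icc a b := by rw [uIoc_of_le hab]; exact Ioc_subset_Icc_self
  exact (intervalIntegral.hasDerivAt_integral_of_dominated_loc_of_deriv_le (bound := fun _ => C)
    (Icc_mem_nhds (half_lt_self ht) (by linarith : t < 2 * t))
    ((lt_mem_nhds ht).mono fun τ h => (c F hF τ h).def'.1) (c F hF t ht) (c F' hF' t ht).def'.1
    (Eventually.of_forall fun x hx τ h => hC (τ, x) ⟨h, hu hx⟩) intervalIntegrable_const
    (Eventually.of_forall fun x hx τ h => hd τ (hs h) x (hu hx))).2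

theorem c1_cS0 {u : ℝ → ℝ → ℕ → ℝ} {s : Set (ℝ × ℝ)}
    (h : ∀ k, ContinuousOn (fun p : ℝ × ℝ => u p.1 p.2 k) s) :
    ContinuousOn (fun p : ℝ × ℝ => S0 (u p.1 p.2) p.2) s := by
  have h0 := h 0
  have h1 := h 1
  have h2 := h 2
  unfold S0
  fun_prop

theorem c1_cF (A B : Sol) : ContinuousOn (fun p : ℝ × ℝ =>
    (S0 (A.w p.1 p.2) p.2 - S0 (B.w p.1 p.2) p.2) ^ 2 * p.2 ^ 6) (Ici 0 ×ˢ Ioo 0 1) :=
  (((c1_cS0 A.cw).sub (c1_cS0 B.cw)).pow 2).mul (by fun_prop)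

theorem c1_cF1 (A B : Sol) {t : ℝ} (ht : 0 ≤ t) : ContinuousOn (fun x =>
    (S0 (A.w t x) x - S0 (B.w t x) x) ^ 2 * x ^ 6) (Ioo 0 1) :=
  (c1_cF A B).comp (f := fun x => (t, x)) (by fun_prop) fun _ hx => ⟨ht, hx⟩

theorem c1_bF (A B : Sol) (T : ℝ) : ∃ C : ℝ, ∀ t ∈ Icc (0:ℝ) T, ∀ x ∈ Ioo (0:ℝ) 1,
    ‖(S0 (A.w t x) x - S0 (B.w t x) x) ^ 2 * x ^ 6‖ ≤ C := by
  obtain ⟨C, -, H⟩ := c1_bd A T
  obtain ⟨D, -, H'⟩ := c1_bd B T
  refine ⟨(C + D) ^ 2 * 1, fun t ht x hx => ?_⟩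
  rw [norm_mul, norm_pow, norm_pow, Real.norm_eq_abs, Real.norm_of_nonneg hx.1.le]
  gcongr
  · exact (abs_sub _ _).trans (add_le_add (H t ht x hx).1 (H' t ht x hx).1)
  · exact pow_le_one₀ hx.1.le hx.2.le

theorem c1_iF (A B : Sol) {t : ℝ} (ht : 0 ≤ t) : IntervalIntegrable (fun x =>
    (S0 (A.w t x) x - S0 (B.w t x) x) ^ 2 * x ^ 6) volume 0 1 := by
  obtain ⟨C, H⟩ := c1_bF A B t
  rw [intervalIntegrable_iff_integrableOn_Ioo_of_le zero_le_one]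
  exact (integrable_const C).mono' ((c1_cF1 A B ht).aestronglyMeasurable
    measurableSet_Ioo) ((ae_restrict_mem measurableSet_Ioo).mono (H t ⟨ht, le_rfl⟩))

theorem c1_sub (A B : Sol) {t a b : ℝ} (ht : 0 ≤ t) (ha : 0 ≤ a) (hab : a ≤ b) (hb : b ≤ 1) :
    ∫ x in a..b, (S0 (A.w t x) x - S0 (B.w t x) x) ^ 2 * x ^ 6 ≤ JJ A B t :=
  intervalIntegral.integral_mono_interval ha hab hb
    (Eventually.of_forall fun x => by positivity) (c1_iF A B ht)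

theorem c1_J0 (A B : Sol) (t : ℝ) : 0 ≤ JJ A B t :=
  intervalIntegral.integral_nonneg zero_le_one fun x _ => by positivity

theorem c1_cJ (A B : Sol) (T : ℝ) : ContinuousOn (JJ A B) (Icc 0 T) := by
  obtain ⟨C, H⟩ := c1_bF A B T
  have e : JJ A B = fun t => ∫ x in Ioo (0:ℝ) 1, (S0 (A.w t x) x - S0 (B.w t x) x) ^ 2 * x ^ 6 := by
    ext t
    rw [JJ, intervalIntegral.integral_of_le zero_le_one, integral_Ioc_eq_integral_Ioo]
  rw [e]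
  exact continuousOn_of_dominated (bound := fun _ => C)
    (fun t ht => (c1_cF1 A B ht.1).aestronglyMeasurable measurableSet_Ioo)
    (fun t ht => (ae_restrict_mem measurableSet_Ioo).mono (H t ht)) (integrable_const C)
    ((ae_restrict_mem measurableSet_Ioo).mono fun x hx =>
      (c1_cF A B).comp (f := fun t => (t, x)) (by fun_prop) fun t ht => ⟨ht.1, hx⟩)

/-- the time derivative of the truncated energy -/
theorem c1_der (A B : Sol) (T : ℝ) : ∃ K : ℝ, 0 ≤ K ∧ ∀ t ∈ Ioc (0:ℝ) T, ∀ e ∈ Ioc (0:ℝ) (1 / 2),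
    ∀ M : ℝ, 0 ≤ M → (∀ x ∈ Ioo (0:ℝ) 1, x ^ 8 * ((1 - x * A.w t x 0) ^ 2 - (1 - x * B.w t x 0) ^ 2) ^ 2 *
      S2 (B.w t x) x ^ 2 ≤ 2 * M * (1 - x * A.w t x 0) ^ 2) →
    ∫ x in e..1 - e, 2 * (S0 (A.w t x) x - S0 (B.w t x) x) * (S0 (A.v t x) x - S0 (B.v t x) x) *
      x ^ 6 ≤ M + K * √e := by
  obtain ⟨C, hC, H⟩ := c1_bd A T
  obtain ⟨D, hD, H'⟩ := c1_bd B T
  refine ⟨40 * (C + D) ^ 2, by positivity, fun t ht e he M hM hR => ?_⟩
  have hs : Icc e (1 - e) ⊆ Ioo 0 1 := fun x hx => ⟨he.1.trans_le hx.1, by linarith [hx.2, he.1]⟩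
  obtain ⟨G, hG⟩ : ∃ G : ℝ → ℝ, ∀ x, G x = 2 * ((S0 (A.w t x) x - S0 (B.w t x) x) *
      ((8 * x ^ 7 * A.v t x 0 + x ^ 8 * A.v t x 1) - (8 * x ^ 7 * B.v t x 0 + x ^ 8 * B.v t x 1)) -
      (S1 (A.w t x) x - S1 (B.w t x) x) * (x ^ 8 * A.v t x 0 - x ^ 8 * B.v t x 0)) := ⟨_, fun _ => rfl⟩
  have hd : ∀ x ∈ Ioo (0:ℝ) 1, HasDerivAt (fun x => G x + M * x) (2 * ((S0 (A.w t x) x -
      S0 (B.w t x) x) * (S0 (A.v t x) x - S0 (B.v t x) x) * x ^ 6 - (S2 (A.w t x) x -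
        S2 (B.w t x) x) * (x ^ 8 * A.v t x 0 - x ^ 8 * B.v t x 0)) + M) x := fun x hx => by
    have a1 := fun k => A.dx k t x ht.1.le hx
    have a2 := fun k => B.dx k t x ht.1.le hx
    have a3 := fun k => A.dv k t x ht.1 hx
    have a4 := fun k => B.dv k t x ht.1 hx
    simp only [hG]
    exact ((((((c1_dS0 a1).sub (c1_dS0 a2)).mul ((c1_dg1 a3).sub (c1_dg1 a4))).sub
      (((c1_dS1 a1).sub (c1_dS1 a2)).mul ((c1_dg0 a3).sub (c1_dg0 a4)))).const_mul 2).add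
      ((hasDerivAt_id x).const_mul M)).congr_deriv (by simp; ring)
  have hb : ∀ x ∈ Ioo (0:ℝ) 1, |G x| ≤ 20 * (C + D) ^ 2 * √(min x (1 - x)) := fun x hx => by
    obtain ⟨a1, a2, a3⟩ := H t ⟨ht.1.le, ht.2⟩ x hx
    obtain ⟨b1, b2, b3⟩ := H' t ⟨ht.1.le, ht.2⟩ x hx
    obtain ⟨a3, a4⟩ := a3 ht.1
    obtain ⟨b3, b4⟩ := b3 ht.1
    have x0 := hx.1.le
    have f (n : ℕ) (p q P Q : ℝ) (h1 : x ^ n * |p| ≤ P) (h2 : x ^ n * |q| ≤ Q) :
        |x ^ n * (p - q)| ≤ P + Q := by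
      rw [abs_mul, abs_of_nonneg (pow_nonneg x0 n)]
      nlinarith [abs_sub p q, pow_nonneg x0 n]
    have c1 := f 0 _ _ C D (by simpa using a1) (by simpa using b1)
    have c2 := f 1 _ _ C D (by simpa using a2) (by simpa using b2)
    have c3 := f 7 _ _ _ _ a3 b3
    have c4 := f 8 _ _ _ _ a4 b4
    rw [← add_mul] at c3 c4
    rw [show G x = 16 * (x ^ 0 * (S0 (A.w t x) x - S0 (B.w t x) x) * (x ^ 7 * (A.v t x 0 - B.v t x 0))) +
      2 * (x ^ 0 * (S0 (A.w t x) x - S0 (B.w t x) x) * (x ^ 8 * (A.v t x 1 - B.v t x 1))) +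
      2 * -(x ^ 1 * (S1 (A.w t x) x - S1 (B.w t x) x) * (x ^ 7 * (A.v t x 0 - B.v t x 0))) by
        rw [hG]; ring]
    refine (c1_abs3 (by norm_num) (by norm_num) (by norm_num)).trans ?_
    rw [abs_neg, abs_mul (_ * _), abs_mul (_ * _), abs_mul (_ * _)]
    calc _ ≤ 16 * ((C + D) * ((C + D) * √(min x (1 - x)))) +
          2 * ((C + D) * ((C + D) * √(min x (1 - x)))) +
          2 * ((C + D) * ((C + D) * √(min x (1 - x)))) := by gcongr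
      _ = _ := by ring
  have h1 : e ≤ 1 - e := by linarith [he.2]
  have hc : ContinuousOn (fun x => 2 * (S0 (A.w t x) x - S0 (B.w t x) x) *
      (S0 (A.v t x) x - S0 (B.v t x) x) * x ^ 6) (Icc e (1 - e)) :=
    (((continuousOn_const.mul (((c1_cS0 A.cw).sub (c1_cS0 B.cw)).comp (f := fun x => (t, x))
      (by fun_prop) fun x hx => ⟨ht.1.le, hs hx⟩)).mul (((c1_cS0 A.cv).sub (c1_cS0 B.cv)).comp
        (f := fun x => (t, x)) (by fun_prop) fun x hx => ⟨ht.1, hs hx⟩))).mul (by fun_prop)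
  refine (intervalIntegral.integral_le_sub_of_hasDeriv_right_of_le h1
    (fun x hx => (hd x (hs hx)).continuousAt.continuousWithinAt)
    (fun x hx => (hd x (hs (Ioo_subset_Icc_self hx))).hasDerivWithinAt) hc.integrableOn_Icc
    fun x hx => ?_).trans ?_
  · have hx' := hs (Ioo_subset_Icc_self hx)
    have h2 := hR x hx'
    have h3 := pow_pos (A.pos t x ht.1.le hx') 2
    rw [A.pde t x ht.1 hx', B.pde t x ht.1 hx']
    generalize (1 - x * A.w t x 0) ^ 2 = a at h2 h3 ⊢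
    generalize (1 - x * B.w t x 0) ^ 2 = b at h2 ⊢
    have h4 := mul_nonneg (pow_pos hx'.1 8).le
      (sq_nonneg (2 * a * (S2 (A.w t x) x - S2 (B.w t x) x) + (a - b) * S2 (B.w t x) x))
    refine sub_nonneg.1 (nonneg_of_mul_nonneg_right (a := 2 * a) ?_ (by positivity))
    nlinarith
  have h2 := hb e (hs ⟨le_rfl, h1⟩)
  have h3 := hb (1 - e) (hs ⟨h1, le_rfl⟩)
  rw [min_eq_left h1] at h2
  rw [sub_sub_cancel, min_eq_right h1] at h3
  nlinarith [(abs_le.1 h2).1, (abs_le.1 h3).2, he.1]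

/-- the energy inequality -/
theorem c1_key (A B : Sol) {t1 t2 M : ℝ} (h1 : 0 ≤ t1) (h12 : t1 ≤ t2) (hM : 0 ≤ M)
    (hR : ∀ t ∈ Ioo t1 t2, ∀ x ∈ Ioo (0:ℝ) 1,
      x ^ 8 * ((1 - x * A.w t x 0) ^ 2 - (1 - x * B.w t x 0) ^ 2) ^ 2 * S2 (B.w t x) x ^ 2 ≤
        2 * M * (1 - x * A.w t x 0) ^ 2) : JJ A B t2 - JJ A B t1 ≤ M * (t2 - t1) := by
  obtain ⟨K, hK, H⟩ := c1_der A B t2
  have l (t : ℝ) (ht : 0 ≤ t) : Tendsto (fun e => ∫ x in e..1 - e,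
      (S0 (A.w t x) x - S0 (B.w t x) x) ^ 2 * x ^ 6) (𝓝[>] 0) (𝓝 (JJ A B t)) := by
    have hi := c1_iF A B ht
    have hc := intervalIntegral.continuousOn_primitive_interval' hi left_mem_uIcc
    rw [uIcc_of_le zero_le_one] at hc
    have m : ∀ᶠ e in 𝓝[>] (0:ℝ), e ∈ Icc (0:ℝ) 1 ∧ 1 - e ∈ Icc (0:ℝ) 1 := by
      filter_upwards [Ioo_mem_nhdsGT one_pos] with e he
      exact ⟨Ioo_subset_Icc_self he, by linarith [he.2], by linarith [he.1]⟩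
    have t0 : Tendsto (fun e : ℝ => e) (𝓝[>] 0) (𝓝[Icc 0 1] 0) :=
      tendsto_nhdsWithin_iff.2 ⟨tendsto_id.mono_left nhdsWithin_le_nhds, m.mono fun _ h => h.1⟩
    have t1 : Tendsto (fun e : ℝ => 1 - e) (𝓝[>] 0) (𝓝[Icc 0 1] 1) :=
      tendsto_nhdsWithin_iff.2 ⟨((continuous_sub_left 1).tendsto' 0 1 (sub_zero 1)).mono_left
        nhdsWithin_le_nhds, m.mono fun _ h => h.2⟩
    have h := ((hc 1 ⟨zero_le_one, le_rfl⟩).tendsto.comp t1).sub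
      ((hc 0 ⟨le_rfl, zero_le_one⟩).tendsto.comp t0)
    rw [intervalIntegral.integral_same, sub_zero] at h
    refine h.congr' (m.mono fun e he => intervalIntegral.integral_interval_sub_left
      (hi.mono_set ?_) (hi.mono_set ?_))
    exacts [uIcc_subset_uIcc_left (Icc_subset_uIcc he.2), uIcc_subset_uIcc_left (Icc_subset_uIcc he.1)]
  have l2 : Tendsto (fun e : ℝ => (M + K * √e) * (t2 - t1)) (𝓝[>] 0) (𝓝 (M * (t2 - t1))) :=
    (Continuous.tendsto' (by fun_prop) 0 _ (by simp)).mono_left nhdsWithin_le_nhds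
  refine le_of_tendsto_of_tendsto ((l t2 (h1.trans h12)).sub (l t1 h1)) l2 ?_
  filter_upwards [Ioc_mem_nhdsGT (show (0:ℝ) < 1 / 2 by norm_num)] with e he
  have h3 : e ≤ 1 - e := by linarith [he.2]
  have hs : Icc e (1 - e) ⊆ Ioo 0 1 := fun x hx => ⟨he.1.trans_le hx.1, by linarith [hx.2, he.1]⟩
  have hd : ∀ t, 0 < t → HasDerivAt (fun t => ∫ x in e..1 - e,
      (S0 (A.w t x) x - S0 (B.w t x) x) ^ 2 * x ^ 6) (∫ x in e..1 - e, 2 * (S0 (A.w t x) x -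
        S0 (B.w t x) x) * (S0 (A.v t x) x - S0 (B.v t x) x) * x ^ 6) t := fun t ht => by
    have m : Ioi (0:ℝ) ×ˢ Icc e (1 - e) ⊆ Ici 0 ×ˢ Ioo 0 1 := prod_mono Ioi_subset_Ici_self hs
    refine c1_dint (F' := fun t x => 2 * (S0 (A.w t x) x - S0 (B.w t x) x) *
      (S0 (A.v t x) x - S0 (B.v t x) x) * x ^ 6) h3 ht ((c1_cF A B).mono m) (((continuousOn_const.mul
      (((c1_cS0 A.cw).sub (c1_cS0 B.cw)).mono m)).mul (((c1_cS0 A.cv).sub (c1_cS0 B.cv)).mono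
        (prod_mono Subset.rfl hs))).mul (continuous_snd.pow 6).continuousOn) fun τ hτ x hx => ?_
    have d (A : Sol) : HasDerivAt (fun τ => S0 (A.w τ x) x) (S0 (A.v τ x) x) τ :=
      (((A.dt 2 τ x hτ (hs hx)).const_mul _).add ((A.dt 1 τ x hτ (hs hx)).const_mul _)).add
        ((A.dt 0 τ x hτ (hs hx)).const_mul _)
    exact ((((d A).sub (d B)).pow 2).mul_const _).congr_deriv (by simp)
  have hc : ContinuousOn (fun t => ∫ x in e..1 - e, (S0 (A.w t x) x - S0 (B.w t x) x) ^ 2 * x ^ 6)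
      (Icc t1 t2) := by
    obtain ⟨C, hC⟩ := c1_bF A B t2
    have hu : uIoc e (1 - e) ⊆ Ioo 0 1 := by rw [uIoc_of_le h3]; exact Ioc_subset_Icc_self.trans hs
    exact fun t ht => intervalIntegral.continuousWithinAt_of_dominated_interval (bound := fun _ => C)
      (eventually_mem_nhdsWithin.mono fun τ h =>
        ((c1_cF1 A B (h1.trans h.1)).mono hu).aestronglyMeasurable measurableSet_uIoc)
      (eventually_mem_nhdsWithin.mono fun τ h => Eventually.of_forall fun x hx =>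
        hC τ ⟨h1.trans h.1, h.2⟩ x (hu hx)) intervalIntegrable_const
      (Eventually.of_forall fun x hx => ((c1_cF A B).comp (f := fun t => (t, x)) (by fun_prop)
        fun t ht => ⟨h1.trans ht.1, hu hx⟩) t ht)
  refine (convex_Icc t1 t2).image_sub_le_mul_sub_of_deriv_le hc (fun t ht => ?_) (fun t ht => ?_)
    t1 ⟨le_rfl, h12⟩ t2 ⟨h12, le_rfl⟩ h12
  all_goals rw [interior_Icc] at ht
  · exact (hd t (h1.trans_lt ht.1)).differentiableAt.differentiableWithinAt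
  · rw [(hd t (h1.trans_lt ht.1)).deriv]
    exact H t ⟨h1.trans_lt ht.1, ht.2.le⟩ e he M hM (hR t ht)

/-- pointwise consequences of the energy bound -/
theorem c1_pt (A B : Sol) {t x : ℝ} (ht : 0 ≤ t) (hx : x ∈ Ioo (0:ℝ) 1) :
    (8 * x ^ 7 * (A.w t x 0 - B.w t x 0) + x ^ 8 * (A.w t x 1 - B.w t x 1)) ^ 2 ≤ JJ A B t ∧
    (x ^ 8 * (A.w t x 0 - B.w t x 0)) ^ 2 ≤ x ^ 9 * JJ A B t ∧
    (x ^ 8 * (A.w t x 0 - B.w t x 0)) ^ 2 ≤ (1 - x) ^ 3 * JJ A B t := by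
  obtain ⟨u, hu⟩ : ∃ u : ℝ → ℕ → ℝ, ∀ y k, u y k = A.w t y k - B.w t y k := ⟨_, fun _ _ => rfl⟩
  have du : ∀ y ∈ Ioo (0:ℝ) 1, ∀ k, HasDerivAt (fun y => u y k) (u y (k + 1)) y := fun y hy k => by
    simp only [hu]
    exact (A.dx k t y ht hy).sub (B.dx k t y ht hy)
  have J0 := c1_J0 A B t
  have cs : ∀ a b : ℝ, 0 < a → a ≤ b → b < 1 → ((8 * b ^ 7 * u b 0 + b ^ 8 * u b 1) -
      (8 * a ^ 7 * u a 0 + a ^ 8 * u a 1)) ^ 2 ≤ (b - a) * (b ^ 6 * JJ A B t) := by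
    intro a b ha hab hb
    have hs : Icc a b ⊆ Ioo 0 1 := fun y hy => ⟨ha.trans_le hy.1, hy.2.trans_lt hb⟩
    have hc : ContinuousOn (fun y => y ^ 6 * S0 (u y) y) (Icc a b) := fun y hy =>
      ((hasDerivAt_pow 6 y).mul (c1_dS0 (du y (hs hy)))).continuousAt.continuousWithinAt
    rw [← intervalIntegral.integral_eq_sub_of_hasDerivAt
      (f := fun y => 8 * y ^ 7 * u y 0 + y ^ 8 * u y 1)
      (fun y hy => c1_dg1 (du y (hs (uIcc_of_le hab ▸ hy)))) (hc.intervalIntegrable_of_Icc hab)]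
    refine (c1_cs hab hc).trans (mul_le_mul_of_nonneg_left (le_trans ?_ (mul_le_mul_of_nonneg_left
      (c1_sub A B ht ha.le hab hb.le) (pow_nonneg (ha.le.trans hab) 6))) (sub_nonneg.2 hab))
    rw [← intervalIntegral.integral_const_mul]
    refine intervalIntegral.integral_mono_on hab ((hc.pow 2).intervalIntegrable_of_Icc hab)
      ((((c1_cF1 A B ht).mono hs).intervalIntegrable_of_Icc hab).const_mul _) fun y hy => ?_
    have y0 := (hs hy).1.le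
    rw [show (y ^ 6 * S0 (u y) y) ^ 2 = y ^ 6 * ((S0 (A.w t y) y - S0 (B.w t y) y) ^ 2 * y ^ 6) by
      simp only [S0, hu]; ring]
    gcongr
    exact hy.2
  have lim : ∀ (l : Filter ℝ) (g : ℝ → ℝ) (C : ℝ) (r : ℝ → ℝ), Tendsto r l (𝓝 0) →
      (∀ᶠ y in l, |g y| ≤ C * r y) → Tendsto g l (𝓝 0) := fun l g C r hr h =>
    squeeze_zero_norm' h (by simpa using hr.const_mul C)
  have ab : ∀ y, 0 < y → y < 1 → ∀ P Q, y * |u y 0| ≤ P → y * |u y 1| ≤ Q → |y ^ 8 * u y 0| ≤ P ∧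
      |8 * y ^ 7 * u y 0 + y ^ 8 * u y 1| ≤ y * (8 * P / y ^ 2 * y ^ 7 + Q) := by
    intro y y0 y1 P Q hP hQ
    have q (n : ℕ) : y ^ n ≤ 1 := pow_le_one₀ y0.le y1.le
    constructor
    · calc _ = y ^ 7 * (y * |u y 0|) := by rw [abs_mul, abs_of_pos (pow_pos y0 8)]; ring
        _ ≤ 1 * P := by gcongr; exact q 7
        _ = P := one_mul _
    · calc _ ≤ 8 * y ^ 6 * (y * |u y 0|) + y * y ^ 6 * (y * |u y 1|) := (abs_add_le _ _).trans_eq (by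
            rw [abs_mul, abs_mul (y ^ 8), abs_of_pos (pow_pos y0 8), abs_of_pos (by positivity)]
            ring)
        _ ≤ 8 * y ^ 6 * P + y * 1 * Q := by gcongr; exact q 6
        _ = _ := by field_simp
  obtain ⟨C, hC, H⟩ := c1_b0 A t
  obtain ⟨C', hC', H'⟩ := c1_b0 B t
  obtain ⟨D, c, -, G⟩ := A.b1 t
  obtain ⟨D', c', -, G'⟩ := B.b1 t
  have t0 : t ∈ Icc 0 t := ⟨ht, le_rfl⟩
  have z0 : ∀ᶠ y in 𝓝[>] (0:ℝ), |y ^ 8 * u y 0| ≤ (C + C') * y ∧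
      |8 * y ^ 7 * u y 0 + y ^ 8 * u y 1| ≤ 9 * (C + C') * y := by
    filter_upwards [Ioc_mem_nhdsGT (show (0:ℝ) < 1 / 2 by norm_num)] with y hy
    have y1 : y < 1 := by linarith [hy.2]
    have y0 := hy.1
    obtain ⟨a1, a2⟩ := ab y y0 y1 ((C + C') * y) (C + C') (by
      rw [mul_comm, hu]
      exact mul_le_mul_of_nonneg_right ((abs_sub _ _).trans
        (add_le_add (H t t0 y hy).1 (H' t t0 y hy).1)) y0.le) (by
      rw [hu]
      nlinarith [abs_sub (A.w t y 1) (B.w t y 1), (H t t0 y hy).2.1, (H' t t0 y hy).2.1])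
    refine ⟨a1, a2.trans ?_⟩
    rw [show 8 * ((C + C') * y) / y ^ 2 * y ^ 7 = 8 * (C + C') * y ^ 6 by field_simp, mul_comm]
    gcongr
    nlinarith [pow_le_one₀ (n := 6) y0.le y1.le]
  have z1 : ∀ᶠ y in 𝓝[<] (1:ℝ), |y ^ 8 * u y 0| ≤ (D + D') * √(1 - y) ∧
      |8 * y ^ 7 * u y 0 + y ^ 8 * u y 1| ≤ 9 * (D + D') * √(1 - y) := by
    filter_upwards [Ico_mem_nhdsLT (show (1 / 2 : ℝ) < 1 by norm_num)] with y hy
    have y0 : 0 < y := by linarith [hy.1]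
    obtain ⟨-, b1, b2, b3, -⟩ := G t t0 y hy
    obtain ⟨-, e1, e2, e3, -⟩ := G' t t0 y hy
    have D0 := (abs_nonneg _).trans b3
    have D1 := (abs_nonneg _).trans e3
    have r0 := Real.sqrt_nonneg (1 - y)
    have r1 : 1 - y ≤ √(1 - y) := Real.le_sqrt_of_sq_le (by nlinarith [hy.2])
    obtain ⟨a1, a2⟩ := ab y y0 hy.2 ((D + D') * √(1 - y)) ((D + D') * √(1 - y)) (by
      rw [show y * |u y 0| = |y * u y 0| by rw [abs_mul, abs_of_pos y0], hu, abs_le]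
      constructor <;> nlinarith [A.pos t y ht ⟨y0, hy.2⟩, B.pos t y ht ⟨y0, hy.2⟩, hy.2]) (by
      rw [hu]
      nlinarith [abs_sub (A.w t y 1) (B.w t y 1), abs_nonneg (A.w t y 1 - B.w t y 1), hy.2])
    refine ⟨a1, a2.trans ?_⟩
    have p : 0 ≤ (D + D') * √(1 - y) := by positivity
    rw [mul_assoc 9]
    generalize (D + D') * √(1 - y) = P at p
    rw [show y * (8 * P / y ^ 2 * y ^ 7 + P) = P * (8 * y ^ 6 + y) by field_simp, mul_comm]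
    gcongr
    linarith [pow_le_one₀ (n := 6) y0.le hy.2.le, hy.2]
  have i0 : Tendsto (fun y : ℝ => y) (𝓝[>] 0) (𝓝 0) := tendsto_id.mono_left nhdsWithin_le_nhds
  have i1 : Tendsto (fun y : ℝ => √(1 - y)) (𝓝[<] 1) (𝓝 0) :=
    (Continuous.tendsto' (by fun_prop) 1 0 (by simp)).mono_left nhdsWithin_le_nhds
  have k0 : ∀ y ∈ Ioo (0:ℝ) 1, (8 * y ^ 7 * u y 0 + y ^ 8 * u y 1) ^ 2 ≤ y ^ 7 * JJ A B t := by
    intro y hy
    have h := (((lim _ _ _ _ i0 (z0.mono fun _ h => h.2)).const_sub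
      (8 * y ^ 7 * u y 0 + y ^ 8 * u y 1)).pow 2)
    rw [sub_zero] at h
    refine le_of_tendsto h (mem_of_superset (Ioo_mem_nhdsGT hy.1) fun a ha => (cs a y ha.1 ha.2.le hy.2).trans ?_)
    nlinarith [mul_nonneg ha.1.le (mul_nonneg (pow_pos hy.1 6).le J0)]
  have k1 : ∀ y ∈ Ioo (0:ℝ) 1, (8 * y ^ 7 * u y 0 + y ^ 8 * u y 1) ^ 2 ≤ (1 - y) * JJ A B t := by
    intro y hy
    have h := (((lim _ _ _ _ i1 (z1.mono fun _ h => h.2)).sub_const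
      (8 * y ^ 7 * u y 0 + y ^ 8 * u y 1)).pow 2)
    rw [zero_sub, neg_sq] at h
    refine le_of_tendsto h (mem_of_superset (Ioo_mem_nhdsLT hy.2) fun b hb => (cs y b hy.1 hb.1.le hb.2).trans ?_)
    have b0 := hy.1.trans hb.1
    have := mul_le_of_le_one_left J0 (pow_le_one₀ (n := 6) b0.le hb.2.le)
    exact mul_le_mul (by linarith [hb.2]) this (by positivity) (by linarith [hy.2])
  simp only [← hu]
  refine ⟨(k0 x hx).trans (mul_le_of_le_one_left J0 (pow_le_one₀ hx.1.le hx.2.le)), ?_, ?_⟩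
  · have h := (((lim _ _ _ _ i0 (z0.mono fun _ h => h.1)).const_sub (x ^ 8 * u x 0)).pow 2)
    rw [sub_zero] at h
    refine le_of_tendsto h (mem_of_superset (Ioo_mem_nhdsGT hx.1) fun a ha => (c1_mv ha.2 (K := x ^ 7 * JJ A B t)
      (fun y hy => c1_dg0 (du y ⟨ha.1.trans_le hy.1, hy.2.trans_lt hx.2⟩)) fun y hy =>
        (k0 y ⟨ha.1.trans_le hy.1, hy.2.trans_lt hx.2⟩).trans (by
          have := ha.1.le.trans hy.1
          gcongr; exact hy.2)).trans ?_)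
    rw [show x ^ 9 * JJ A B t = x ^ 2 * (x ^ 7 * JJ A B t) by ring]
    have := hx.1
    gcongr
    exacts [sub_nonneg.2 ha.2.le, sub_le_self _ ha.1.le]
  · have h := (((lim _ _ _ _ i1 (z1.mono fun _ h => h.1)).sub_const (x ^ 8 * u x 0)).pow 2)
    rw [zero_sub, neg_sq] at h
    refine le_of_tendsto h (mem_of_superset (Ioo_mem_nhdsLT hx.2) fun b hb => (c1_mv hb.1
      (K := (1 - x) * JJ A B t)
      (fun y hy => c1_dg0 (du y ⟨hx.1.trans_le hy.1, hy.2.trans_lt hb.2⟩)) fun y hy =>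
        (k1 y ⟨hx.1.trans_le hy.1, hy.2.trans_lt hb.2⟩).trans (by gcongr; exact hy.1)).trans ?_)
    rw [show (1 - x) ^ 3 * JJ A B t = (1 - x) ^ 2 * ((1 - x) * JJ A B t) by ring]
    have := sub_pos.2 hx.2
    gcongr
    exacts [sub_nonneg.2 hb.1.le, hb.2.le]

/-- the Fubini-Study solution -/
noncomputable def c1_FS : Sol where
  w _ _ k := if k = 0 then 1 else 0
  v _ _ _ := 0
  dx k t x _ _ := by simpa using hasDerivAt_const x _
  dt k t x _ _ := hasDerivAt_const t _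
  dv k t x _ _ := hasDerivAt_const x _
  cw _ := continuousOn_const
  cv _ := continuousOn_const
  pde t x _ _ := by simp [S2]
  pos t x _ hx := by simpa using hx.2
  b0 T := ⟨1, fun t _ x _ => ⟨by simp, fun k h _ => by simp [show k ≠ 0 by omega]⟩⟩
  b1 T := ⟨56, 1, one_pos, fun t _ x hx => by
    simp [S0, S1, S2, S3]
    linarith [hx.2]⟩

theorem c1_ca (A : Sol) (t : ℝ) : Ca A t = JJ A c1_FS t := by simp [Ca, JJ, c1_FS, S0]

theorem c1_ca_anti (A : Sol) {t : ℝ} (ht : 0 ≤ t) : Ca A t ≤ Ca A 0 := by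
  have h := c1_key A c1_FS le_rfl ht le_rfl fun t _ x _ => by simp [c1_FS, S2]
  rw [c1_ca, c1_ca]
  linarith

/-- (a): bounds on `[1/4, 1/2]` in terms of the initial Calabi energy -/
theorem c1_a (E : ℝ) : ∃ C : ℝ, 1 ≤ C ∧ ∀ A : Sol, Ca A 0 ≤ E → ∀ t, 0 ≤ t →
    (∀ x ∈ Icc (1 / 4 : ℝ) (1 / 2), |A.w t x 0| ≤ C ∧ |A.w t x 1| ≤ C) ∧
      ∫ x in (1 / 4 : ℝ)..(1 / 2), A.w t x 2 ^ 2 ≤ C := by
  refine ⟨2 + 10 ^ 30 * |E|, by linarith [abs_nonneg E], fun A hA t ht => ?_⟩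
  have hJ : JJ A c1_FS t ≤ |E| := (c1_ca A t).ge.trans ((c1_ca_anti A ht).trans
    (hA.trans (le_abs_self E)))
  have J0 := c1_J0 A c1_FS t
  have hs : Icc (1 / 4 : ℝ) (1 / 2) ⊆ Ioo 0 1 := fun x hx => ⟨by linarith [hx.1], by linarith [hx.2]⟩
  have h : ∀ x ∈ Icc (1 / 4 : ℝ) (1 / 2), (A.w t x 0 - 1) ^ 2 ≤ 4 ^ 16 * |E| ∧
      A.w t x 1 ^ 2 ≤ 10 ^ 22 * |E| := fun x hx => by
    obtain ⟨h1, h2, -⟩ := c1_pt A c1_FS ht (hs hx)
    simp only [c1_FS, if_true, one_ne_zero, if_false, sub_zero] at h1 h2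
    have x0 := (hs hx).1.le
    have q (n : ℕ) : x ^ n ≤ 1 := pow_le_one₀ x0 (hs hx).2.le
    have h3 : (1 / 4) ^ 16 ≤ (x ^ 8) ^ 2 := by rw [← pow_mul]; gcongr; exact hx.1
    have h4 := h2.trans ((mul_le_of_le_one_left J0 (q 9)).trans hJ)
    have h5 : (A.w t x 0 - 1) ^ 2 ≤ 4 ^ 16 * |E| := by
      nlinarith [mul_le_mul_of_nonneg_right h3 (sq_nonneg (A.w t x 0 - 1))]
    have h6 : (x ^ 7 * (A.w t x 0 - 1)) ^ 2 ≤ 4 ^ 16 * |E| := by
      rw [mul_pow, ← pow_mul]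
      exact (mul_le_of_le_one_left (sq_nonneg _) (q _)).trans h5
    have h7 : (x ^ 8 * A.w t x 1) ^ 2 ≤ 2 * |E| + 128 * (4 ^ 16 * |E|) := by
      nlinarith [sq_nonneg (16 * x ^ 7 * (A.w t x 0 - 1) + x ^ 8 * A.w t x 1), h1.trans hJ]
    exact ⟨h5, by nlinarith [mul_le_mul_of_nonneg_right h3 (sq_nonneg (A.w t x 1)), abs_nonneg E]⟩
  refine ⟨fun x hx => ⟨abs_le.2 ⟨?_, ?_⟩, abs_le.2 ⟨?_, ?_⟩⟩, ?_⟩
  · nlinarith [(h x hx).1, abs_nonneg E, sq_nonneg (A.w t x 0)]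
  · nlinarith [(h x hx).1, abs_nonneg E, sq_nonneg (A.w t x 0 - 2)]
  · nlinarith [(h x hx).2, abs_nonneg E, sq_nonneg (A.w t x 1 + 1)]
  · nlinarith [(h x hx).2, abs_nonneg E, sq_nonneg (A.w t x 1 - 1)]
  have h0 : (1 / 4 : ℝ) ≤ 1 / 2 := by norm_num
  have i1 := ((c1_cF1 A c1_FS ht).mono hs).intervalIntegrable_of_Icc (μ := volume) h0
  have i2 : ContinuousOn (fun x => A.w t x 2) (Icc (1 / 4) (1 / 2)) := fun x hx =>
    (A.dx 2 t x ht (hs hx)).continuousAt.continuousWithinAt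
  have h1 := intervalIntegral.integral_mono_on h0 ((i2.pow 2).intervalIntegrable_of_Icc h0)
    ((i1.const_mul (3 * 4 ^ 10)).add (intervalIntegrable_const (c := 10 ^ 28 * |E|))) fun x hx => by
      obtain ⟨a1, a2⟩ := h x hx
      have x0 := (hs hx).1.le
      have b1 : (1 / 4) ^ 4 ≤ (x ^ 2) ^ 2 := by rw [← pow_mul]; gcongr; exact hx.1
      have b2 : (1 / 4) ^ 6 ≤ x ^ 6 := by gcongr; exact hx.1
      have b3 : (x * A.w t x 1) ^ 2 ≤ 10 ^ 22 * |E| := by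
        rw [mul_pow]
        exact (mul_le_of_le_one_left (sq_nonneg _) (pow_le_one₀ x0 (hs hx).2.le)).trans a2
      have e : x ^ 2 * A.w t x 2 = (S0 (A.w t x) x - S0 (c1_FS.w t x) x) - 16 * (x * A.w t x 1) -
          56 * (A.w t x 0 - 1) := by simp [c1_FS, S0]; ring
      generalize S0 (A.w t x) x - S0 (c1_FS.w t x) x = σ at e ⊢
      have b4 : (x ^ 2 * A.w t x 2) ^ 2 ≤ 3 * σ ^ 2 + 3 * 256 * (x * A.w t x 1) ^ 2 +
          3 * 56 ^ 2 * (A.w t x 0 - 1) ^ 2 := by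
        rw [e]
        nlinarith [sq_nonneg (σ + 16 * (x * A.w t x 1)), sq_nonneg (σ + 56 * (A.w t x 0 - 1)),
          sq_nonneg (16 * (x * A.w t x 1) - 56 * (A.w t x 0 - 1))]
      simp only [Pi.pow_apply]
      nlinarith [mul_le_mul_of_nonneg_right b1 (sq_nonneg (A.w t x 2)), abs_nonneg E,
        mul_le_mul_of_nonneg_left b2 (sq_nonneg σ)]
  rw [intervalIntegral.integral_add (i1.const_mul _) intervalIntegrable_const,
    intervalIntegral.integral_const_mul, intervalIntegral.integral_const, smul_eq_mul] at h1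
  refine le_trans h1 ?_
  nlinarith [(c1_sub A c1_FS ht (by norm_num) h0 (by norm_num)).trans hJ, abs_nonneg E]

/-- bounds for the reference solution -/
theorem c1_ref (B : Sol) (T : ℝ) : ∃ C c : ℝ, 0 < C ∧ 0 < c ∧ ∀ t ∈ Icc (0:ℝ) T,
    (∀ x ∈ Ioc (0:ℝ) (1 / 4), 1 - x * B.w t x 0 ≤ C ∧ x ^ 3 * S2 (B.w t x) x ^ 2 ≤ C) ∧
    ∀ x ∈ Ico (1 / 4 : ℝ) 1, c * (1 - x) ≤ 1 - x * B.w t x 0 ∧
      (1 - x) * S2 (B.w t x) x ^ 2 ≤ C := by
  obtain ⟨C, hC, H⟩ := c1_b0 B T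
  obtain ⟨D, c, c0, G⟩ := B.b1 T
  have hs : Icc 0 T ×ˢ Icc (1 / 4 : ℝ) (1 / 2) ⊆ Ici 0 ×ˢ Ioo 0 1 := fun p hp =>
    ⟨hp.1.1, by linarith [hp.2.1], by linarith [hp.2.2]⟩
  obtain ⟨m, m0, hm⟩ := (isCompact_Icc.prod isCompact_Icc).exists_forall_le' (a := 0)
    (f := fun p : ℝ × ℝ => 1 - p.2 * B.w p.1 p.2 0)
    (continuousOn_const.sub (continuousOn_snd.mul ((B.cw 0).mono hs)))
    fun p hp => B.pos _ _ (hs hp).1 (hs hp).2
  have h3 : ∀ t ∈ Icc (0:ℝ) T, ∀ x ∈ Ioc (0:ℝ) (1 / 2), x ^ 3 * S2 (B.w t x) x ^ 2 ≤ C ^ 2 := by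
    intro t ht x hx
    have x0 := hx.1
    have h := pow_le_pow_left₀ (by positivity) (H t ht x hx).2.2.2.2.2.1 2
    rw [mul_pow, mul_pow, sq_abs, Real.sq_sqrt x0.le] at h
    exact le_of_mul_le_mul_right (by linarith) x0
  refine ⟨64 * C ^ 2 + D ^ 2, min m c, by positivity, lt_min m0 c0, fun t ht => ⟨fun x hx => ?_,
    fun x hx => ?_⟩⟩
  · have hx' : x ∈ Ioc (0:ℝ) (1 / 2) := ⟨hx.1, by linarith [hx.2]⟩
    exact ⟨by nlinarith [(abs_le.1 (H t ht x hx').2.2.1).2, sq_nonneg D],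
      by nlinarith [h3 t ht x hx', sq_nonneg D]⟩
  have x0 : 0 < x := by linarith [hx.1]
  rcases le_total x (1 / 2) with h | h
  · have b : (1 / 4) ^ 3 ≤ x ^ 3 := by gcongr; exact hx.1
    refine ⟨le_trans ?_ (hm (t, x) ⟨ht, hx.1, h⟩), ?_⟩
    · nlinarith [min_le_left m c, lt_min m0 c0, hx.2]
    · nlinarith [h3 t ht x ⟨x0, h⟩, sq_nonneg D, mul_nonneg x0.le (sq_nonneg (S2 (B.w t x) x)),
        mul_le_mul_of_nonneg_right b (sq_nonneg (S2 (B.w t x) x))]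
  obtain ⟨b1, -, -, -, -, b2, -⟩ := G t ht x ⟨h, hx.2⟩
  have b3 := pow_le_pow_left₀ (by positivity) b2 2
  rw [mul_pow, sq_abs, Real.sq_sqrt (sub_nonneg.2 hx.2.le)] at b3
  exact ⟨le_trans (mul_le_mul_of_nonneg_right (min_le_right _ _) (sub_nonneg.2 hx.2.le)) b1,
    by nlinarith [sq_nonneg C]⟩

theorem c1_R (B : Sol) (T : ℝ) : ∃ K δ : ℝ, 0 ≤ K ∧ 0 < δ ∧ ∀ A : Sol, ∀ t ∈ Icc (0:ℝ) T,
    JJ A B t ≤ δ → (∀ x ∈ Ioc (0:ℝ) (1 / 4), 1 / 40 ≤ 1 - x * A.w t x 0) → ∀ x ∈ Ioo (0:ℝ) 1,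
      x ^ 8 * ((1 - x * A.w t x 0) ^ 2 - (1 - x * B.w t x 0) ^ 2) ^ 2 * S2 (B.w t x) x ^ 2 ≤
        2 * (K * JJ A B t) * (1 - x * A.w t x 0) ^ 2 := by
  obtain ⟨C, c, C0, c0, H⟩ := c1_ref B T
  refine ⟨(1 + 40 * C) ^ 2 * C + 9 * 4 ^ 14 * C, c ^ 2 / 4 ^ 15, by positivity, by positivity,
    fun A t ht hJ hA x hx => ?_⟩
  obtain ⟨-, p1, p2⟩ := c1_pt A B ht.1 hx
  have J0 := c1_J0 A B t
  have a0 := A.pos t x ht.1 hx
  have b0 := B.pos t x ht.1 hx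
  have x0 := hx.1
  have x1 := sub_pos.2 hx.2
  rw [show x ^ 8 * (A.w t x 0 - B.w t x 0) = x ^ 7 * ((1 - x * B.w t x 0) - (1 - x * A.w t x 0)) by
    ring] at p1 p2
  have hA' := hA x
  have H1 := (H t ht).1 x
  have H2 := (H t ht).2 x
  generalize 1 - x * A.w t x 0 = a at *
  generalize 1 - x * B.w t x 0 = b at *
  generalize S2 (B.w t x) x ^ 2 = s at *
  generalize JJ A B t = J at *
  rcases le_total x (1 / 4) with h | h
  · obtain ⟨h1, h2⟩ := H1 ⟨x0, h⟩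
    have h3 := hA' ⟨x0, h⟩
    have h4 : x ^ 5 * (b - a) ^ 2 ≤ J := le_of_mul_le_mul_left (by linarith) (pow_pos x0 9)
    have h5 : a + b ≤ (1 + 40 * C) * a := by nlinarith
    calc _ = x ^ 5 * (b - a) ^ 2 * (a + b) ^ 2 * (x ^ 3 * s) := by ring
      _ ≤ J * ((1 + 40 * C) * a) ^ 2 * C :=
          (mul_le_mul_of_nonneg_left h2 (by positivity)).trans (by gcongr)
      _ ≤ _ := by
          have : 0 ≤ J * a ^ 2 * C := by positivity
          nlinarith [mul_nonneg this (sq_nonneg (1 + 40 * C))]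
  obtain ⟨h1, h2⟩ := H2 ⟨h, hx.2⟩
  have h3 : (1 / 4) ^ 14 ≤ (x ^ 7) ^ 2 := by rw [← pow_mul]; gcongr
  have h4 : (b - a) ^ 2 ≤ 4 ^ 14 * ((1 - x) ^ 3 * J) := by
    nlinarith [mul_le_mul_of_nonneg_right h3 (sq_nonneg (b - a))]
  have h5 : (1 - x) ^ 3 * J ≤ (1 - x) * J ∧ (1 - x) ^ 3 * J ≤ (1 - x) ^ 2 * (c ^ 2 / 4 ^ 15) :=
    ⟨mul_le_mul_of_nonneg_right (pow_le_of_le_one x1.le (by linarith) (by norm_num)) J0,
      mul_le_mul (pow_le_pow_of_le_one x1.le (by linarith) (by norm_num)) hJ J0 (by positivity)⟩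
  have h6 : b - a ≤ c * (1 - x) / 2 := by
    refine abs_le_of_sq_le_sq' ?_ (by positivity) |>.2
    nlinarith [h5.2]
  calc _ = x ^ 8 * (b - a) ^ 2 * (a + b) ^ 2 * s := by ring
    _ ≤ 1 * (4 ^ 14 * ((1 - x) * J)) * (3 * a) ^ 2 * max s 0 := by
        refine (mul_le_mul_of_nonneg_left (le_max_left s 0) (by positivity)).trans ?_
        gcongr
        exacts [pow_le_one₀ x0.le hx.2.le, h4.trans (by linarith [h5.1]), by linarith]
    _ = 9 * 4 ^ 14 * J * a ^ 2 * ((1 - x) * max s 0) := by ring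
    _ ≤ 9 * 4 ^ 14 * J * a ^ 2 * C := by
        gcongr
        rw [mul_max_of_nonneg _ _ x1.le, mul_zero]
        exact max_le h2 C0.le
    _ ≤ _ := by
        have : 0 ≤ J * a ^ 2 * C := by positivity
        nlinarith [mul_nonneg this (sq_nonneg (1 + 40 * C))]

theorem c1_gron (B : Sol) (T : ℝ) : ∃ K δ : ℝ, 0 < K ∧ 0 < δ ∧ ∀ A : Sol, JJ A B 0 ≤ δ →
    ∀ t' ∈ Icc 0 T, (∀ t ∈ Icc 0 t', ∀ x ∈ Ioc (0:ℝ) (1 / 4), 1 / 40 ≤ 1 - x * A.w t x 0) →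
      ∀ t ∈ Icc 0 t', JJ A B t ≤ K * JJ A B 0 := by
  obtain ⟨K, δ, K0, δ0, H⟩ := c1_R B T
  refine ⟨Real.exp (K * T), δ / 2 / Real.exp (K * T), Real.exp_pos _, by positivity,
    fun A hA t' ht' hy t ht => ?_⟩
  have hc := c1_cJ A B t'
  have J0 := c1_J0 A B
  have h := le_gronwallBound_of_liminf_deriv_right_le (f := fun t => min (JJ A B t) δ)
    (f' := fun t => K * min (JJ A B t) δ) (δ := JJ A B 0) (K := K) (ε := 0)
    (hc.inf continuousOn_const) (fun τ hτ r hr => Eventually.frequently ?_) (min_le_left _ _)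
    (fun τ _ => by simp) t ht
  · rw [gronwallBound_ε0, sub_zero] at h
    have h1 : JJ A B 0 * Real.exp (K * t) ≤ Real.exp (K * T) * JJ A B 0 := by
      rw [mul_comm]
      have := J0 0
      gcongr
      exact ht.2.trans ht'.2
    rw [le_div_iff₀ (Real.exp_pos _), mul_comm] at hA
    rcases min_le_iff.1 (h.trans h1) with h2 | h2
    · exact h2
    · linarith
  rcases le_or_gt δ (JJ A B τ) with h1 | h1
  · filter_upwards [self_mem_nhdsWithin] with z hz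
    rw [min_eq_right h1] at hr ⊢
    exact (mul_nonpos_of_nonneg_of_nonpos (inv_nonneg.2 (sub_nonneg.2 (le_of_lt hz)))
      (sub_nonpos.2 (min_le_right _ _))).trans_lt ((mul_nonneg K0 δ0.le).trans_lt hr)
  rw [min_eq_left h1.le] at hr ⊢
  have h2 : ContinuousWithinAt (JJ A B) (Ioi τ) τ := (hc τ (Ico_subset_Icc_self hτ)).mono_of_mem_nhdsWithin
    (mem_of_superset (Ioo_mem_nhdsGT hτ.2) fun z hz => ⟨hτ.1.trans hz.1.le, hz.2.le⟩)
  obtain ⟨r', r1, r2⟩ := exists_between hr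
  obtain ⟨u, hu, h3⟩ := mem_nhdsGT_iff_exists_Ioo_subset.1 ((h2.eventually (gt_mem_nhds h1)).and
    ((h2.const_mul K).eventually (gt_mem_nhds r1)))
  filter_upwards [Ioo_mem_nhdsGT hu, Ioo_mem_nhdsGT hτ.2] with z hz hz'
  have h4 := c1_key A B hτ.1 hz.1.le (M := r') ((mul_nonneg K0 (J0 τ)).trans r1.le) fun σ hσ x hx => by
    have h5 := h3 ⟨hσ.1, hσ.2.trans hz.2⟩
    have h6 : σ ∈ Icc 0 t' := ⟨hτ.1.trans hσ.1.le, (hσ.2.trans hz'.2).le⟩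
    refine (H A σ ⟨h6.1, h6.2.trans ht'.2⟩ h5.1.le (hy σ h6) x hx).trans ?_
    gcongr
    exact h5.2.le
  rw [inv_mul_lt_iff₀ (sub_pos.2 hz.1)]
  nlinarith [min_le_left (JJ A B z) δ, sub_pos.2 hz.1]

/-- (b): stability -/
theorem c1_b (B : Sol) (T e ε : ℝ) (he : 0 < e) (hε : 0 < ε) : ∃ δ : ℝ, 0 < δ ∧
    ∀ A : Sol, JJ A B 0 ≤ δ → ∀ t' ∈ Icc 0 T,
      (∀ t ∈ Icc 0 t', ∀ x ∈ Ioc (0:ℝ) (1 / 4), 1 / 40 ≤ 1 - x * A.w t x 0) →
      ∀ t ∈ Icc 0 t', ∀ x ∈ Ico e 1,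
        |A.w t x 0 - B.w t x 0| ≤ ε ∧ |A.w t x 1 - B.w t x 1| ≤ ε := by
  obtain ⟨K, δ, K0, δ0, H⟩ := c1_gron B T
  refine ⟨min δ ((e ^ 9 * ε / 9) ^ 2 / K), by positivity, fun A hA t' ht' hy t ht x hx => ?_⟩
  have hJ := (H A (hA.trans (min_le_left _ _)) t' ht' hy t ht).trans
    ((le_div_iff₀' K0).1 (hA.trans (min_le_right _ _)))
  have x0 := he.trans_le hx.1
  obtain ⟨h1, h2, -⟩ := c1_pt A B ht.1 ⟨x0, hx.2⟩
  have q (n : ℕ) : x ^ n ≤ 1 := pow_le_one₀ x0.le hx.2.le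
  have h3 := abs_le_of_sq_le_sq (h1.trans hJ) (by positivity)
  have h4 := abs_le_of_sq_le_sq (h2.trans ((mul_le_of_le_one_left (c1_J0 A B t) (q 9)).trans hJ))
    (by positivity)
  have h5 : e ^ 9 * ε ≤ x ^ 9 * ε := by gcongr; exact hx.1
  have h6 : x ^ 9 * ε ≤ x ^ 8 * ε :=
    mul_le_mul_of_nonneg_right (pow_le_pow_of_le_one x0.le hx.2.le (by norm_num)) hε.le
  generalize A.w t x 0 - B.w t x 0 = d0 at *
  generalize A.w t x 1 - B.w t x 1 = d1 at *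
  have h7 : |x ^ 9 * d1| ≤ e ^ 9 * ε := by
    rw [show x ^ 9 * d1 = x * (8 * x ^ 7 * d0 + x ^ 8 * d1) - 8 * (x ^ 8 * d0) by ring]
    refine (abs_sub _ _).trans ?_
    rw [abs_mul, abs_mul 8, abs_of_pos x0, abs_of_pos (show (0:ℝ) < 8 by norm_num)]
    nlinarith [abs_nonneg (8 * x ^ 7 * d0 + x ^ 8 * d1), hx.2]
  rw [abs_mul, abs_of_pos (pow_pos x0 _)] at h4 h7
  have h8 : 0 < e ^ 9 * ε := by positivity
  exact ⟨le_of_mul_le_mul_left (by linarith) (pow_pos x0 8),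
    le_of_mul_le_mul_left (by linarith) (pow_pos x0 9)⟩

theorem c1_le {f : ℝ → ℝ} {M : ℝ} (hi : IntervalIntegrable (fun x => f x ^ 2 * x ^ 6) volume 0 1)
    (h : ∀ x ∈ Ioo (0:ℝ) 1, x * |f x| ≤ M) : ∫ x in (0:ℝ)..1, f x ^ 2 * x ^ 6 ≤ M ^ 2 := by
  refine (intervalIntegral.integral_mono_on_of_le_Ioo zero_le_one hi
    (intervalIntegrable_const (c := M ^ 2)) fun x hx => ?_).trans_eq (by simp)
  have x0 := hx.1.le
  calc _ = x ^ 4 * (x * |f x|) ^ 2 := by rw [mul_pow, sq_abs]; ring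
    _ ≤ 1 * M ^ 2 := by gcongr; exacts [pow_le_one₀ x0 hx.2.le, h x hx]
    _ = _ := one_mul _

theorem c1_S0_le {u : ℕ → ℝ} {x M : ℝ} (x0 : 0 < x) (h : ∀ k ≤ 2, x ^ (k + 1) * |u k| ≤ M) :
    x * |S0 u x| ≤ 73 * M := by
  have h1 := mul_le_mul_of_nonneg_left (c1_abs3 (p := u 2) (q := u 1) (r := u 0) (sq_nonneg x)
    (show 0 ≤ 16 * x by positivity) (show (0:ℝ) ≤ 56 by norm_num)) x0.le
  have a0 := h 0 (by norm_num)
  have a1 := h 1 (by norm_num)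
  have a2 := h 2 le_rfl
  norm_num at a0 a1 a2
  unfold S0
  linarith

theorem c1_JJ_le (A B : Sol) {t M : ℝ} (ht : 0 ≤ t)
    (h : ∀ x ∈ Ioo (0:ℝ) 1, ∀ k ≤ 2, x ^ (k + 1) * |A.w t x k - B.w t x k| ≤ M) :
    JJ A B t ≤ (73 * M) ^ 2 :=
  c1_le (c1_iF A B ht) fun x hx => le_of_eq_of_le (by congr 2; simp only [S0]; ring)
    (c1_S0_le (u := fun k => A.w t x k - B.w t x k) hx.1 (h x hx))

theorem c1_Ca_le (A : Sol) {t M : ℝ} (ht : 0 ≤ t)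
    (h : ∀ x ∈ Ioo (0:ℝ) 1, ∀ k ≤ 2, x ^ (k + 1) * |A.w t x k| ≤ M) :
    Ca A t ≤ (73 * M + 56) ^ 2 := by
  refine c1_le (by simpa [c1_FS, S0] using c1_iF A c1_FS ht) fun x hx => ?_
  have h1 := mul_le_mul_of_nonneg_left (abs_sub (S0 (A.w t x) x) 56) hx.1.le
  rw [abs_of_pos (show (0:ℝ) < 56 by norm_num)] at h1
  nlinarith [c1_S0_le hx.1 (h x hx), hx.2]

/-- the initial jets -/
theorem c1_start {A : Sol} {c : Polynomial ℝ} (h : Starts A c) (k : ℕ) {x : ℝ}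
    (hx : x ∈ Ioo (0:ℝ) 1) : A.w 0 x k =
      (Polynomial.derivative^[k] (1 + (1 - Polynomial.X) ^ 2 * c)).eval x := by
  induction k generalizing x with
  | zero => simp [h x hx]
  | succ k ih =>
    rw [Function.iterate_succ_apply']
    exact (A.dx k 0 x le_rfl hx).unique ((Polynomial.hasDerivAt _ x).congr_of_eventuallyEq
      (mem_of_superset (Ioo_mem_nhds hx.1 hx.2) fun y hy => ih hy))

end Vale.Agent.P264
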