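import Vale.Agent.P264.Sol

/-! P264 block C1: calculus lemmas and uniform bounds for one solution. -/

open Set MeasureTheory Filter Topology

namespace Vale.Agent.P264

theorem c1_cs {f : ℝ → ℝ} {a b : ℝ} (hab : a ≤ b) (hf : ContinuousOn f (Icc a b)) :
    (∫ x in a..b, f x) ^ 2 ≤ (b - a) * ∫ x in a..b, f x ^ 2 := by
  rcases hab.eq_or_lt with rfl | hlt
  · simp
  have i1 := hf.intervalIntegrable_of_Icc (μ := volume) hab
  have i2 : IntervalIntegrable (fun x => f x ^ 2) volume a b :=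
    (hf.pow 2).intervalIntegrable_of_Icc hab
  generalize hI : ∫ x in a..b, f x = I
  have h : 0 ≤ ∫ x in a..b, ((b - a) ^ 2 * f x ^ 2 - 2 * (b - a) * I * f x + I ^ 2) :=
    intervalIntegral.integral_nonneg hab fun x _ => by nlinarith [sq_nonneg ((b - a) * f x - I)]
  rw [intervalIntegral.integral_add ((i2.const_mul _).sub (i1.const_mul _)) intervalIntegrable_const,
    intervalIntegral.integral_sub (i2.const_mul _) (i1.const_mul _),
    intervalIntegral.integral_const_mul, intervalIntegral.integral_const_mul, hI,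
    intervalIntegral.integral_const, smul_eq_mul] at h
  exact le_of_mul_le_mul_left (by nlinarith) (sub_pos.2 hlt)

theorem c1_mv {f f' : ℝ → ℝ} {a b K : ℝ} (hab : a < b) (hd : ∀ y ∈ Icc a b, HasDerivAt f (f' y) y)
    (hK : ∀ y ∈ Icc a b, f' y ^ 2 ≤ K) : (f b - f a) ^ 2 ≤ (b - a) ^ 2 * K := by
  obtain ⟨c, hc, h⟩ := exists_hasDerivAt_eq_slope f f' hab
    (fun y hy => (hd y hy).continuousAt.continuousWithinAt) fun y hy => hd y (Ioo_subset_Icc_self hy)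
  rw [eq_div_iff (sub_pos.2 hab).ne'] at h
  rw [← h, mul_pow, mul_comm]
  exact mul_le_mul_of_nonneg_left (hK c (Ioo_subset_Icc_self hc)) (sq_nonneg _)

section
variable {u : ℝ → ℕ → ℝ} {x : ℝ} (h : ∀ k, HasDerivAt (fun y => u y k) (u x (k + 1)) x)
include h

theorem c1_dS0 : HasDerivAt (fun y => S0 (u y) y) (S1 (u x) x) x :=
  ((((hasDerivAt_pow 2 x).mul (h 2)).add (((hasDerivAt_id x).const_mul 16).mul (h 1))).add
    ((h 0).const_mul 56)).congr_deriv (by simp [S1]; ring)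

theorem c1_dS1 : HasDerivAt (fun y => S1 (u y) y) (S2 (u x) x) x :=
  ((((hasDerivAt_pow 2 x).mul (h 3)).add (((hasDerivAt_id x).const_mul 18).mul (h 2))).add
    ((h 1).const_mul 72)).congr_deriv (by simp [S2]; ring)

theorem c1_dS2 : HasDerivAt (fun y => S2 (u y) y) (S3 (u x) x) x :=
  ((((hasDerivAt_pow 2 x).mul (h 4)).add (((hasDerivAt_id x).const_mul 20).mul (h 3))).add
    ((h 2).const_mul 90)).congr_deriv (by simp [S3]; ring)

theorem c1_dg0 : HasDerivAt (fun y => y ^ 8 * u y 0) (8 * x ^ 7 * u x 0 + x ^ 8 * u x 1) x :=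
  ((hasDerivAt_pow 8 x).mul (h 0)).congr_deriv (by simp)

theorem c1_dg1 : HasDerivAt (fun y => 8 * y ^ 7 * u y 0 + y ^ 8 * u y 1) (x ^ 6 * S0 (u x) x) x :=
  ((((hasDerivAt_pow 7 x).const_mul 8).mul (h 0)).add ((hasDerivAt_pow 8 x).mul (h 1))).congr_deriv
    (by simp [S0]; ring)

end

theorem c1_v1 (A : Sol) {t x : ℝ} (ht : 0 < t) (hx : x ∈ Ioo (0:ℝ) 1) : A.v t x 1 =
    2 * (1 - x * A.w t x 0) * (A.w t x 0 + x * A.w t x 1) * S2 (A.w t x) x -
      (1 - x * A.w t x 0) ^ 2 * S3 (A.w t x) x := by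
  have h := fun k => A.dx k t x ht.le hx
  have h1 := ((((hasDerivAt_id x).mul (h 0)).const_sub 1).pow 2).neg.mul (c1_dS2 h)
  refine ((A.dv 0 t x ht hx).unique (h1.congr_of_eventuallyEq ?_)).trans (by simp; ring)
  filter_upwards [Ioo_mem_nhds hx.1 hx.2] with y hy
  simp [A.pde t y ht hy]

theorem c1_abs3 {p q r a b c : ℝ} (ha : 0 ≤ a) (hb : 0 ≤ b) (hc : 0 ≤ c) :
    |a * p + b * q + c * r| ≤ a * |p| + b * |q| + c * |r| := by
  refine (abs_add_three _ _ _).trans_eq ?_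
  rw [abs_mul, abs_mul, abs_mul, abs_of_nonneg ha, abs_of_nonneg hb, abs_of_nonneg hc]

/-- bounds near `x = 0` -/
theorem c1_b0 (A : Sol) (T : ℝ) : ∃ C : ℝ, 1 ≤ C ∧ ∀ t ∈ Icc (0:ℝ) T, ∀ x ∈ Ioc (0:ℝ) (1 / 2),
    |A.w t x 0| ≤ C ∧ x * |A.w t x 1| ≤ C ∧ |1 - x * A.w t x 0| ≤ C ∧ |S0 (A.w t x) x| ≤ C ∧
      x * |S1 (A.w t x) x| ≤ C ∧ x ^ 2 * |S2 (A.w t x) x| ≤ C * √x ∧
      x ^ 3 * |S3 (A.w t x) x| ≤ C * √x := by
  obtain ⟨C, H⟩ := A.b0 T
  refine ⟨1 + 133 * |C|, by linarith [abs_nonneg C], fun t ht x hx => ?_⟩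
  obtain ⟨h0, h⟩ := H t ht x hx
  have x0 := hx.1
  have r0 := Real.sqrt_nonneg x
  have r1 : √x ≤ 1 := Real.sqrt_le_one.2 (by linarith [hx.2])
  have C0 : 0 ≤ C := (abs_nonneg _).trans h0
  have r2 : C * √x ≤ C := mul_le_of_le_one_right C0 r1
  have h1 := h 1 le_rfl (by norm_num)
  have h2 := h 2 (by norm_num) (by norm_num)
  have h3 := h 3 (by norm_num) (by norm_num)
  have h4 := h 4 (by norm_num) (by norm_num)
  have h5 := h 5 (by norm_num) le_rfl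
  have s (i j k : ℕ) (b c : ℝ) (hb : 0 ≤ b) (hc : 0 ≤ c) := c1_abs3 (p := A.w t x i)
    (q := A.w t x j) (r := A.w t x k) (sq_nonneg x) (mul_nonneg hb x0.le) hc
  rw [abs_of_nonneg C0]
  rw [pow_one] at h1
  have h6 : |1 - x * A.w t x 0| ≤ 1 + x * |A.w t x 0| :=
    (abs_sub _ _).trans_eq (by rw [abs_one, abs_mul, abs_of_pos x0])
  have h7 := mul_le_mul (show x ≤ 1 by linarith [hx.2]) h0 (abs_nonneg _) zero_le_one
  refine ⟨by linarith, by linarith, by linarith,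
    (s 2 1 0 16 56 (by norm_num) (by norm_num)).trans (by linarith),
    (mul_le_mul_of_nonneg_left (s 3 2 1 18 72 (by norm_num) (by norm_num)) x0.le).trans
      (by linarith),
    (mul_le_mul_of_nonneg_left (s 4 3 2 20 90 (by norm_num) (by norm_num)) (by positivity)).trans
      (by nlinarith),
    (mul_le_mul_of_nonneg_left (s 5 4 3 22 110 (by norm_num) (by norm_num)) (by positivity)).trans
      (by nlinarith)⟩

/-- uniform bounds on `(0,1)` -/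
theorem c1_bd (A : Sol) (T : ℝ) : ∃ C : ℝ, 1 ≤ C ∧ ∀ t ∈ Icc (0:ℝ) T, ∀ x ∈ Ioo (0:ℝ) 1,
    |S0 (A.w t x) x| ≤ C ∧ x * |S1 (A.w t x) x| ≤ C ∧ (0 < t →
      x ^ 7 * |A.v t x 0| ≤ C * √(min x (1 - x)) ∧ x ^ 8 * |A.v t x 1| ≤ C * √(min x (1 - x))) := by
  obtain ⟨C, hC, H0⟩ := c1_b0 A T
  obtain ⟨D, c, -, H1⟩ := A.b1 T
  refine ⟨5 * C ^ 3 + |D| + 10 * (1 + |D|) ^ 3, by
    linarith [abs_nonneg D, show 1 ≤ C ^ 3 from one_le_pow₀ hC,
      pow_pos (show 0 < 1 + |D| by positivity) 3], fun t ht x hx => ?_⟩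
  have x0 := hx.1
  have x1 := hx.2
  have p1 : C ≤ C ^ 3 := le_self_pow₀ hC (by norm_num)
  have p2 : 0 ≤ (1 + |D|) ^ 3 := by positivity
  have p3 := abs_nonneg D
  have e0 : 0 < t → |A.v t x 0| = (1 - x * A.w t x 0) ^ 2 * |S2 (A.w t x) x| := fun h => by
    rw [A.pde t x h hx, abs_mul, abs_neg, abs_sq]
  have e1 : 0 < t → |A.v t x 1| ≤ 2 * |1 - x * A.w t x 0| * (|A.w t x 0| + x * |A.w t x 1|) *
      |S2 (A.w t x) x| + (1 - x * A.w t x 0) ^ 2 * |S3 (A.w t x) x| := fun h => by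
    rw [c1_v1 A h hx]
    refine (abs_sub _ _).trans ?_
    rw [abs_mul, abs_mul, abs_mul, abs_mul, abs_sq, abs_two]
    gcongr
    exact (abs_add_le _ _).trans_eq (by rw [abs_mul, abs_of_pos x0])
  rcases le_total x (1 / 2) with h | h
  · obtain ⟨a0, a1, a2, a3, a4, a5, a6⟩ := H0 t ht x ⟨x0, h⟩
    rw [min_eq_left (by linarith)]
    have r0 := Real.sqrt_nonneg x
    have a7 : (1 - x * A.w t x 0) ^ 2 ≤ C ^ 2 := by rw [← sq_abs]; gcongr
    have q (n : ℕ) : x ^ n ≤ 1 := pow_le_one₀ x0.le x1.le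
    refine ⟨by linarith, by linarith, fun t0 => ⟨?_, ?_⟩⟩
    · calc _ = x ^ 5 * (1 - x * A.w t x 0) ^ 2 * (x ^ 2 * |S2 (A.w t x) x|) := by rw [e0 t0]; ring
        _ ≤ 1 * C ^ 2 * (C * √x) := by gcongr; exact q 5
        _ ≤ _ := by nlinarith
    · calc _ ≤ x ^ 6 * (2 * |1 - x * A.w t x 0| * (|A.w t x 0| + x * |A.w t x 1|)) *
            (x ^ 2 * |S2 (A.w t x) x|) + x ^ 5 * (1 - x * A.w t x 0) ^ 2 *
              (x ^ 3 * |S3 (A.w t x) x|) :=
            (mul_le_mul_of_nonneg_left (e1 t0) (by positivity)).trans_eq (by ring)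
        _ ≤ 1 * (2 * C * (C + C)) * (C * √x) + 1 * C ^ 2 * (C * √x) := by
            gcongr; exacts [q 6, q 5]
        _ ≤ _ := by nlinarith
  obtain ⟨-, a2, a1, a3, a4, a5, a6⟩ := H1 t ht x ⟨h, x1⟩
  rw [min_eq_right (by linarith)]
  have y0 := A.pos t x ht.1 hx
  have D0 : 0 ≤ D := (abs_nonneg _).trans a3
  rw [abs_of_nonneg D0] at *
  have r0 := Real.sqrt_nonneg (1 - x)
  have r1 : √(1 - x) ≤ 1 := Real.sqrt_le_one.2 (by linarith)
  have r2 := Real.sq_sqrt (show 0 ≤ 1 - x by linarith)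
  generalize √(1 - x) = r at *
  rw [← r2] at a2
  have b0 : |A.w t x 0| ≤ 2 + 2 * D := by
    have b1 : x * |A.w t x 0| ≤ 1 + D := by
      rw [show x * |A.w t x 0| = |x * A.w t x 0| by rw [abs_mul, abs_of_pos x0], abs_le]
      constructor <;> nlinarith
    nlinarith [abs_nonneg (A.w t x 0)]
  have b1 : x * |A.w t x 1| ≤ D := by nlinarith [abs_nonneg (A.w t x 1)]
  have q (n : ℕ) : x ^ n ≤ 1 := pow_le_one₀ x0.le x1.le
  have q2 : r ^ 2 ≤ 1 := pow_le_one₀ r0 r1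
  have p4 : 0 ≤ C ^ 3 * r := by positivity
  have p5 : 0 ≤ D * r := by positivity
  have p6 : 0 ≤ D ^ 2 * r := by positivity
  have p7 : 0 ≤ D ^ 3 * r := by positivity
  refine ⟨by linarith, by nlinarith [abs_nonneg (S1 (A.w t x) x)], fun t0 => ⟨?_, ?_⟩⟩
  · calc _ ≤ 1 * ((D * r ^ 2) ^ 2 * |S2 (A.w t x) x|) := by rw [e0 t0]; gcongr; exact q 7
      _ = D ^ 2 * r * r ^ 2 * (r * |S2 (A.w t x) x|) := by ring
      _ ≤ D ^ 2 * r * 1 * D := by gcongr
      _ ≤ _ := by nlinarith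
  · calc _ ≤ 1 * (2 * (D * r ^ 2) * (2 + 2 * D + D) * |S2 (A.w t x) x| +
          (D * r ^ 2) ^ 2 * |S3 (A.w t x) x|) := by
          refine mul_le_mul (q 8) ((e1 t0).trans ?_) (abs_nonneg _) zero_le_one
          rw [abs_of_pos y0]
          gcongr
      _ = 2 * D * r * (2 + 3 * D) * (r * |S2 (A.w t x) x|) +
          D ^ 2 * r * (r ^ 3 * |S3 (A.w t x) x|) := by ring
      _ ≤ 2 * D * r * (2 + 3 * D) * D + D ^ 2 * r * D := by gcongr
      _ ≤ _ := by nlinarith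

end Vale.Agent.P264
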