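import Vale.Agent.P264.C.Defs

/-!
# P264 C/Calc  (TASK; notes/P264.md section C, notes/P264C.md)

One-dimensional calculus.  `int_le_off`: induction on the finite set (split at a point of `F ∩ Ioo a b`), base case
`intervalIntegral.integral_le_sub_of_hasDeriv_right_of_le` (choose the derivative).  `flux_le`: apply `int_le_off` to `g` redefined as `0` at `0`.
`sob`: `f x ^ 2 ≤ f x0 ^ 2 + ∫ |2 f f'|`, `|2 f f'| ≤ (f² + (y f')²) / y`, `x0` a minimiser of `f²`, `∫ 1/y ≥ 1/2`.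
`barrier`: last time with `f ≤ c`.  `cont_ind`: supremum argument.
-/

open Set MeasureTheory Filter Topology

noncomputable section

namespace Vale.Agent.P264

theorem int_le_off {a b : ℝ} (hab : a ≤ b) (F : Finset ℝ) {g φ : ℝ → ℝ}
    (hg : ContinuousOn g (Icc a b)) (hφ : IntervalIntegrable φ volume a b)
    (hd : ∀ x ∈ Ioo a b, x ∉ F → ∃ g', HasDerivAt g g' x ∧ φ x ≤ g') :
    ∫ x in a..b, φ x ≤ g b - g a := by
  induction F using Finset.induction_on generalizing a b with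
  | empty =>
    have ex : ∀ x, ∃ g', x ∈ Ioo a b → HasDerivAt g g' x ∧ φ x ≤ g' := fun x => by
      by_cases hx : x ∈ Ioo a b
      · exact (hd x hx (Finset.notMem_empty x)).imp fun _ h _ => h
      · exact ⟨0, fun h => absurd h hx⟩
    choose g' hg' using ex
    exact intervalIntegral.integral_le_sub_of_hasDeriv_right_of_le hab hg
      (fun x hx => (hg' x hx).1.hasDerivWithinAt)
      ((intervalIntegrable_iff_integrableOn_Icc_of_le hab).1 hφ) fun x hx => (hg' x hx).2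
  | insert c F _ ih =>
    by_cases hc : c ∈ Ioo a b
    · have i1 : IntervalIntegrable φ volume a c := hφ.mono_set (by
        rw [uIcc_of_le hc.1.le, uIcc_of_le hab]; exact Icc_subset_Icc_right hc.2.le)
      have i2 : IntervalIntegrable φ volume c b := hφ.mono_set (by
        rw [uIcc_of_le hc.2.le, uIcc_of_le hab]; exact Icc_subset_Icc_left hc.1.le)
      have h1 := ih hc.1.le (hg.mono (Icc_subset_Icc_right hc.2.le)) i1 fun x hx hF =>
        hd x ⟨hx.1, hx.2.trans hc.2⟩ fun h => (Finset.mem_insert.1 h).elim hx.2.ne hF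
      have h2 := ih hc.2.le (hg.mono (Icc_subset_Icc_left hc.1.le)) i2 fun x hx hF =>
        hd x ⟨hc.1.trans hx.1, hx.2⟩ fun h => (Finset.mem_insert.1 h).elim hx.1.ne' hF
      rw [← intervalIntegral.integral_add_adjacent_intervals i1 i2]
      linarith
    · exact ih hab hg hφ fun x hx hF => hd x hx fun h =>
        (Finset.mem_insert.1 h).elim (fun e => hc (e ▸ hx)) hF

theorem flux_le {b : ℝ} (hb : 0 < b) (F : Finset ℝ) {g φ : ℝ → ℝ}
    (hg : ContinuousOn g (Ioc 0 b)) (h0 : Tendsto g (𝓝[>] 0) (𝓝 0))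
    (hφ : IntervalIntegrable φ volume 0 b)
    (hd : ∀ x ∈ Ioo 0 b, x ∉ F → ∃ g', HasDerivAt g g' x ∧ φ x ≤ g') :
    ∫ x in (0:ℝ)..b, φ x ≤ g b := by
  have hc : ContinuousOn (Function.update g 0 0) (Icc 0 b) := by
    rw [continuousOn_update_iff, Icc_sdiff_left]
    exact ⟨hg, fun _ => h0.mono_left (nhdsWithin_mono _ Ioc_subset_Ioi_self)⟩
  have h := int_le_off hb.le F hc hφ fun x hx hF => by
    obtain ⟨g', h1, h2⟩ := hd x hx hF
    refine ⟨g', h1.congr_of_eventuallyEq ?_, h2⟩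
    filter_upwards [eventually_ne_nhds hx.1.ne'] with y hy
    exact Function.update_of_ne hy _ _
  rwa [Function.update_of_ne hb.ne', Function.update_self, sub_zero] at h

theorem ii_of_bdd {a b L : ℝ} (ha : 0 ≤ a) (hab : a ≤ b) (hb : b ≤ L) {f : ℝ → ℝ}
    (hf : ContinuousOn f (Ioc 0 L)) {C : ℝ} (hC : ∀ x ∈ Ioc 0 L, |f x| ≤ C) :
    IntervalIntegrable f volume a b := by
  have hs : Ioc a b ⊆ Ioc 0 L := Ioc_subset_Ioc ha hb
  rw [intervalIntegrable_iff_integrableOn_Ioc_of_le hab]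
  refine IntegrableOn.of_bound measure_Ioc_lt_top
    ((hf.mono hs).aestronglyMeasurable measurableSet_Ioc) C ?_
  filter_upwards [ae_restrict_mem measurableSet_Ioc] with x hx
  exact hC x (hs hx)

theorem tendsto_zero_of_sqrt {f : ℝ → ℝ} {C b : ℝ} (hb : 0 < b)
    (h : ∀ x ∈ Ioc 0 b, |f x| ≤ C * √x) : Tendsto f (𝓝[>] 0) (𝓝 0) := by
  have h1 : Tendsto (fun x : ℝ => C * √x) (𝓝 0) (𝓝 0) :=
    (continuous_const.mul Real.continuous_sqrt).tendsto' 0 0 (by simp)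
  refine squeeze_zero_norm' ?_ (h1.mono_left nhdsWithin_le_nhds)
  filter_upwards [Ioc_mem_nhdsGT hb] with x hx
  exact h x hx

theorem sob {u : ℝ} (hu : 0 < u) {f f' : ℝ → ℝ}
    (hf : ∀ x ∈ Icc (u / 2) u, HasDerivAt f (f' x) x) (hc : ContinuousOn f' (Icc (u / 2) u)) :
    ∀ x ∈ Icc (u / 2) u, f x ^ 2 ≤ 3 * ∫ y in (u / 2)..u, (f y ^ 2 + (y * f' y) ^ 2) / y := by
  intro x hx
  have hle : u / 2 ≤ u := by linarith
  have hp : ∀ y ∈ Icc (u / 2) u, 0 < y := fun y hy => lt_of_lt_of_le (by linarith) hy.1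
  have cf : ContinuousOn f (Icc (u / 2) u) := fun y hy => (hf y hy).continuousAt.continuousWithinAt
  have ch : ContinuousOn (fun y => (f y ^ 2 + (y * f' y) ^ 2) / y) (Icc (u / 2) u) :=
    ((cf.pow 2).add ((continuousOn_id.mul hc).pow 2)).div continuousOn_id
      fun y hy => (hp y hy).ne'
  have ih : IntervalIntegrable (fun y => (f y ^ 2 + (y * f' y) ^ 2) / y) volume (u / 2) u :=
    ch.intervalIntegrable_of_Icc hle
  obtain ⟨x0, hx0, hm⟩ := isCompact_Icc.exists_isMinOn (nonempty_Icc.2 hle) (cf.pow 2)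
  have h1 : ∫ _ in (u / 2)..u, f x0 ^ 2 / u ≤
      ∫ y in (u / 2)..u, (f y ^ 2 + (y * f' y) ^ 2) / y := by
    refine intervalIntegral.integral_mono_on hle intervalIntegrable_const ih fun y hy => ?_
    have h2 : f x0 ^ 2 ≤ f y ^ 2 := hm hy
    exact div_le_div₀ (by positivity) (h2.trans (le_add_of_nonneg_right (sq_nonneg _)))
      (hp y hy) hy.2
  have e1 : ∫ _ in (u / 2)..u, f x0 ^ 2 / u = f x0 ^ 2 / 2 := by
    rw [intervalIntegral.integral_const, smul_eq_mul]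
    field_simp
    ring
  have hsub : uIcc x0 x ⊆ Icc (u / 2) u := uIcc_subset_Icc hx0 hx
  have hsub' : uIoc x0 x ⊆ uIoc (u / 2) u := by
    refine uIoc_subset_uIoc_of_uIcc_subset_uIcc ?_
    rwa [uIcc_of_le hle]
  have e2 : ∫ y in x0..x, 2 * f y * f' y = f x ^ 2 - f x0 ^ 2 := by
    refine intervalIntegral.integral_eq_sub_of_hasDerivAt (f := fun y => f y ^ 2)
      (fun y hy => ?_) ((((continuousOn_const.mul cf).mul hc).mono hsub).intervalIntegrable)
    simpa using (hf y (hsub hy)).fun_pow 2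
  have h3 : ‖∫ y in x0..x, 2 * f y * f' y‖ ≤
      |∫ y in x0..x, (f y ^ 2 + (y * f' y) ^ 2) / y| := by
    refine intervalIntegral.norm_integral_le_abs_of_norm_le ?_ (ch.mono hsub).intervalIntegrable
    filter_upwards [ae_restrict_mem measurableSet_uIoc] with y hy
    have y0 := hp y (hsub (uIoc_subset_uIcc hy))
    rw [Real.norm_eq_abs, le_div_iff₀ y0, ← abs_of_pos y0, ← abs_mul, abs_of_pos y0, abs_le]
    constructor <;> nlinarith [sq_nonneg (f y + y * f' y), sq_nonneg (f y - y * f' y)]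
  have h4 := intervalIntegral.abs_integral_mono_interval hsub' (by
    filter_upwards [ae_restrict_mem measurableSet_uIoc] with y hy
    rw [uIoc_of_le hle] at hy
    exact div_nonneg (by positivity) (hp y (Ioc_subset_Icc_self hy)).le) ih
  rw [e1] at h1
  rw [e2, Real.norm_eq_abs] at h3
  rw [abs_of_nonneg (le_trans (by positivity) h1)] at h4
  linarith [le_abs_self (f x ^ 2 - f x0 ^ 2)]

theorem le_of_deriv_nonpos {f : ℝ → ℝ} {a b : ℝ} (hab : a ≤ b) (hf : ContinuousOn f (Icc a b))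
    (hd : ∀ s ∈ Ioo a b, ∃ f', HasDerivAt f f' s ∧ f' ≤ 0) : f b ≤ f a := by
  have h := int_le_off (g := fun x => -f x) (φ := fun _ => 0) hab ∅ hf.neg
    intervalIntegrable_const fun x hx _ => by
      obtain ⟨f', h1, h2⟩ := hd x hx
      exact ⟨-f', h1.fun_neg, by linarith⟩
  rw [intervalIntegral.integral_zero] at h
  linarith

theorem barrier {f : ℝ → ℝ} {a b c : ℝ} (hab : a ≤ b) (hf : ContinuousOn f (Icc a b))
    (ha : f a ≤ c) (hd : ∀ s ∈ Ioo a b, c < f s → ∃ f', HasDerivAt f f' s ∧ f' ≤ 0) :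
    f b ≤ c := by
  have hK : IsCompact (Icc a b ∩ f ⁻¹' Iic c) :=
    isCompact_Icc.of_isClosed_subset
      (hf.preimage_isClosed_of_isClosed isClosed_Icc isClosed_Iic) inter_subset_left
  obtain ⟨s, hs, hm⟩ := hK.exists_isGreatest ⟨a, left_mem_Icc.2 hab, ha⟩
  refine (le_of_deriv_nonpos hs.1.2 (hf.mono (Icc_subset_Icc_left hs.1.1))
    fun t ht => hd t ⟨hs.1.1.trans_lt ht.1, ht.2⟩ ?_).trans hs.2
  by_contra h
  exact ht.1.not_ge (hm ⟨⟨hs.1.1.trans ht.1.le, ht.2.le⟩, not_lt.1 h⟩)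

theorem cont_ind {P : ℝ → Prop} {a b : ℝ} (h0 : P a)
    (hcl : ∀ s ∈ Ioc a b, (∀ σ ∈ Ico a s, P σ) → P s)
    (hop : ∀ s ∈ Ico a b, (∀ σ ∈ Icc a s, P σ) → ∃ δ, 0 < δ ∧ ∀ σ ∈ Icc s (s + δ), P σ) :
    ∀ s ∈ Icc a b, P s := by
  intro s hs
  have hab := hs.1.trans hs.2
  have ha : a ∈ {t | t ∈ Icc a b ∧ ∀ σ ∈ Icc a t, P σ} :=
    ⟨left_mem_Icc.2 hab, fun σ hσ => le_antisymm hσ.1 hσ.2 ▸ h0⟩
  have hb : BddAbove {t | t ∈ Icc a b ∧ ∀ σ ∈ Icc a t, P σ} := ⟨b, fun t ht => ht.1.2⟩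
  have m1 := le_csSup hb ha
  have m2 : sSup {t | t ∈ Icc a b ∧ ∀ σ ∈ Icc a t, P σ} ≤ b :=
    csSup_le ⟨a, ha⟩ fun t ht => ht.1.2
  have m3 : ∀ σ ∈ Ico a (sSup {t | t ∈ Icc a b ∧ ∀ σ ∈ Icc a t, P σ}), P σ := fun σ hσ => by
    obtain ⟨t, ht, h⟩ := exists_lt_of_lt_csSup ⟨a, ha⟩ hσ.2
    exact ht.2 σ ⟨hσ.1, h.le⟩
  have m4 : ∀ t, t ∈ Icc a b → (∀ σ ∈ Icc a t, P σ) →
      t ≤ sSup {t | t ∈ Icc a b ∧ ∀ σ ∈ Icc a t, P σ} := fun t h1 h2 => le_csSup hb ⟨h1, h2⟩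
  generalize sSup {t | t ∈ Icc a b ∧ ∀ σ ∈ Icc a t, P σ} = m at m1 m2 m3 m4
  have m5 : ∀ σ ∈ Icc a m, P σ := fun σ hσ => by
    rcases hσ.2.lt_or_eq with h | h
    · exact m3 σ ⟨hσ.1, h⟩
    · rcases m1.lt_or_eq with h' | h'
      · exact h ▸ hcl m ⟨h', m2⟩ m3
      · exact h ▸ h' ▸ h0
  rcases m2.lt_or_eq with h | h
  · obtain ⟨δ, hδ, h1⟩ := hop m ⟨m1, h⟩ m5
    have h2 : m < min (m + δ) b := lt_min (by linarith) h
    refine absurd (m4 _ ⟨m1.trans h2.le, min_le_right _ _⟩ fun σ hσ => ?_) h2.not_ge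
    rcases le_total σ m with h3 | h3
    · exact m5 σ ⟨hσ.1, h3⟩
    · exact h1 σ ⟨h3, hσ.2.trans (min_le_left _ _)⟩
  · exact m5 s (h ▸ hs)

end Vale.Agent.P264
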