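import Vale.Agent.P264.C.SMain

/-!
# P264 C/Defs: definitions of block C (see notes/P264.md section C and notes/P264C.md)

`l = lam s` is the scale, `x = l ξ`.  A jet function `m : ℝ → ℕ → ℝ` has `m ξ k` = `k`-th derivative, `sc m ξ k = ξ^k m ξ k`.
-/

open Set MeasureTheory

noncomputable section

namespace Vale.Agent.P264

def lam (s : ℝ) : ℝ := Real.exp (-s / 2)
def tt (s0 s : ℝ) : ℝ := Real.exp (-s0) - Real.exp (-s)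
def vp (ξ : ℝ) : ℝ := ξ / (1 + ξ)

def kk : ℝ := 1 / 10 ^ 30
def eta : ℝ := 1 / 10 ^ 28
def eps2 : ℝ := 1 / 10 ^ 42
def mu : ℝ := 1 / 10 ^ 136
def rho : ℝ := 2 / 10 ^ 68

/-- The rescaled solution. -/
def wt (S : Sol) (s0 s ξ : ℝ) (k : ℕ) : ℝ := lam s ^ (k + 1) * S.w (tt s0 s) (lam s * ξ) k
/-- The difference with the profile. -/
def mm (K : Cert) (S : Sol) (s0 s ξ : ℝ) (k : ℕ) : ℝ := wt S s0 s ξ k - K.W ξ k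
/-- The `s`-derivative of `wt` (and of `mm`). -/
def ut (S : Sol) (s0 s ξ : ℝ) (k : ℕ) : ℝ :=
  lam s ^ (k + 3) * S.v (tt s0 s) (lam s * ξ) k
    - (((k : ℝ) + 1) * wt S s0 s ξ k + ξ * wt S s0 s ξ (k + 1)) / 2

/-- Scaled jets `a_k = ξ^k m_k`. -/
def sc (m : ℝ → ℕ → ℝ) (ξ : ℝ) (k : ℕ) : ℝ := ξ ^ k * m ξ k
def NQ (ξ : ℝ) (a : ℕ → ℝ) : ℝ := vp ξ * a 0 ^ 2 + a 1 ^ 2 + a 2 ^ 2 + a 3 ^ 2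
def nn (m : ℝ → ℕ → ℝ) (ξ : ℝ) : ℝ := ξ * (sc m ξ 0 ^ 2 + sc m ξ 1 ^ 2)
def dd (m : ℝ → ℕ → ℝ) (ξ : ℝ) : ℝ := NQ ξ (sc m ξ) / ξ

/-- The cut-off `χ` (in the variable `x`) with two derivatives. -/
structure Cut where
  h : ℝ
  M : ℝ
  c : ℝ → ℕ → ℝ
  h0 : 0 < h
  h1 : h ≤ 1 / 8
  M1 : 1 ≤ M
  d : ∀ j x, j ≤ 1 → HasDerivAt (fun y => c y j) (c x (j + 1)) x
  c2 : Continuous fun y => c y 2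
  one : ∀ x, x ≤ 1 / 4 → c x 0 = 1 ∧ c x 1 = 0 ∧ c x 2 = 0
  zero : ∀ x, 1 / 4 + h ≤ x → c x 0 = 0 ∧ c x 1 = 0 ∧ c x 2 = 0
  rg : ∀ x, 0 ≤ c x 0 ∧ c x 0 ≤ 1 ∧ c x 1 ≤ 0
  sq : ∀ x, c x 1 ^ 2 ≤ M * c x 0 ∧ c x 2 ^ 2 ≤ M * c x 0

/-- A slowly varying weight `ψ` with two derivatives. -/
structure PsiS (p : ℝ → ℕ → ℝ) : Prop where
  d : ∀ j ξ, j ≤ 1 → 0 < ξ → HasDerivAt (fun y => p y j) (p ξ (j + 1)) ξ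
  pos : ∀ ξ, 0 < ξ → 0 < p ξ 0 ∧ p ξ 0 ≤ 1
  b1 : ∀ ξ, 0 < ξ → |ξ * p ξ 1| ≤ kk * p ξ 0
  b2 : ∀ ξ, 0 < ξ → |ξ ^ 2 * p ξ 2| ≤ 4 * kk * p ξ 0
  dbl : ∀ ξ ξ', 0 < ξ → 0 < ξ' → ξ ≤ 2 * ξ' → ξ' ≤ 2 * ξ → p ξ 0 ≤ 2 * p ξ' 0

/-- A time dependent weight with material derivative `-κ vp ψ`. -/
structure PsiD (κ : ℝ) (p : ℝ → ℝ → ℕ → ℝ) : Prop where
  k0 : 0 ≤ κ
  k1 : κ ≤ kk
  st : ∀ s, PsiS (p s)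
  ds : ∀ s ξ, 0 < ξ →
    HasDerivAt (fun σ => p σ ξ 0) (-κ * vp ξ * p s ξ 0 - ξ * p s ξ 1 / 2) s

/-- The weight `(1 + ξ)^(-k)`. -/
def psi0 (ξ : ℝ) (j : ℕ) : ℝ :=
  if j = 0 then (1 + ξ) ^ (-kk) else if j = 1 then -kk * (1 + ξ) ^ (-kk - 1)
    else kk * (kk + 1) * (1 + ξ) ^ (-kk - 2)

section Weights

variable (K : Cert) (X : Cut) (l κ : ℝ) (p : ℝ → ℕ → ℝ) (ε : ℝ) (m u : ℝ → ℕ → ℝ) (ξ : ℝ)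

/-- `ω = χ ψ`, `ξ ω'`, `ξ² ω''`. -/
def om : ℝ := X.c (l * ξ) 0 * p ξ 0
def omd : ℝ := l * ξ * X.c (l * ξ) 1 * p ξ 0 + X.c (l * ξ) 0 * (ξ * p ξ 1)
def omdd : ℝ := (l * ξ) ^ 2 * X.c (l * ξ) 2 * p ξ 0 + 2 * (l * ξ * X.c (l * ξ) 1) * (ξ * p ξ 1)
  + X.c (l * ξ) 0 * (ξ ^ 2 * p ξ 2)
/-- The correction `c = -ct ψ ξ χ'` and `ξ c'`. -/
def cc : ℝ := -K.ct * p ξ 0 * (l * ξ * X.c (l * ξ) 1)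
def ccd : ℝ := -K.ct * (ξ * p ξ 1 * (l * ξ * X.c (l * ξ) 1)
  + p ξ 0 * (l * ξ * X.c (l * ξ) 1 + (l * ξ) ^ 2 * X.c (l * ξ) 2))
def G1 : ℝ := om X l p ξ * K.g1 ξ 0
def G1d : ℝ := omd X l p ξ * K.g1 ξ 0 + om X l p ξ * (ξ * K.g1 ξ 1)
def G0 : ℝ := om X l p ξ * (K.g0 ξ 0 + ε * vp ξ) + cc K X l p ξ
/-- The material derivative `γ` of `ψ` and `ξ γ'`. -/
def gam : ℝ := -κ * vp ξ * p ξ 0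
def gamd : ℝ := -κ * (ξ / (1 + ξ) ^ 2 * p ξ 0 + vp ξ * (ξ * p ξ 1))
/-- The `s`-derivatives of `G1`, `G0`. -/
def G1s : ℝ := (X.c (l * ξ) 0 * gam κ p ξ - omd X l p ξ / 2) * K.g1 ξ 0
def G0s : ℝ := (X.c (l * ξ) 0 * gam κ p ξ - omd X l p ξ / 2) * (K.g0 ξ 0 + ε * vp ξ)
  - K.ct * gam κ p ξ * (l * ξ * X.c (l * ξ) 1) - ccd K X l p ξ / 2

/-- The energy density, its `s`-derivative and the energy. -/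
def ed : ℝ := ξ * (G1 K X l p ξ * sc m ξ 1 ^ 2 + G0 K X l p ε ξ * sc m ξ 0 ^ 2)
def eds : ℝ := ξ * (G1 K X l p ξ * (2 * sc m ξ 1 * sc u ξ 1) + G0 K X l p ε ξ * (2 * sc m ξ 0 * sc u ξ 0)
  + G1s K X l κ p ξ * sc m ξ 1 ^ 2 + G0s K X l κ p ε ξ * sc m ξ 0 ^ 2)
def En : ℝ := ∫ ξ in (0:ℝ)..(1 / (2 * l)), ed K X l p ε m ξ
def NN : ℝ := ∫ ξ in (0:ℝ)..(1 / (2 * l)), om X l p ξ * nn m ξ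
def N1 : ℝ := ∫ ξ in (0:ℝ)..(1 / (2 * l)), X.c (l * ξ) 0 * nn m ξ
def DD : ℝ := ∫ ξ in (0:ℝ)..(1 / (4 * l)), p ξ 0 * dd m ξ

end Weights

def Loc (m : ℝ → ℕ → ℝ) (u : ℝ) : ℝ := ∫ ξ in (u / 2)..u, nn m ξ
def Trap (l : ℝ) (m : ℝ → ℕ → ℝ) (b : ℝ) : Prop := ∀ u, 0 < u → l * u ≤ 1 / 4 → Loc m u ≤ b

/-- The main part of `ξ` times the energy production density. -/
def P0 (ξ Y Y1 yt yt1 e om omd omdd c cd g1 g1d g1dd g0 g0d h0 h0d : ℝ) (q qd a : ℕ → ℝ) : ℝ :=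
  2 * (yt ^ 2 * Ader (om * g1) (omd * g1 + om * g1d) (omdd * g1 + 2 * omd * g1d + om * g1dd)
        (om * (g0 + h0) + c) (omd * (g0 + h0) + om * (g0d + h0d) + cd) a
      + 2 * yt * yt1 * Ahat (om * g1) (omd * g1 + om * g1d) (om * (g0 + h0) + c) a) * sig1 a
    + 2 * ξ ^ 2 * (Y1 / Y * a 0 + e) * Ahat (om * g1) (omd * g1 + om * g1d) (om * (g0 + h0) + c) a
    + ξ ^ 2 / 2 * om * (g1d * a 1 ^ 2 + g0d * a 0 ^ 2)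
    + omd * flux q a + om * (ξ * flux qd a + fluxD q a)

/-- The terms with the material derivative of `ψ`. -/
def GT (ξ ch gam gamd g1 g0 h0 ct : ℝ) (a : ℕ → ℝ) : ℝ :=
  ξ ^ 2 * (gam * ch * (g1 * a 1 ^ 2 + (g0 + h0 + 2 * ct) * a 0 ^ 2 + 2 * ct * a 0 * a 1)
    + ct * ch * gamd * a 0 ^ 2)

def YY (K : Cert) (ξ : ℝ) : ℝ := 1 - ξ * K.W ξ 0
def YY1 (K : Cert) (ξ : ℝ) : ℝ := -ξ * (K.W ξ 0 + ξ * K.W ξ 1)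
/-- The residual of the profile. -/
def RR (K : Cert) (ξ : ℝ) : ℝ :=
  -(1 - ξ * K.W ξ 0) ^ 2 * S2 (K.W ξ) ξ - (K.W ξ 0 + ξ * K.W ξ 1) / 2
/-- The nonlinear error. -/
def ee (K : Cert) (m : ℝ → ℕ → ℝ) (ξ : ℝ) : ℝ :=
  RR K ξ - 2 * (ξ * sc m ξ 0) * RR K ξ / YY K ξ - (ξ * sc m ξ 0) ^ 2 * S2 (K.W ξ) ξ

/-- `ξ` times the energy production density. -/
def PT (K : Cert) (X : Cut) (l κ : ℝ) (p : ℝ → ℕ → ℝ) (ε : ℝ) (m : ℝ → ℕ → ℝ) (ξ : ℝ) : ℝ :=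
  P0 ξ (YY K ξ) (YY1 K ξ) (YY K ξ - ξ * sc m ξ 0) (YY1 K ξ - ξ * (sc m ξ 0 + sc m ξ 1)) (ee K m ξ)
      (om X l p ξ) (omd X l p ξ) (omdd X l p ξ) (cc K X l p ξ) (ccd K X l p ξ)
      (K.g1 ξ 0) (ξ * K.g1 ξ 1) (ξ ^ 2 * K.g1 ξ 2) (K.g0 ξ 0) (ξ * K.g0 ξ 1)
      (ε * vp ξ) (ε * (ξ / (1 + ξ) ^ 2)) (K.q ξ) (K.qd ξ) (sc m ξ)
    + GT ξ (X.c (l * ξ) 0) (gam κ p ξ) (gamd κ p ξ) (K.g1 ξ 0) (K.g0 ξ 0) (ε * vp ξ) K.ct (sc m ξ)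
    + ξ ^ 2 / 2 * om X l p ξ * (ε * (ξ / (1 + ξ) ^ 2)) * sc m ξ 0 ^ 2

/-- The total flux. -/
def Phi (K : Cert) (X : Cut) (l κ : ℝ) (p : ℝ → ℕ → ℝ) (ε : ℝ) (m u : ℝ → ℕ → ℝ) (ξ : ℝ) : ℝ :=
  2 * ξ ^ 2 * G1 K X l p ξ * sc m ξ 1 * u ξ 0
    - 2 * Ahat (G1 K X l p ξ) (G1d K X l p ξ) (G0 K X l p ε ξ) (sc m ξ)
        * (YY K ξ - ξ * sc m ξ 0) ^ 2 * sig1 (sc m ξ)
    + ξ ^ 2 * G1 K X l p ξ * sc m ξ 1 * (sc m ξ 0 + sc m ξ 1)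
    - ξ ^ 2 * G1 K X l p ξ * sc m ξ 1 ^ 2 / 2 - ξ ^ 2 * G0 K X l p ε ξ * sc m ξ 0 ^ 2 / 2
    - om X l p ξ * flux (K.q ξ) (sc m ξ)
    - gam κ p ξ * X.c (l * ξ) 0 * K.ct * ξ ^ 2 * sc m ξ 0 ^ 2

/-- A `C¹` function on `(0, 1/l)` with bounds near `0`. -/
structure Jet1 (l : ℝ) (m : ℝ → ℕ → ℝ) : Prop where
  l0 : 0 < l
  d0 : ∀ ξ, 0 < ξ → l * ξ < 1 → HasDerivAt (fun y => m y 0) (m ξ 1) ξ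
  c1 : ContinuousOn (fun y => m y 1) {ξ | 0 < ξ ∧ l * ξ < 1}
  bd : ∃ C : ℝ, ∀ ξ, 0 < ξ → l * ξ ≤ 1 / 2 → |sc m ξ 0| ≤ C ∧ |sc m ξ 1| ≤ C

/-- The facts on `m = mm K S s0 s`, `u = ut S s0 s` at a fixed time `s > s0`. -/
structure Jet4 (K : Cert) (l : ℝ) (m u : ℝ → ℕ → ℝ) : Prop where
  l0 : 0 < l
  d : ∀ k ξ, k ≤ 2 → 0 < ξ → l * ξ < 1 → HasDerivAt (fun y => m y k) (m ξ (k + 1)) ξ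
  d3 : ∀ ξ, 0 < ξ → l * ξ < 1 → ξ ∉ K.Bk → HasDerivAt (fun y => m y 3) (m ξ 4) ξ
  c3 : ContinuousOn (fun y => m y 3) {ξ | 0 < ξ ∧ l * ξ < 1}
  du : ∀ ξ, 0 < ξ → l * ξ < 1 → HasDerivAt (fun y => u y 0) (u ξ 1) ξ
  cu : ContinuousOn (fun y => u y 1) {ξ | 0 < ξ ∧ l * ξ < 1}
  pde : ∀ ξ, 0 < ξ → l * ξ < 1 → u ξ 0 =
    -(YY K ξ - ξ * m ξ 0) ^ 2 * (S2 (m ξ) ξ + S2 (K.W ξ) ξ)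
      - (K.W ξ 0 + ξ * K.W ξ 1 + (m ξ 0 + ξ * m ξ 1)) / 2
  bd : ∃ C : ℝ, ∀ ξ, 0 < ξ → l * ξ ≤ 1 / 2 → |sc m ξ 0| ≤ C ∧
    (∀ k, 1 ≤ k → k ≤ 3 → |sc m ξ k| ≤ C * √ξ) ∧ |ξ ^ 2 * u ξ 0| ≤ C * √ξ ∧
      √ξ * |ξ ^ 2 * u ξ 1| ≤ C

/-- The crude bounds in the variable `ξ`. -/
def CrudeX (K : Cert) (C l : ℝ) (m : ℝ → ℕ → ℝ) : Prop :=
  (∀ ξ, 1 / 4 ≤ l * ξ → l * ξ ≤ 1 / 2 →
    |K.W ξ 0 + m ξ 0| ≤ C * l ∧ |K.W ξ 1 + m ξ 1| ≤ C * l ^ 2) ∧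
  ∫ ξ in (1 / (4 * l))..(1 / (2 * l)), (K.W ξ 2 + m ξ 2) ^ 2 ≤ C * l ^ 5

/-- The index form and the projection along the flow. -/
def QQ (K : Cert) (X : Cut) (S : Sol) (s0 s : ℝ) : ℝ := En K X (lam s) psi0 0 (mm K S s0 s)
def PP (K : Cert) (S : Sol) (s0 s : ℝ) : ℝ × ℝ := (mm K S s0 s K.x1 0, mm K S s0 s K.x2 0)

/-- Everything the bootstrap needs. -/
structure Good (K : Cert) (X : Cut) (S : Sol) (s0 : ℝ) : Prop where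
  top : lam s0 * K.xt ≤ 1 / 4
  mas : ∀ s, s0 < s → Trap (lam s) (mm K S s0 s) (eta ^ 2) → ∀ (κ : ℝ) (p : ℝ → ℝ → ℕ → ℝ),
    PsiD κ p → ∀ ε, 0 ≤ ε → ε ≤ eps2 → ∀ β : ℝ,
    (∀ ξ, 0 < ξ → p s ξ 0 * ξ ^ 3 / (1 + ξ) ^ 6 ≤ β / (1 + ξ) ^ 2) →
    ∃ E' : ℝ, HasDerivAt (fun σ => En K X (lam σ) (p σ) ε (mm K S s0 σ)) E' s ∧
      E' ≤ -(κ / 2 - ε) * NN X (lam s) (p s) (mm K S s0 s) - DD (lam s) (p s) (mm K S s0 s) / 4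
        + β / 10 ^ 228 + Real.exp (s0 - s) / 10 ^ 200
  i1 : N1 X (lam s0) (mm K S s0 s0) ≤ 1 / 10 ^ 100
  i2 : QQ K X S s0 s0 ≤ mu / 4

end Vale.Agent.P264
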