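import Vale.Agent.P264.C.Boot

/-!
# P264 C/Exit  (TASK; notes/P264.md section C, notes/P264C.md)

`exits`: otherwise `boot` gives `Trap` for all `s`; at `ξ = xs` (for `lam s xs ≤ 1/4`): `1 - x w = YY - n ≤ 1/2 + 3 eta`, so `x w ≥ 1/4` at `x = lam s xs → 0`, against `S.b0`.
`trans`: `boot` and `trap_open` give `Trap (eta²)` on `[s1, s1 + δ]`; by continuity `QQ ≤ -mu/2` there, so `NN ≥ mu / (10 B)` (`abs_En_le`) and `Good.mas` gives
`QQ' ≤ -10^-190`; `le_of_deriv_nonpos` for `QQ + 10^-190 s`.  `nz`: `index_le`.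
-/

open Set MeasureTheory Filter Topology

noncomputable section

namespace Vale.Agent.P264

variable {K : Cert} {X : Cut} {S : Sol} {s0 : ℝ}

theorem q_exits (h : Good K X S s0) : ∃ s, s0 ≤ s ∧ QQ K X S s0 s ≤ -mu := by
  by_contra hc
  push Not at hc
  have he : (0:ℝ) < eta ^ 2 := by unfold eta; positivity
  obtain ⟨C, hC⟩ := S.b0 (Real.exp (-s0))
  have hl : Tendsto lam atTop (𝓝 0) := by
    have : Tendsto (fun s : ℝ => -s / 2) atTop atBot :=
      tendsto_neg_atTop_atBot.atBot_div_const (by norm_num)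
    exact Real.tendsto_exp_atBot.comp this
  have hl2 : Tendsto (fun s => lam s * K.xs * (|C| + 1)) atTop (𝓝 0) := by
    simpa using (hl.mul_const K.xs).mul_const (|C| + 1)
  obtain ⟨s, hs, hs0⟩ := ((hl2.eventually (gt_mem_nhds (show (0:ℝ) < 1 / 4 by norm_num))).and
    (eventually_ge_atTop s0)).exists
  have hx : 0 < lam s * K.xs := mul_pos (lam_pos s) K.hxs
  have hCa : 0 ≤ lam s * K.xs * |C| := mul_nonneg hx.le (abs_nonneg C)
  have hx4 : lam s * K.xs ≤ 1 / 4 := by nlinarith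
  have hT := (boot h hs0 (fun σ hσ => hc σ hσ.1) s ⟨hs0, le_rfl⟩).1
  have hn := (jet1_mm K S s0 hs0).n_le (fun u hu hu' => (hT u hu hu').trans (by linarith)) K.hxs hx4
  have hw := (hC (tt s0 s) ⟨tt_nonneg s0 hs0, tt_le s0 s⟩ (lam s * K.xs) ⟨hx, by linarith⟩).1
  have e : K.xs * sc (mm K S s0 s) K.xs 0 =
      lam s * K.xs * S.w (tt s0 s) (lam s * K.xs) 0 - K.xs * K.W K.xs 0 := by
    simp only [sc, mm, wt, pow_zero, one_mul, zero_add, pow_one]; ring
  rw [e] at hn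
  have h1 := (abs_le.1 hn).1
  have h2 : lam s * K.xs * S.w (tt s0 s) (lam s * K.xs) 0 ≤ lam s * K.xs * |C| :=
    mul_le_mul_of_nonneg_left ((le_abs_self _).trans (hw.trans (le_abs_self C))) hx.le
  have h3 := K.bYs
  have h4 : 3 * eta < 1 / 4 := by unfold eta; norm_num
  nlinarith

theorem q_trans (h : Good K X S s0) {s1 : ℝ} (hs : s0 ≤ s1)
    (hQ : ∀ s ∈ Ico s0 s1, -mu < QQ K X S s0 s) (h1 : QQ K X S s0 s1 ≤ -mu) :
    ∃ δ, 0 < δ ∧ ∀ s ∈ Ioo s1 (s1 + δ), QQ K X S s0 s < -mu := by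
  have he : (0:ℝ) < eta ^ 2 := by unfold eta; positivity
  have hmu : (0:ℝ) < mu := by unfold mu; positivity
  have hT := (boot h hs hQ s1 ⟨hs, le_rfl⟩).1
  obtain ⟨δ1, hδ1, hT1⟩ := trap_open K S s0 hs (b := eta ^ 2) (by linarith) (by linarith) hT
  have hc := continuousOn_QQ K X S s0 s1 (mem_Ici.2 hs)
  obtain ⟨δ2, hδ2, hc2⟩ := Metric.continuousWithinAt_iff.1 hc (mu / 2) (by linarith)
  refine ⟨min δ1 δ2, lt_min hδ1 hδ2, fun s hs' => ?_⟩
  have m1 := min_le_left δ1 δ2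
  have m2 := min_le_right δ1 δ2
  have := le_of_deriv_nonpos (f := fun σ => QQ K X S s0 σ + σ / 10 ^ 190) hs'.1.le
    (((continuousOn_QQ K X S s0).mono fun σ hσ => mem_Ici.2 (hs.trans hσ.1)).add
      (continuous_id.div_const _).continuousOn) fun σ hσ => by
      have hσ0 : s0 < σ := lt_of_le_of_lt hs hσ.1
      obtain ⟨E', hE, hE'⟩ := h.mas σ hσ0 (hT1 σ ⟨hσ.1.le, by linarith [hσ.2, hs'.2]⟩) (kk / 2)
        (fun _ => psi0) psiD_psi0 0 le_rfl (by unfold eps2; positivity) 1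
        fun ξ hξ => (psiD_psi0.st σ).beta_one hξ
      refine ⟨E' + 1 / 10 ^ 190, hE.add ((hasDerivAt_id σ).div_const _), ?_⟩
      have hd := hc2 (mem_Ici.2 hσ0.le) (show dist σ s1 < δ2 by
        rw [Real.dist_eq, abs_lt]; constructor <;> linarith [hσ.1, hσ.2, hs'.2])
      rw [Real.dist_eq] at hd
      have hd' := (abs_lt.1 hd).2
      have ha := (abs_le.1 (abs_En_le K X (jet1_mm K S s0 hσ0.le) (psiD_psi0.st σ))).1
      have hD := DD_nonneg (lam_pos σ) (psiD_psi0.st σ) (mm K S s0 σ)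
      have hx : Real.exp (s0 - σ) ≤ 1 := Real.exp_le_one_iff.2 (by linarith)
      have hN : mu / 10 ^ 15 ≤ NN X (lam σ) psi0 (mm K S s0 σ) := by
        have : QQ K X S s0 σ = En K X (lam σ) psi0 0 (mm K S s0 σ) := rfl
        rw [div_le_iff₀ (by positivity)]
        linarith
      have hx' : Real.exp (s0 - σ) / 10 ^ 200 ≤ 1 / 10 ^ 200 := by gcongr
      have hk : kk / 4 * (mu / 10 ^ 15) ≤ kk / 4 * NN X (lam σ) psi0 (mm K S s0 σ) :=
        mul_le_mul_of_nonneg_left hN (by unfold kk; positivity)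
      have hnum : (1:ℝ) / 10 ^ 228 + 1 / 10 ^ 200 + 1 / 10 ^ 190 ≤ kk / 4 * (mu / 10 ^ 15) := by
        unfold kk mu; norm_num
      have e : -(kk / 2 / 2 - 0) * NN X (lam σ) psi0 (mm K S s0 σ) =
          -(kk / 4 * NN X (lam σ) psi0 (mm K S s0 σ)) := by ring
      rw [e] at hE'
      linarith
  have hp : s1 / 10 ^ 190 < s / 10 ^ 190 := div_lt_div_of_pos_right hs'.1 (by positivity)
  linarith

theorem q_nz (h : Good K X S s0) {s : ℝ} (hs : s0 ≤ s) (h1 : QQ K X S s0 s ≤ -mu) :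
    PP K S s0 s ≠ 0 := by
  intro h0
  have hmu : (0:ℝ) < mu := by unfold mu; positivity
  have e1 : mm K S s0 s K.x1 0 = 0 := congrArg Prod.fst h0
  have e2 : mm K S s0 s K.x2 0 = 0 := congrArg Prod.snd h0
  have hl : lam s * K.xt ≤ 1 / 4 :=
    (mul_le_mul_of_nonneg_right (lam_anti hs) (by linarith [K.hxt])).trans h.top
  have := index_le K X (jet1_mm K S s0 hs) (psiD_psi0.st s) hl
  rw [e1, e2] at this
  have hN := NN_nonneg X (lam_pos s) (psiD_psi0.st s) (mm K S s0 s)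
  have : QQ K X S s0 s = En K X (lam s) psi0 0 (mm K S s0 s) := rfl
  nlinarith

end Vale.Agent.P264
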