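import Vale.Agent.P264.C.Integ

/-!
# P264 C/FubSob  (TASK; notes/P264.md section C, notes/P264C.md)

On `[u/2, u]`: `sob` for `a1`, `a2` (`Jet4.d_sc`) gives `a1² + a2² ≤ 33 ∫_{u/2}^u dd`, `p ≤ 2 p'` (`PsiS.dbl`), `∫ ξ a1² ≤ Loc m u ≤ eta²`; so the inequality holds on each dyadic
interval `u = 1 / (4 l 2^j)` with constant `66`.  Sum over `j < J` (induction) and let `J → ∞` (the left integrand is bounded near `0`, or use continuity of the primitive).
-/

open Set MeasureTheory Filter Topology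

noncomputable section

namespace Vale.Agent.P264

theorem FubSob_dyadic {φ : ℝ → ℝ} {L : ℝ} (hL : 0 < L) (hφ : IntervalIntegrable φ volume 0 L)
    (h : ∀ v, 0 < v → v ≤ L → 0 ≤ ∫ x in (v / 2)..v, φ x) : 0 ≤ ∫ x in (0:ℝ)..L, φ x := by
  have hc := intervalIntegral.continuousOn_primitive_interval' hφ left_mem_uIcc
  have hm : ∀ J : ℕ, 0 < L * (1 / 2) ^ J ∧ L * (1 / 2) ^ J ≤ L := fun J =>
    ⟨by positivity, mul_le_of_le_one_right hL.le (pow_le_one₀ (by norm_num) (by norm_num))⟩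
  have hu : ∀ v, 0 ≤ v → v ≤ L → v ∈ uIcc 0 L := fun v h1 h2 => by
    rw [uIcc_of_le hL.le]
    exact ⟨h1, h2⟩
  have hi : ∀ a b, 0 ≤ a → a ≤ L → 0 ≤ b → b ≤ L → IntervalIntegrable φ volume a b :=
    fun a b h1 h2 h3 h4 => hφ.mono_set (uIcc_subset_uIcc (hu a h1 h2) (hu b h3 h4))
  have key : ∀ J : ℕ, ∫ x in (0:ℝ)..(L * (1 / 2) ^ J), φ x ≤ ∫ x in (0:ℝ)..L, φ x := by
    intro J
    induction J with
    | zero => rw [pow_zero, mul_one]
    | succ J ih =>
      obtain ⟨h1, h2⟩ := hm J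
      have e : L * (1 / 2) ^ (J + 1) = L * (1 / 2) ^ J / 2 := by ring
      have h3 := intervalIntegral.integral_add_adjacent_intervals
        (hi 0 (L * (1 / 2) ^ J / 2) le_rfl hL.le (by linarith) (by linarith))
        (hi _ (L * (1 / 2) ^ J) (by linarith) (by linarith) h1.le h2)
      have h4 := h _ h1 h2
      rw [e]
      linarith
  have ht : Tendsto (fun J : ℕ => L * (1 / 2 : ℝ) ^ J) atTop (𝓝[uIcc 0 L] 0) := by
    refine tendsto_nhdsWithin_iff.2 ⟨?_, Eventually.of_forall fun J => hu _ (hm J).1.le (hm J).2⟩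
    have := (tendsto_pow_atTop_nhds_zero_of_lt_one (r := (1 / 2 : ℝ)) (by norm_num)
      (by norm_num)).const_mul L
    rwa [mul_zero] at this
  have h5 := (hc 0 left_mem_uIcc).tendsto.comp ht
  rw [intervalIntegral.integral_same] at h5
  exact le_of_tendsto' h5 key

variable {K : Cert} {l : ℝ} {p m u : ℝ → ℕ → ℝ}

theorem FubSob_sub (hl : 0 < l) {v : ℝ} (hv : 0 < v) (hv' : l * v ≤ 1 / 4) :
    Icc (v / 2) v ⊆ {ξ | 0 < ξ ∧ l * ξ < 1} := fun y hy =>
  ⟨by linarith [hy.1], by linarith [mul_le_mul_of_nonneg_left hy.2 hl.le]⟩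

theorem FubSob_sob (h : Jet4 K l m u) {k : ℕ} (hk : k ≤ 2) {v : ℝ} (hv : 0 < v)
    (hv' : l * v ≤ 1 / 4) :
    IntervalIntegrable (fun y => (sc m y k ^ 2 + (k * sc m y k + sc m y (k + 1)) ^ 2) / y) volume
      (v / 2) v ∧ ∀ x ∈ Icc (v / 2) v, sc m x k ^ 2 ≤
        3 * ∫ y in (v / 2)..v, (sc m y k ^ 2 + (k * sc m y k + sc m y (k + 1)) ^ 2) / y := by
  have hs := FubSob_sub h.l0 hv hv'
  have c1 := (h.cont_sc (k := k) (by omega)).mono hs
  have c2 := (h.cont_sc (k := k + 1) (by omega)).mono hs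
  have c3 : ContinuousOn (fun y => (k : ℝ) * sc m y k + sc m y (k + 1)) (Icc (v / 2) v) :=
    (continuousOn_const.mul c1).add c2
  have hne : ∀ y ∈ Icc (v / 2) v, y ≠ 0 := fun y hy => (hs hy).1.ne'
  refine ⟨(((c1.pow 2).add (c3.pow 2)).div continuousOn_id hne).intervalIntegrable_of_Icc
    (by linarith), fun x hx => ?_⟩
  refine (sob hv (fun y hy => h.d_sc hk (hs hy).1 (hs hy).2) (c3.div continuousOn_id hne) x
    hx).trans (le_of_eq ?_)
  refine congrArg (3 * ·) (intervalIntegral.integral_congr fun y hy => ?_)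
  rw [uIcc_of_le (by linarith)] at hy
  simp only [mul_div_cancel₀ _ (hne y hy)]

theorem FubSob_pt (h : Jet4 K l m u) (hp : PsiS p) {v : ℝ} (hv : 0 < v) (hv' : l * v ≤ 1 / 4)
    {x : ℝ} (hx : x ∈ Icc (v / 2) v) : p x 0 * (sc m x 1 ^ 2 + sc m x 2 ^ 2) ≤
      66 * ∫ y in (v / 2)..v, p y 0 * dd m y := by
  obtain ⟨i1, s1⟩ := FubSob_sob h (k := 1) (by omega) hv hv'
  obtain ⟨i2, s2⟩ := FubSob_sob h (k := 2) (by omega) hv hv'
  have hs := FubSob_sub h.l0 hv hv'
  have hx0 := (hs hx).1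
  have hp0 := (hp.pos x hx0).1
  have i3 := h.ii_dd hp (a := v / 2) (b := v) (by linarith) (by linarith) (by linarith)
  have h1 := intervalIntegral.integral_mono_on (by linarith : v / 2 ≤ v)
    ((i1.add i2).const_mul (p x 0)) (i3.const_mul 22) fun y hy => by
      have hy0 := (hs hy).1
      have h2 := hp.dbl x y hx0 hy0 (by linarith [hx.2, hy.1]) (by linarith [hx.1, hy.2])
      have h3 := dd_nonneg m hy0.le
      have h4 : (sc m y 1 ^ 2 + (((1 : ℕ) : ℝ) * sc m y 1 + sc m y (1 + 1)) ^ 2) / y +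
          (sc m y 2 ^ 2 + (((2 : ℕ) : ℝ) * sc m y 2 + sc m y (2 + 1)) ^ 2) / y ≤ 11 * dd m y := by
        rw [← add_div, dd, ← mul_div_assoc]
        refine div_le_div_of_nonneg_right ?_ hy0.le
        have h5 := mul_nonneg (vp_pos hy0).1.le (sq_nonneg (sc m y 0))
        unfold NQ
        norm_num
        nlinarith [sq_nonneg (sc m y 1 - sc m y 2), sq_nonneg (2 * sc m y 2 - sc m y 3),
          sq_nonneg (sc m y 1), sq_nonneg (sc m y 3)]
      have h6 := mul_le_mul_of_nonneg_left h4 hp0.le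
      have h7 := mul_le_mul_of_nonneg_right h2 h3
      linarith
  rw [intervalIntegral.integral_const_mul, intervalIntegral.integral_const_mul,
    intervalIntegral.integral_add i1 i2] at h1
  have h8 := mul_le_mul_of_nonneg_left (add_le_add (s1 x hx) (s2 x hx)) hp0.le
  linarith

theorem FubSob_loc (h : Jet4 K l m u) (hp : PsiS p) (hT : Trap l m (eta ^ 2)) {v : ℝ} (hv : 0 < v)
    (hv' : l * v ≤ 1 / 4) :
    ∫ ξ in (v / 2)..v, p ξ 0 * (ξ * sc m ξ 1 ^ 2 * (sc m ξ 1 ^ 2 + sc m ξ 2 ^ 2)) ≤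
      100 * eta ^ 2 * ∫ y in (v / 2)..v, p y 0 * dd m y := by
  have hs := FubSob_sub h.l0 hv hv'
  have hD : 0 ≤ ∫ y in (v / 2)..v, p y 0 * dd m y :=
    intervalIntegral.integral_nonneg (by linarith) fun y hy =>
      mul_nonneg (hp.pos y (hs hy).1).1.le (dd_nonneg m (hs hy).1.le)
  have hpt := fun x hx => FubSob_pt h hp hv hv' (x := x) hx
  generalize (∫ y in (v / 2)..v, p y 0 * dd m y) = D at hD hpt ⊢
  have h1 := intervalIntegral.integral_mono_on (by linarith : v / 2 ≤ v)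
    (h.ii_b1 hp (a := v / 2) (b := v) (by linarith) (by linarith) (by linarith))
    ((h.jet1.ii_nn (a := v / 2) (b := v) (by linarith) (by linarith) (by linarith)).const_mul
      (66 * D)) fun y hy => by
      have hy0 := (hs hy).1
      have h2 := mul_le_mul_of_nonneg_left (hpt y hy) (mul_nonneg hy0.le (sq_nonneg (sc m y 1)))
      have h3 := mul_nonneg hD (mul_nonneg hy0.le (sq_nonneg (sc m y 0)))
      unfold nn
      linarith
  rw [intervalIntegral.integral_const_mul] at h1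
  have h4 : ∫ y in (v / 2)..v, nn m y ≤ eta ^ 2 := hT v hv hv'
  have h5 := mul_le_mul_of_nonneg_left h4 hD
  have h6 := mul_nonneg hD (sq_nonneg eta)
  linarith

theorem fubsob {K : Cert} {l : ℝ} {p m u : ℝ → ℕ → ℝ} (h : Jet4 K l m u) (hp : PsiS p)
    (hT : Trap l m (eta ^ 2)) :
    ∫ ξ in (0:ℝ)..(1 / (4 * l)), p ξ 0 * (ξ * sc m ξ 1 ^ 2 * (sc m ξ 1 ^ 2 + sc m ξ 2 ^ 2)) ≤
      100 * eta ^ 2 * DD l p m := by
  have hl := h.l0
  have hL : 0 < 1 / (4 * l) := by positivity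
  have e : l * (1 / (4 * l)) = 1 / 4 := by field_simp
  have i1 := h.ii_dd hp (a := 0) le_rfl hL.le (by linarith)
  have i2 := h.ii_b1 hp (a := 0) le_rfl hL.le (by linarith)
  have h1 := FubSob_dyadic hL ((i1.const_mul (100 * eta ^ 2)).sub i2) fun v hv hv' => by
    have h2 : l * v ≤ 1 / 4 := e ▸ mul_le_mul_of_nonneg_left hv' hl.le
    rw [intervalIntegral.integral_sub
      ((h.ii_dd hp (by linarith) (by linarith) (by linarith)).const_mul _)
      (h.ii_b1 hp (by linarith) (by linarith) (by linarith)), intervalIntegral.integral_const_mul]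
    exact sub_nonneg.2 (FubSob_loc h hp hT hv h2)
  rw [intervalIntegral.integral_sub (i1.const_mul _) i2, intervalIntegral.integral_const_mul] at h1
  exact sub_nonneg.1 h1

end Vale.Agent.P264
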