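import Vale.Agent.P264.C.Integ

/-!
# P264 C/Ident  (TASK; notes/P264.md section C, notes/P264C.md)

The flux identity (checked numerically, exact).  First prove a generic lemma for functions `A1, A1d, A0, y` of `ξ` with
`A1' = A1d / ξ`, `A1d' = (A1d + A1dd) / ξ`, `A0' = A0d / ξ`, `y' = y1 / ξ`, `a_k' = (k a_k + a_{k+1}) / ξ` (`k ≤ 3`), `u0' = u1` and the first five terms of `Phi`; use
`S2 (m ξ) ξ = (a4 + 20 a3 + 90 a2) / ξ²` and `u0 = -yt² S2 m + (Y1/Y) a0 - (a0 + a1)/2 + ee` (from `Jet4.pde`, `YY ≠ 0` by `K.bY`); close with `field_simp; ring` (`HasDerivAt.congr_deriv`).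
Then the two flux terms.  `Phi` is continuous by `K.cg1`, `K.cg0`, `K.cq`, `Jet4.c3`.  Near `0` every term is `O(√ξ)`: `G0 = O(ξ)`, `q 0, q 1, q 2 = O(ξ)` (`K.bq0`).
-/

open Set MeasureTheory Filter Topology

noncomputable section

namespace Vale.Agent.P264

variable {K : Cert} {l : ℝ} {p m u : ℝ → ℕ → ℝ}

theorem ident_gen {A1 A1d A0 y u0 : ℝ → ℝ} {a : ℝ → ℕ → ℝ} {ξ A1dd A0d y1 u1 E : ℝ} (h0 : ξ ≠ 0)
    (d1 : HasDerivAt A1 (A1d ξ / ξ) ξ) (d2 : HasDerivAt A1d ((A1d ξ + A1dd) / ξ) ξ)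
    (d3 : HasDerivAt A0 (A0d / ξ) ξ) (d4 : HasDerivAt y (y1 / ξ) ξ) (d5 : HasDerivAt u0 u1 ξ)
    (a0 : HasDerivAt (fun x => a x 0) (a ξ 1 / ξ) ξ)
    (a1 : HasDerivAt (fun x => a x 1) ((a ξ 1 + a ξ 2) / ξ) ξ)
    (a2 : HasDerivAt (fun x => a x 2) ((2 * a ξ 2 + a ξ 3) / ξ) ξ)
    (a3 : HasDerivAt (fun x => a x 3) ((3 * a ξ 3 + a ξ 4) / ξ) ξ)
    (hu : u0 ξ = -y ξ ^ 2 * ((a ξ 4 + 20 * a ξ 3 + 90 * a ξ 2) / ξ ^ 2) + E - (a ξ 0 + a ξ 1) / 2) :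
    HasDerivAt (fun x => 2 * x ^ 2 * A1 x * a x 1 * u0 x
        - 2 * Ahat (A1 x) (A1d x) (A0 x) (a x) * y x ^ 2 * sig1 (a x)
        + x ^ 2 * A1 x * a x 1 * (a x 0 + a x 1)
        - x ^ 2 * A1 x * a x 1 ^ 2 / 2 - x ^ 2 * A0 x * a x 0 ^ 2 / 2)
      ((2 * ξ ^ 2 * (A0 ξ * a ξ 0 * u0 ξ + ξ * A1 ξ * a ξ 1 * u1)
        - 2 * ξ ^ 2 * E * Ahat (A1 ξ) (A1d ξ) (A0 ξ) (a ξ)
        - 2 * (y ξ ^ 2 * Ader (A1 ξ) (A1d ξ) A1dd (A0 ξ) A0d (a ξ)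
          + 2 * y ξ * y1 * Ahat (A1 ξ) (A1d ξ) (A0 ξ) (a ξ)) * sig1 (a ξ)
        - ξ ^ 2 * (A1d ξ * a ξ 1 ^ 2 + A0d * a ξ 0 ^ 2) / 2) / ξ) ξ := by
  have x2 : HasDerivAt (fun x : ℝ => x ^ 2) (2 * ξ) ξ := by simpa using hasDerivAt_pow 2 ξ
  have hA : HasDerivAt (fun x => Ahat (A1 x) (A1d x) (A0 x) (a x))
      ((Ader (A1 ξ) (A1d ξ) A1dd (A0 ξ) A0d (a ξ) - Ahat (A1 ξ) (A1d ξ) (A0 ξ) (a ξ)) / ξ) ξ := by
    refine (((d1.fun_neg.fun_mul a2).fun_sub (((d1.const_mul 3).fun_add d2).fun_mul a1)).fun_add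
      (d3.fun_mul a0)).congr_deriv ?_
    simp only [Ader, Ahat]
    ring
  have hS : HasDerivAt (fun x => sig1 (a x))
      ((a ξ 4 + 20 * a ξ 3 + 90 * a ξ 2 + sig1 (a ξ)) / ξ) ξ := by
    refine ((a3.fun_add (a2.const_mul 18)).fun_add (a1.const_mul 72)).congr_deriv ?_
    simp only [sig1]
    ring
  refine ((((((((x2.const_mul 2).fun_mul d1).fun_mul a1).fun_mul d5).fun_sub
    (((hA.const_mul 2).fun_mul (d4.fun_pow 2)).fun_mul hS)).fun_add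
    (((x2.fun_mul d1).fun_mul a1).fun_mul (a0.fun_add a1))).fun_sub
    (((x2.fun_mul d1).fun_mul (a1.fun_pow 2)).div_const 2)).fun_sub
    (((x2.fun_mul d3).fun_mul (a0.fun_pow 2)).div_const 2)).congr_deriv ?_
  have hE : E = u0 ξ + y ξ ^ 2 * ((a ξ 4 + 20 * a ξ 3 + 90 * a ξ 2) / ξ ^ 2) +
      (a ξ 0 + a ξ 1) / 2 := by linarith
  have hh : A1 ξ * a ξ 2 = A0 ξ * a ξ 0 - (3 * A1 ξ + A1d ξ) * a ξ 1 -
      Ahat (A1 ξ) (A1d ξ) (A0 ξ) (a ξ) := by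
    simp only [Ahat]
    ring
  rw [hE]
  generalize Ahat (A1 ξ) (A1d ξ) (A0 ξ) (a ξ) = H at hh ⊢
  generalize Ader (A1 ξ) (A1d ξ) A1dd (A0 ξ) A0d (a ξ) = H'
  generalize sig1 (a ξ) = S
  push_cast
  field_simp
  linear_combination (ξ ^ 2 * (4 * u0 ξ + 2 * a ξ 0 + 2 * a ξ 1)) * hh

theorem ident_flux {q a : ℝ → ℕ → ℝ} {qd : ℕ → ℝ} {ξ : ℝ} (h0 : ξ ≠ 0)
    (hq : ∀ i, HasDerivAt (fun x => q x i) (qd i) ξ)
    (a0 : HasDerivAt (fun x => a x 0) (a ξ 1 / ξ) ξ)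
    (a1 : HasDerivAt (fun x => a x 1) ((a ξ 1 + a ξ 2) / ξ) ξ)
    (a2 : HasDerivAt (fun x => a x 2) ((2 * a ξ 2 + a ξ 3) / ξ) ξ) :
    HasDerivAt (fun x => flux (q x) (a x)) ((ξ * flux qd (a ξ) + fluxD (q ξ) (a ξ)) / ξ) ξ := by
  refine (((((((hq 0).fun_mul (a0.fun_pow 2)).fun_add
    ((((hq 1).const_mul 2).fun_mul a0).fun_mul a1)).fun_add
    ((((hq 2).const_mul 2).fun_mul a0).fun_mul a2)).fun_add ((hq 3).fun_mul (a1.fun_pow 2))).fun_add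
    ((((hq 4).const_mul 2).fun_mul a1).fun_mul a2)).fun_add
    ((hq 5).fun_mul (a2.fun_pow 2))).congr_deriv ?_
  simp only [flux, fluxD]
  push_cast
  field_simp
  ring

theorem ident_c (X : Cut) (l ξ : ℝ) {j : ℕ} (hj : j ≤ 1) :
    HasDerivAt (fun x => X.c (l * x) j) (X.c (l * ξ) (j + 1) * l) ξ := by
  have h := (X.d j (l * ξ) hj).comp ξ ((hasDerivAt_id ξ).const_mul l)
  rw [mul_one] at h
  exact h

theorem hasDerivAt_Phi (h : Jet4 K l m u) (X : Cut) (κ ε : ℝ) (hp : PsiS p) {ξ : ℝ} (h0 : 0 < ξ)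
    (h1 : l * ξ < 1) (hB : ξ ∉ K.Bk) :
    HasDerivAt (Phi K X l κ p ε m u) (eds K X l κ p ε m u ξ - PT K X l κ p ε m ξ / ξ) ξ := by
  have hξ := h0.ne'
  have x1 := hasDerivAt_id' ξ
  have x2 : HasDerivAt (fun x : ℝ => x ^ 2) (2 * ξ) ξ := by simpa using hasDerivAt_pow 2 ξ
  have lx : HasDerivAt (fun x : ℝ => l * x) l ξ := by simpa using x1.const_mul l
  have a0 : HasDerivAt (fun x => sc m x 0) (sc m ξ 1 / ξ) ξ := h.jet1.d_sc h0 h1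
  have a1 : HasDerivAt (fun x => sc m x 1) ((sc m ξ 1 + sc m ξ 2) / ξ) ξ := by
    simpa using h.d_sc (k := 1) (by norm_num) h0 h1
  have a2 : HasDerivAt (fun x => sc m x 2) ((2 * sc m ξ 2 + sc m ξ 3) / ξ) ξ := by
    simpa using h.d_sc (k := 2) (by norm_num) h0 h1
  have a3 : HasDerivAt (fun x => sc m x 3) ((3 * sc m ξ 3 + sc m ξ 4) / ξ) ξ := by
    refine ((hasDerivAt_pow 3 ξ).fun_mul (h.d3 ξ h0 h1 hB)).congr_deriv ?_
    simp only [sc]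
    push_cast
    field_simp
  have c0 := ident_c X l ξ (j := 0) (by norm_num)
  have c1 := ident_c X l ξ (j := 1) (by norm_num)
  have p0 := hp.d 0 ξ (by norm_num) h0
  have p1 := hp.d 1 ξ (by norm_num) h0
  have o0 := d_om X l hp h0
  have o1 : HasDerivAt (omd X l p) ((omd X l p ξ + omdd X l p ξ) / ξ) ξ := by
    refine (((lx.fun_mul c1).fun_mul p0).fun_add (c0.fun_mul (x1.fun_mul p1))).congr_deriv ?_
    simp only [omd, omdd]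
    field_simp
    ring
  have k0 : HasDerivAt (cc K X l p) (ccd K X l p ξ / ξ) ξ := by
    refine ((p0.const_mul (-K.ct)).fun_mul (lx.fun_mul c1)).congr_deriv ?_
    simp only [ccd]
    field_simp
    ring
  have g1 : HasDerivAt (G1 K X l p) (G1d K X l p ξ / ξ) ξ := by
    refine (o0.fun_mul (K.dg1 ξ h0)).congr_deriv ?_
    simp only [G1d]
    field_simp
  have g2 : HasDerivAt (G1d K X l p) ((G1d K X l p ξ + (omdd X l p ξ * K.g1 ξ 0 +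
      2 * omd X l p ξ * (ξ * K.g1 ξ 1) + om X l p ξ * (ξ ^ 2 * K.g1 ξ 2))) / ξ) ξ := by
    refine ((o1.fun_mul (K.dg1 ξ h0)).fun_add
      (o0.fun_mul (x1.fun_mul (K.dg1' ξ h0 hB)))).congr_deriv ?_
    simp only [G1d]
    field_simp
    ring
  have g3 : HasDerivAt (G0 K X l p ε) ((omd X l p ξ * (K.g0 ξ 0 + ε * vp ξ) +
      om X l p ξ * (ξ * K.g0 ξ 1 + ε * (ξ / (1 + ξ) ^ 2)) + ccd K X l p ξ) / ξ) ξ := by
    refine ((o0.fun_mul ((K.dg0 ξ h0 hB).fun_add ((hasDerivAt_vp h0).const_mul ε))).fun_add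
      k0).congr_deriv ?_
    field_simp
  have g4 : HasDerivAt (gam κ p) (gamd κ p ξ / ξ) ξ := by
    refine (((hasDerivAt_vp h0).const_mul (-κ)).fun_mul p0).congr_deriv ?_
    simp only [gamd]
    field_simp
    ring
  have y0 : HasDerivAt (fun x => YY K x - x * sc m x 0)
      ((YY1 K ξ - ξ * (sc m ξ 0 + sc m ξ 1)) / ξ) ξ := by
    refine (((x1.fun_mul (K.dW 0 ξ (by norm_num) h0.le)).const_sub 1).fun_sub
      (x1.fun_mul a0)).congr_deriv ?_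
    simp only [YY1]
    field_simp
  have hY : YY K ξ ≠ 0 := by
    have := (K.bY ξ h0.le).1
    simp only [YY]
    linarith
  have hu : u ξ 0 = -(YY K ξ - ξ * sc m ξ 0) ^ 2 *
      ((sc m ξ 4 + 20 * sc m ξ 3 + 90 * sc m ξ 2) / ξ ^ 2) +
      (YY1 K ξ / YY K ξ * sc m ξ 0 + ee K m ξ) - (sc m ξ 0 + sc m ξ 1) / 2 := by
    have e1 : RR K ξ = -YY K ξ ^ 2 * S2 (K.W ξ) ξ - (K.W ξ 0 + ξ * K.W ξ 1) / 2 := rfl
    rw [h.pde ξ h0 h1, ee, e1, YY1]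
    generalize S2 (K.W ξ) ξ = Z
    generalize YY K ξ = Y at hY
    simp only [sc, S2]
    field_simp
    ring
  have t1 := ident_gen (u0 := fun x => u x 0) (a := sc m) hξ g1 g2 g3 y0 (h.du ξ h0 h1) a0 a1 a2 a3 hu
  have t2 := ident_flux (a := sc m) hξ (fun i => K.dq i ξ h0 hB) a0 a1 a2
  refine ((t1.fun_sub (o0.fun_mul t2)).fun_sub
    ((((g4.fun_mul c0).mul_const K.ct).fun_mul x2).fun_mul (a0.fun_pow 2))).congr_deriv ?_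
  have s0 : sc u ξ 0 = u ξ 0 := by simp [sc]
  have s1 : sc u ξ 1 = ξ * u ξ 1 := by simp [sc]
  simp only [eds, PT, P0, GT, s0, s1]
  change _ = ξ * (G1 K X l p ξ * _ + G0 K X l p ε ξ * _ + _ + _) -
    (2 * (_ * Ader (G1 K X l p ξ) (G1d K X l p ξ) _ (G0 K X l p ε ξ) _ _ +
      _ * Ahat (G1 K X l p ξ) (G1d K X l p ξ) (G0 K X l p ε ξ) _) * _ +
      _ * Ahat (G1 K X l p ξ) (G1d K X l p ξ) (G0 K X l p ε ξ) _ + _ + _ + _ + _ + _) / ξ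
  generalize Ahat (G1 K X l p ξ) (G1d K X l p ξ) (G0 K X l p ε ξ) (sc m ξ) = H
  generalize Ader (G1 K X l p ξ) (G1d K X l p ξ) _ (G0 K X l p ε ξ) _ (sc m ξ) = H'
  generalize ε * (ξ / (1 + ξ) ^ 2) = e'
  generalize YY1 K ξ / YY K ξ * sc m ξ 0 + ee K m ξ = E
  simp only [G1s, G0s, G1d, zero_add]
  push_cast
  field_simp
  ring

end Vale.Agent.P264
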