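import Vale.Agent.P264.C.Integ

/-!
# P264 C/IdentB  (TASK; notes/P264.md section C, notes/P264C.md)

The flux identity (checked numerically, exact).  First prove a generic lemma for functions `A1, A1d, A0, y` of `ξ` with
`A1' = A1d / ξ`, `A1d' = (A1d + A1dd) / ξ`, `A0' = A0d / ξ`, `y' = y1 / ξ`, `a_k' = (k a_k + a_{k+1}) / ξ` (`k ≤ 3`), `u0' = u1` and the first five terms of `Phi`; use
`S2 (m ξ) ξ = (a4 + 20 a3 + 90 a2) / ξ²` and `u0 = -yt² S2 m + (Y1/Y) a0 - (a0 + a1)/2 + ee` (from `Jet4.pde`, `YY ≠ 0` by `K.bY`); close with `field_simp; ring` (`HasDerivAt.congr_deriv`).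
Then the two flux terms.  `Phi` is continuous by `K.cg1`, `K.cg0`, `K.cq`, `Jet4.c3`.  Near `0` every term is `O(√ξ)`: `G0 = O(ξ)`, `q 0, q 1, q 2 = O(ξ)` (`K.bq0`).
-/

open Set MeasureTheory Filter Topology

noncomputable section

namespace Vale.Agent.P264

variable {K : Cert} {l : ℝ} {p m u : ℝ → ℕ → ℝ}

theorem continuousOn_Phi (h : Jet4 K l m u) (X : Cut) (κ ε : ℝ) (hp : PsiS p) :
    ContinuousOn (Phi K X l κ p ε m u) {ξ | 0 < ξ ∧ l * ξ < 1} := by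
  have hs : {ξ | 0 < ξ ∧ l * ξ < 1} ⊆ Ioi (0 : ℝ) := fun ξ hξ => hξ.1
  obtain ⟨c1, -, c2, c3, c4, -, -, c5⟩ := cont_G K X l κ ε hp
  replace c1 := c1.mono hs
  replace c2 := c2.mono hs
  replace c3 := c3.mono hs
  replace c4 := c4.mono hs
  replace c5 := c5.mono hs
  have a0 := h.cont_sc (k := 0) (by norm_num)
  have a1 := h.cont_sc (k := 1) (by norm_num)
  have a2 := h.cont_sc (k := 2) (by norm_num)
  have a3 := h.cont_sc (k := 3) (by norm_num)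
  have q0 := (K.cq 0).mono hs
  have q1 := (K.cq 1).mono hs
  have q2 := (K.cq 2).mono hs
  have q3 := (K.cq 3).mono hs
  have q4 := (K.cq 4).mono hs
  have q5 := (K.cq 5).mono hs
  have u0 : ContinuousOn (fun y => u y 0) {ξ | 0 < ξ ∧ l * ξ < 1} := fun ξ hξ =>
    (h.du ξ hξ.1 hξ.2).continuousAt.continuousWithinAt
  have w0 : ContinuousOn (fun y => K.W y 0) {ξ | 0 < ξ ∧ l * ξ < 1} := fun ξ hξ =>
    (K.dW 0 ξ (by norm_num) hξ.1.le).continuousAt.continuousWithinAt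
  have x0 : ContinuousOn (fun y => X.c (l * y) 0) {ξ | 0 < ξ ∧ l * ξ < 1} := fun ξ _ =>
    ((X.d 0 (l * ξ) (by norm_num)).continuousAt.comp (f := fun y => l * y)
      (by fun_prop)).continuousWithinAt
  unfold Phi Ahat sig1 flux YY
  fun_prop

/-- bounded near `0` -/
def IdentBBd (f : ℝ → ℝ) : Prop := f =O[𝓝[>] 0] fun _ => (1 : ℝ)

theorem IdentBBd.add {f g : ℝ → ℝ} (hf : IdentBBd f) (hg : IdentBBd g) :
    IdentBBd fun x => f x + g x := Asymptotics.IsBigO.add hf hg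

theorem IdentBBd.sub {f g : ℝ → ℝ} (hf : IdentBBd f) (hg : IdentBBd g) :
    IdentBBd fun x => f x - g x := Asymptotics.IsBigO.sub hf hg

theorem IdentBBd.neg {f : ℝ → ℝ} (hf : IdentBBd f) : IdentBBd fun x => -f x :=
  Asymptotics.IsBigO.neg_left hf

theorem IdentBBd.mul {f g : ℝ → ℝ} (hf : IdentBBd f) (hg : IdentBBd g) :
    IdentBBd fun x => f x * g x :=
  (Asymptotics.IsBigO.mul hf hg).congr_right fun _ => one_mul 1

theorem IdentBBd.sq {f : ℝ → ℝ} (hf : IdentBBd f) : IdentBBd fun x => f x ^ 2 :=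
  (Asymptotics.IsBigO.pow hf 2).congr_right fun _ => one_pow 2

theorem identB_c (c : ℝ) : IdentBBd fun _ => c := Asymptotics.isBigO_const_const c one_ne_zero _

theorem identB_z {f : ℝ → ℝ} (h : Tendsto f (𝓝[>] 0) (𝓝 0)) : IdentBBd f := h.isBigO_one ℝ

theorem identB_mul {f g : ℝ → ℝ} (h : Tendsto f (𝓝[>] 0) (𝓝 0)) (hg : IdentBBd g) :
    Tendsto (fun x => f x * g x) (𝓝[>] 0) (𝓝 0) :=
  (Asymptotics.isLittleO_one_iff ℝ).1
    ((((Asymptotics.isLittleO_one_iff ℝ).2 h).mul_isBigO hg).congr_right fun _ => one_mul 1)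

theorem tendsto_Phi (h : Jet4 K l m u) (X : Cut) (κ ε : ℝ) (hp : PsiS p) :
    Tendsto (Phi K X l κ p ε m u) (𝓝[>] 0) (𝓝 0) := by
  have hl := h.l0
  have hb : 0 < 1 / (2 * l) := by positivity
  have hI : ∀ ξ ∈ Ioc 0 (1 / (2 * l)), l * ξ ≤ 1 / 2 := fun ξ hξ => by
    have := hξ.2
    rw [le_div_iff₀ (by positivity)] at this
    linarith
  have bd : ∀ {f : ℝ → ℝ} (C : ℝ), (∀ ξ, 0 < ξ → l * ξ ≤ 1 / 2 → |f ξ| ≤ C) → IdentBBd f :=
    fun C hf => Asymptotics.IsBigO.of_bound C (eventually_of_mem (Ioc_mem_nhdsGT hb) fun ξ hξ => by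
      simpa using hf ξ hξ.1 (hI ξ hξ))
  obtain ⟨C, hC⟩ := h.bd
  obtain ⟨D, -, hD⟩ := bd_G K X l κ ε
  replace hD := hD l hl le_rfl p hp
  have z : ∀ k, 1 ≤ k → k ≤ 3 → Tendsto (fun ξ => sc m ξ k) (𝓝[>] 0) (𝓝 0) := fun k h1 h2 =>
    tendsto_zero_of_sqrt hb fun ξ hξ => (hC ξ hξ.1 (hI ξ hξ)).2.1 k h1 h2
  have z0 : Tendsto (fun ξ : ℝ => ξ) (𝓝[>] 0) (𝓝 0) := tendsto_nhdsWithin_of_tendsto_nhds tendsto_id
  have zq : Tendsto (fun ξ => K.q ξ 0) (𝓝[>] 0) (𝓝 0) := by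
    refine squeeze_zero_norm' (a := fun ξ => 10 ^ 14 * ξ)
      (eventually_of_mem self_mem_nhdsWithin fun ξ hξ => ?_) (by simpa using z0.const_mul (10 ^ 14))
    exact (K.bq0 0 ξ (by norm_num) hξ).1.trans
      (mul_le_mul_of_nonneg_left (vp_pos hξ).2.2 (by norm_num))
  have a0 := bd C fun ξ h1 h2 => (hC ξ h1 h2).1
  have a1 := identB_z (z 1 le_rfl (by norm_num))
  have a2 := identB_z (z 2 (by norm_num) (by norm_num))
  have b0 := identB_z z0
  have b1 := identB_z (tendsto_zero_of_sqrt hb fun ξ hξ => (hC ξ hξ.1 (hI ξ hξ)).2.2.1)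
  have g1 := bd D fun ξ h1 h2 => (hD ξ h1 h2).1
  have g2 := bd D fun ξ h1 h2 => (hD ξ h1 h2).2.1
  have g3 := bd D fun ξ h1 h2 => (hD ξ h1 h2).2.2.1
  have g4 := bd D fun ξ h1 h2 => (hD ξ h1 h2).2.2.2.2.2.2
  have g5 := bd (f := fun ξ => om X l p ξ) 1 fun ξ h1 _ => by
    rw [abs_of_nonneg (om_range X l hp h1).1]
    exact (om_range X l hp h1).2.2
  have g6 := bd (f := fun ξ => X.c (l * ξ) 0) 1 fun ξ _ _ => by
    rw [abs_of_nonneg (X.rg _).1]
    exact (X.rg _).2.1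
  have g7 := bd (f := fun ξ => YY K ξ) 1 fun ξ h1 _ => by
    have := K.bY ξ h1.le
    exact abs_le.2 ⟨by unfold YY; linarith, this.2⟩
  have q := fun i => bd (f := fun ξ => K.q ξ i) _ fun ξ h1 _ => (K.bq i ξ h1).1
  have c := identB_c
  have A : IdentBBd fun ξ => Ahat (G1 K X l p ξ) (G1d K X l p ξ) (G0 K X l p ε ξ) (sc m ξ) *
      (YY K ξ - ξ * sc m ξ 0) ^ 2 :=
    (((g1.neg.mul a2).sub ((((c 3).mul g1).add g2).mul a1)).add (g3.mul a0)).mul
      (g7.sub (b0.mul a0)).sq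
  have t1 := identB_mul (z 1 le_rfl (by norm_num)) (((((c 2).mul g1).mul b1).sub
    ((c 144).mul A)).sub (g5.mul (((((c 2).mul (q 1)).mul a0).add ((q 3).mul a1)).add
      (((c 2).mul (q 4)).mul a2))))
  have t2 := identB_mul (z 2 (by norm_num) (by norm_num)) (((c 36).mul A).add
    (g5.mul ((((c 2).mul (q 2)).mul a0).add ((q 5).mul a2))))
  have t3 := identB_mul (z 3 (by norm_num) le_rfl) ((c 2).mul A)
  have t4 := identB_mul z0 (b0.mul (((((g1.mul a1).mul (a0.add a1)).sub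
    ((c (1 / 2)).mul (g1.mul a1.sq))).sub ((c (1 / 2)).mul (g3.mul a0.sq))).sub
      (((g4.mul g6).mul (c K.ct)).mul a0.sq)))
  have t5 := identB_mul zq (g5.mul a0.sq)
  have t := (((t1.sub t2).sub t3).add t4).sub t5
  simp only [sub_zero, add_zero] at t
  refine t.congr fun ξ => ?_
  unfold Phi sig1 flux
  ring

theorem Phi_end (K : Cert) (X : Cut) (hl : 0 < l) (κ ε : ℝ) (p m u : ℝ → ℕ → ℝ) :
    Phi K X l κ p ε m u (1 / (2 * l)) = 0 := by
  have e : l * (1 / (2 * l)) = 1 / 2 := by field_simp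
  obtain ⟨z0, z1, z2⟩ := X.zero (1 / 2) (by linarith [X.h1])
  simp only [Phi, G1, G1d, G0, om, omd, cc, Ahat, e, z0, z1, mul_zero, zero_mul, add_zero, sub_zero,
    neg_zero, zero_div]

end Vale.Agent.P264
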