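import Vale.Agent.P264.C.StatA

/-!
# P264 C/Pert  (TASK; notes/P264.md section C, notes/P264C.md)

Perturbation of the static functionals (`bd_G`, `|a² - a'²| ≤ δ (2 C + δ)`), and the two negative directions:
for `m = θ.f` the density vanishes beyond `xt` (`K.ftail`), `χ = 1` and `cc = 0` on `(0, xt]`, `1 - psi0 ≤ kk ξ`, `|g1|, |g0| ≤ B`, `|f| ≤ 1`, so
`En ≤ -(θ1² + θ2²) + kk xt B ∫_0^xt ξ (ξ² + 1) 2 (θ1² + θ2²) ≤ -(θ1² + θ2²) / 2` by `K.neg`.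
-/

open Set MeasureTheory Filter Topology

noncomputable section

namespace Vale.Agent.P264

/-- The jet of `θ.f`. -/
def tf (K : Cert) (θ : ℝ × ℝ) (ξ : ℝ) (j : ℕ) : ℝ := θ.1 * K.f 0 ξ j + θ.2 * K.f 1 ξ j

theorem pert_sq {a a' C δ : ℝ} (h : |a'| ≤ C) (hd : |a - a'| ≤ δ) (h1 : δ ≤ 1) :
    |a ^ 2 - a' ^ 2| ≤ (2 * C + 1) * δ := by
  have e : a ^ 2 - a' ^ 2 = (2 * a' + (a - a')) * (a - a') := by ring
  have h2 : |2 * a' + (a - a')| ≤ 2 * C + 1 := by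
    have := abs_add_le (2 * a') (a - a')
    rw [abs_mul, abs_two] at this
    linarith
  rw [e, abs_mul]
  exact mul_le_mul h2 hd (abs_nonneg _) ((abs_nonneg _).trans h2)

theorem pert_pt {ξ L G A B a0 a1 b0 b1 D : ℝ} (h0 : 0 ≤ ξ) (hL : ξ ≤ L) (hA : |A| ≤ G) (hB : |B| ≤ G)
    (d0 : |a0 ^ 2 - b0 ^ 2| ≤ D) (d1 : |a1 ^ 2 - b1 ^ 2| ≤ D) :
    |ξ * (A * a1 ^ 2 + B * a0 ^ 2) - ξ * (A * b1 ^ 2 + B * b0 ^ 2)| ≤ L * (2 * G * D) := by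
  have e : ξ * (A * a1 ^ 2 + B * a0 ^ 2) - ξ * (A * b1 ^ 2 + B * b0 ^ 2) =
      ξ * (A * (a1 ^ 2 - b1 ^ 2) + B * (a0 ^ 2 - b0 ^ 2)) := by ring
  have hG : 0 ≤ G := (abs_nonneg _).trans hA
  have k1 : |A * (a1 ^ 2 - b1 ^ 2)| ≤ G * D := by
    rw [abs_mul]; exact mul_le_mul hA d1 (abs_nonneg _) hG
  have k0 : |B * (a0 ^ 2 - b0 ^ 2)| ≤ G * D := by
    rw [abs_mul]; exact mul_le_mul hB d0 (abs_nonneg _) hG
  rw [e, abs_mul, abs_of_nonneg h0]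
  refine mul_le_mul hL ?_ (abs_nonneg _) (h0.trans hL)
  linarith [abs_add_le (A * (a1 ^ 2 - b1 ^ 2)) (B * (a0 ^ 2 - b0 ^ 2))]

theorem pert_int {f g : ℝ → ℝ} {a b L M : ℝ} (ha : 0 ≤ a) (hab : a ≤ b) (hb : b ≤ L) (hM : 0 ≤ M)
    (hf : IntervalIntegrable f volume a b) (hg : IntervalIntegrable g volume a b)
    (h : ∀ x, a < x → x ≤ b → |f x - g x| ≤ M) :
    |(∫ x in a..b, f x) - ∫ x in a..b, g x| ≤ M * L := by
  rw [← intervalIntegral.integral_sub hf hg]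
  have := intervalIntegral.norm_integral_le_of_norm_le_const (a := a) (b := b) (C := M)
    (f := fun x => f x - g x) (fun x hx => by
      rw [uIoc_of_le hab] at hx
      exact h x hx.1 hx.2)
  rw [Real.norm_eq_abs, abs_of_nonneg (sub_nonneg.2 hab)] at this
  exact this.trans (mul_le_mul_of_nonneg_left (by linarith) hM)

theorem pert (K : Cert) (X : Cut) {l0 l1 C : ℝ} (hl0 : 0 < l0) (hC : 0 ≤ C) :
    ∃ Cp : ℝ, 0 ≤ Cp ∧ ∀ l, l0 ≤ l → l ≤ l1 → ∀ p, PsiS p → ∀ m m', Jet1 l m → Jet1 l m' →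
      ∀ e δ : ℝ, 0 ≤ e → l * e ≤ 1 / 2 → 0 ≤ δ → δ ≤ 1 →
      (∀ ξ, e < ξ → l * ξ ≤ 1 / 2 → |sc m' ξ 0| ≤ C ∧ |sc m' ξ 1| ≤ C ∧
        |sc m ξ 0 - sc m' ξ 0| ≤ δ ∧ |sc m ξ 1 - sc m' ξ 1| ≤ δ) →
      |(∫ ξ in e..(1 / (2 * l)), ed K X l p 0 m ξ) - ∫ ξ in e..(1 / (2 * l)), ed K X l p 0 m' ξ|
          ≤ Cp * δ ∧
      (∫ ξ in e..(1 / (2 * l)), X.c (l * ξ) 0 * nn m ξ) ≤
        (∫ ξ in e..(1 / (2 * l)), X.c (l * ξ) 0 * nn m' ξ) + Cp * δ := by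
  obtain ⟨G, hG, hb⟩ := bd_G K X l1 0 0
  set L : ℝ := 1 / (2 * l0) with hL
  have hL0 : 0 < L := by positivity
  refine ⟨L * (2 * (G + 1) * (2 * C + 1)) * L, by positivity, ?_⟩
  intro l h0 h1 p hp m m' hm hm' e δ he hle hδ hδ1 H
  have hl : 0 < l := hl0.trans_le h0
  have hbL : 1 / (2 * l) ≤ L := one_div_le_one_div_of_le (by positivity) (by linarith)
  have heb : e ≤ 1 / (2 * l) := by rw [le_div_iff₀ (by positivity)]; linarith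
  have hlb : l * (1 / (2 * l)) ≤ 1 / 2 := le_of_eq (by field_simp)
  have hx : ∀ x, x ≤ 1 / (2 * l) → l * x ≤ 1 / 2 := fun x hx =>
    (mul_le_mul_of_nonneg_left hx hl.le).trans hlb
  have hM : 0 ≤ L * (2 * (G + 1) * ((2 * C + 1) * δ)) := by positivity
  have eM : L * (2 * (G + 1) * ((2 * C + 1) * δ)) * L =
      L * (2 * (G + 1) * (2 * C + 1)) * L * δ := by ring
  constructor
  · rw [← eM]
    refine pert_int he heb hbL hM (hm.ii_ed K X hp 0 he heb hlb) (hm'.ii_ed K X hp 0 he heb hlb) ?_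
    intro x h1x h2x
    obtain ⟨c0, c1, d0, d1⟩ := H x h1x (hx x h2x)
    obtain ⟨g1, -, g0, -⟩ := hb l hl h1 p hp x (he.trans_lt h1x) (hx x h2x)
    exact pert_pt (he.trans h1x.le) (h2x.trans hbL) (by linarith) (by linarith)
      (pert_sq c0 d0 hδ1) (pert_sq c1 d1 hδ1)
  · have := pert_int he heb hbL hM (hm.ii_c_nn X he heb hlb) (hm'.ii_c_nn X he heb hlb) (by
      intro x h1x h2x
      obtain ⟨c0, c1, d0, d1⟩ := H x h1x (hx x h2x)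
      have hc : |X.c (l * x) 0| ≤ G + 1 := by
        rw [abs_of_nonneg (X.rg _).1]; linarith [(X.rg (l * x)).2.1]
      have := pert_pt (he.trans h1x.le) (h2x.trans hbL) hc hc
        (pert_sq c0 d0 hδ1) (pert_sq c1 d1 hδ1)
      refine le_of_eq_of_le ?_ this
      congr 1
      unfold nn
      ring)
    rw [eM] at this
    linarith [le_abs_self ((∫ ξ in e..(1 / (2 * l)), X.c (l * ξ) 0 * nn m ξ) -
      ∫ ξ in e..(1 / (2 * l)), X.c (l * ξ) 0 * nn m' ξ)]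

theorem pert_ed (K : Cert) (X : Cut) {l ξ : ℝ} (p m : ℝ → ℕ → ℝ) (h : l * ξ ≤ 1 / 4) :
    ed K X l p 0 m ξ = p ξ 0 * (ξ * (K.g1 ξ 0 * sc m ξ 1 ^ 2 + K.g0 ξ 0 * sc m ξ 0 ^ 2)) := by
  obtain ⟨c0, c1, -⟩ := X.one _ h
  unfold ed G1 G0 om cc
  rw [c0, c1]
  ring

theorem pert_g (K : Cert) {ξ : ℝ} (h : 0 < ξ) : |K.g1 ξ 0| ≤ 10 ^ 14 ∧ |K.g0 ξ 0| ≤ 10 ^ 14 := by
  obtain ⟨a, b, -⟩ := K.bg1 ξ h
  have c := (K.bg0 ξ h).1
  have d : ξ / (1 + ξ) ≤ 1 := (vp_pos h).2.1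
  refine ⟨by rw [abs_of_nonneg (by linarith)]; exact b, c.trans ?_⟩
  linarith

theorem pert_F (K : Cert) {ξ a0 a1 : ℝ} (h : 0 < ξ) :
    |ξ * (K.g1 ξ 0 * a1 ^ 2 + K.g0 ξ 0 * a0 ^ 2)| ≤ ξ * (10 ^ 14 * (a1 ^ 2 + a0 ^ 2)) := by
  obtain ⟨g1, g0⟩ := pert_g K h
  rw [abs_mul, abs_of_pos h]
  refine mul_le_mul_of_nonneg_left ?_ h.le
  have k1 : |K.g1 ξ 0 * a1 ^ 2| ≤ 10 ^ 14 * a1 ^ 2 := by
    rw [abs_mul, abs_of_nonneg (sq_nonneg a1)]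
    exact mul_le_mul_of_nonneg_right g1 (sq_nonneg _)
  have k0 : |K.g0 ξ 0 * a0 ^ 2| ≤ 10 ^ 14 * a0 ^ 2 := by
    rw [abs_mul, abs_of_nonneg (sq_nonneg a0)]
    exact mul_le_mul_of_nonneg_right g0 (sq_nonneg _)
  linarith [abs_add_le (K.g1 ξ 0 * a1 ^ 2) (K.g0 ξ 0 * a0 ^ 2)]

theorem small_abs (K : Cert) (X : Cut) {l C e : ℝ} {p m : ℝ → ℕ → ℝ} (h : Jet1 l m) (hp : PsiS p)
    (he : 0 < e) (he1 : e ≤ 1) (hl : l * e ≤ 1 / 4)
    (hC : ∀ ξ, 0 < ξ → ξ ≤ e → |sc m ξ 0| ≤ C ∧ |sc m ξ 1| ≤ C) :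
    |∫ ξ in (0:ℝ)..e, ed K X l p 0 m ξ| ≤ 2 * 10 ^ 14 * C ^ 2 * e := by
  have := intervalIntegral.norm_integral_le_of_norm_le_const (a := 0) (b := e)
    (C := 2 * 10 ^ 14 * C ^ 2) (f := fun x => ed K X l p 0 m x) (fun x hx => by
      rw [uIoc_of_le he.le] at hx
      obtain ⟨c0, c1⟩ := hC x hx.1 hx.2
      obtain ⟨p0, p1⟩ := hp.pos x hx.1
      have hx4 : l * x ≤ 1 / 4 := (mul_le_mul_of_nonneg_left hx.2 h.l0.le).trans hl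
      have s0 : sc m x 0 ^ 2 ≤ C ^ 2 := sq_le_sq' (abs_le.1 c0).1 (abs_le.1 c0).2
      have s1 : sc m x 1 ^ 2 ≤ C ^ 2 := sq_le_sq' (abs_le.1 c1).1 (abs_le.1 c1).2
      rw [Real.norm_eq_abs, pert_ed K X p m hx4, abs_mul, abs_of_pos p0]
      have k := pert_F K (a0 := sc m x 0) (a1 := sc m x 1) hx.1
      have k2 : x * (10 ^ 14 * (sc m x 1 ^ 2 + sc m x 0 ^ 2)) ≤
          1 * (10 ^ 14 * (sc m x 1 ^ 2 + sc m x 0 ^ 2)) :=
        mul_le_mul_of_nonneg_right (hx.2.trans he1) (by positivity)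
      have k3 := mul_le_mul_of_nonneg_right p1 (abs_nonneg
        (x * (K.g1 x 0 * sc m x 1 ^ 2 + K.g0 x 0 * sc m x 0 ^ 2)))
      linarith)
  rwa [Real.norm_eq_abs, sub_zero, abs_of_pos he] at this

theorem pert_tf_le (K : Cert) (θ : ℝ × ℝ) {ξ : ℝ} (h0 : 0 ≤ ξ) {k : ℕ} (hk : k ≤ 2) :
    |tf K θ ξ k| ≤ |θ.1| + |θ.2| := by
  have a := K.bf 0 k ξ hk h0
  have b := K.bf 1 k ξ hk h0
  have a' : |θ.1 * K.f 0 ξ k| ≤ |θ.1| := by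
    rw [abs_mul]; exact mul_le_of_le_one_right (abs_nonneg _) a
  have b' : |θ.2 * K.f 1 ξ k| ≤ |θ.2| := by
    rw [abs_mul]; exact mul_le_of_le_one_right (abs_nonneg _) b
  unfold tf
  linarith [abs_add_le (θ.1 * K.f 0 ξ k) (θ.2 * K.f 1 ξ k)]

theorem pert_tail (K : Cert) (θ : ℝ × ℝ) {ξ : ℝ} (h : K.xt ≤ ξ) (k : ℕ) : sc (tf K θ) ξ k = 0 := by
  unfold sc tf
  rw [K.ftail 0 k ξ h, K.ftail 1 k ξ h]
  ring

theorem pert_sc (K : Cert) (θ : ℝ × ℝ) {ξ : ℝ} (h0 : 0 < ξ) :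
    |sc (tf K θ) ξ 0| ≤ |θ.1| + |θ.2| ∧ |sc (tf K θ) ξ 1| ≤ 1000 * (|θ.1| + |θ.2|) := by
  constructor
  · unfold sc
    rw [pow_zero, one_mul]
    exact pert_tf_le K θ h0.le (by norm_num)
  · rcases le_total K.xt ξ with h | h
    · rw [pert_tail K θ h, abs_zero]; positivity
    · unfold sc
      rw [pow_one, abs_mul, abs_of_pos h0]
      exact mul_le_mul (h.trans K.hxt') (pert_tf_le K θ h0.le (by norm_num)) (abs_nonneg _)
        (by norm_num)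

theorem jet1_tf (K : Cert) (θ : ℝ × ℝ) {l : ℝ} (hl : 0 < l) : Jet1 l (tf K θ) := by
  have d : ∀ k ξ, k ≤ 1 → 0 < ξ → HasDerivAt (fun y => tf K θ y k) (tf K θ ξ (k + 1)) ξ :=
    fun k ξ hk h => ((K.df 0 k ξ hk h.le).const_mul θ.1).add ((K.df 1 k ξ hk h.le).const_mul θ.2)
  refine ⟨hl, fun ξ h _ => d 0 ξ (by norm_num) h,
    fun ξ h => (d 1 ξ le_rfl h.1).continuousAt.continuousWithinAt,
    1000 * (|θ.1| + |θ.2|), fun ξ h _ => ⟨?_, (pert_sc K θ h).2⟩⟩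
  linarith [(pert_sc K θ h).1, abs_nonneg θ.1, abs_nonneg θ.2]

theorem sc_tf_le (K : Cert) (θ : ℝ × ℝ) {ξ : ℝ} (h0 : 0 < ξ) :
    |sc (tf K θ) ξ 0| ≤ 2000 * ‖θ‖ ∧ |sc (tf K θ) ξ 1| ≤ 2000 * ‖θ‖ := by
  have a : |θ.1| ≤ ‖θ‖ := norm_fst_le θ
  have b : |θ.2| ≤ ‖θ‖ := norm_snd_le θ
  obtain ⟨c, d⟩ := pert_sc K θ h0
  constructor <;> linarith [norm_nonneg θ]

theorem pert_split (K : Cert) {l : ℝ} (hl : 0 < l) (hl' : l * K.xt ≤ 1 / 4) {f : ℝ → ℝ}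
    (hf : ∀ a b, 0 ≤ a → a ≤ b → l * b ≤ 1 / 2 → IntervalIntegrable f volume a b)
    (hz : ∀ x, K.xt ≤ x → f x = 0) :
    ∫ x in (0:ℝ)..(1 / (2 * l)), f x = ∫ x in (0:ℝ)..K.xt, f x := by
  have h0 : 0 ≤ K.xt := by linarith [K.hxt]
  have h1 : K.xt ≤ 1 / (2 * l) := by rw [le_div_iff₀ (by positivity)]; linarith
  have hlb : l * (1 / (2 * l)) ≤ 1 / 2 := le_of_eq (by field_simp)
  rw [← intervalIntegral.integral_add_adjacent_intervals (hf 0 K.xt le_rfl h0 (by linarith))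
    (hf K.xt _ h0 h1 hlb)]
  have : ∫ x in K.xt..(1 / (2 * l)), f x = ∫ x in K.xt..(1 / (2 * l)), (0 : ℝ) := by
    refine intervalIntegral.integral_congr fun x hx => ?_
    rw [uIcc_of_le h1] at hx
    exact hz x hx.1
  rw [this, intervalIntegral.integral_zero, add_zero]

theorem En_tf (K : Cert) (X : Cut) (θ : ℝ × ℝ) {l : ℝ} (hl : 0 < l) (hl' : l * K.xt ≤ 1 / 4) :
    En K X l psi0 0 (tf K θ) ≤ -(θ.1 ^ 2 + θ.2 ^ 2) / 2 := by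
  have hp : PsiS psi0 := psiD_psi0.st 0
  have hm := jet1_tf K θ hl
  have h0 : 0 ≤ K.xt := by linarith [K.hxt]
  set T : ℝ := θ.1 ^ 2 + θ.2 ^ 2 with hT
  have hT0 : 0 ≤ T := by positivity
  set F : ℝ → ℝ := fun ξ => ξ * (K.g1 ξ 0 * sc (tf K θ) ξ 1 ^ 2 + K.g0 ξ 0 * sc (tf K θ) ξ 0 ^ 2)
    with hF
  have iF : IntervalIntegrable F volume 0 K.xt := by
    have := hm.ii_quad (A := fun ξ => K.g1 ξ 0) (B := fun ξ => K.g0 ξ 0) (D := fun _ => 0)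
      (fun ξ h => (K.dg1 ξ h).continuousAt.continuousWithinAt) K.cg0 continuousOn_const
      (C := 10 ^ 14) (fun ξ h _ => ⟨(pert_g K h).1, (pert_g K h).2, by norm_num⟩) le_rfl h0
      (by linarith)
    simpa only [zero_mul, add_zero] using this
  have nF : ∫ ξ in (0:ℝ)..K.xt, F ξ ≤ -T := by
    have := K.neg θ.1 θ.2
    simpa only [hF, sc, tf, pow_one, pow_zero, one_mul] using this
  unfold En
  rw [pert_split K hl hl' (fun a b ha hab hb => hm.ii_ed K X hp 0 ha hab hb) (fun x hx => by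
    unfold ed
    rw [pert_tail K θ hx, pert_tail K θ hx]
    ring)]
  have key : ∫ ξ in (0:ℝ)..K.xt, ed K X l psi0 0 (tf K θ) ξ ≤
      ∫ ξ in (0:ℝ)..K.xt, (F ξ + T / 2000) := by
    refine intervalIntegral.integral_mono_on_of_le_Ioo h0
      (hm.ii_ed K X hp 0 le_rfl h0 (by linarith)) (iF.add intervalIntegrable_const) fun x hx => ?_
    have hx4 : l * x ≤ 1 / 4 := (mul_le_mul_of_nonneg_left hx.2.le hl.le).trans hl'
    have hx3 : x ≤ 1000 := hx.2.le.trans K.hxt'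
    rw [pert_ed K X psi0 _ hx4]
    show psi0 x 0 * F x ≤ F x + T / 2000
    obtain ⟨c0, c1⟩ := pert_sc K θ hx.1
    have t : (|θ.1| + |θ.2|) ^ 2 ≤ 2 * T := by
      rw [hT, ← sq_abs θ.1, ← sq_abs θ.2]
      nlinarith [sq_nonneg (|θ.1| - |θ.2|)]
    have s0 : sc (tf K θ) x 0 ^ 2 ≤ 2 * T :=
      (sq_le_sq' (abs_le.1 c0).1 (abs_le.1 c0).2).trans t
    have s1 : sc (tf K θ) x 1 ^ 2 ≤ 1000 ^ 2 * (2 * T) := by
      refine (sq_le_sq' (abs_le.1 c1).1 (abs_le.1 c1).2).trans ?_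
      rw [mul_pow]
      exact mul_le_mul_of_nonneg_left t (by norm_num)
    have k : |F x| ≤ 1000 * (10 ^ 14 * (1000 ^ 2 * (2 * T) + 2 * T)) :=
      (pert_F K hx.1).trans (mul_le_mul hx3 (by linarith) (by positivity) (by norm_num))
    have p1 := (hp.pos x hx.1).2
    have p2 : 1 - psi0 x 0 ≤ 1 / 10 ^ 27 := by
      have := psi0_ge hx.1
      unfold kk at this
      linarith
    have k2 : (1 - psi0 x 0) * |F x| ≤
        1 / 10 ^ 27 * (1000 * (10 ^ 14 * (1000 ^ 2 * (2 * T) + 2 * T))) :=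
      mul_le_mul p2 k (abs_nonneg _) (by norm_num)
    have k3 : (1 - psi0 x 0) * (-F x) ≤ (1 - psi0 x 0) * |F x| :=
      mul_le_mul_of_nonneg_left (neg_le_abs _) (by linarith)
    linarith
  rw [intervalIntegral.integral_add iF intervalIntegrable_const, intervalIntegral.integral_const,
    sub_zero, smul_eq_mul] at key
  have : K.xt * (T / 2000) ≤ 1000 * (T / 2000) :=
    mul_le_mul_of_nonneg_right K.hxt' (by positivity)
  linarith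

theorem N1_tf (K : Cert) (X : Cut) (θ : ℝ × ℝ) {l : ℝ} (hl : 0 < l) (hl' : l * K.xt ≤ 1 / 4) :
    N1 X l (tf K θ) ≤ 10 ^ 13 * ‖θ‖ ^ 2 := by
  have hm := jet1_tf K θ hl
  have h0 : 0 ≤ K.xt := by linarith [K.hxt]
  unfold N1
  rw [pert_split K hl hl' (fun a b ha hab hb => hm.ii_c_nn X ha hab hb) (fun x hx => by
    unfold nn
    rw [pert_tail K θ hx, pert_tail K θ hx]
    ring)]
  have := intervalIntegral.norm_integral_le_of_norm_le_const (a := 0) (b := K.xt)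
    (C := 10 ^ 10 * ‖θ‖ ^ 2) (f := fun x => X.c (l * x) 0 * nn (tf K θ) x) (fun x hx => by
      rw [uIoc_of_le h0] at hx
      obtain ⟨c0, c1⟩ := sc_tf_le K θ hx.1
      have s0 := sq_le_sq' (abs_le.1 c0).1 (abs_le.1 c0).2
      have s1 := sq_le_sq' (abs_le.1 c1).1 (abs_le.1 c1).2
      obtain ⟨r0, r1, -⟩ := X.rg (l * x)
      have n0 : 0 ≤ nn (tf K θ) x := nn_nonneg _ hx.1.le
      have n1 : nn (tf K θ) x ≤ 1000 * ((2000 * ‖θ‖) ^ 2 + (2000 * ‖θ‖) ^ 2) :=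
        mul_le_mul (hx.2.trans K.hxt') (by linarith) (by positivity) (by norm_num)
      rw [Real.norm_eq_abs, abs_of_nonneg (mul_nonneg r0 n0)]
      have := mul_le_of_le_one_left n0 r1
      nlinarith [sq_nonneg ‖θ‖])
  rw [Real.norm_eq_abs, sub_zero, abs_of_nonneg h0] at this
  have k : 10 ^ 10 * ‖θ‖ ^ 2 * K.xt ≤ 10 ^ 10 * ‖θ‖ ^ 2 * 1000 :=
    mul_le_mul_of_nonneg_left K.hxt' (by positivity)
  linarith [le_abs_self (∫ x in (0:ℝ)..K.xt, X.c (l * x) 0 * nn (tf K θ) x)]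

end Vale.Agent.P264
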