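import Vale.Agent.P264.C.StatB
import Vale.Agent.P264.C.Pert

/-!
# P264 C/Init  (TASK; notes/P264.md section C, notes/P264C.md)

The initial time.  `init_en`: `pert` with `e = 0`, `m' = tf K θ`, `δ = 2 ea (1 + 1/(2l))`, `En_tf`, `N1_tf`, `sc_tf_le`.
`tf_lower`: `index_le` for `tf K θ` (any small `l`) and `En_tf`: `θ1² + θ2² ≤ 4 10^20 (m(x1)² + m(x2)²)`.
-/

open Set MeasureTheory Filter Topology

noncomputable section

namespace Vale.Agent.P264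

theorem init_en (K : Cert) (X : Cut) {l : ℝ} (hl : 0 < l) (hl' : l * K.xt ≤ 1 / 4) :
    ∃ ea : ℝ, 0 < ea ∧ ∀ (θ : ℝ × ℝ) (m : ℝ → ℕ → ℝ), ‖θ‖ ≤ rho → Jet1 l m →
      (∀ ξ, 0 < ξ → l * ξ ≤ 1 / 2 → ∀ j, j ≤ 1 → |m ξ j - tf K θ ξ j| ≤ 2 * ea) →
      N1 X l m ≤ 1 / 10 ^ 100 ∧ En K X l psi0 0 m ≤ -(θ.1 ^ 2 + θ.2 ^ 2) / 2 + mu / 4 := by
  have hrho : 0 < rho := by unfold rho; positivity
  have hmu : 0 < mu := by unfold mu; positivity
  obtain ⟨Cp, hCp, hP⟩ := pert K X (l0 := l) (l1 := l) (C := 2000 * rho) hl (by positivity)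
  set δ : ℝ := min 1 (mu / (4 * (Cp + 1))) with hδ
  have hδ0 : 0 < δ := lt_min one_pos (by positivity)
  have hδ1 : Cp * δ ≤ mu / 4 := by
    have h1 : δ ≤ mu / (4 * (Cp + 1)) := min_le_right _ _
    rw [le_div_iff₀ (by positivity)] at h1
    nlinarith
  have hL : 0 < 1 / (2 * l) := by positivity
  refine ⟨δ / (2 * (1 + 1 / (2 * l))), by positivity, fun θ m hθ hm h => ?_⟩
  set ea : ℝ := δ / (2 * (1 + 1 / (2 * l))) with hea
  have hea0 : 0 < ea := by positivity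
  have he : 2 * ea + 2 * ea * (1 / (2 * l)) = δ := by
    rw [hea]
    field_simp
  obtain ⟨h1, h2⟩ := hP l le_rfl le_rfl psi0 (psiD_psi0.st 0) m (tf K θ) hm (jet1_tf K θ hl) 0 δ
    le_rfl (by norm_num) hδ0.le (min_le_left _ _) (fun ξ h0 h1 => by
      obtain ⟨a1, a2⟩ := sc_tf_le K θ h0
      have b0 := h ξ h0 h1 0 (by norm_num)
      have b1 := h ξ h0 h1 1 le_rfl
      have hξ : ξ ≤ 1 / (2 * l) := by
        rw [le_div_iff₀ (by positivity)]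
        linarith
      have p1 : 0 ≤ 2 * ea * (1 / (2 * l)) := by positivity
      refine ⟨by linarith, by linarith, ?_, ?_⟩
      · simp only [sc, pow_zero, one_mul]
        linarith
      · simp only [sc, pow_one]
        rw [← mul_sub, abs_mul, abs_of_pos h0]
        have := mul_le_mul hξ b1 (abs_nonneg _) hL.le
        linarith)
  have h3 := En_tf K X θ hl hl'
  have h4 := N1_tf K X θ hl hl'
  have h5 : ‖θ‖ ^ 2 ≤ rho ^ 2 := pow_le_pow_left₀ (norm_nonneg _) hθ 2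
  constructor
  · have h6 : N1 X l m ≤ N1 X l (tf K θ) + Cp * δ := h2
    have h7 : (10 : ℝ) ^ 13 * rho ^ 2 + mu / 4 ≤ 1 / 10 ^ 100 := by
      unfold rho mu
      norm_num
    have h8 : (10 : ℝ) ^ 13 * ‖θ‖ ^ 2 ≤ 10 ^ 13 * rho ^ 2 :=
      mul_le_mul_of_nonneg_left h5 (by positivity)
    linarith
  · have h6 : En K X l psi0 0 m - En K X l psi0 0 (tf K θ) ≤ Cp * δ := (le_abs_self _).trans h1
    linarith

theorem tf_lower (K : Cert) (θ : ℝ × ℝ) :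
    ‖θ‖ ≤ 3 * 10 ^ 10 * ‖(tf K θ K.x1 0, tf K θ K.x2 0)‖ := by
  obtain ⟨X, -⟩ := exists_Cut (h := 1 / 8) (by norm_num) le_rfl
  have hl : (0 : ℝ) < 1 / 4000 := by norm_num
  have hl' : 1 / 4000 * K.xt ≤ 1 / 4 := by linarith [K.hxt']
  have hj := jet1_tf K θ hl
  have h1 := index_le K X hj (psiD_psi0.st 0) hl'
  have h2 := En_tf K X θ hl hl'
  have h3 := (abs_nonneg _).trans (abs_En_le K X hj (psiD_psi0.st 0))
  have h4 : 0 ≤ NN X (1 / 4000) psi0 (tf K θ) := by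
    by_contra hn
    have := mul_neg_of_pos_of_neg (show (0 : ℝ) < 5 * 10 ^ 14 by positivity) (not_le.1 hn)
    linarith
  set z : ℝ × ℝ := (tf K θ K.x1 0, tf K θ K.x2 0) with hz
  have a1 : tf K θ K.x1 0 ^ 2 ≤ ‖z‖ ^ 2 := by
    rw [← sq_abs]
    exact pow_le_pow_left₀ (abs_nonneg _) (norm_fst_le z) 2
  have a2 : tf K θ K.x2 0 ^ 2 ≤ ‖z‖ ^ 2 := by
    rw [← sq_abs]
    exact pow_le_pow_left₀ (abs_nonneg _) (norm_snd_le z) 2
  have a3 : ‖θ‖ ^ 2 ≤ θ.1 ^ 2 + θ.2 ^ 2 := by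
    rw [Prod.norm_def, Real.norm_eq_abs, Real.norm_eq_abs]
    rcases le_total |θ.1| |θ.2| with h | h
    · rw [max_eq_right h, sq_abs]
      nlinarith [sq_nonneg θ.1]
    · rw [max_eq_left h, sq_abs]
      nlinarith [sq_nonneg θ.2]
  refine (abs_le_of_sq_le_sq' ?_ (by positivity)).2
  nlinarith [sq_nonneg ‖z‖]

end Vale.Agent.P264
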