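import Vale.Agent.P264.C.IntegJ

/-!
# P264 C/Integ  (TASK; notes/P264.md section C, notes/P264C.md)

Continuity, integrability (`ii_of_bdd` with `L = 1 / (2 l)`) and the pointwise bound on `n = ξ a0` (`sob` for `f = ξ m0`, `ξ f' = ξ (a0 + a1)`).
`|G1| ≤ B`, `|G0| ≤ (B + ε) vp + B M l ξ`.  In `eds`: `ξ G1 a1 (ξ u1)` and `ξ G0 a0 u0` are bounded by `Jet4.bd` (`|G0| ≤ C ξ`).
-/

open Set MeasureTheory Filter Topology

noncomputable section

namespace Vale.Agent.P264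

variable {K : Cert} {X : Cut} {l κ ε : ℝ} {p m u : ℝ → ℕ → ℝ}

theorem integ_bdd (hl : 0 < l) {f : ℝ → ℝ} (hf : ContinuousOn f {ξ | 0 < ξ ∧ l * ξ < 1}) {C : ℝ}
    (hC : ∀ ξ, 0 < ξ → l * ξ ≤ 1 / 2 → |f ξ| ≤ C) {a b : ℝ} (ha : 0 ≤ a) (hab : a ≤ b)
    (hb : l * b ≤ 1 / 2) : IntervalIntegrable f volume a b := by
  have key : ∀ x ∈ Ioc 0 b, l * x ≤ 1 / 2 := fun x hx =>
    (mul_le_mul_of_nonneg_left hx.2 hl.le).trans hb
  exact ii_of_bdd ha hab le_rfl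
    (hf.mono fun x hx => ⟨hx.1, (key x hx).trans_lt (by norm_num)⟩) fun x hx => hC x hx.1 (key x hx)

theorem integ_p (hp : PsiS p) (l : ℝ) : ContinuousOn (fun ξ => p ξ 0) {ξ | 0 < ξ ∧ l * ξ < 1} :=
  fun ξ hξ => (hp.d 0 ξ zero_le_one hξ.1).continuousAt.continuousWithinAt

theorem integ_sq {a C ξ : ℝ} (h0 : 0 < ξ) (h : |a| ≤ C * √ξ) : a ^ 2 ≤ C ^ 2 * ξ := by
  have := pow_le_pow_left₀ (abs_nonneg a) h 2
  rwa [sq_abs, mul_pow, Real.sq_sqrt h0.le] at this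

theorem integ_le (hl : 0 < l) {ξ : ℝ} (h : l * ξ ≤ 1 / 2) : ξ ≤ 1 / (2 * l) := by
  rw [le_div_iff₀ (by positivity)]
  linarith

theorem Jet1.ii_om_nn (h : Jet1 l m) (X : Cut) (hp : PsiS p) {a b : ℝ} (ha : 0 ≤ a) (hab : a ≤ b)
    (hb : l * b ≤ 1 / 2) : IntervalIntegrable (fun ξ => om X l p ξ * nn m ξ) volume a b := by
  have hc : ContinuousOn (om X l p) (Ioi 0) := fun ξ hξ =>
    (d_om X l hp hξ).continuousAt.continuousWithinAt
  have h1 := h.ii_quad hc hc (continuousOn_const (c := (0 : ℝ))) (C := 1) (fun ξ h0 _ => by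
    obtain ⟨r1, -, r3⟩ := om_range X l hp h0
    exact ⟨abs_le.2 ⟨by linarith, r3⟩, abs_le.2 ⟨by linarith, r3⟩, by simp⟩) ha hab hb
  refine (congrArg (fun F => IntervalIntegrable F volume a b) (funext fun ξ => ?_)).mp h1
  rw [nn]
  ring

theorem Jet1.ii_c_nn (h : Jet1 l m) (X : Cut) {a b : ℝ} (ha : 0 ≤ a) (hab : a ≤ b)
    (hb : l * b ≤ 1 / 2) :
    IntervalIntegrable (fun ξ => X.c (l * ξ) 0 * nn m ξ) volume a b := by
  have h0 : Continuous fun y => X.c y 0 :=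
    continuous_iff_continuousAt.2 fun x => (X.d 0 x zero_le_one).continuousAt
  have hc : ContinuousOn (fun ξ => X.c (l * ξ) 0) (Ioi 0) :=
    (h0.comp (continuous_const_mul l)).continuousOn
  have h1 := h.ii_quad hc hc (continuousOn_const (c := (0 : ℝ))) (C := 1) (fun ξ _ _ => by
    obtain ⟨r1, r3, -⟩ := X.rg (l * ξ)
    exact ⟨abs_le.2 ⟨by linarith, r3⟩, abs_le.2 ⟨by linarith, r3⟩, by simp⟩) ha hab hb
  refine (congrArg (fun F => IntervalIntegrable F volume a b) (funext fun ξ => ?_)).mp h1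
  rw [nn]
  ring

theorem Jet1.ii_ed (h : Jet1 l m) (K : Cert) (X : Cut) (hp : PsiS p) (ε : ℝ) {a b : ℝ} (ha : 0 ≤ a)
    (hab : a ≤ b) (hb : l * b ≤ 1 / 2) :
    IntervalIntegrable (ed K X l p ε m) volume a b := by
  obtain ⟨-, -, c1, -, c0, -⟩ := cont_G K X l 0 ε hp
  obtain ⟨C, hC, hb'⟩ := bd_G K X l 0 ε
  have h1 := h.ii_quad c1 c0 (continuousOn_const (c := (0 : ℝ))) (C := C) (fun ξ h0 h1 => by
    obtain ⟨r1, -, r3, -⟩ := hb' l h.l0 le_rfl p hp ξ h0 h1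
    exact ⟨r1, r3, by simpa using hC⟩) ha hab hb
  refine (congrArg (fun F => IntervalIntegrable F volume a b) (funext fun ξ => ?_)).mp h1
  rw [ed]
  ring

theorem Jet4.ii_dd (h : Jet4 K l m u) (hp : PsiS p) {a b : ℝ} (ha : 0 ≤ a) (hab : a ≤ b)
    (hb : l * b ≤ 1 / 2) : IntervalIntegrable (fun ξ => p ξ 0 * dd m ξ) volume a b := by
  obtain ⟨C, hC⟩ := h.bd
  have hv : ContinuousOn vp {ξ | 0 < ξ ∧ l * ξ < 1} := fun ξ hξ =>
    (hasDerivAt_vp hξ.1).continuousAt.continuousWithinAt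
  refine integ_bdd h.l0 (by exact (integ_p hp l).mul (ContinuousOn.div
    ((((hv.mul ((h.cont_sc (k := 0) (by norm_num)).pow 2)).add
      ((h.cont_sc (k := 1) (by norm_num)).pow 2)).add
      ((h.cont_sc (k := 2) (by norm_num)).pow 2)).add ((h.cont_sc (k := 3) le_rfl).pow 2))
    continuousOn_id fun ξ hξ => hξ.1.ne')) (C := 4 * C ^ 2) (fun ξ h0 h1 => ?_) ha hab hb
  obtain ⟨r0, r, -⟩ := hC ξ h0 h1
  obtain ⟨p0, p1⟩ := hp.pos ξ h0
  have hd := dd_nonneg m h0.le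
  have h2 : dd m ξ ≤ 4 * C ^ 2 := by
    have s0 : sc m ξ 0 ^ 2 ≤ C ^ 2 := by
      rw [← sq_abs]
      exact pow_le_pow_left₀ (abs_nonneg _) r0 2
    have s1 := mul_le_mul (vp_pos h0).2.2 s0 (sq_nonneg _) h0.le
    rw [dd, NQ, div_le_iff₀ h0]
    linarith [integ_sq h0 (r 1 le_rfl (by norm_num)), integ_sq h0 (r 2 (by norm_num) (by norm_num)),
      integ_sq h0 (r 3 (by norm_num) le_rfl)]
  rw [abs_of_nonneg (mul_nonneg p0.le hd)]
  exact (mul_le_of_le_one_left hd p1).trans h2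

theorem Jet4.ii_b1 (h : Jet4 K l m u) (hp : PsiS p) {a b : ℝ} (ha : 0 ≤ a) (hab : a ≤ b)
    (hb : l * b ≤ 1 / 2) : IntervalIntegrable
      (fun ξ => p ξ 0 * (ξ * sc m ξ 1 ^ 2 * (sc m ξ 1 ^ 2 + sc m ξ 2 ^ 2))) volume a b := by
  obtain ⟨C, hC⟩ := h.bd
  have c1 := (h.cont_sc (k := 1) (by norm_num)).pow 2
  have c2 := (h.cont_sc (k := 2) (by norm_num)).pow 2
  have hl := h.l0
  refine integ_bdd h.l0 (by exact (integ_p hp l).mul ((continuousOn_id.mul c1).mul (c1.add c2)))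
    (C := 1 * (1 / (2 * l) * (C ^ 2 * (1 / (2 * l))) *
      (C ^ 2 * (1 / (2 * l)) + C ^ 2 * (1 / (2 * l))))) (fun ξ h0 h1 => ?_) ha hab hb
  obtain ⟨-, r, -⟩ := hC ξ h0 h1
  obtain ⟨p0, p1⟩ := hp.pos ξ h0
  have h2 := integ_le hl h1
  have h3 := mul_le_mul_of_nonneg_left h2 (sq_nonneg C)
  have s1 := (integ_sq h0 (r 1 le_rfl (by norm_num))).trans h3
  have s2 := (integ_sq h0 (r 2 (by norm_num) (by norm_num))).trans h3
  rw [abs_of_nonneg (by positivity)]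
  gcongr

theorem Jet4.ii_eds (h : Jet4 K l m u) (X : Cut) (κ : ℝ) (hp : PsiS p) (ε : ℝ) {a b : ℝ}
    (ha : 0 ≤ a) (hab : a ≤ b) (hb : l * b ≤ 1 / 2) :
    IntervalIntegrable (eds K X l κ p ε m u) volume a b := by
  obtain ⟨-, -, c1, -, c0, c1s, c0s, -⟩ := cont_G K X l κ ε hp
  obtain ⟨B, hB, hb'⟩ := bd_G K X l κ ε
  obtain ⟨C, hC⟩ := h.bd
  have hl := h.l0
  have h1 := h.jet1.ii_quad c1s c0s (continuousOn_const (c := (0 : ℝ))) (C := B) (fun ξ h0 h1 => by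
    obtain ⟨-, -, -, -, r1, r3, -⟩ := hb' l h.l0 le_rfl p hp ξ h0 h1
    exact ⟨r1, r3, by simpa using hB⟩) ha hab hb
  have hs : {ξ : ℝ | 0 < ξ ∧ l * ξ < 1} ⊆ Ioi 0 := fun ξ hξ => hξ.1
  have cu0 : ContinuousOn (fun y => u y 0) {ξ | 0 < ξ ∧ l * ξ < 1} := fun ξ hξ =>
    (h.du ξ hξ.1 hξ.2).continuousAt.continuousWithinAt
  have h2 : IntervalIntegrable (fun ξ => G1 K X l p ξ * (sc m ξ 1 * (ξ ^ 2 * u ξ 1))) volume a b := by
    refine integ_bdd hl (by exact (c1.mono hs).mul ((h.cont_sc (k := 1) (by norm_num)).mul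
      ((continuousOn_id.pow 2).mul h.cu))) (C := B * (C * C)) (fun ξ h0 h1 => ?_) ha hab hb
    obtain ⟨r0, r, -, r2⟩ := hC ξ h0 h1
    have hC0 := (abs_nonneg _).trans r0
    rw [abs_mul, abs_mul]
    refine mul_le_mul (hb' l h.l0 le_rfl p hp ξ h0 h1).1 ?_ (by positivity) hB
    refine (mul_le_mul_of_nonneg_right (r 1 le_rfl (by norm_num)) (abs_nonneg _)).trans ?_
    rw [mul_assoc]
    exact mul_le_mul_of_nonneg_left r2 hC0
  have h3 : IntervalIntegrable (fun ξ => G0 K X l p ε ξ * (sc m ξ 0 * (ξ * u ξ 0))) volume a b := by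
    refine integ_bdd hl (by exact (c0.mono hs).mul ((h.cont_sc (k := 0) (by norm_num)).mul
      (continuousOn_id.mul cu0))) (C := B * (C * (C * √(1 / (2 * l))))) (fun ξ h0 h1 => ?_)
      ha hab hb
    obtain ⟨r0, -, r1, -⟩ := hC ξ h0 h1
    have hC0 := (abs_nonneg _).trans r0
    have r2 := r1.trans (mul_le_mul_of_nonneg_left (Real.sqrt_le_sqrt (integ_le hl h1)) hC0)
    rw [abs_mul]
    refine (mul_le_mul_of_nonneg_right (hb' l h.l0 le_rfl p hp ξ h0 h1).2.2.2.1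
      (abs_nonneg _)).trans ?_
    have e : B * ξ * |sc m ξ 0 * (ξ * u ξ 0)| = B * (|sc m ξ 0| * |ξ ^ 2 * u ξ 0|) := by
      simp only [abs_mul, abs_pow, abs_of_pos h0]
      ring
    rw [e]
    gcongr
  refine (congrArg (fun F => IntervalIntegrable F volume a b) (funext fun ξ => ?_)).mp
    (((h2.const_mul 2).add (h3.const_mul 2)).add h1)
  simp only [eds, sc]
  ring

end Vale.Agent.P264
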