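import Vale.Agent.P264.C.IntegW

/-!
# P264 C/IntegJ  (TASK; notes/P264.md section C, notes/P264C.md)

Continuity, integrability (`ii_of_bdd` with `L = 1 / (2 l)`) and the pointwise bound on `n = ξ a0` (`sob` for `f = ξ m0`, `ξ f' = ξ (a0 + a1)`).
`|G1| ≤ B`, `|G0| ≤ (B + ε) vp + B M l ξ`.  In `eds`: `ξ G1 a1 (ξ u1)` and `ξ G0 a0 u0` are bounded by `Jet4.bd` (`|G0| ≤ C ξ`).
-/

open Set MeasureTheory Filter Topology

noncomputable section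

namespace Vale.Agent.P264

variable {K : Cert} {X : Cut} {l κ ε : ℝ} {p m u : ℝ → ℕ → ℝ}

theorem integj_le (hl : 0 < l) {ξ : ℝ} (h : l * ξ ≤ 1 / 2) : ξ ≤ 1 / (2 * l) := by
  rw [le_div_iff₀ (by positivity)]
  linarith

theorem integj_le' (hl : 0 < l) {ξ : ℝ} (h : ξ ≤ 1 / (2 * l)) : l * ξ ≤ 1 / 2 := by
  rw [le_div_iff₀ (by positivity)] at h
  linarith

theorem Jet4.jet1 (h : Jet4 K l m u) : Jet1 l m := by
  obtain ⟨C, hC⟩ := h.bd
  refine ⟨h.l0, fun ξ => h.d 0 ξ (by norm_num), fun ξ hξ =>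
    (h.d 1 ξ one_le_two hξ.1 hξ.2).continuousAt.continuousWithinAt,
    |C| + |C| * √(1 / (2 * l)), fun ξ h0 h1 => ?_⟩
  obtain ⟨h2, h3, -⟩ := hC ξ h0 h1
  have h4 : √ξ ≤ √(1 / (2 * l)) := Real.sqrt_le_sqrt (integj_le h.l0 h1)
  have h5 := h3 1 le_rfl (by norm_num)
  have h6 := le_abs_self C
  have h7 := abs_nonneg C
  have h8 := Real.sqrt_nonneg ξ
  constructor <;> nlinarith

theorem Jet1.cont_sc (h : Jet1 l m) {k : ℕ} (hk : k ≤ 1) :
    ContinuousOn (fun y => sc m y k) {ξ | 0 < ξ ∧ l * ξ < 1} := by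
  refine (continuousOn_id.pow k).mul ?_
  obtain rfl | rfl := Nat.le_one_iff_eq_zero_or_eq_one.1 hk
  · exact fun ξ hξ => (h.d0 ξ hξ.1 hξ.2).continuousAt.continuousWithinAt
  · exact h.c1

theorem Jet1.d_sc (h : Jet1 l m) {ξ : ℝ} (h0 : 0 < ξ) (h1 : l * ξ < 1) :
    HasDerivAt (fun y => sc m y 0) (sc m ξ 1 / ξ) ξ := by
  simpa [sc, mul_div_cancel_left₀ _ h0.ne'] using h.d0 ξ h0 h1

theorem Jet4.cont_sc (h : Jet4 K l m u) {k : ℕ} (hk : k ≤ 3) :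
    ContinuousOn (fun y => sc m y k) {ξ | 0 < ξ ∧ l * ξ < 1} := by
  refine (continuousOn_id.pow k).mul ?_
  rcases hk.eq_or_lt with rfl | hk
  · exact h.c3
  · exact fun ξ hξ => (h.d k ξ (by omega) hξ.1 hξ.2).continuousAt.continuousWithinAt

theorem Jet4.d_sc (h : Jet4 K l m u) {k : ℕ} (hk : k ≤ 2) {ξ : ℝ} (h0 : 0 < ξ) (h1 : l * ξ < 1) :
    HasDerivAt (fun y => sc m y k) (((k : ℝ) * sc m ξ k + sc m ξ (k + 1)) / ξ) ξ := by
  refine ((hasDerivAt_pow k ξ).mul (h.d k ξ hk h0 h1)).congr_deriv ?_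
  rw [eq_div_iff h0.ne']
  rcases k with _ | k
  · simp [sc, mul_comm]
  · simp only [sc, Nat.add_sub_cancel]
    ring

/-- A bounded continuous weight times a quadratic expression in `a0`, `a1`. -/
theorem Jet1.ii_quad (h : Jet1 l m) {A B D : ℝ → ℝ} (hA : ContinuousOn A (Ioi 0))
    (hB : ContinuousOn B (Ioi 0)) (hD : ContinuousOn D (Ioi 0)) {C : ℝ}
    (hC : ∀ ξ, 0 < ξ → l * ξ ≤ 1 / 2 → |A ξ| ≤ C ∧ |B ξ| ≤ C ∧ |D ξ| ≤ C) {a b : ℝ} (ha : 0 ≤ a)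
    (hab : a ≤ b) (hb : l * b ≤ 1 / 2) :
    IntervalIntegrable (fun ξ => ξ * (A ξ * sc m ξ 1 ^ 2 + B ξ * sc m ξ 0 ^ 2
      + D ξ * (sc m ξ 0 * sc m ξ 1))) volume a b := by
  obtain ⟨M, hM⟩ := h.bd
  have hs : Ioc 0 (1 / (2 * l)) ⊆ {ξ | 0 < ξ ∧ l * ξ < 1} := fun ξ hξ =>
    ⟨hξ.1, (integj_le' h.l0 hξ.2).trans_lt one_half_lt_one⟩
  have c0 := (h.cont_sc zero_le_one).mono hs
  have c1 := (h.cont_sc le_rfl).mono hs
  refine ii_of_bdd ha hab (integj_le h.l0 hb) (continuousOn_id.mul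
    ((((hA.mono Ioc_subset_Ioi_self).mul (c1.pow 2)).add
      ((hB.mono Ioc_subset_Ioi_self).mul (c0.pow 2))).add
      ((hD.mono Ioc_subset_Ioi_self).mul (c0.mul c1))))
    (C := 1 / (2 * l) * (C * M ^ 2 + C * M ^ 2 + C * (M * M))) fun ξ hξ => ?_
  obtain ⟨h1, h2, h3⟩ := hC ξ hξ.1 (integj_le' h.l0 hξ.2)
  obtain ⟨h4, h5⟩ := hM ξ hξ.1 (integj_le' h.l0 hξ.2)
  have h6 := (abs_nonneg _).trans h1
  have h7 := (abs_nonneg _).trans h4
  have h8 := hξ.1.le.trans hξ.2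
  rw [abs_mul, abs_of_pos hξ.1]
  refine mul_le_mul hξ.2 ((abs_add_three _ _ _).trans ?_) (abs_nonneg _) h8
  simp only [abs_mul, abs_pow]
  gcongr

theorem Jet1.ii_nn (h : Jet1 l m) {a b : ℝ} (ha : 0 ≤ a) (hab : a ≤ b) (hb : l * b ≤ 1 / 2) :
    IntervalIntegrable (nn m) volume a b := by
  have h1 := h.ii_quad (A := fun _ => 1) (B := fun _ => 1) (D := fun _ => 0) continuousOn_const
    continuousOn_const continuousOn_const (C := 1) (fun _ _ _ => by simp) ha hab hb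
  refine (congrArg (IntervalIntegrable · volume a b) (funext fun ξ => ?_)).mp h1
  rw [nn]
  ring

theorem Jet1.n_le (h : Jet1 l m) (hT : Trap l m (eta ^ 2)) {ξ : ℝ} (h0 : 0 < ξ)
    (h1 : l * ξ ≤ 1 / 4) : |ξ * sc m ξ 0| ≤ 3 * eta := by
  have hl := h.l0
  have hs : Icc (ξ / 2) ξ ⊆ {ξ | 0 < ξ ∧ l * ξ < 1} := fun y hy =>
    ⟨(half_pos h0).trans_le hy.1, by nlinarith [hy.2]⟩
  have c0 := (h.cont_sc zero_le_one).mono hs
  have c1 := (h.cont_sc le_rfl).mono hs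
  have h2 := sob h0 (f := fun y => y * sc m y 0) (f' := fun y => sc m y 0 + sc m y 1)
    (fun y hy => ((hasDerivAt_id' y).mul (h.d_sc (hs hy).1 (hs hy).2)).congr_deriv (by
      rw [one_mul, mul_div_cancel₀ _ (hs hy).1.ne'])) (c0.add c1) ξ ⟨(half_le_self h0.le), le_rfl⟩
  have h3 : ∫ y in (ξ / 2)..ξ, ((y * sc m y 0) ^ 2 + (y * (sc m y 0 + sc m y 1)) ^ 2) / y ≤
      ∫ y in (ξ / 2)..ξ, 3 * nn m y := by
    refine intervalIntegral.integral_mono_on (half_le_self h0.le)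
      (ContinuousOn.intervalIntegrable_of_Icc (half_le_self h0.le)
        ((((continuousOn_id.mul c0).pow 2).add ((continuousOn_id.mul (c0.add c1)).pow 2)).div
          continuousOn_id fun y hy => (hs hy).1.ne'))
      ((h.ii_nn (half_pos h0).le (half_le_self h0.le) (by linarith)).const_mul 3) fun y hy => ?_
    rw [div_le_iff₀ (hs hy).1, nn]
    nlinarith [mul_nonneg (sq_nonneg y) (sq_nonneg (sc m y 0 - sc m y 1)),
      mul_nonneg (sq_nonneg y) (sq_nonneg (sc m y 1))]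
  rw [intervalIntegral.integral_const_mul] at h3
  have h4 : ∫ y in (ξ / 2)..ξ, nn m y ≤ eta ^ 2 := hT ξ h0 h1
  refine abs_le_of_sq_le_sq' (by linarith) (by rw [eta]; positivity) |> abs_le.2

end Vale.Agent.P264
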