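import Vale.Agent.P264.C.PsiA

/-!
# P264 C/Psi  (TASK; notes/P264.md section C, notes/P264C.md)

The cut-off and the two weight families.  `exists_Cut`: `χ x = θ((x - 1/4) / h)^4`, `θ = 1 - Real.smoothTransition` (or any `C²` choice); `θ', θ''` are
bounded (continuous, zero outside `[0,1]`).  `exists_Ps`: `P z = (z / (1 + z²))^kk`, `z P' = kk (1 - z²)/(1 + z²) P`.
`dbl` follows from the explicit formulas (`(5/2)^kk ≤ 2`, ...) or from `b1`.
`psiD_scale`: `lam' = -lam / 2`.  `beta_scale`: `z = (lam s / r) ξ`: `P z ≤ y⁻¹ (1 + ξ)` and `P z ≤ y (1 + ξ) / ξ`;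
`min y y⁻¹ ≤ 2 y / (1 + y²)` for `y = (lam s / r)^(-kk) = r^kk exp (kk s / 2)`.
-/

open Set MeasureTheory Filter Topology

noncomputable section

namespace Vale.Agent.P264

theorem psi_kk_pos : 0 < kk := by unfold kk; positivity

theorem psi_kk_le : kk ≤ 1 / 3 := by unfold kk; norm_num

theorem psi_rpow_le {x : ℝ} (hx : 0 < x) : x ^ kk ≤ 1 + x := by
  rcases le_total x 1 with h | h
  · have := Real.rpow_le_one hx.le h psi_kk_pos.le
    linarith
  · have := Real.rpow_le_rpow_of_exponent_le h (show kk ≤ 1 by linarith [psi_kk_le])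
    rw [Real.rpow_one] at this
    linarith

/-- `w z = z / (1 + z²)`. -/
def psiW (z : ℝ) : ℝ := z / (1 + z ^ 2)
/-- The logarithmic derivative of `w`. -/
def psiG (z : ℝ) : ℝ := 1 / z - 2 * z / (1 + z ^ 2)
/-- The derivative of `psiG`. -/
def psiG1 (z : ℝ) : ℝ := -1 / z ^ 2 - 2 * (1 - z ^ 2) / (1 + z ^ 2) ^ 2

/-- The weight. -/
def psiP (z : ℝ) (j : ℕ) : ℝ :=
  if j = 0 then psiW z ^ kk else if j = 1 then kk * psiG z * psiW z ^ kk
    else (kk * psiG1 z + kk ^ 2 * psiG z ^ 2) * psiW z ^ kk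

theorem psiW_pos {z : ℝ} (hz : 0 < z) : 0 < psiW z := by unfold psiW; positivity

theorem psiW_le_one {z : ℝ} (hz : 0 < z) : psiW z ≤ 1 := by
  unfold psiW
  rw [div_le_one (by positivity)]
  nlinarith [sq_nonneg (z - 1)]

theorem psiW_deriv {z : ℝ} (hz : 0 < z) : HasDerivAt psiW (psiG z * psiW z) z := by
  have h1 : HasDerivAt (fun y : ℝ => 1 + y ^ 2) (2 * z) z := by
    simpa using ((hasDerivAt_pow 2 z).const_add 1)
  have h2 := (hasDerivAt_id' z).div h1 (by positivity)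
  refine HasDerivAt.congr_deriv h2 ?_
  unfold psiG psiW
  field_simp

theorem psiW_rpow_deriv {z : ℝ} (hz : 0 < z) :
    HasDerivAt (fun y => psiW y ^ kk) (kk * psiG z * psiW z ^ kk) z := by
  have hw := psiW_pos hz
  have h := (psiW_deriv hz).rpow_const (p := kk) (Or.inl hw.ne')
  refine HasDerivAt.congr_deriv h ?_
  rw [Real.rpow_sub_one hw.ne']
  field_simp

theorem psiG_deriv {z : ℝ} (hz : 0 < z) : HasDerivAt psiG (psiG1 z) z := by
  have h1 : HasDerivAt (fun y : ℝ => 1 + y ^ 2) (2 * z) z := by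
    simpa using ((hasDerivAt_pow 2 z).const_add 1)
  have h2 := ((hasDerivAt_id' z).const_mul 2).div h1 (by positivity)
  have h3 := (hasDerivAt_const z (1 : ℝ)).div (hasDerivAt_id' z) hz.ne'
  refine HasDerivAt.congr_deriv (h3.sub h2) ?_
  unfold psiG1
  field_simp
  ring

theorem psiG_bound {z : ℝ} (hz : 0 < z) : |z * psiG z| ≤ 1 := by
  have e : z * psiG z = (1 - z ^ 2) / (1 + z ^ 2) := by
    unfold psiG; field_simp; ring
  rw [e, abs_le]
  constructor
  · rw [le_div_iff₀ (by positivity)]; nlinarith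
  · rw [div_le_one (by positivity)]; nlinarith [sq_nonneg z]

theorem psiG1_bound {z : ℝ} (hz : 0 < z) : |z ^ 2 * psiG1 z| ≤ 3 := by
  have e : z ^ 2 * psiG1 z = (-(1 + z ^ 2) ^ 2 - 2 * z ^ 2 * (1 - z ^ 2)) / (1 + z ^ 2) ^ 2 := by
    unfold psiG1; field_simp
  rw [e, abs_le]
  have := sq_nonneg z
  constructor
  · rw [le_div_iff₀ (by positivity)]; nlinarith [sq_nonneg (z ^ 2)]
  · rw [div_le_iff₀ (by positivity)]; nlinarith [sq_nonneg (z ^ 2)]

theorem psiP_S : PsiS psiP := by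
  have k0 := psi_kk_pos
  have k1 := psi_kk_le
  refine ⟨?_, ?_, ?_, ?_, ?_⟩
  · intro j ξ hj hξ
    interval_cases j
    · simpa [psiP] using psiW_rpow_deriv hξ
    · have h := ((psiG_deriv hξ).const_mul kk).mul (psiW_rpow_deriv hξ)
      have e1 : (fun y => psiP y 1) = fun y => kk * psiG y * psiW y ^ kk := by
        funext y; simp [psiP]
      rw [e1]
      refine HasDerivAt.congr_deriv h ?_
      simp only [psiP]
      norm_num
      ring
  · intro ξ hξ
    simp only [psiP, if_true]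
    exact ⟨Real.rpow_pos_of_pos (psiW_pos hξ) _,
      Real.rpow_le_one (psiW_pos hξ).le (psiW_le_one hξ) k0.le⟩
  · intro ξ hξ
    have hp := Real.rpow_pos_of_pos (psiW_pos hξ) kk
    have e : ξ * psiP ξ 1 = (ξ * psiG ξ) * (kk * psiW ξ ^ kk) := by simp [psiP]; ring
    have e0 : psiP ξ 0 = psiW ξ ^ kk := by simp [psiP]
    rw [e, e0, abs_mul, abs_of_pos (mul_pos k0 hp)]
    exact mul_le_of_le_one_left (mul_pos k0 hp).le (psiG_bound hξ)
  · intro ξ hξ
    have hp := Real.rpow_pos_of_pos (psiW_pos hξ) kk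
    have e : ξ ^ 2 * psiP ξ 2
        = (ξ ^ 2 * psiG1 ξ + kk * (ξ * psiG ξ) ^ 2) * (kk * psiW ξ ^ kk) := by
      simp [psiP]; ring
    have e0 : psiP ξ 0 = psiW ξ ^ kk := by simp [psiP]
    rw [e, e0, abs_mul, abs_of_pos (mul_pos k0 hp), mul_assoc]
    refine mul_le_mul_of_nonneg_right ?_ (mul_pos k0 hp).le
    have h1 := abs_le.1 (psiG1_bound hξ)
    have h2 : (ξ * psiG ξ) ^ 2 ≤ 1 := by
      have := abs_le.1 (psiG_bound hξ)
      nlinarith
    have h3 := sq_nonneg (ξ * psiG ξ)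
    rw [abs_le]
    constructor <;> nlinarith
  · intro ξ ξ' h h' h1 h2
    simp only [psiP, if_true]
    have hw : psiW ξ ≤ 8 * psiW ξ' := by
      unfold psiW
      rw [← mul_div_assoc, div_le_div_iff₀ (by positivity) (by positivity)]
      have a1 : ξ' ^ 2 ≤ 4 * ξ ^ 2 := by nlinarith
      have a2 : 1 + ξ' ^ 2 ≤ 4 * (1 + ξ ^ 2) := by linarith
      calc ξ * (1 + ξ' ^ 2) ≤ (2 * ξ') * (4 * (1 + ξ ^ 2)) :=
            mul_le_mul h1 a2 (by positivity) (by positivity)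
        _ = 8 * ξ' * (1 + ξ ^ 2) := by ring
    have h8 : (8 : ℝ) ^ kk ≤ 2 := by
      have := Real.rpow_le_rpow_of_exponent_le (show (1 : ℝ) ≤ 8 by norm_num) k1
      have e : (8 : ℝ) ^ (1 / 3 : ℝ) = 2 := by
        rw [show (8 : ℝ) = 2 ^ (3 : ℝ) by norm_num, ← Real.rpow_mul (by norm_num)]
        norm_num
      linarith
    calc psiW ξ ^ kk ≤ (8 * psiW ξ') ^ kk := Real.rpow_le_rpow (psiW_pos h).le hw k0.le
      _ = 8 ^ kk * psiW ξ' ^ kk := Real.mul_rpow (by norm_num) (psiW_pos h').le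
      _ ≤ 2 * psiW ξ' ^ kk :=
          mul_le_mul_of_nonneg_right h8 (Real.rpow_nonneg (psiW_pos h').le _)

theorem exists_Ps : ∃ P : ℝ → ℕ → ℝ, PsiS P ∧
    (∀ z, 0 < z → P z 0 ≤ z ^ kk ∧ P z 0 ≤ z ^ (-kk)) ∧
    ∀ z ∈ Icc (1 / 2 : ℝ) 1, 1 / 4 ≤ P z 0 := by
  have k0 := psi_kk_pos
  have k1 := psi_kk_le
  refine ⟨psiP, psiP_S, ?_, ?_⟩
  · intro z hz
    simp only [psiP, if_true]
    constructor
    · refine Real.rpow_le_rpow (psiW_pos hz).le ?_ k0.le
      unfold psiW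
      exact div_le_self hz.le (by nlinarith [sq_nonneg z])
    · rw [Real.rpow_neg hz.le, ← Real.inv_rpow hz.le]
      refine Real.rpow_le_rpow (psiW_pos hz).le ?_ k0.le
      unfold psiW
      rw [inv_eq_one_div, div_le_div_iff₀ (by positivity) hz]
      nlinarith
  · intro z hz
    have hz0 : 0 < z := by linarith [hz.1]
    simp only [psiP, if_true]
    have h1 := Real.rpow_le_rpow_of_exponent_ge (psiW_pos hz0) (psiW_le_one hz0)
      (show kk ≤ 1 by linarith)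
    rw [Real.rpow_one] at h1
    refine le_trans ?_ h1
    unfold psiW
    rw [div_le_div_iff₀ (by norm_num) (by positivity)]
    nlinarith [hz.1, hz.2]

theorem psiD_scale {P : ℝ → ℕ → ℝ} (hP : PsiS P) {r : ℝ} (hr : 0 < r) :
    PsiD 0 fun s ξ j => (lam s / r) ^ j * P (lam s * ξ / r) j := by
  have hz : ∀ s ξ : ℝ, 0 < ξ → 0 < lam s * ξ / r := fun s ξ h => by
    have := lam_pos s
    positivity
  refine ⟨le_rfl, psi_kk_pos.le, fun s => ⟨?_, ?_, ?_, ?_, ?_⟩, ?_⟩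
  · intro j ξ hj hξ
    have h1 : HasDerivAt (fun y : ℝ => lam s * y / r) (lam s / r) ξ := by
      simpa using ((hasDerivAt_id' ξ).const_mul (lam s)).div_const r
    have h2 := ((hP.d j _ hj (hz s ξ hξ)).comp ξ h1).const_mul ((lam s / r) ^ j)
    refine HasDerivAt.congr_deriv h2 ?_
    ring
  · intro ξ hξ
    simpa using hP.pos _ (hz s ξ hξ)
  · intro ξ hξ
    have := hP.b1 _ (hz s ξ hξ)
    have e : ξ * ((lam s / r) ^ 1 * P (lam s * ξ / r) 1)
        = lam s * ξ / r * P (lam s * ξ / r) 1 := by ring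
    simpa only [e, pow_zero, one_mul] using this
  · intro ξ hξ
    have := hP.b2 _ (hz s ξ hξ)
    have e : ξ ^ 2 * ((lam s / r) ^ 2 * P (lam s * ξ / r) 2)
        = (lam s * ξ / r) ^ 2 * P (lam s * ξ / r) 2 := by ring
    simpa only [e, pow_zero, one_mul] using this
  · intro ξ ξ' h h' h1 h2
    have hl : 0 < lam s / r := div_pos (lam_pos s) hr
    have := hP.dbl _ _ (hz s ξ h) (hz s ξ' h')
      (by have := mul_le_mul_of_nonneg_left h1 hl.le
          calc lam s * ξ / r = lam s / r * ξ := by ring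
            _ ≤ lam s / r * (2 * ξ') := this
            _ = 2 * (lam s * ξ' / r) := by ring)
      (by have := mul_le_mul_of_nonneg_left h2 hl.le
          calc lam s * ξ' / r = lam s / r * ξ' := by ring
            _ ≤ lam s / r * (2 * ξ) := this
            _ = 2 * (lam s * ξ / r) := by ring)
    simpa only [pow_zero, one_mul] using this
  · intro s ξ hξ
    have h1 : HasDerivAt (fun σ : ℝ => lam σ * ξ / r) (-lam s / 2 * ξ / r) s :=
      ((hasDerivAt_lam s).mul_const ξ).div_const r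
    have h2 := (hP.d 0 _ (by norm_num) (hz s ξ hξ)).comp s h1
    simp only [pow_zero, one_mul]
    refine HasDerivAt.congr_deriv h2 ?_
    ring

theorem beta_scale {P : ℝ → ℕ → ℝ} (hP : ∀ z, 0 < z → P z 0 ≤ z ^ kk ∧ P z 0 ≤ z ^ (-kk))
    {r : ℝ} (hr : 0 < r) (s : ℝ) {ξ : ℝ} (h : 0 < ξ) :
    P (lam s * ξ / r) 0 * ξ ^ 3 / (1 + ξ) ^ 6 ≤
      2 * (r ^ kk * Real.exp (kk * s / 2)) / (1 + (r ^ kk * Real.exp (kk * s / 2)) ^ 2)
        / (1 + ξ) ^ 2 := by
  have hl := lam_pos s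
  have hc : 0 < lam s / r := div_pos hl hr
  have ez : lam s * ξ / r = lam s / r * ξ := by ring
  set y := r ^ kk * Real.exp (kk * s / 2) with hy
  have hy0 : 0 < y := mul_pos (Real.rpow_pos_of_pos hr _) (Real.exp_pos _)
  have ey : (lam s / r) ^ kk = y⁻¹ := by
    rw [Real.div_rpow hl.le hr.le, hy, lam, ← Real.exp_mul, mul_inv, ← Real.exp_neg, div_eq_mul_inv,
      mul_comm]
    congr 2
    ring
  obtain ⟨h1, h2⟩ := hP _ (mul_pos hc h)
  rw [ez]
  set p := P (lam s / r * ξ) 0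
  rw [Real.mul_rpow hc.le h.le, ey] at h1
  rw [Real.rpow_neg (mul_pos hc h).le, Real.mul_rpow hc.le h.le, ey, mul_inv, inv_inv,
    ← Real.inv_rpow h.le] at h2
  have b1 : p ≤ y⁻¹ * (1 + ξ) :=
    h1.trans (mul_le_mul_of_nonneg_left (psi_rpow_le h) (inv_pos.2 hy0).le)
  have b2 : p ≤ y * (1 + ξ⁻¹) :=
    h2.trans (mul_le_mul_of_nonneg_left (psi_rpow_le (inv_pos.2 h)) hy0.le)
  have key : ∀ b : ℝ, p * ξ ^ 3 ≤ b * (1 + ξ) ^ 4 → b ≤ 2 * y / (1 + y ^ 2) →
      p * ξ ^ 3 / (1 + ξ) ^ 6 ≤ 2 * y / (1 + y ^ 2) / (1 + ξ) ^ 2 := by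
    intro b hb hb'
    rw [div_le_div_iff₀ (by positivity) (by positivity)]
    calc p * ξ ^ 3 * (1 + ξ) ^ 2 ≤ b * (1 + ξ) ^ 4 * (1 + ξ) ^ 2 :=
          mul_le_mul_of_nonneg_right hb (by positivity)
      _ = b * (1 + ξ) ^ 6 := by ring
      _ ≤ _ := mul_le_mul_of_nonneg_right hb' (by positivity)
  have c3 : ξ ^ 3 ≤ (1 + ξ) ^ 3 := pow_le_pow_left₀ h.le (by linarith) 3
  have c2 : ξ ^ 2 ≤ (1 + ξ) ^ 3 := by nlinarith [pow_pos h 3, pow_pos h 2]
  rcases le_total y 1 with hy1 | hy1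
  · refine key y ?_ ?_
    · calc p * ξ ^ 3 ≤ y * (1 + ξ⁻¹) * ξ ^ 3 := mul_le_mul_of_nonneg_right b2 (by positivity)
        _ = y * (1 + ξ) * ξ ^ 2 := by field_simp; ring
        _ ≤ y * (1 + ξ) * (1 + ξ) ^ 3 := mul_le_mul_of_nonneg_left c2 (by positivity)
        _ = _ := by ring
    · rw [le_div_iff₀ (by positivity)]
      have : y ^ 2 ≤ 1 := by nlinarith
      nlinarith
  · refine key y⁻¹ ?_ ?_
    · calc p * ξ ^ 3 ≤ y⁻¹ * (1 + ξ) * ξ ^ 3 := mul_le_mul_of_nonneg_right b1 (by positivity)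
        _ ≤ y⁻¹ * (1 + ξ) * (1 + ξ) ^ 3 := mul_le_mul_of_nonneg_left c3 (by positivity)
        _ = _ := by ring
    · rw [inv_eq_one_div, div_le_div_iff₀ hy0 (by positivity)]
      nlinarith

end Vale.Agent.P264
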