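import Vale.Agent.P264.C.Calc
import Vale.Agent.P264.C.Psi

/-!
# P264 C/IntegW  (TASK; notes/P264.md section C, notes/P264C.md)

Continuity, integrability (`ii_of_bdd` with `L = 1 / (2 l)`) and the pointwise bound on `n = ξ a0` (`sob` for `f = ξ m0`, `ξ f' = ξ (a0 + a1)`).
`|G1| ≤ B`, `|G0| ≤ (B + ε) vp + B M l ξ`.  In `eds`: `ξ G1 a1 (ξ u1)` and `ξ G0 a0 u0` are bounded by `Jet4.bd` (`|G0| ≤ C ξ`).
-/

open Set MeasureTheory Filter Topology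

noncomputable section

namespace Vale.Agent.P264

variable {K : Cert} {X : Cut} {l κ ε : ℝ} {p m u : ℝ → ℕ → ℝ}

theorem d_om (X : Cut) (l : ℝ) (hp : PsiS p) {ξ : ℝ} (h0 : 0 < ξ) :
    HasDerivAt (om X l p) (omd X l p ξ / ξ) ξ := by
  have h1 : HasDerivAt (fun y => X.c (l * y) 0) (X.c (l * ξ) 1 * (l * 1)) ξ :=
    (X.d 0 (l * ξ) (by norm_num)).comp ξ ((hasDerivAt_id ξ).const_mul l)
  refine (h1.mul (hp.d 0 ξ (by norm_num) h0)).congr_deriv ?_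
  rw [omd]
  field_simp

theorem om_range (X : Cut) (l : ℝ) (hp : PsiS p) {ξ : ℝ} (h0 : 0 < ξ) :
    0 ≤ om X l p ξ ∧ om X l p ξ ≤ X.c (l * ξ) 0 ∧ om X l p ξ ≤ 1 := by
  obtain ⟨a1, a2⟩ := hp.pos ξ h0
  obtain ⟨b1, b2, -⟩ := X.rg (l * ξ)
  rw [om]
  refine ⟨by positivity, by nlinarith, by nlinarith⟩

theorem cc_nonneg (K : Cert) (X : Cut) (hl : 0 < l) (hp : PsiS p) {ξ : ℝ} (h0 : 0 < ξ) :
    0 ≤ cc K X l p ξ := by
  have a1 := (hp.pos ξ h0).1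
  have b1 := (X.rg (l * ξ)).2.2
  have c1 : 0 ≤ K.ct := by linarith [K.hct]
  have : 0 ≤ K.ct * p ξ 0 * (l * ξ * -X.c (l * ξ) 1) :=
    mul_nonneg (by positivity) (mul_nonneg (by positivity) (by linarith))
  rw [cc]
  linarith

theorem cont_G (K : Cert) (X : Cut) (l κ ε : ℝ) (hp : PsiS p) :
    ContinuousOn (om X l p) (Ioi 0) ∧ ContinuousOn (omd X l p) (Ioi 0) ∧
    ContinuousOn (G1 K X l p) (Ioi 0) ∧ ContinuousOn (G1d K X l p) (Ioi 0) ∧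
    ContinuousOn (G0 K X l p ε) (Ioi 0) ∧ ContinuousOn (G1s K X l κ p) (Ioi 0) ∧
    ContinuousOn (G0s K X l κ p ε) (Ioi 0) ∧ ContinuousOn (gam κ p) (Ioi 0) := by
  have c0 : Continuous fun y => X.c y 0 :=
    continuous_iff_continuousAt.2 fun x => (X.d 0 x (by norm_num)).continuousAt
  have c1 : Continuous fun y => X.c y 1 :=
    continuous_iff_continuousAt.2 fun x => (X.d 1 x le_rfl).continuousAt
  have hl : ContinuousOn (fun ξ : ℝ => l * ξ) (Ioi 0) := by fun_prop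
  have x0 : ContinuousOn (fun ξ => X.c (l * ξ) 0) (Ioi 0) := c0.comp_continuousOn hl
  have x1 : ContinuousOn (fun ξ => X.c (l * ξ) 1) (Ioi 0) := c1.comp_continuousOn hl
  have x2 : ContinuousOn (fun ξ => X.c (l * ξ) 2) (Ioi 0) := X.c2.comp_continuousOn hl
  have p0 : ContinuousOn (fun ξ => p ξ 0) (Ioi 0) := fun ξ h =>
    (hp.d 0 ξ (by norm_num) h).continuousAt.continuousWithinAt
  have p1 : ContinuousOn (fun ξ => p ξ 1) (Ioi 0) := fun ξ h =>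
    (hp.d 1 ξ le_rfl h).continuousAt.continuousWithinAt
  have v0 : ContinuousOn vp (Ioi 0) := fun ξ h => (hasDerivAt_vp h).continuousAt.continuousWithinAt
  have g1 : ContinuousOn (fun ξ => K.g1 ξ 0) (Ioi 0) := fun ξ h =>
    (K.dg1 ξ h).continuousAt.continuousWithinAt
  have g2 := K.cg1
  have g0 := K.cg0
  have a1 : ContinuousOn (om X l p) (Ioi 0) := by
    unfold om
    fun_prop
  have a2 : ContinuousOn (omd X l p) (Ioi 0) := by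
    unfold omd
    fun_prop
  have a3 : ContinuousOn (gam κ p) (Ioi 0) := by
    unfold gam
    fun_prop
  have a4 : ContinuousOn (cc K X l p) (Ioi 0) := by
    unfold cc
    fun_prop
  have a5 : ContinuousOn (ccd K X l p) (Ioi 0) := by
    unfold ccd
    fun_prop
  refine ⟨a1, a2, ?_, ?_, ?_, ?_, ?_, a3⟩
  · unfold G1
    fun_prop
  · unfold G1d
    fun_prop
  · unfold G0
    fun_prop
  · unfold G1s
    fun_prop
  · unfold G0s
    fun_prop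

/-- Bounded functions. -/
def IntegWB {T : Type} (f : T → ℝ) : Prop := ∃ C, ∀ a, |f a| ≤ C

theorem IntegWB.add {T : Type} {f g : T → ℝ} (hf : IntegWB f) (hg : IntegWB g) :
    IntegWB fun a => f a + g a :=
  let ⟨C, h⟩ := hf
  let ⟨D, k⟩ := hg
  ⟨C + D, fun a => (abs_add_le _ _).trans (add_le_add (h a) (k a))⟩

theorem IntegWB.sub {T : Type} {f g : T → ℝ} (hf : IntegWB f) (hg : IntegWB g) :
    IntegWB fun a => f a - g a :=
  let ⟨C, h⟩ := hf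
  let ⟨D, k⟩ := hg
  ⟨C + D, fun a => (abs_sub _ _).trans (add_le_add (h a) (k a))⟩

theorem IntegWB.mul {T : Type} {f g : T → ℝ} (hf : IntegWB f) (hg : IntegWB g) :
    IntegWB fun a => f a * g a :=
  let ⟨C, h⟩ := hf
  let ⟨D, k⟩ := hg
  ⟨C * D, fun a => (abs_mul _ _).trans_le
    (mul_le_mul (h a) (k a) (abs_nonneg _) ((abs_nonneg _).trans (h a)))⟩

theorem IntegWB.half {T : Type} {f : T → ℝ} (hf : IntegWB f) : IntegWB fun a => f a / 2 :=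
  let ⟨C, h⟩ := hf
  ⟨C / 2, fun a => by
    rw [abs_div, abs_two]
    linarith [h a]⟩

/-- Bounds on the weights that do not depend on `l ≤ l1` and `p`. -/
theorem bd_G (K : Cert) (X : Cut) (l1 κ ε : ℝ) : ∃ C : ℝ, 0 ≤ C ∧ ∀ l, 0 < l → l ≤ l1 →
    ∀ p, PsiS p → ∀ ξ, 0 < ξ → l * ξ ≤ 1 / 2 →
      |G1 K X l p ξ| ≤ C ∧ |G1d K X l p ξ| ≤ C ∧ |G0 K X l p ε ξ| ≤ C ∧ |G0 K X l p ε ξ| ≤ C * ξ ∧
      |G1s K X l κ p ξ| ≤ C ∧ |G0s K X l κ p ε ξ| ≤ C ∧ |gam κ p ξ| ≤ C := by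
  let T := {a : ℝ × (ℝ → ℕ → ℝ) × ℝ // 0 < a.1 ∧ a.1 ≤ l1 ∧ PsiS a.2.1 ∧ 0 < a.2.2 ∧
    a.1 * a.2.2 ≤ 1 / 2}
  have hk : kk ≤ 1 := by norm_num [kk]
  have hk0 : 0 ≤ kk := by norm_num [kk]
  have c : ∀ t : ℝ, IntegWB fun _ : T => t := fun t => ⟨|t|, fun _ => le_rfl⟩
  have bl : IntegWB fun a : T => a.1.1 := ⟨l1, fun a => (abs_of_pos a.2.1).trans_le a.2.2.1⟩
  have bx : IntegWB fun a : T => a.1.1 * a.1.2.2 :=
    ⟨1 / 2, fun a => (abs_of_pos (mul_pos a.2.1 a.2.2.2.2.1)).trans_le a.2.2.2.2.2⟩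
  have x0 : IntegWB fun a : T => X.c (a.1.1 * a.1.2.2) 0 :=
    ⟨1, fun a => (abs_of_nonneg (X.rg _).1).trans_le (X.rg _).2.1⟩
  have x1 : IntegWB fun a : T => X.c (a.1.1 * a.1.2.2) 1 := ⟨_, fun a => (X.abs_le _).1⟩
  have x2 : IntegWB fun a : T => X.c (a.1.1 * a.1.2.2) 2 := ⟨_, fun a => (X.abs_le _).2⟩
  have p0 : IntegWB fun a : T => a.1.2.1 a.1.2.2 0 := ⟨1, fun a =>
    (abs_of_pos (a.2.2.2.1.pos _ a.2.2.2.2.1).1).trans_le (a.2.2.2.1.pos _ a.2.2.2.2.1).2⟩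
  have p1 : IntegWB fun a : T => a.1.2.2 * a.1.2.1 a.1.2.2 1 := ⟨1, fun a =>
    (a.2.2.2.1.b1 _ a.2.2.2.2.1).trans (mul_le_one₀ hk (a.2.2.2.1.pos _ a.2.2.2.2.1).1.le
      (a.2.2.2.1.pos _ a.2.2.2.2.1).2)⟩
  have v0 : IntegWB fun a : T => vp a.1.2.2 :=
    ⟨1, fun a => (abs_of_pos (vp_pos a.2.2.2.2.1).1).trans_le (vp_pos a.2.2.2.2.1).2.1⟩
  have v1 : IntegWB fun a : T => vp a.1.2.2 / a.1.2.2 := ⟨1, fun a => by
    obtain ⟨h1, -, h2⟩ := vp_pos a.2.2.2.2.1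
    rw [abs_of_pos (div_pos h1 a.2.2.2.2.1)]
    exact (div_le_one a.2.2.2.2.1).2 h2⟩
  have g1 : IntegWB fun a : T => K.g1 a.1.2.2 0 := ⟨10 ^ 14, fun a => by
    obtain ⟨h1, h2, -⟩ := K.bg1 _ a.2.2.2.2.1
    rwa [abs_of_pos (by linarith)]⟩
  have g2 : IntegWB fun a : T => a.1.2.2 * K.g1 a.1.2.2 1 :=
    ⟨10 ^ 14, fun a => (K.bg1 _ a.2.2.2.2.1).2.2.1⟩
  have g0 : IntegWB fun a : T => K.g0 a.1.2.2 0 := ⟨10 ^ 14 * 1, fun a =>
    (K.bg0 _ a.2.2.2.2.1).1.trans (mul_le_mul_of_nonneg_left (vp_pos a.2.2.2.2.1).2.1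
      (by norm_num))⟩
  have g3 : IntegWB fun a : T => K.g0 a.1.2.2 0 / a.1.2.2 := ⟨10 ^ 14, fun a => by
    rw [abs_div, abs_of_pos a.2.2.2.2.1, div_le_iff₀ a.2.2.2.2.1]
    exact (K.bg0 _ a.2.2.2.2.1).1.trans (mul_le_mul_of_nonneg_left (vp_pos a.2.2.2.2.1).2.2
      (by norm_num))⟩
  have a1 : IntegWB fun a : T => om X a.1.1 a.1.2.1 a.1.2.2 := x0.mul p0
  have a2 : IntegWB fun a : T => omd X a.1.1 a.1.2.1 a.1.2.2 :=
    ((bx.mul x1).mul p0).add (x0.mul p1)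
  have a3 : IntegWB fun a : T => gam κ a.1.2.1 a.1.2.2 := ((c _).mul v0).mul p0
  have a4 : IntegWB fun a : T => cc K X a.1.1 a.1.2.1 a.1.2.2 := ((c _).mul p0).mul (bx.mul x1)
  have a5 : IntegWB fun a : T => ccd K X a.1.1 a.1.2.1 a.1.2.2 := by
    simp only [ccd, sq]
    exact (c _).mul ((p1.mul (bx.mul x1)).add (p0.mul ((bx.mul x1).add ((bx.mul bx).mul x2))))
  have a6 := (x0.mul a3).sub (a2.half)
  have a7 := g0.add ((c ε).mul v0)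
  obtain ⟨C1, h1⟩ := a1.mul g1
  obtain ⟨C2, h2⟩ := (a2.mul g1).add (a1.mul g2)
  obtain ⟨C3, h3⟩ := (a1.mul a7).add a4
  obtain ⟨C4, h4⟩ := (a1.mul (g3.add ((c ε).mul v1))).add (((c (-K.ct)).mul p0).mul (bl.mul x1))
  obtain ⟨C5, h5⟩ := a6.mul g1
  obtain ⟨C6, h6⟩ := ((a6.mul a7).sub (((c K.ct).mul a3).mul (bx.mul x1))).sub a5.half
  obtain ⟨C7, h7⟩ := a3
  refine ⟨|C1| + |C2| + |C3| + |C4| + |C5| + |C6| + |C7|, by positivity,
    fun l l0 hl p hp ξ h0 hx => ?_⟩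
  have k1 := (h1 ⟨(l, p, ξ), l0, hl, hp, h0, hx⟩).trans (le_abs_self _)
  have k2 := (h2 ⟨(l, p, ξ), l0, hl, hp, h0, hx⟩).trans (le_abs_self _)
  have k3 := (h3 ⟨(l, p, ξ), l0, hl, hp, h0, hx⟩).trans (le_abs_self _)
  have k4 := (h4 ⟨(l, p, ξ), l0, hl, hp, h0, hx⟩).trans (le_abs_self _)
  have k5 := (h5 ⟨(l, p, ξ), l0, hl, hp, h0, hx⟩).trans (le_abs_self _)
  have k6 := (h6 ⟨(l, p, ξ), l0, hl, hp, h0, hx⟩).trans (le_abs_self _)
  have k7 := (h7 ⟨(l, p, ξ), l0, hl, hp, h0, hx⟩).trans (le_abs_self _)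
  have n1 := abs_nonneg C1
  have n2 := abs_nonneg C2
  have n3 := abs_nonneg C3
  have n4 := abs_nonneg C4
  have n5 := abs_nonneg C5
  have n6 := abs_nonneg C6
  have n7 := abs_nonneg C7
  refine ⟨k1.trans (by linarith), k2.trans (by linarith), k3.trans (by linarith), ?_,
    k5.trans (by linarith), k6.trans (by linarith), k7.trans (by linarith)⟩
  have e : G0 K X l p ε ξ = (om X l p ξ * (K.g0 ξ 0 / ξ + ε * (vp ξ / ξ)) +
      -K.ct * p ξ 0 * (l * X.c (l * ξ) 1)) * ξ := by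
    rw [G0, cc]
    field_simp
  rw [e, abs_mul, abs_of_pos h0]
  exact mul_le_mul_of_nonneg_right (k4.trans (by linarith)) h0.le

theorem nn_nonneg (m : ℝ → ℕ → ℝ) {ξ : ℝ} (h : 0 ≤ ξ) : 0 ≤ nn m ξ := by
  rw [nn]
  positivity

theorem dd_nonneg (m : ℝ → ℕ → ℝ) {ξ : ℝ} (h : 0 ≤ ξ) : 0 ≤ dd m ξ := by
  rw [dd, NQ, vp]
  positivity

theorem NN_nonneg (X : Cut) (hl : 0 < l) (hp : PsiS p) (m : ℝ → ℕ → ℝ) : 0 ≤ NN X l p m := by
  refine intervalIntegral.integral_nonneg_of_ae_restrict (by positivity) ?_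
  rw [← Measure.restrict_congr_set Ioc_ae_eq_Icc]
  exact (ae_restrict_mem measurableSet_Ioc).mono fun ξ h =>
    mul_nonneg (om_range X l hp h.1).1 (nn_nonneg m h.1.le)

theorem DD_nonneg (hl : 0 < l) (hp : PsiS p) (m : ℝ → ℕ → ℝ) : 0 ≤ DD l p m := by
  refine intervalIntegral.integral_nonneg_of_ae_restrict (by positivity) ?_
  rw [← Measure.restrict_congr_set Ioc_ae_eq_Icc]
  exact (ae_restrict_mem measurableSet_Ioc).mono fun ξ h =>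
    mul_nonneg (hp.pos ξ h.1).1.le (dd_nonneg m h.1.le)

end Vale.Agent.P264
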