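import Vale.Agent.P264.C.Integ
import Vale.Agent.P264.C.AlgG
import Vale.Agent.P264.C.AlgZ

/-!
# P264 C/PointZ  (TASK; notes/P264.md section C, notes/P264C.md)

The pointwise bounds for `PT / ξ`.  `pt_fine`: `χ = 1, χ' = χ'' = 0` (`X.one`), so `om = p`, `omd = ξ p'`, `omdd = ξ² p''`, `cc = ccd = 0`; `alg_fine` (with `K.main`, `K.bW`, `K.bY1`, `K.bg1`, ..,
`Jet1.n_le`), `alg_core` for `ξ ≤ xt`, `alg_tail` for `ξ ≥ xt` (`K.tail`), `K.res`, and `ξ²/2 · ξ/(1+ξ)² ≤ ξ²` for the last term.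
`pt_crude`: for `l ξ ≥ 1/4 + h` all weights vanish and `PT = 0`.  Otherwise `yt = 1 - ξ (W0 + m0) ∈ [1/40, 2]`: at `ξ = 1/(4l)` it is `YY - n`, its derivative is
`-(W0 + m0 + ξ (W1 + m1))`, at most `3/2 C l`, and `h C ≤ 1/200`; `yt1 = -ξ (W0 + m0 + ξ (W1 + m1))`; `|n| = |YY - yt| ≤ 2`; `|a0|, |a1| ≤ (C + 4 10^6) l`, `1/ξ ≤ 4 l`;
`a2² / ξ = ξ³ m2² ≤ 2 ξ³ (W2 + m2)² + 2 ξ³ W2²`; `alg_crude` with a constant depending on `C`, `X.M` only, `alg_tail`.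
-/

open Set MeasureTheory Filter Topology

noncomputable section

namespace Vale.Agent.P264

theorem pointZ_W (K : Cert) {k : ℕ} (hk : k ≤ 4) {ξ : ℝ} (h : 0 < ξ) :
    |ξ ^ (k + 1) * K.W ξ k| ≤ 10 ^ 6 := by
  rw [abs_mul, abs_of_pos (pow_pos h _), mul_comm]
  exact (mul_le_mul_of_nonneg_left (pow_le_pow_left₀ h.le (by linarith) _) (abs_nonneg _)).trans
    (K.bW k ξ hk h.le)

theorem pointZ_cube {z B ξ : ℝ} (h : 0 < ξ) (hz : |z| * (1 + ξ) ^ 3 ≤ B) : |ξ ^ 3 * z| ≤ B := by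
  rw [abs_mul, abs_of_pos (pow_pos h _), mul_comm]
  exact (mul_le_mul_of_nonneg_left (pow_le_pow_left₀ h.le (by linarith) _) (abs_nonneg _)).trans hz

theorem pointZ_sq {z A r p M c : ℝ} (hz : |z| ≤ A * (r * p)) (hr : r ^ 2 = M * c) (hp : 0 < p)
    (hp1 : p ≤ 1) (hA : A ^ 2 ≤ 10 ^ 29) : z ^ 2 ≤ 10 ^ 29 * M * (c * p) := by
  have h1 : z ^ 2 ≤ (A * (r * p)) ^ 2 := by
    rw [← sq_abs z]
    exact pow_le_pow_left₀ (abs_nonneg _) hz 2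
  have h2 : p ^ 2 ≤ p := by nlinarith
  have h3 : A ^ 2 * (r ^ 2 * p ^ 2) ≤ 10 ^ 29 * (r ^ 2 * p) := by gcongr
  rw [hr] at h3
  rw [mul_pow, mul_pow, hr] at h1
  linarith

theorem pointZ_wts (K : Cert) (X : Cut) {l ξ : ℝ} {p : ℝ → ℕ → ℝ} (hp : PsiS p) (h0 : 0 < ξ)
    (h1 : 0 ≤ l * ξ) (h2 : l * ξ ≤ 1 / 2) :
    omd X l p ξ ^ 2 ≤ 10 ^ 29 * X.M * om X l p ξ ∧ omdd X l p ξ ^ 2 ≤ 10 ^ 29 * X.M * om X l p ξ ∧
    cc K X l p ξ ^ 2 ≤ 10 ^ 29 * X.M * om X l p ξ ∧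
    ccd K X l p ξ ^ 2 ≤ 10 ^ 29 * X.M * om X l p ξ := by
  obtain ⟨p0, p1⟩ := hp.pos ξ h0
  have b1 : |ξ * p ξ 1| ≤ p ξ 0 := (hp.b1 ξ h0).trans (by unfold kk; linarith)
  have b2 : |ξ ^ 2 * p ξ 2| ≤ p ξ 0 := (hp.b2 ξ h0).trans (by unfold kk; linarith)
  have b0 : |p ξ 0| ≤ p ξ 0 := (abs_of_pos p0).le
  have hc := K.ct_le
  have hc0 : 0 ≤ K.ct := by linarith [K.hct]
  unfold omd omdd cc ccd om
  generalize l * ξ = x at h1 h2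
  obtain ⟨c0, c1, -⟩ := X.rg x
  obtain ⟨s1, s2⟩ := X.sq x
  have hM := X.M1
  have hr : √(X.M * X.c x 0) ^ 2 = X.M * X.c x 0 := Real.sq_sqrt (by positivity)
  have a0 : |X.c x 0| ≤ √(X.M * X.c x 0) := Real.abs_le_sqrt (by nlinarith)
  have a1 : |x * X.c x 1| ≤ √(X.M * X.c x 0) := by
    rw [abs_mul, abs_of_nonneg h1]
    exact (mul_le_of_le_one_left (abs_nonneg _) (by linarith)).trans (Real.abs_le_sqrt s1)
  have a2 : |x ^ 2 * X.c x 2| ≤ √(X.M * X.c x 0) := by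
    rw [abs_mul, abs_of_nonneg (sq_nonneg x)]
    exact (mul_le_of_le_one_left (abs_nonneg _) (by nlinarith)).trans (Real.abs_le_sqrt s2)
  generalize √(X.M * X.c x 0) = r at hr a0 a1 a2
  generalize x * X.c x 1 = u at a1
  generalize x ^ 2 * X.c x 2 = v at a2
  generalize ξ * p ξ 1 = d at b1
  generalize ξ ^ 2 * p ξ 2 = d' at b2
  have hm : ∀ {a b : ℝ}, |a| ≤ r → |b| ≤ p ξ 0 → -(r * p ξ 0) ≤ a * b ∧ a * b ≤ r * p ξ 0 :=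
    fun ha hb => abs_le.1 ((abs_mul _ _).trans_le
      (mul_le_mul ha hb (abs_nonneg _) ((abs_nonneg _).trans ha)))
  have hct : ∀ {z A : ℝ}, |z| ≤ A * (r * p ξ 0) → |-K.ct * z| ≤ 10 ^ 14 * A * (r * p ξ 0) :=
    fun hz => by
      rw [abs_mul, abs_neg, abs_of_nonneg hc0, mul_assoc]
      exact mul_le_mul hc hz (abs_nonneg _) (by norm_num)
  have t1 := hm a1 b0
  have t2 := hm a0 b1
  have t3 := hm a2 b0
  have t4 := hm a1 b1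
  have t5 := hm a0 b2
  refine ⟨pointZ_sq (A := 2) (abs_le.2 ⟨by linarith, by linarith⟩) hr p0 p1 (by norm_num),
    pointZ_sq (A := 4) (abs_le.2 ⟨by linarith, by linarith⟩) hr p0 p1 (by norm_num), ?_,
    pointZ_sq (hct (A := 3) (abs_le.2 ⟨by linarith, by linarith⟩)) hr p0 p1 (by norm_num)⟩
  rw [mul_assoc (-K.ct)]
  exact pointZ_sq (hct (A := 1) (abs_le.2 ⟨by linarith, by linarith⟩)) hr p0 p1 (by norm_num)

theorem pointZ_der {K : Cert} {C l : ℝ} {m : ℝ → ℕ → ℝ} (hC : 1 ≤ C) (hl : 0 < l)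
    (hc : CrudeX K C l m) {y : ℝ} (h1 : 1 / 4 ≤ l * y) (h2 : l * y ≤ 1 / 2) :
    |K.W y 0 + m y 0 + y * (K.W y 1 + m y 1)| ≤ 3 / 2 * C * l := by
  have hy : 0 < y := (mul_pos_iff_of_pos_left hl).1 (by linarith)
  obtain ⟨h3, h4⟩ := hc.1 y h1 h2
  refine (abs_add_le _ _).trans ?_
  rw [abs_mul, abs_of_pos hy]
  have h5 := mul_le_mul_of_nonneg_left h4 hy.le
  have h6 := mul_le_mul_of_nonneg_left h2 (show 0 ≤ C * l by positivity)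
  nlinarith

theorem pointZ_yt {K : Cert} {C l h ξ : ℝ} {m : ℝ → ℕ → ℝ} (hC : 1 ≤ C) (hJ : Jet1 l m)
    (hT : Trap l m (eta ^ 2)) (hc : CrudeX K C l m) (hh : h * C ≤ 1 / 200) (h1 : 1 / 4 ≤ l * ξ)
    (h2 : l * ξ ≤ 1 / 2) (h3 : l * ξ ≤ 1 / 4 + h) :
    1 / 40 ≤ YY K ξ - ξ * sc m ξ 0 ∧ YY K ξ - ξ * sc m ξ 0 ≤ 2 := by
  have hl := hJ.l0
  obtain ⟨z, hz⟩ : ∃ z, l * z = 1 / 4 := ⟨1 / (4 * l), by field_simp⟩
  have z0 : 0 < z := (mul_pos_iff_of_pos_left hl).1 (by linarith)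
  have hzξ : z ≤ ξ := le_of_mul_le_mul_left (by linarith) hl
  have hI : ∀ y ∈ Icc z ξ, 0 < y ∧ 1 / 4 ≤ l * y ∧ l * y ≤ 1 / 2 := fun y hy =>
    ⟨z0.trans_le hy.1, hz ▸ mul_le_mul_of_nonneg_left hy.1 hl.le,
      (mul_le_mul_of_nonneg_left hy.2 hl.le).trans h2⟩
  have key := norm_image_sub_le_of_norm_deriv_le_segment'
    (f := fun y => y * (K.W y 0 + m y 0))
    (f' := fun y => K.W y 0 + m y 0 + y * (K.W y 1 + m y 1)) (C := 3 / 2 * C * l)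
    (fun y hy => by
      obtain ⟨a, b, c⟩ := hI y hy
      have c' : l * y < 1 := by linarith
      exact (((hasDerivAt_id y).mul ((K.dW 0 y (Nat.zero_le 2) a.le).add
        (hJ.d0 y a c'))).congr_deriv (by simp)).hasDerivWithinAt)
    (fun y hy => pointZ_der hC hl hc (hI y (Ico_subset_Icc_self hy)).2.1
      (hI y (Ico_subset_Icc_self hy)).2.2) ξ ⟨hzξ, le_rfl⟩
  have k1 : 3 / 2 * C * l * (ξ - z) ≤ 3 / 400 := by
    have := mul_le_mul_of_nonneg_left (show l * ξ - l * z ≤ h by linarith) (show 0 ≤ C by linarith)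
    linarith
  have k2 := abs_le.1 (key.trans k1)
  have k3 := abs_le.1 (hJ.n_le hT z0 hz.le)
  have k4 := K.bY z z0.le
  simp only [YY, sc, eta, pow_zero, one_mul] at k2 k3 ⊢
  constructor <;> linarith

theorem pointZ_e (K : Cert) (m : ℝ → ℕ → ℝ) {ξ : ℝ} (h0 : 0 < ξ) (hn : |ξ * sc m ξ 0| ≤ 2) :
    |ξ ^ 2 * ee K m ξ| ≤ 10 ^ 9 * (|sc m ξ 0| + 1 / ξ) := by
  have r1 : |ξ ^ 3 * RR K ξ| ≤ 1 := pointZ_cube h0 ((K.res ξ h0).trans (by norm_num))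
  have r2 : |ξ ^ 3 * S2 (K.W ξ) ξ| ≤ 111 * 10 ^ 6 := by
    have a := abs_le.1 (pointZ_W K (k := 4) le_rfl h0)
    have b := abs_le.1 (pointZ_W K (k := 3) (by norm_num) h0)
    have c := abs_le.1 (pointZ_W K (k := 2) (by norm_num) h0)
    simp only [Nat.reduceAdd] at a b c
    unfold S2
    exact abs_le.2 ⟨by linarith, by linarith⟩
  have hY : 1 / 20 ≤ YY K ξ := (K.bY ξ h0.le).1
  have hY0 : 0 < YY K ξ := by linarith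
  have r3 : |1 / YY K ξ| ≤ 20 := by
    rw [abs_of_pos (by positivity), div_le_iff₀ hY0]
    linarith
  have e : ξ ^ 2 * ee K m ξ = ξ ^ 3 * RR K ξ * (1 / ξ) -
      2 * (ξ * sc m ξ 0 * (1 / YY K ξ) * (ξ ^ 3 * RR K ξ) * (1 / ξ)) -
      ξ * sc m ξ 0 * (ξ ^ 3 * S2 (K.W ξ) ξ) * sc m ξ 0 := by
    unfold ee
    field_simp
  have hi : 0 < 1 / ξ := by positivity
  have t1 : |ξ ^ 3 * RR K ξ * (1 / ξ)| ≤ 1 * (1 / ξ) := by
    rw [abs_mul, abs_of_pos hi]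
    gcongr
  have t2 : |ξ * sc m ξ 0 * (1 / YY K ξ) * (ξ ^ 3 * RR K ξ) * (1 / ξ)| ≤ 2 * 20 * 1 * (1 / ξ) := by
    rw [abs_mul, abs_mul, abs_mul, abs_of_pos hi]
    gcongr
  have t3 : |ξ * sc m ξ 0 * (ξ ^ 3 * S2 (K.W ξ) ξ) * sc m ξ 0| ≤
      2 * (111 * 10 ^ 6) * |sc m ξ 0| := by
    rw [abs_mul, abs_mul]
    gcongr
  have := abs_nonneg (sc m ξ 0)
  rw [e]
  rw [abs_le] at t1 t2 t3 ⊢
  constructor <;> linarith [t1.1, t1.2, t2.1, t2.2, t3.1, t3.2]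

theorem pointZ_size {K : Cert} {C l ξ : ℝ} {m : ℝ → ℕ → ℝ} (hC : 1 ≤ C) (hl : 0 < l)
    (hc : CrudeX K C l m) (h1 : 1 / 4 ≤ l * ξ) (h2 : l * ξ ≤ 1 / 2) :
    (sc m ξ 0 ^ 2 + sc m ξ 1 ^ 2 + sc m ξ 2 ^ 2 + 1 / ξ ^ 2) / ξ ≤
      (8 * (C + 4 * 10 ^ 6) ^ 2 + 10 ^ 15) * (l ^ 3 + (K.W ξ 2 + m ξ 2) ^ 2 / l ^ 3) := by
  have h0 : 0 < ξ := (mul_pos_iff_of_pos_left hl).1 (by linarith)
  obtain ⟨i, hi⟩ : ∃ i : ℝ, i = 1 / ξ := ⟨_, rfl⟩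
  have i0 : 0 < i := by rw [hi]; positivity
  have i1 : i ≤ 4 * l := by rw [hi, div_le_iff₀ h0]; linarith
  have i3 : i ^ 3 ≤ (4 * l) ^ 3 := by gcongr
  obtain ⟨h3, h4⟩ := hc.1 ξ h1 h2
  have w : ∀ k, k ≤ 4 → |ξ ^ k * K.W ξ k| ≤ 10 ^ 6 * i := fun k hk => by
    have e : ξ ^ k * K.W ξ k = ξ ^ (k + 1) * K.W ξ k * i := by
      rw [hi, pow_succ]; field_simp
    rw [e, abs_mul, abs_of_pos i0]
    exact mul_le_mul_of_nonneg_right (pointZ_W K hk h0) i0.le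
  have a0 : |sc m ξ 0| ≤ (C + 4 * 10 ^ 6) * l := by
    have w0 := w 0 (by norm_num)
    simp only [sc, pow_zero, one_mul] at w0 ⊢
    rw [abs_le] at h3 w0 ⊢
    constructor <;> linarith [h3.1, h3.2, w0.1, w0.2]
  have a1 : |sc m ξ 1| ≤ (C + 4 * 10 ^ 6) * l := by
    have w1 := w 1 (by norm_num)
    have h5 : |ξ * (K.W ξ 1 + m ξ 1)| ≤ C * l := by
      rw [abs_mul, abs_of_pos h0]
      have h5 := mul_le_mul_of_nonneg_left h4 h0.le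
      have h6 := mul_le_mul_of_nonneg_left h2 (show 0 ≤ C * l by positivity)
      nlinarith
    simp only [sc, pow_one] at w1 ⊢
    rw [abs_le] at h5 w1 ⊢
    constructor <;> linarith [h5.1, h5.2, w1.1, w1.2]
  have sq : ∀ {z A : ℝ}, |z| ≤ A → z ^ 2 ≤ A ^ 2 := fun h => by
    rw [← sq_abs]
    exact pow_le_pow_left₀ (abs_nonneg _) h 2
  have b0 := mul_le_mul (sq a0) i1 i0.le (sq_nonneg _)
  have b1 := mul_le_mul (sq a1) i1 i0.le (sq_nonneg _)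
  have b2 := mul_le_mul_of_nonneg_right (sq (w 2 (by norm_num))) i0.le
  have b3 : 2 * ξ ^ 3 * (K.W ξ 2 + m ξ 2) ^ 2 ≤ (K.W ξ 2 + m ξ 2) ^ 2 / l ^ 3 := by
    rw [le_div_iff₀ (by positivity)]
    have : (l * ξ) ^ 3 ≤ (1 / 2) ^ 3 := by gcongr
    nlinarith [sq_nonneg (K.W ξ 2 + m ξ 2)]
  have b4 : sc m ξ 2 ^ 2 * i ≤
      2 * ξ ^ 3 * (K.W ξ 2 + m ξ 2) ^ 2 + 2 * ((ξ ^ 2 * K.W ξ 2) ^ 2 * i) := by
    have e1 : sc m ξ 2 ^ 2 * i = ξ ^ 3 * m ξ 2 ^ 2 := by rw [hi, sc]; field_simp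
    have e2 : (ξ ^ 2 * K.W ξ 2) ^ 2 * i = ξ ^ 3 * K.W ξ 2 ^ 2 := by rw [hi]; field_simp
    rw [e1, e2]
    nlinarith [mul_nonneg (pow_pos h0 3).le (sq_nonneg (2 * K.W ξ 2 + m ξ 2))]
  have e : (sc m ξ 0 ^ 2 + sc m ξ 1 ^ 2 + sc m ξ 2 ^ 2 + 1 / ξ ^ 2) / ξ =
      sc m ξ 0 ^ 2 * i + sc m ξ 1 ^ 2 * i + sc m ξ 2 ^ 2 * i + i ^ 3 := by rw [hi]; field_simp
  have v0 : 0 ≤ (K.W ξ 2 + m ξ 2) ^ 2 / l ^ 3 := by positivity
  have l3 : 0 < l ^ 3 := by positivity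
  rw [e]
  generalize (K.W ξ 2 + m ξ 2) ^ 2 / l ^ 3 = V at b3 v0
  generalize C + 4 * 10 ^ 6 = D at b0 b1
  nlinarith [mul_nonneg (sq_nonneg D) v0]

theorem pt_crude (K : Cert) (X : Cut) {C : ℝ} (hC : 1 ≤ C) (hX : X.h * C ≤ 1 / 200) :
    ∃ CZ : ℝ, 0 ≤ CZ ∧ ∀ (l κ ε : ℝ) (p m : ℝ → ℕ → ℝ), Jet1 l m → PsiS p →
      Trap l m (eta ^ 2) → CrudeX K C l m → l * K.xt ≤ 1 / 4 → 0 ≤ κ → 0 ≤ ε → ε ≤ eps2 →
      ∀ ξ, 1 / 4 ≤ l * ξ → l * ξ ≤ 1 / 2 →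
        PT K X l κ p ε m ξ / ξ ≤ -(κ / 2 - ε) * (om X l p ξ * nn m ξ)
          + CZ * (l ^ 3 + (K.W ξ 2 + m ξ 2) ^ 2 / l ^ 3) := by
  have hM := X.M1
  obtain ⟨B, hB⟩ : ∃ B : ℝ, B = 10 ^ 29 * X.M + C := ⟨_, rfl⟩
  have B1 : 10 ^ 29 ≤ B := by rw [hB]; linarith
  have B2 : C ≤ B := by rw [hB]; linarith
  have B3 : 10 ^ 29 * X.M ≤ B := by rw [hB]; linarith
  obtain ⟨CZ, hZ, H⟩ := alg_crude B (by linarith)
  refine ⟨CZ * (8 * (C + 4 * 10 ^ 6) ^ 2 + 10 ^ 15), by positivity,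
    fun l κ ε p m hJ hp hT hc hl hκ hε hε' ξ h1 h2 => ?_⟩
  have l0 := hJ.l0
  have hx : K.xt ≤ ξ := le_of_mul_le_mul_left (hl.trans h1) l0
  have h32 : 32 ≤ ξ := K.hxt.trans hx
  have h0 : 0 < ξ := by linarith
  have e1 : ε ≤ 1 := hε'.trans (by unfold eps2; norm_num)
  have v1 : ξ / (1 + ξ) ^ 2 ≤ 1 := by rw [div_le_one (by positivity)]; nlinarith
  have v0 : 0 ≤ ξ / (1 + ξ) ^ 2 := by positivity
  obtain ⟨o0, -, o1⟩ := om_range X l hp h0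
  obtain ⟨t1, t2, t3, t4, t5⟩ := K.tail ξ hx
  have k1 := alg_tail (a := sc m ξ) h32 (X.rg (l * ξ)).1 (hp.pos ξ h0).1 (hp.b1 ξ h0) hκ hε K.hct
    K.ct_le
  have k2 : ξ ^ 2 / 2 * om X l p ξ * (ε * (ξ / (1 + ξ) ^ 2)) * sc m ξ 0 ^ 2 ≤
      ε * om X l p ξ * (ξ ^ 2 * (sc m ξ 0 ^ 2 + sc m ξ 1 ^ 2)) := by
    have a := mul_nonneg (mul_nonneg hε o0) (sq_nonneg ξ)
    have b := mul_nonneg a (sq_nonneg (sc m ξ 0))
    have c := mul_nonneg a (sq_nonneg (sc m ξ 1))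
    have d := mul_le_mul_of_nonneg_left v1 b
    linarith
  have k3 : P0 ξ (YY K ξ) (YY1 K ξ) (YY K ξ - ξ * sc m ξ 0)
      (YY1 K ξ - ξ * (sc m ξ 0 + sc m ξ 1)) (ee K m ξ) (om X l p ξ) (omd X l p ξ) (omdd X l p ξ)
      (cc K X l p ξ) (ccd K X l p ξ) K.ct 0 0 (-K.ct / 2) 0 (ε * vp ξ) (ε * (ξ / (1 + ξ) ^ 2))
      (K.q ξ) (K.qd ξ) (sc m ξ) ≤
      CZ * (sc m ξ 0 ^ 2 + sc m ξ 1 ^ 2 + sc m ξ 2 ^ 2 + 1 / ξ ^ 2) := by
    rcases le_total (1 / 4 + X.h) (l * ξ) with h3 | h3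
    · obtain ⟨z0, z1, z2⟩ := X.zero _ h3
      simp only [P0, om, omd, omdd, cc, ccd, z0, z1, z2, Ader, Ahat, mul_zero, zero_mul, add_zero,
        neg_zero, sub_zero]
      positivity
    · obtain ⟨y1, y2⟩ := pointZ_yt hC hJ hT hc hX h1 h2 h3
      obtain ⟨w1, w2, w3, w4⟩ := pointZ_wts K X hp h0 (by positivity) h2
      have w5 := mul_le_mul_of_nonneg_right B3 o0
      obtain ⟨Y1, Y2⟩ : 1 / 20 ≤ YY K ξ ∧ YY K ξ ≤ 1 := K.bY ξ h0.le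
      obtain ⟨u0, u1, -⟩ := vp_pos h0
      refine H _ _ _ _ _ _ _ _ _ _ _ _ _ _ _ _ _ h0 ?_ y1 y2 ?_ ?_ o0 o1 (w1.trans w5) (w2.trans w5)
        (w3.trans w5) (w4.trans w5) K.hct (K.ct_le.trans (by linarith)) ?_ ?_ fun i =>
          ⟨(K.bq i ξ h0).1.trans (by linarith), (K.bq i ξ h0).2.trans (by linarith)⟩
      · have e : ξ ^ 2 * (YY1 K ξ / YY K ξ) = -(ξ ^ 3 * (K.W ξ 0 + ξ * K.W ξ 1)) / YY K ξ := by
          unfold YY1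
          ring
        rw [e, abs_div, abs_neg, abs_of_pos (show 0 < YY K ξ by linarith),
          div_le_iff₀ (by linarith)]
        nlinarith [pointZ_cube h0 (K.bY1 ξ h0.le)]
      · have e : YY1 K ξ - ξ * (sc m ξ 0 + sc m ξ 1) =
            -(ξ * (K.W ξ 0 + m ξ 0 + ξ * (K.W ξ 1 + m ξ 1))) := by
          unfold YY1 sc
          ring
        rw [e, abs_neg, abs_mul, abs_of_pos h0]
        have a := mul_le_mul_of_nonneg_left (pointZ_der hC l0 hc h1 h2) h0.le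
        have b := mul_le_mul_of_nonneg_left h2 (show 0 ≤ C by linarith)
        linarith
      · refine (pointZ_e K m h0 (abs_le.2 ⟨by linarith, by linarith⟩)).trans ?_
        exact mul_le_mul_of_nonneg_right (by linarith) (by positivity)
      · rw [abs_of_nonneg (by positivity)]
        exact mul_le_one₀ e1 u0.le u1
      · rw [abs_of_nonneg (by positivity)]
        exact mul_le_one₀ e1 v0 v1
  have k4 := mul_le_mul_of_nonneg_left (pointZ_size hC l0 hc h1 h2) hZ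
  rw [← mul_div_assoc, div_le_iff₀ h0] at k4
  rw [div_le_iff₀ h0]
  simp only [PT, t1, t2, t3, t4, t5, mul_zero, gam, gamd, nn]
  have e : om X l p ξ = X.c (l * ξ) 0 * p ξ 0 := rfl
  rw [← e] at k1
  linarith

end Vale.Agent.P264
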