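import Vale.Agent.P264.C.Point
import Vale.Agent.P264.C.PointZ
import Vale.Agent.P264.C.Ident
import Vale.Agent.P264.C.IdentB
import Vale.Agent.P264.C.FubSob
import Vale.Agent.P264.C.Deriv

/-!
# P264 C/Master  (TASK; notes/P264.md section C, notes/P264C.md)

`master_static`: `flux_le` on `(0, 1/(4l)]` with `φ = eds - (bound of pt_fine)`, `int_le_off` on `[1/(4l), 1/(2l)]` with the bound of `pt_crude`, `g = Phi`; add; `Phi_end`;
`fubsob` (`10^38 · 100 eta² ≤ 1/8`), `∫ 1/(1+ξ)² ≤ 1`, `β ≥ 0`, `∫ (W2 + m2)² ≤ C l^5`.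
-/

open Set MeasureTheory Filter Topology

noncomputable section

namespace Vale.Agent.P264

theorem master_int {L : ℝ} (hL : 0 < L) :
    IntervalIntegrable (fun ξ : ℝ => 1 / (1 + ξ) ^ 2) volume 0 L ∧
      ∫ ξ in (0:ℝ)..L, 1 / (1 + ξ) ^ 2 ≤ 1 := by
  have hc : ContinuousOn (fun ξ : ℝ => 1 / (1 + ξ) ^ 2) (uIcc 0 L) := by
    rw [uIcc_of_le hL.le]
    refine continuousOn_const.div (by fun_prop) fun x hx => ?_
    have := hx.1
    positivity
  refine ⟨hc.intervalIntegrable, ?_⟩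
  have hd : ∀ x ∈ uIcc 0 L, HasDerivAt (fun ξ : ℝ => -(1 + ξ)⁻¹) (1 / (1 + x) ^ 2) x := by
    intro x hx
    rw [uIcc_of_le hL.le] at hx
    have h0 : 1 + x ≠ 0 := by have := hx.1; positivity
    refine (((hasDerivAt_id' x).const_add 1).inv h0).neg.congr_deriv ?_
    ring
  rw [intervalIntegral.integral_eq_sub_of_hasDerivAt hd hc.intervalIntegrable]
  have : 0 < (1 + L)⁻¹ := by positivity
  norm_num
  linarith

theorem master_static (K : Cert) (X : Cut) {C : ℝ} (hC : 1 ≤ C) (hX : X.h * C ≤ 1 / 200) :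
    ∃ CZ : ℝ, 0 ≤ CZ ∧ ∀ (l κ ε β : ℝ) (p m u : ℝ → ℕ → ℝ), Jet4 K l m u → PsiS p →
      Trap l m (eta ^ 2) → CrudeX K C l m → l * K.xt ≤ 1 / 4 → 0 ≤ κ → κ ≤ kk → 0 ≤ ε → ε ≤ eps2 →
      (∀ ξ, 0 < ξ → p ξ 0 * ξ ^ 3 / (1 + ξ) ^ 6 ≤ β / (1 + ξ) ^ 2) →
      ∫ ξ in (0:ℝ)..(1 / (2 * l)), eds K X l κ p ε m u ξ ≤
        -(κ / 2 - ε) * NN X l p m - DD l p m / 4 + β / 10 ^ 228 + CZ * l ^ 2 := by
  obtain ⟨Z, Z0, hZ⟩ := pt_crude K X hC hX
  refine ⟨Z * (1 / 4 + C), by positivity, fun l κ ε β p m u h hp hT hc hx hκ hκ' hε hε' hβ => ?_⟩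
  have l0 := h.l0
  have a0 : 0 < 1 / (4 * l) := by positivity
  have ab : 1 / (4 * l) ≤ 1 / (2 * l) := by gcongr; norm_num
  have la : l * (1 / (4 * l)) = 1 / 4 := by field_simp
  have lb : l * (1 / (2 * l)) = 1 / 2 := by field_simp
  have la' : l * (1 / (4 * l)) ≤ 1 / 2 := by rw [la]; norm_num
  have β0 : 0 ≤ β / 10 ^ 228 := by
    have h1 := hβ 1 one_pos
    have h2 := (hp.pos 1 one_pos).1
    have h3 : 0 ≤ β / (1 + 1) ^ 2 := le_trans (by positivity) h1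
    have h4 : 0 ≤ β := by linarith
    positivity
  obtain ⟨i4, j4⟩ := master_int a0
  have i0 := h.ii_eds X κ hp ε le_rfl a0.le la'
  have i0' := h.ii_eds X κ hp ε a0.le ab lb.le
  have i1 := h.jet1.ii_om_nn X hp le_rfl a0.le la'
  have i1' := h.jet1.ii_om_nn X hp a0.le ab lb.le
  have i2 := h.ii_dd hp le_rfl a0.le la'
  have i3 := h.ii_b1 hp le_rfl a0.le la'
  have lt : ∀ ξ, ξ ≤ 1 / (2 * l) → l * ξ ≤ 1 / 2 := fun ξ hξ =>
    (mul_le_mul_of_nonneg_left hξ l0.le).trans lb.le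
  have i5 : IntervalIntegrable (fun ξ => (K.W ξ 2 + m ξ 2) ^ 2) volume (1 / (4 * l))
      (1 / (2 * l)) := by
    refine ContinuousOn.intervalIntegrable fun ξ hξ => ContinuousAt.continuousWithinAt ?_
    rw [uIcc_of_le ab] at hξ
    have x0 : 0 < ξ := a0.trans_le hξ.1
    exact ((K.dW 2 ξ le_rfl x0.le).continuousAt.add
      (h.d 2 ξ le_rfl x0 (by linarith [lt ξ hξ.2])).continuousAt).pow 2
  have hcP := continuousOn_Phi h X κ ε hp
  have P1 := flux_le a0 K.Bk (g := Phi K X l κ p ε m u)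
    (φ := fun ξ => eds K X l κ p ε m u ξ - (-(κ / 2 - ε) * (om X l p ξ * nn m ξ)
      - 5 / 8 * (p ξ 0 * dd m ξ)
      + 10 ^ 38 * (p ξ 0 * (ξ * sc m ξ 1 ^ 2 * (sc m ξ 1 ^ 2 + sc m ξ 2 ^ 2)))
      + β / 10 ^ 228 * (1 / (1 + ξ) ^ 2)))
    (hcP.mono fun ξ hξ => ⟨hξ.1, by linarith [lt ξ (hξ.2.trans ab)]⟩) (tendsto_Phi h X κ ε hp)
    (i0.sub ((((i1.const_mul _).sub (i2.const_mul _)).add (i3.const_mul _)).add (i4.const_mul _)))
    fun ξ hξ hB => ⟨_, hasDerivAt_Phi h X κ ε hp hξ.1 (by linarith [lt ξ (hξ.2.le.trans ab)]) hB,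
      sub_le_sub_left (pt_fine X h.jet1 hp hT hκ hκ' hε hε' hξ.1
        ((mul_le_mul_of_nonneg_left hξ.2.le l0.le).trans la.le) (hβ ξ hξ.1)) _⟩
  have P2 := int_le_off ab K.Bk (g := Phi K X l κ p ε m u)
    (φ := fun ξ => eds K X l κ p ε m u ξ - (-(κ / 2 - ε) * (om X l p ξ * nn m ξ)
      + Z * (l ^ 3 + (K.W ξ 2 + m ξ 2) ^ 2 / l ^ 3)))
    (hcP.mono fun ξ hξ => ⟨a0.trans_le hξ.1, by linarith [lt ξ hξ.2]⟩)
    (i0'.sub ((i1'.const_mul _).add ((intervalIntegrable_const.add (i5.div_const _)).const_mul _)))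
    fun ξ hξ hB => ⟨_, hasDerivAt_Phi h X κ ε hp (a0.trans hξ.1) (by linarith [lt ξ hξ.2.le]) hB,
      sub_le_sub_left (hZ l κ ε p m h.jet1 hp hT hc hx hκ hε hε' ξ
        (la.ge.trans (mul_le_mul_of_nonneg_left hξ.1.le l0.le)) (lt ξ hξ.2.le)) _⟩
  rw [intervalIntegral.integral_sub i0
      ((((i1.const_mul _).sub (i2.const_mul _)).add (i3.const_mul _)).add (i4.const_mul _)),
    intervalIntegral.integral_add (((i1.const_mul _).sub (i2.const_mul _)).add (i3.const_mul _))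
      (i4.const_mul _),
    intervalIntegral.integral_add ((i1.const_mul _).sub (i2.const_mul _)) (i3.const_mul _),
    intervalIntegral.integral_sub (i1.const_mul _) (i2.const_mul _),
    intervalIntegral.integral_const_mul, intervalIntegral.integral_const_mul,
    intervalIntegral.integral_const_mul, intervalIntegral.integral_const_mul] at P1
  rw [intervalIntegral.integral_sub i0'
      ((i1'.const_mul _).add ((intervalIntegrable_const.add (i5.div_const _)).const_mul _)),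
    intervalIntegral.integral_add (i1'.const_mul _)
      ((intervalIntegrable_const.add (i5.div_const _)).const_mul _),
    intervalIntegral.integral_const_mul, intervalIntegral.integral_const_mul,
    intervalIntegral.integral_add intervalIntegrable_const (i5.div_const _),
    intervalIntegral.integral_div, intervalIntegral.integral_const, Phi_end K X l0] at P2
  have F := fubsob h hp hT
  have D0 := DD_nonneg l0 hp m
  have F' : 10 ^ 38 * ∫ ξ in (0:ℝ)..(1 / (4 * l)),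
      p ξ 0 * (ξ * sc m ξ 1 ^ 2 * (sc m ξ 1 ^ 2 + sc m ξ 2 ^ 2)) ≤ 1 / 8 * DD l p m := by
    refine (mul_le_mul_of_nonneg_left F (by positivity)).trans ?_
    rw [← mul_assoc]
    refine mul_le_mul_of_nonneg_right ?_ D0
    norm_num [eta]
  have G := mul_le_mul_of_nonneg_left j4 β0
  have H : Z * ((1 / (2 * l) - 1 / (4 * l)) • l ^ 3 +
      (∫ ξ in (1 / (4 * l))..(1 / (2 * l)), (K.W ξ 2 + m ξ 2) ^ 2) / l ^ 3) ≤
      Z * (1 / 4 + C) * l ^ 2 := by
    rw [mul_assoc]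
    refine mul_le_mul_of_nonneg_left ?_ Z0
    have h1 : (1 / (2 * l) - 1 / (4 * l)) • l ^ 3 = 1 / 4 * l ^ 2 := by
      rw [smul_eq_mul]
      field_simp
      ring
    have h2 : (∫ ξ in (1 / (4 * l))..(1 / (2 * l)), (K.W ξ 2 + m ξ 2) ^ 2) / l ^ 3 ≤ C * l ^ 2 := by
      rw [div_le_iff₀ (by positivity)]
      exact hc.2.trans_eq (by ring)
    rw [h1]
    linarith
  rw [← intervalIntegral.integral_add_adjacent_intervals i0 i0', NN,
    ← intervalIntegral.integral_add_adjacent_intervals i1 i1']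
  rw [← DD] at P1
  generalize (10:ℝ) ^ 38 = c38 at *
  generalize β / 10 ^ 228 = c228 at *
  linarith

end Vale.Agent.P264
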