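import Vale.Agent.P264.C.SMain

/-!
# P264 C/Poly  (block C5, polynomial initial data; notes/P264.md section C5)

`l = lam0`.  Target `w = ch3(x) l⁻¹ (W + θ.f)(x / l) + 1 - ch3(x)`, `ch3 = 1` on `[0,1/2]`, `0` on `[3/4,1]`;
`c = (w - 1) / (1 - x)²` is `C²` on `[0,1]` and affine in `θ`; approximate the three components in `C²[0,1]` by
polynomials `c0 c1 c2` (Weierstrass on the second derivative, integrate twice), `c θ = c0 + θ.1 • c1 + θ.2 • c2`.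
`Starts S c` gives `S.w 0 x j` for `j = 1, 2` by uniqueness of derivatives (`S.dx`).
`Ca0` depends on `K` only: `|S0 w| ≤ C / x` (`K.bW`, `K.bf`, `K.ftail`: `x ≤ l * xt` gives `1 / l ≤ 1000 / x`).
Helper files `Vale/Agent/P264/C/Poly*.lean`, names start with `poly_`.
-/

open Set MeasureTheory

namespace Vale.Agent.P264

open Polynomial

/-- The derivatives of `(1 - x)² c`. -/
noncomputable def poly_p (c : ℝ[X]) (j : ℕ) (x : ℝ) : ℝ :=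
  (((derivative : ℝ[X] →ₗ[ℝ] ℝ[X]) ^ j) ((1 - X) ^ 2 * c)).eval x

/-- `x` times the scalar curvature of the perturbation. -/
noncomputable def poly_sg (c : ℝ[X]) (x : ℝ) : ℝ :=
  x * (x ^ 2 * poly_p c 2 x + 16 * x * poly_p c 1 x + 56 * poly_p c 0 x)

/-- The cut-off. -/
noncomputable def poly_ch (x : ℝ) : ℝ := Real.smoothTransition (3 - 4 * x)

theorem poly_mul {a b A B : ℝ} (ha : |a| ≤ A) (hb : |b| ≤ B) : |a * b| ≤ A * B := by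
  rw [abs_mul]
  exact mul_le_mul ha hb (abs_nonneg _) ((abs_nonneg _).trans ha)

theorem poly_p_zero (c : ℝ[X]) (x : ℝ) : poly_p c 0 x = (1 - x) ^ 2 * c.eval x := by
  simp [poly_p]

theorem poly_p_deriv (c : ℝ[X]) (j : ℕ) (x : ℝ) : HasDerivAt (poly_p c j) (poly_p c (j + 1) x) x := by
  unfold poly_p
  rw [pow_succ' (derivative : ℝ[X] →ₗ[ℝ] ℝ[X]) j, Module.End.mul_apply]
  exact Polynomial.hasDerivAt _ x

theorem poly_p_comb (c0 c1 c2 : ℝ[X]) (s t : ℝ) (j : ℕ) (x : ℝ) :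
    poly_p (c0 + s • c1 + t • c2) j x = poly_p c0 j x + s * poly_p c1 j x + t * poly_p c2 j x := by
  simp only [poly_p, mul_add, mul_smul_comm, map_add, map_smul, eval_add, eval_smul, smul_eq_mul]

theorem poly_sg_comb (c0 c1 c2 : ℝ[X]) (s t x : ℝ) :
    poly_sg (c0 + s • c1 + t • c2) x = poly_sg c0 x + s * poly_sg c1 x + t * poly_sg c2 x := by
  simp only [poly_sg, poly_p_comb]
  ring

theorem poly_starts {S : Sol} {c : ℝ[X]} (h : Starts S c) (j : ℕ) :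
    ∀ x ∈ Ioo (0 : ℝ) 1, S.w 0 x j = poly_p c j x + if j = 0 then 1 else 0 := by
  induction j with
  | zero =>
    intro x hx
    rw [h x hx, poly_p_zero, if_pos rfl, add_comm]
  | succ j ih =>
    intro x hx
    rw [if_neg (Nat.succ_ne_zero j), add_zero]
    refine (S.dx j 0 x le_rfl hx).unique
      (((poly_p_deriv c j x).add_const (if j = 0 then 1 else 0)).congr_of_eventuallyEq ?_)
    filter_upwards [isOpen_Ioo.mem_nhds hx] with y hy using ih y hy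

theorem poly_S0 {S : Sol} {c : ℝ[X]} (h : Starts S c) {x : ℝ} (hx : x ∈ Ioo (0 : ℝ) 1) :
    x * (S0 (S.w 0 x) x - 56) = poly_sg c x := by
  rw [S0, poly_starts h 0 x hx, poly_starts h 1 x hx, poly_starts h 2 x hx, poly_sg]
  norm_num
  exact Or.inl (by ring)

theorem poly_int {f : ℝ → ℝ} {B : ℝ} (h : ∀ x ∈ Ioo (0 : ℝ) 1, |x * f x| ≤ B) :
    ∫ x in (0 : ℝ)..1, f x ^ 2 * x ^ 6 ≤ B ^ 2 := by
  have h1 := intervalIntegral.norm_integral_le_of_norm_le_const_ae (a := (0 : ℝ)) (b := 1)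
    (C := B ^ 2) (f := fun x => f x ^ 2 * x ^ 6) (by
      filter_upwards [compl_mem_ae_iff.2 (measure_singleton (μ := volume) (1 : ℝ))] with x hx h2
      rw [uIoc_of_le zero_le_one] at h2
      have h3 := pow_le_pow_left₀ (abs_nonneg _) (h x ⟨h2.1, lt_of_le_of_ne h2.2 hx⟩) 2
      have h4 : x ^ 4 ≤ 1 := pow_le_one₀ h2.1.le h2.2
      rw [sq_abs] at h3
      rw [Real.norm_of_nonneg (by positivity)]
      calc f x ^ 2 * x ^ 6 = (x * f x) ^ 2 * x ^ 4 := by ring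
        _ ≤ B ^ 2 * 1 := mul_le_mul h3 h4 (by positivity) (sq_nonneg _)
        _ = B ^ 2 := mul_one _)
  rw [sub_zero, abs_one, mul_one] at h1
  exact (le_abs_self _).trans h1

theorem poly_anti (q : ℝ[X]) : ∃ p : ℝ[X], derivative p = q ∧ p.eval 1 = 0 := by
  have h : ∃ p : ℝ[X], derivative p = q := by
    induction q using Polynomial.induction_on' with
    | add p q hp hq =>
      obtain ⟨p', rfl⟩ := hp
      obtain ⟨q', rfl⟩ := hq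
      exact ⟨p' + q', derivative_add⟩
    | monomial n a =>
      refine ⟨monomial (n + 1) (a / (n + 1)), ?_⟩
      rw [derivative_monomial_succ, div_mul_cancel₀ _ (by positivity)]
  obtain ⟨p, rfl⟩ := h
  exact ⟨p - C (p.eval 1), by simp, by simp⟩

theorem poly_div {p : ℝ[X]} (h0 : p.eval 1 = 0) (h1 : (derivative p).eval 1 = 0) :
    ∃ c : ℝ[X], (1 - X) ^ 2 * c = p := by
  obtain ⟨r, rfl⟩ := dvd_iff_isRoot.2 h0
  have h2 : r.eval 1 = 0 := by simpa using h1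
  obtain ⟨c, rfl⟩ := dvd_iff_isRoot.2 h2
  refine ⟨c, ?_⟩
  rw [C_1]
  ring

theorem poly_mv {f f' : ℝ → ℝ} {x B : ℝ} (hx : x ≤ 1) (h : ∀ y ∈ Icc x 1, HasDerivAt f (f' y) y)
    (hB : ∀ y ∈ Icc x 1, |f' y| ≤ B) (h1 : f 1 = 0) : |f x| ≤ B * (1 - x) := by
  have h2 := (convex_Icc x 1).norm_image_sub_le_of_norm_hasDerivWithin_le
    (fun y hy => (h y hy).hasDerivWithinAt) hB ⟨le_rfl, hx⟩ ⟨hx, le_rfl⟩
  rwa [h1, zero_sub, norm_neg, Real.norm_of_nonneg (sub_nonneg.2 hx)] at h2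

theorem poly_apx {T0 T1 T2 : ℝ → ℝ} (d0 : ∀ x ∈ Icc (0 : ℝ) 1, HasDerivAt T0 (T1 x) x)
    (d1 : ∀ x ∈ Icc (0 : ℝ) 1, HasDerivAt T1 (T2 x) x) (c2 : ContinuousOn T2 (Icc 0 1))
    (h0 : T0 1 = 0) (h1 : T1 1 = 0) {ε : ℝ} (hε : 0 < ε) : ∃ c : ℝ[X], ∀ x ∈ Icc (0 : ℝ) 1,
      |poly_p c 0 x - T0 x| ≤ ε * (1 - x) ^ 2 ∧ |poly_p c 1 x - T1 x| ≤ ε * (1 - x) ∧
        |poly_p c 2 x - T2 x| ≤ ε := by
  obtain ⟨q, hq⟩ := exists_polynomial_near_of_continuousOn 0 1 T2 c2 ε hε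
  obtain ⟨r, rfl, r1⟩ := poly_anti q
  obtain ⟨p, rfl, p1⟩ := poly_anti r
  obtain ⟨c, rfl⟩ := poly_div p1 r1
  have a2 : ∀ x ∈ Icc (0 : ℝ) 1, |poly_p c 2 x - T2 x| ≤ ε := fun x hx => (hq x hx).le
  have a1 : ∀ x ∈ Icc (0 : ℝ) 1, |poly_p c 1 x - T1 x| ≤ ε * (1 - x) := fun x hx =>
    poly_mv (f := fun y => poly_p c 1 y - T1 y) hx.2
      (fun y hy => (poly_p_deriv c 1 y).sub (d1 y ⟨hx.1.trans hy.1, hy.2⟩))
      (fun y hy => a2 y ⟨hx.1.trans hy.1, hy.2⟩) (sub_eq_zero.2 (Eq.trans r1 h1.symm))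
  refine ⟨c, fun x hx => ⟨?_, a1 x hx, a2 x hx⟩⟩
  rw [sq, ← mul_assoc]
  exact poly_mv (f := fun y => poly_p c 0 y - T0 y) hx.2
    (fun y hy => (poly_p_deriv c 0 y).sub (d0 y ⟨hx.1.trans hy.1, hy.2⟩))
    (fun y hy => (a1 y ⟨hx.1.trans hy.1, hy.2⟩).trans
      (mul_le_mul_of_nonneg_left (by linarith [hy.1]) hε.le)) (sub_eq_zero.2 (Eq.trans p1 h0.symm))

theorem poly_ch_mem (x : ℝ) : 0 ≤ poly_ch x ∧ poly_ch x ≤ 1 :=
  ⟨Real.smoothTransition.nonneg _, Real.smoothTransition.le_one _⟩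

theorem poly_ch_one {x : ℝ} (hx : x ≤ 1 / 2) : poly_ch x = 1 ∧ deriv poly_ch x = 0 := by
  have h : poly_ch x = 1 := Real.smoothTransition.one_of_one_le (by linarith)
  exact ⟨h, IsLocalMax.deriv_eq_zero
    (Filter.Eventually.of_forall fun y => (poly_ch_mem y).2.trans h.ge)⟩

theorem poly_ch_zero : poly_ch 1 = 0 ∧ deriv poly_ch 1 = 0 := by
  have h : poly_ch 1 = 0 := Real.smoothTransition.zero_of_nonpos (by norm_num)
  exact ⟨h, IsLocalMin.deriv_eq_zero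
    (Filter.Eventually.of_forall fun y => h.le.trans (poly_ch_mem y).1)⟩

theorem poly_ch_smooth : ContDiff ℝ (1 + 1) poly_ch :=
  (Real.smoothTransition.contDiff (n := 2)).comp
    (contDiff_const.sub (contDiff_const.mul contDiff_id))

theorem poly_ch_bd : ∃ C : ℝ, ∀ x ∈ Icc (0 : ℝ) 1,
    |deriv poly_ch x| ≤ C ∧ |deriv (deriv poly_ch) x| ≤ C := by
  obtain ⟨C1, h1⟩ := (isCompact_Icc (a := (0 : ℝ)) (b := 1)).exists_bound_of_continuousOn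
    poly_ch_smooth.deriv'.continuous.continuousOn
  obtain ⟨C2, h2⟩ := (isCompact_Icc (a := (0 : ℝ)) (b := 1)).exists_bound_of_continuousOn
    poly_ch_smooth.deriv'.continuous_deriv_one.continuousOn
  exact ⟨max C1 C2, fun x hx => ⟨le_max_of_le_left (h1 x hx), le_max_of_le_right (h2 x hx)⟩⟩

theorem poly_num {x C M h0 h1 h2 a0 a1 a2 e0 e1 e2 : ℝ} (hx : |x| ≤ 1) (b0 : |h0| ≤ 1)
    (b1 : |h1| ≤ C) (b2 : |h2| ≤ C) (c0 : |a0| ≤ M) (c1 : |a1| ≤ M) (c2 : |a2| ≤ M)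
    (d0 : |e0| ≤ 1) (d1 : |e1| ≤ 1) (d2 : |e2| ≤ 1) :
    |x * (x * (x * e2)) + 16 * (x * (x * e1)) + 56 * (x * e0) + x * (x * (h2 * a0)) +
      2 * (x * (h1 * a1)) + h0 * a2 + 16 * (x * (h1 * a0)) + 16 * (h0 * a1) + 56 * (h0 * a0)| ≤
      73 + (19 * C + 73) * M := by
  have k1 := abs_le.1 (poly_mul hx (poly_mul hx (poly_mul hx d2)))
  have k2 := abs_le.1 (poly_mul hx (poly_mul hx d1))
  have k3 := abs_le.1 (poly_mul hx d0)
  have k4 := abs_le.1 (poly_mul hx (poly_mul hx (poly_mul b2 c0)))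
  have k5 := abs_le.1 (poly_mul hx (poly_mul b1 c1))
  have k6 := abs_le.1 (poly_mul b0 c2)
  have k7 := abs_le.1 (poly_mul hx (poly_mul b1 c0))
  have k8 := abs_le.1 (poly_mul b0 c1)
  have k9 := abs_le.1 (poly_mul b0 c0)
  rw [abs_le]
  constructor <;> linarith [k1.1, k1.2, k2.1, k2.2, k3.1, k3.2, k4.1, k4.2, k5.1, k5.2, k6.1, k6.2,
    k7.1, k7.2, k8.1, k8.2, k9.1, k9.2]

theorem poly_two {C M ε : ℝ}
    (hC : ∀ x ∈ Icc (0 : ℝ) 1, |deriv poly_ch x| ≤ C ∧ |deriv (deriv poly_ch) x| ≤ C)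
    {u0 u1 u2 : ℝ → ℝ} (d0 : ∀ x ∈ Icc (0 : ℝ) 1, HasDerivAt u0 (u1 x) x)
    (d1 : ∀ x ∈ Icc (0 : ℝ) 1, HasDerivAt u1 (u2 x) x) (c2 : ContinuousOn u2 (Icc 0 1))
    (hb : ∀ x ∈ Icc (0 : ℝ) 1, |x * u0 x| ≤ M ∧ |x ^ 2 * u1 x| ≤ M ∧ |x ^ 3 * u2 x| ≤ M)
    (hε : 0 < ε) (hε1 : ε ≤ 1) : ∃ c : ℝ[X],
      (∀ x ∈ Icc (0 : ℝ) 1, |poly_p c 0 x - poly_ch x * u0 x| ≤ ε * (1 - x) ^ 2) ∧
      (∀ x ∈ Icc (0 : ℝ) 1, |poly_sg c x| ≤ 73 + (19 * C + 73) * M) ∧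
      ∀ x ∈ Icc (0 : ℝ) (1 / 2), |poly_p c 0 x - u0 x| ≤ ε ∧ |poly_p c 1 x - u1 x| ≤ ε := by
  have s0 : ∀ x, HasDerivAt poly_ch (deriv poly_ch x) x := fun x =>
    (poly_ch_smooth.differentiable (by norm_num) x).hasDerivAt
  have s1 : ∀ x, HasDerivAt (deriv poly_ch) (deriv (deriv poly_ch) x) x := fun x =>
    (poly_ch_smooth.deriv'.differentiable one_ne_zero x).hasDerivAt
  have c0 : ContinuousOn u0 (Icc 0 1) := fun x hx => (d0 x hx).continuousAt.continuousWithinAt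
  have c1 : ContinuousOn u1 (Icc 0 1) := fun x hx => (d1 x hx).continuousAt.continuousWithinAt
  obtain ⟨c, hc⟩ := poly_apx (T0 := fun x => poly_ch x * u0 x)
    (T1 := fun x => deriv poly_ch x * u0 x + poly_ch x * u1 x)
    (T2 := fun x => deriv (deriv poly_ch) x * u0 x + deriv poly_ch x * u1 x +
      (deriv poly_ch x * u1 x + poly_ch x * u2 x))
    (fun x hx => (s0 x).mul (d0 x hx))
    (fun x hx => ((s1 x).mul (d0 x hx)).add ((s0 x).mul (d1 x hx)))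
    (((poly_ch_smooth.deriv'.continuous_deriv_one.continuousOn.mul c0).add
      (poly_ch_smooth.deriv'.continuous.continuousOn.mul c1)).add
      ((poly_ch_smooth.deriv'.continuous.continuousOn.mul c1).add
        (poly_ch_smooth.continuous.continuousOn.mul c2)))
    (by rw [poly_ch_zero.1, zero_mul])
    (by rw [poly_ch_zero.1, poly_ch_zero.2, zero_mul, zero_mul, add_zero]) hε
  have hc' : ∀ x ∈ Icc (0 : ℝ) 1, |poly_p c 0 x - poly_ch x * u0 x| ≤ ε ∧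
      |poly_p c 1 x - (deriv poly_ch x * u0 x + poly_ch x * u1 x)| ≤ ε := fun x hx =>
    ⟨(hc x hx).1.trans (mul_le_of_le_one_right hε.le
      (pow_le_one₀ (sub_nonneg.2 hx.2) (sub_le_self _ hx.1))),
      (hc x hx).2.1.trans (mul_le_of_le_one_right hε.le (sub_le_self _ hx.1))⟩
  refine ⟨c, fun x hx => (hc x hx).1, fun x hx => ?_, fun x hx => ?_⟩
  · refine le_trans (le_of_eq ?_) (poly_num (x := x) (abs_le.2 ⟨by linarith [hx.1], hx.2⟩)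
      (abs_le.2 ⟨by linarith [(poly_ch_mem x).1], (poly_ch_mem x).2⟩) (hC x hx).1 (hC x hx).2
      (hb x hx).1 (hb x hx).2.1 (hb x hx).2.2 ((hc' x hx).1.trans hε1) ((hc' x hx).2.trans hε1)
      ((hc x hx).2.2.trans hε1))
    congr 1
    rw [poly_sg]
    ring
  · have h := hc' x ⟨hx.1, by linarith [hx.2]⟩
    rwa [(poly_ch_one hx.2).1, (poly_ch_one hx.2).2, one_mul, one_mul, zero_mul, zero_add] at h

theorem poly_one : ∃ D : ℝ, ∀ (l a ε : ℝ) (g : ℝ → ℕ → ℝ), 0 < l → l ≤ 1 → |a| ≤ 1 → 0 < ε →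
    ε ≤ 1 → (∀ k ξ, k ≤ 1 → 0 ≤ ξ → HasDerivAt (fun y => g y k) (g ξ (k + 1)) ξ) →
    ContinuousOn (fun y => g y 2) (Ici 0) →
    (∀ k ξ, k ≤ 2 → 0 ≤ ξ → |ξ ^ (k + 1) * g ξ k| ≤ 10 ^ 9) → ∃ c : ℝ[X],
      (∀ x ∈ Icc (0 : ℝ) 1,
        |poly_p c 0 x - poly_ch x * (l⁻¹ * g (x / l) 0 - a)| ≤ ε * (1 - x) ^ 2) ∧
      (∀ x ∈ Icc (0 : ℝ) 1, |poly_sg c x| ≤ D) ∧
      ∀ ξ, 0 ≤ ξ → l * ξ ≤ 1 / 2 → ∀ j, j ≤ 1 →
        |l ^ (j + 1) * (poly_p c j (l * ξ) + if j = 0 then a else 0) - g ξ j| ≤ ε := by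
  obtain ⟨C, hC⟩ := poly_ch_bd
  refine ⟨73 + (19 * C + 73) * (10 ^ 9 + 1), fun l a ε g hl hl1 ha hε hε1 hd hc hb => ?_⟩
  have hξ : ∀ x ∈ Icc (0 : ℝ) 1, 0 ≤ x / l := fun x hx => div_nonneg hx.1 hl.le
  have hd' : ∀ k ≤ 1, ∀ x ∈ Icc (0 : ℝ) 1,
      HasDerivAt (fun y => g (y / l) k) (l⁻¹ * g (x / l) (k + 1)) x := fun k hk x hx => by
    have h := (hd k _ hk (hξ x hx)).comp x ((hasDerivAt_id x).div_const l)
    rw [one_div, mul_comm] at h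
    exact h
  obtain ⟨c, h1, h2, h3⟩ := poly_two (M := 10 ^ 9 + 1) hC (u0 := fun x => l⁻¹ * g (x / l) 0 - a)
    (u1 := fun x => l⁻¹ * (l⁻¹ * g (x / l) 1)) (u2 := fun x => l⁻¹ * (l⁻¹ * (l⁻¹ * g (x / l) 2)))
    (fun x hx => ((hd' 0 zero_le_one x hx).const_mul _).sub_const a)
    (fun x hx => ((hd' 1 le_rfl x hx).const_mul _).const_mul _)
    (continuousOn_const.mul (continuousOn_const.mul (continuousOn_const.mul
      (hc.comp (continuousOn_id.div_const l) hξ))))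
    (fun x hx => by
      have k0 := abs_le.1 (hb 0 _ (by omega) (hξ x hx))
      have k1 := hb 1 _ (by omega) (hξ x hx)
      have k2 := hb 2 _ (by omega) (hξ x hx)
      have k3 := abs_le.1 (poly_mul (abs_le.2 ⟨by linarith [hx.1], hx.2⟩ : |x| ≤ 1) ha)
      refine ⟨?_, le_trans (le_of_eq ?_) (k1.trans (by norm_num)),
        le_trans (le_of_eq ?_) (k2.trans (by norm_num))⟩
      · have e : x * (l⁻¹ * g (x / l) 0 - a) = (x / l) ^ (0 + 1) * g (x / l) 0 - x * a := by ring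
        rw [e, abs_le]
        constructor <;> linarith [k0.1, k0.2, k3.1, k3.2]
      · congr 1
        ring
      · congr 1
        ring) hε hε1
  refine ⟨c, h1, h2, fun ξ h4 h5 j hj => ?_⟩
  have h6 := h3 (l * ξ) ⟨by positivity, h5⟩
  have h7 : |l| ≤ 1 := abs_le.2 ⟨by linarith, hl1⟩
  rw [mul_div_cancel_left₀ _ hl.ne'] at h6
  rcases Nat.le_one_iff_eq_zero_or_eq_one.1 hj with rfl | rfl
  · refine le_trans (le_of_eq ?_) ((poly_mul h7 h6.1).trans (one_mul _).le)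
    congr 1
    rw [if_pos rfl]
    field_simp
    ring
  · refine le_trans (le_of_eq ?_) ((poly_mul h7 (poly_mul h7 h6.2)).trans (by linarith))
    congr 1
    rw [if_neg one_ne_zero]
    field_simp
    ring

theorem poly_bW (K : Cert) (k : ℕ) (ξ : ℝ) (hk : k ≤ 2) (hξ : 0 ≤ ξ) :
    |ξ ^ (k + 1) * K.W ξ k| ≤ 10 ^ 9 := by
  refine le_trans ?_ ((K.bW k ξ (by omega) hξ).trans (by norm_num))
  rw [abs_mul, mul_comm, abs_of_nonneg (pow_nonneg hξ _)]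
  exact mul_le_mul_of_nonneg_left (pow_le_pow_left₀ hξ (by linarith) _) (abs_nonneg _)

theorem poly_bf' (K : Cert) (i k : ℕ) (ξ : ℝ) (hk : k ≤ 2) (hξ : 0 ≤ ξ) :
    |ξ ^ (k + 1) * K.f i ξ k| ≤ 1000 ^ (k + 1) := by
  rcases le_total K.xt ξ with h | h
  · rw [K.ftail i k ξ h, mul_zero, abs_zero]
    positivity
  · refine (poly_mul ?_ (K.bf i k ξ hk hξ)).trans (mul_one _).le
    rw [abs_of_nonneg (pow_nonneg hξ _)]
    exact pow_le_pow_left₀ hξ (h.trans K.hxt') _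

theorem poly_bf (K : Cert) (i k : ℕ) (ξ : ℝ) (hk : k ≤ 2) (hξ : 0 ≤ ξ) :
    |ξ ^ (k + 1) * K.f i ξ k| ≤ 10 ^ 9 :=
  (poly_bf' K i k ξ hk hξ).trans ((pow_le_pow_right₀ (by norm_num) (show k + 1 ≤ 3 by omega)).trans
    (by norm_num))

theorem poly_bf0 (K : Cert) (i : ℕ) {ξ : ℝ} (hξ : 0 ≤ ξ) : |ξ * K.f i ξ 0| ≤ 1000 := by
  simpa using poly_bf' K i 0 ξ (by omega) hξ

theorem poly_ok {c : ℝ[X]} {x h ε s t p0 p1 p2 u0 u1 u2 : ℝ} (hx : x ∈ Icc (0 : ℝ) 1)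
    (e : poly_p c 0 x = p0 + s * p1 + t * p2) (hh : 0 ≤ h ∧ h ≤ 1) (hε : ε ≤ 1 / 200)
    (a0 : |p0 - h * u0| ≤ ε * (1 - x) ^ 2) (a1 : |p1 - h * u1| ≤ ε * (1 - x) ^ 2)
    (a2 : |p2 - h * u2| ≤ ε * (1 - x) ^ 2) (hs : |s| ≤ 1) (ht : |t| ≤ 1)
    (hu : x * (u0 + s * u1 + t * u2) ≤ 39 / 40 * (1 - x)) :
    0 < 1 - x * (1 - x) * c.eval x := by
  rcases hx.2.eq_or_lt with rfl | h1
  · simp
  have h2 : 0 < 1 - x := sub_pos.2 h1
  have hx' : |x| ≤ 1 := abs_le.2 ⟨by linarith [hx.1], hx.2⟩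
  have k0 := (abs_le.1 (poly_mul hx' a0)).2
  have k1 := (abs_le.1 (poly_mul hx' (poly_mul hs a1))).2
  have k2 := (abs_le.1 (poly_mul hx' (poly_mul ht a2))).2
  have k3 : h * (x * (u0 + s * u1 + t * u2)) ≤ 39 / 40 * (1 - x) :=
    (mul_le_mul_of_nonneg_left hu hh.1).trans (mul_le_of_le_one_left (by positivity) hh.2)
  have k4 : ε * (1 - x) ^ 2 ≤ 1 / 200 * (1 - x) :=
    mul_le_mul hε (by nlinarith [hx.1]) (by positivity) (by norm_num)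
  rw [poly_p_zero] at e
  refine (mul_pos_iff_of_pos_left h2).1 ?_
  have e2 : (1 - x) * (1 - x * (1 - x) * c.eval x) = 1 - x - x * ((1 - x) ^ 2 * c.eval x) := by ring
  rw [e2, e]
  linarith

theorem init_data (K : Cert) : ∃ Ca0 : ℝ, ∀ l : ℝ, 0 < l → l ≤ 1 → ∀ ea : ℝ, 0 < ea →
    ∃ (c : ℝ × ℝ → Polynomial ℝ) (E : ℕ → ℝ → ℕ → ℝ) (L : ℝ),
      (∀ θ : ℝ × ℝ, ‖θ‖ ≤ 1 / 10 ^ 10 → InitOK (c θ)) ∧
      (∀ θ : ℝ × ℝ, ‖θ‖ ≤ 1 / 10 ^ 10 → ∀ S : Sol, Starts S (c θ) → Ca S 0 ≤ Ca0) ∧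
      (∀ θ θ' : ℝ × ℝ, ∀ S S' : Sol, Starts S (c θ) → Starts S' (c θ') →
        JJ S S' 0 ≤ L * ‖θ - θ'‖ ^ 2) ∧
      (∀ (θ : ℝ × ℝ) (S : Sol), Starts S (c θ) → ∀ ξ, 0 < ξ → l * ξ ≤ 1 / 2 → ∀ j, j ≤ 1 →
        l ^ (j + 1) * S.w 0 (l * ξ) j - K.W ξ j =
          E 0 ξ j + θ.1 * (K.f 0 ξ j + E 1 ξ j) + θ.2 * (K.f 1 ξ j + E 2 ξ j)) ∧
      ∀ i ξ j, 0 < ξ → l * ξ ≤ 1 / 2 → j ≤ 1 → |E i ξ j| ≤ ea := by
  obtain ⟨D, hD⟩ := poly_one
  refine ⟨(3 * D) ^ 2, fun l hl hl1 ea hea => ?_⟩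
  obtain ⟨ε, hε, hε1, hε2⟩ : ∃ ε : ℝ, 0 < ε ∧ ε ≤ ea ∧ ε ≤ 1 / 200 :=
    ⟨min ea (1 / 200), by positivity, min_le_left _ _, min_le_right _ _⟩
  obtain ⟨c0, a0, b0, d0⟩ := hD l 1 ε K.W hl hl1 (by norm_num) hε (by linarith)
    (fun k ξ hk hξ => K.dW k ξ (by omega) hξ)
    (fun ξ hξ => (K.dW 2 ξ le_rfl hξ).continuousAt.continuousWithinAt) (poly_bW K)
  obtain ⟨c1, a1, b1, d1⟩ := hD l 0 ε (K.f 0) hl hl1 (by norm_num) hε (by linarith) (K.df 0)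
    (K.cf 0) (poly_bf K 0)
  obtain ⟨c2, a2, b2, d2⟩ := hD l 0 ε (K.f 1) hl hl1 (by norm_num) hε (by linarith) (K.df 1)
    (K.cf 1) (poly_bf K 1)
  have hD0 : 0 ≤ D := (abs_nonneg _).trans (b0 0 ⟨le_rfl, zero_le_one⟩)
  refine ⟨fun θ => c0 + θ.1 • c1 + θ.2 • c2, fun i ξ j =>
    if i = 0 then l ^ (j + 1) * (poly_p c0 j (l * ξ) + if j = 0 then 1 else 0) - K.W ξ j
    else if i = 1 then l ^ (j + 1) * (poly_p c1 j (l * ξ) + if j = 0 then 0 else 0) - K.f 0 ξ j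
    else l ^ (j + 1) * (poly_p c2 j (l * ξ) + if j = 0 then 0 else 0) - K.f 1 ξ j,
    (2 * D) ^ 2, fun θ hθ x hx => ?_, fun θ hθ S hS => ?_, fun θ θ' S S' hS hS' => ?_,
    fun θ S hS ξ hξ hξ' j _ => ?_, fun i ξ j hξ hξ' hj => ?_⟩
  · have t1 : |θ.1| ≤ 1 / 10 ^ 10 := (norm_fst_le θ).trans hθ
    have t2 : |θ.2| ≤ 1 / 10 ^ 10 := (norm_snd_le θ).trans hθ
    have hξ : 0 ≤ x / l := div_nonneg hx.1 hl.le
    have f0 := poly_bf0 K 0 hξ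
    have f1 := poly_bf0 K 1 hξ
    refine poly_ok hx (s := θ.1) (t := θ.2) (poly_p_comb _ _ _ _ _ 0 x) (poly_ch_mem x) hε2
      (a0 x hx) (a1 x hx) (a2 x hx) (t1.trans (by norm_num)) (t2.trans (by norm_num)) ?_
    have h1 := (K.bY _ hξ).1
    have h2 := abs_le.1 (poly_mul t1 f0)
    have h3 := abs_le.1 (poly_mul t2 f1)
    have e : x * (l⁻¹ * K.W (x / l) 0 - 1 + θ.1 * (l⁻¹ * K.f 0 (x / l) 0 - 0) +
        θ.2 * (l⁻¹ * K.f 1 (x / l) 0 - 0)) = x / l * K.W (x / l) 0 - x +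
        θ.1 * (x / l * K.f 0 (x / l) 0) + θ.2 * (x / l * K.f 1 (x / l) 0) := by ring
    rw [e]
    norm_num at h2 h3 ⊢
    linarith [h2.2, h3.2, hx.1]
  · have t1 : |θ.1| ≤ 1 := (norm_fst_le θ).trans (hθ.trans (by norm_num))
    have t2 : |θ.2| ≤ 1 := (norm_snd_le θ).trans (hθ.trans (by norm_num))
    refine poly_int fun x hx => ?_
    have hx' : x ∈ Icc (0 : ℝ) 1 := Ioo_subset_Icc_self hx
    have h1 := abs_le.1 (b0 x hx')
    have h2 := abs_le.1 (poly_mul t1 (b1 x hx'))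
    have h3 := abs_le.1 (poly_mul t2 (b2 x hx'))
    rw [poly_S0 hS hx, poly_sg_comb, abs_le]
    constructor <;> linarith [h1.1, h1.2, h2.1, h2.2, h3.1, h3.2]
  · rw [← mul_pow]
    refine poly_int fun x hx => ?_
    have hx' : x ∈ Icc (0 : ℝ) 1 := Ioo_subset_Icc_self hx
    have t1 : |θ.1 - θ'.1| ≤ ‖θ - θ'‖ := norm_fst_le (θ - θ')
    have t2 : |θ.2 - θ'.2| ≤ ‖θ - θ'‖ := norm_snd_le (θ - θ')
    have h2 := abs_le.1 (poly_mul t1 (b1 x hx'))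
    have h3 := abs_le.1 (poly_mul t2 (b2 x hx'))
    have h4 := poly_S0 hS hx
    have h5 := poly_S0 hS' hx
    rw [poly_sg_comb] at h4 h5
    rw [abs_le]
    constructor <;> linarith [h2.1, h2.2, h3.1, h3.2]
  · rw [poly_starts hS j _ ⟨mul_pos hl hξ, by linarith⟩, poly_p_comb]
    simp only [if_true, one_ne_zero, if_false, ite_self, OfNat.ofNat_ne_zero, OfNat.ofNat_ne_one]
    ring
  · beta_reduce
    by_cases h0 : i = 0
    · rw [if_pos h0]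
      exact (d0 ξ hξ.le hξ' j hj).trans hε1
    · rw [if_neg h0]
      by_cases h1 : i = 1
      · rw [if_pos h1]
        exact (d1 ξ hξ.le hξ' j hj).trans hε1
      · rw [if_neg h1]
        exact (d2 ξ hξ.le hξ' j hj).trans hε1

end Vale.Agent.P264
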