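import Vale.Agent.P264.C.Boot
import Vale.Agent.P264.C.Pert

/-!
# P264 C/Stab  (TASK; notes/P264.md section C, notes/P264C.md)

Stability.  Fix `C'` from `mm_bd` for `S'` on `[s0, S1]`, choose `e` small, then `δ1` (with `pert`, `l0 = lam S1`, `l1 = lam s0`), then `δ` from `stab_bound` with
`t1 = tt s0 S1`, lower end `lam S1 e`.  `boot` gives `Trap`, hence `1 - x w = YY - n ≥ 1/40` for `x ≤ 1/4` (`Jet1.n_le`, `tt_surj`).
`QQ = ∫_0^e + ∫_e^L`: `small_lo`, `small_abs`, `pert` give the lower bound.  Upper bound: for `s > s0`, `QQ S s ≤ QQ S' s + η + B e² DD` (`small_hi`) and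
`QQ' ≤ -DD/4 + 1` (`Good.mas`), so `σ ↦ ∫_a^σ (QQ S - QQ S') + 4 B e² QQ S σ - (η + 4 B e²) σ` is nonincreasing on `[a, b]` (`le_of_deriv_nonpos`), and `|QQ S| ≤ mu` at `b > s0`, `QQ S a ≤ mu`.
-/

open Set MeasureTheory Filter Topology

noncomputable section

namespace Vale.Agent.P264

theorem stab_trap {l b b' : ℝ} {m : ℝ → ℕ → ℝ} (h : Trap l m b) (hb : b ≤ b') : Trap l m b' :=
  fun u h0 h1 => (h u h0 h1).trans hb

theorem stab_y {K : Cert} {S : Sol} {s0 s x : ℝ} (hs : s0 ≤ s)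
    (hT : Trap (lam s) (mm K S s0 s) (eta ^ 2)) (hx : x ∈ Ioc (0:ℝ) (1 / 4)) :
    1 / 40 ≤ 1 - x * S.w (tt s0 s) x 0 := by
  have hl := lam_pos s
  have h0 : 0 < x / lam s := div_pos hx.1 hl
  have h1 : lam s * (x / lam s) = x := by field_simp
  have h2 := (jet1_mm K S s0 hs).n_le hT h0 (by rw [h1]; exact hx.2)
  have h3 := (K.bY _ h0.le).1
  have h4 : x / lam s * sc (mm K S s0 s) (x / lam s) 0 =
      x * S.w (tt s0 s) x 0 - x / lam s * K.W (x / lam s) 0 := by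
    simp only [sc, mm, wt, h1, pow_zero, zero_add, pow_one, one_mul]
    field_simp
  rw [h4] at h2
  have h5 : 3 * eta ≤ 1 / 40 := by unfold eta; norm_num
  linarith [(abs_le.1 h2).2]

theorem stab_sc {K : Cert} {S S' : Sol} {s0 s ξ d : ℝ} (hs : s0 ≤ s) (h0 : 0 < ξ)
    (h1 : lam s * ξ ≤ 1 / 2)
    (h : |S.w (tt s0 s) (lam s * ξ) 0 - S'.w (tt s0 s) (lam s * ξ) 0| ≤ d / lam s0 ∧
      |S.w (tt s0 s) (lam s * ξ) 1 - S'.w (tt s0 s) (lam s * ξ) 1| ≤ d / lam s0) :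
    |sc (mm K S s0 s) ξ 0 - sc (mm K S' s0 s) ξ 0| ≤ d ∧
      |sc (mm K S s0 s) ξ 1 - sc (mm K S' s0 s) ξ 1| ≤ d := by
  have hl := lam_pos s
  have hl0 := lam_pos s0
  have hll := lam_anti hs
  have e0 : sc (mm K S s0 s) ξ 0 - sc (mm K S' s0 s) ξ 0 =
      lam s * (S.w (tt s0 s) (lam s * ξ) 0 - S'.w (tt s0 s) (lam s * ξ) 0) := by
    simp only [sc, mm, wt]; ring
  have e1 : sc (mm K S s0 s) ξ 1 - sc (mm K S' s0 s) ξ 1 =
      (lam s * ξ) * (lam s * (S.w (tt s0 s) (lam s * ξ) 1 - S'.w (tt s0 s) (lam s * ξ) 1)) := by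
    simp only [sc, mm, wt]; ring
  have key : ∀ y : ℝ, |y| ≤ d / lam s0 → |lam s * y| ≤ d := fun y hy => by
    rw [abs_mul, abs_of_pos hl]
    calc lam s * |y| ≤ lam s0 * (d / lam s0) := by gcongr
      _ = d := by field_simp
  refine ⟨e0 ▸ key _ h.1, ?_⟩
  rw [e1, abs_mul, abs_of_pos (mul_pos hl h0)]
  have h2 := key _ h.2
  nlinarith [abs_nonneg (lam s * (S.w (tt s0 s) (lam s * ξ) 1 - S'.w (tt s0 s) (lam s * ξ) 1))]

theorem stab_split (K : Cert) (X : Cut) {l e : ℝ} {m : ℝ → ℕ → ℝ} (h : Jet1 l m) (he : 0 < e)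
    (hl : l * e ≤ 1 / 4) : En K X l psi0 0 m = (∫ ξ in (0:ℝ)..e, ed K X l psi0 0 m ξ) +
      ∫ ξ in e..(1 / (2 * l)), ed K X l psi0 0 m ξ := by
  have hl0 := h.l0
  have h1 : l * (1 / (2 * l)) ≤ 1 / 2 := le_of_eq (by field_simp)
  have h2 : e ≤ 1 / (2 * l) := by rw [le_div_iff₀ (by positivity)]; linarith
  exact (intervalIntegral.integral_add_adjacent_intervals
    (h.ii_ed K X (psiD_psi0.st 0) 0 le_rfl he.le (by linarith))
    (h.ii_ed K X (psiD_psi0.st 0) 0 he.le h2 h1)).symm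

theorem stab_der {K : Cert} {X : Cut} {S : Sol} {s0 s : ℝ} (h : Good K X S s0) (hs : s0 < s)
    (hT : Trap (lam s) (mm K S s0 s) (eta ^ 2)) : ∃ E' : ℝ, HasDerivAt (QQ K X S s0) E' s ∧
      E' ≤ -DD (lam s) psi0 (mm K S s0 s) / 4 + 1 := by
  obtain ⟨E', h1, h2⟩ := h.mas s hs hT (kk / 2) (fun _ => psi0) psiD_psi0 0 le_rfl
    (by unfold eps2; positivity) 1 fun ξ hξ => (psiD_psi0.st 0).beta_one hξ
  refine ⟨E', h1, h2.trans ?_⟩
  have h3 := NN_nonneg X (lam_pos s) (psiD_psi0.st 0) (mm K S s0 s)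
  have h4 : Real.exp (s0 - s) ≤ 1 := Real.exp_le_one_iff.2 (by linarith)
  have h5 : (0:ℝ) ≤ kk / 2 / 2 - 0 := by unfold kk; positivity
  have h6 : Real.exp (s0 - s) / 10 ^ 200 ≤ 1 / 2 :=
    (div_le_div_of_nonneg_right h4 (by positivity)).trans (by norm_num)
  have h7 : (1:ℝ) / 10 ^ 228 ≤ 1 / 2 := by norm_num
  nlinarith [mul_nonneg h5 h3]

theorem stab_int {f g D : ℝ → ℝ} {s0 a b c η : ℝ} (hf : ContinuousOn f (Ici s0))
    (hg : ContinuousOn g (Ici s0)) (ha : s0 ≤ a) (hab : a ≤ b) (hc : 0 ≤ c)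
    (h1 : ∀ s ∈ Ioo a b, f s ≤ g s + η + c * D s)
    (h2 : ∀ s ∈ Ioo a b, ∃ E' : ℝ, HasDerivAt f E' s ∧ E' ≤ -D s / 4 + 1) :
    ∫ s in a..b, f s ≤ (∫ s in a..b, g s) + 4 * c * (f a - f b) + (η + 4 * c) * (b - a) := by
  have hsub : Icc a b ⊆ Ici s0 := fun s hs => ha.trans hs.1
  have hd : ContinuousOn (fun s => f s - g s) (Ici s0) := hf.sub hg
  have hi : IntervalIntegrable (fun s => f s - g s) volume a b :=
    (hd.mono hsub).intervalIntegrable_of_Icc hab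
  have hp := intervalIntegral.continuousOn_primitive_interval' hi left_mem_uIcc
  rw [uIcc_of_le hab] at hp
  have key := le_of_deriv_nonpos
    (f := fun σ => (∫ s in a..σ, (f s - g s)) + 4 * c * f σ - (η + 4 * c) * σ) hab
    ((hp.add (continuousOn_const.mul (hf.mono hsub))).sub (by fun_prop)) fun s hs => by
      obtain ⟨E', e1, e2⟩ := h2 s hs
      have hs0 : s0 < s := ha.trans_lt hs.1
      have e3 : HasDerivAt (fun σ => ∫ s in a..σ, (f s - g s)) (f s - g s) s :=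
        intervalIntegral.integral_hasDerivAt_right
          ((hd.mono fun x hx => ha.trans hx.1).intervalIntegrable_of_Icc hs.1.le)
          ((hd.mono Ioi_subset_Ici_self).stronglyMeasurableAtFilter isOpen_Ioi s hs0)
          (hd.continuousAt (Ici_mem_nhds hs0))
      refine ⟨_, (e3.add (e1.const_mul (4 * c))).sub ((hasDerivAt_id s).const_mul (η + 4 * c)), ?_⟩
      nlinarith [h1 s hs, mul_le_mul_of_nonneg_left e2 hc]
  rw [intervalIntegral.integral_sub ((hf.mono hsub).intervalIntegrable_of_Icc hab)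
    ((hg.mono hsub).intervalIntegrable_of_Icc hab), intervalIntegral.integral_same] at key
  linarith

theorem q_stab (K : Cert) (X : Cut) (S' : Sol) (s0 S1 ε : ℝ) (hε : 0 < ε) :
    ∃ δ : ℝ, 0 < δ ∧ ∀ S : Sol, Good K X S s0 → JJ S S' 0 ≤ δ → ∀ s1 ∈ Icc s0 S1,
      (∀ s ∈ Ico s0 s1, -mu < QQ K X S s0 s) →
      (∀ s ∈ Icc s0 s1, QQ K X S' s0 s - ε ≤ QQ K X S s0 s ∧
        ‖PP K S s0 s - PP K S' s0 s‖ ≤ ε) ∧
      ∀ a b, s0 ≤ a → a ≤ b → b ≤ s1 →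
        ∫ s in a..b, QQ K X S s0 s ≤ (∫ s in a..b, QQ K X S' s0 s) + ε := by
  rcases lt_or_ge S1 s0 with hS | hS
  · exact ⟨1, one_pos, fun S _ _ s1 h => absurd (h.1.trans h.2) hS.not_ge⟩
  obtain ⟨C, hC, hm'⟩ := mm_bd K S' s0 S1
  obtain ⟨Cp, hCp, hpert⟩ := pert K X (l1 := lam s0) (lam_pos S1) hC
  have hl0 := lam_pos s0
  obtain ⟨γ, hγ, hγε⟩ : ∃ γ : ℝ, 0 < γ ∧ γ * (4 * (S1 - s0 + 2)) = ε :=
    ⟨ε / (4 * (S1 - s0 + 2)), div_pos hε (by linarith), div_mul_cancel₀ _ (by linarith)⟩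
  obtain ⟨e, he, he1, hel, heγ⟩ : ∃ e : ℝ, 0 < e ∧ e ≤ 1 ∧ lam s0 * e ≤ 1 / 4 ∧
      e * (1 + 2 * 10 ^ 14 * C ^ 2 + 4 * 10 ^ 14) ≤ γ := by
    refine ⟨min 1 (min (1 / 4 / lam s0) (γ / (1 + 2 * 10 ^ 14 * C ^ 2 + 4 * 10 ^ 14))),
      by positivity, min_le_left _ _, ?_, ?_⟩
    · rw [mul_comm, ← le_div_iff₀ hl0]
      exact (min_le_right _ _).trans (min_le_left _ _)
    · rw [← le_div_iff₀ (by positivity)]
      exact (min_le_right _ _).trans (min_le_right _ _)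
  obtain ⟨d, hd, hd1, hdγ⟩ : ∃ d : ℝ, 0 < d ∧ d ≤ 1 ∧ d * (Cp + 1) ≤ γ := by
    refine ⟨min 1 (γ / (Cp + 1)), by positivity, min_le_left _ _, ?_⟩
    rw [← le_div_iff₀ (by positivity)]
    exact min_le_right _ _
  obtain ⟨δ, hδ, hst⟩ := stab_bound S' (tt s0 S1) (lam S1 * e) (d / lam s0)
    (mul_pos (lam_pos S1) he) (div_pos hd hl0)
  refine ⟨δ, hδ, fun S hG hJ s1 hs1 hQ => ?_⟩
  have hb := boot hG hs1.1 hQ
  have hT : ∀ s ∈ Icc s0 s1, Trap (lam s) (mm K S s0 s) (eta ^ 2) := fun s hs =>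
    stab_trap (hb s hs).1 (by linarith [sq_nonneg eta])
  have hw := hst S hJ (tt s0 s1) ⟨tt_nonneg s0 hs1.1, tt_mono s0 hs1.2⟩ fun t ht x hx => by
    obtain ⟨s, hs, rfl⟩ := tt_surj s0 hs1.1 ht
    exact stab_y hs.1 (hT s hs) hx
  have hsc : ∀ s ∈ Icc s0 s1, ∀ ξ, e ≤ ξ → lam s * ξ ≤ 1 / 2 →
      |sc (mm K S s0 s) ξ 0 - sc (mm K S' s0 s) ξ 0| ≤ d ∧
        |sc (mm K S s0 s) ξ 1 - sc (mm K S' s0 s) ξ 1| ≤ d := fun s hs ξ h1 h2 =>
    stab_sc hs.1 (he.trans_le h1) h2 (hw _ ⟨tt_nonneg s0 hs.1, tt_mono s0 hs.2⟩ _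
      ⟨mul_le_mul (lam_anti (hs.2.trans hs1.2)) h1 he.le (lam_pos s).le, h2⟩)
  have hle : ∀ s ∈ Icc s0 s1, lam s * e ≤ 1 / 4 := fun s hs =>
    (mul_le_mul_of_nonneg_right (lam_anti hs.1) he.le).trans hel
  have hC2 : 0 ≤ 2 * 10 ^ 14 * C ^ 2 * e := by positivity
  have hmain : ∀ s ∈ Icc s0 s1, |QQ K X S s0 s - QQ K X S' s0 s -
      ∫ ξ in (0:ℝ)..e, ed K X (lam s) psi0 0 (mm K S s0 s) ξ| ≤ 2 * 10 ^ 14 * C ^ 2 * e + γ := by
    intro s hs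
    have hs' : s ∈ Icc s0 S1 := ⟨hs.1, hs.2.trans hs1.2⟩
    have j := jet1_mm K S s0 hs.1
    have j' := jet1_mm K S' s0 hs.1
    have h1 := (hpert (lam s) (lam_anti hs'.2) (lam_anti hs.1) psi0 (psiD_psi0.st 0) _ _ j j' e d
      he.le (by linarith [hle s hs]) hd.le hd1 fun ξ h1 h2 =>
        ⟨(hm' s hs' ξ (he.trans h1) h2).1, (hm' s hs' ξ (he.trans h1) h2).2.2.1,
          hsc s hs ξ h1.le h2⟩).1
    have h2 := small_abs K X j' (psiD_psi0.st 0) he he1 (hle s hs) fun ξ h1 h2 => by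
      have h3 : lam s * ξ ≤ 1 / 2 := by
        linarith [mul_le_mul_of_nonneg_left h2 (lam_pos s).le, hle s hs]
      exact ⟨(hm' s hs' ξ h1 h3).1, (hm' s hs' ξ h1 h3).2.2.1⟩
    unfold QQ
    rw [stab_split K X j he (hle s hs), stab_split K X j' he (hle s hs)]
    have h3 : Cp * d ≤ γ := by nlinarith
    rw [abs_le] at h1 h2 ⊢
    constructor <;> linarith [h1.1, h1.2, h2.1, h2.2]
  have hγ1 : 8 * γ ≤ ε := by nlinarith
  have he2 : e + 2 * 10 ^ 14 * C ^ 2 * e + 4 * 10 ^ 14 * e ≤ γ := by linarith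
  refine ⟨fun s hs => ⟨?_, ?_⟩, fun a b ha hab hb1 => ?_⟩
  · have h1 := small_lo K X (jet1_mm K S s0 hs.1) (psiD_psi0.st 0) (hT s hs) he (hle s hs)
    linarith [(abs_le.1 (hmain s hs)).1]
  · have hx : ∀ ξ, K.x1 ≤ ξ → ξ ≤ K.xt → |mm K S s0 s ξ 0 - mm K S' s0 s ξ 0| ≤ ε := by
      intro ξ h1 h2
      have h0 : 0 ≤ ξ := by linarith [K.hx1]
      have h3 : lam s * ξ ≤ 1 / 2 := by
        linarith [mul_le_mul (lam_anti hs.1) h2 h0 hl0.le, hG.top]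
      have h4 := (hsc s hs ξ (by linarith [K.hx1]) h3).1
      simp only [sc, pow_zero, one_mul] at h4
      nlinarith
    rw [Prod.norm_def]
    exact max_le (hx _ le_rfl (K.hx12.trans K.hx2t).le) (hx _ K.hx12.le K.hx2t.le)
  · rcases hab.eq_or_lt with rfl | hlt
    · simp only [intervalIntegral.integral_same]; linarith
    have hsub : Ioo a b ⊆ Ioc s0 s1 := fun s hs => ⟨ha.trans_lt hs.1, hs.2.le.trans hb1⟩
    have key := stab_int (D := fun s => DD (lam s) psi0 (mm K S s0 s)) (c := 10 ^ 14 * e ^ 2)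
      (η := 2 * γ) (continuousOn_QQ K X S s0) (continuousOn_QQ K X S' s0) ha hab (by positivity)
      (fun s hs => by
        have hs' : s ∈ Icc s0 s1 := Ioc_subset_Icc_self (hsub hs)
        have h1 := small_hi X (jet4_mm K S s0 (hsub hs).1) (psiD_psi0.st 0) (hT s hs') he
          (hle s hs')
        linarith [(abs_le.1 (hmain s hs')).2])
      fun s hs => stab_der hG (hsub hs).1 (hT s (Ioc_subset_Icc_self (hsub hs)))
    have h1 := (hb a ⟨ha, hab.trans hb1⟩).2.1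
    have h2 := (hb b ⟨ha.trans hab, hb1⟩).2.2 (ha.trans_lt hlt)
    have h3 : mu ≤ 1 := by unfold mu; norm_num
    have h4 : 4 * (10 ^ 14 * e ^ 2) ≤ γ := by nlinarith
    have h5 : (0:ℝ) ≤ 4 * (10 ^ 14 * e ^ 2) := by positivity
    have h6 : 4 * (10 ^ 14 * e ^ 2) * (QQ K X S s0 a - QQ K X S s0 b) ≤ γ * 2 :=
      (mul_le_mul_of_nonneg_left (by linarith) h5).trans
        (mul_le_mul_of_nonneg_right h4 zero_le_two)
    have h7 : (2 * γ + 4 * (10 ^ 14 * e ^ 2)) * (b - a) ≤ 3 * γ * (S1 - s0) :=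
      mul_le_mul (by linarith) (by linarith [hs1.2]) (by linarith) (by positivity)
    nlinarith

end Vale.Agent.P264
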