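import Vale.Agent.P264.Topo
import Vale.Agent.P264.C.Poly
import Vale.Agent.P264.C.Master
import Vale.Agent.P264.C.Exit
import Vale.Agent.P264.C.Stab
import Vale.Agent.P264.C.Init

/-!
# P264 C/Main: block C
-/

open Set MeasureTheory Filter Topology

noncomputable section

namespace Vale.Agent.P264

theorem main_s0 (K : Cert) {CZ : ℝ} (h : 0 ≤ CZ) :
    ∃ s0 : ℝ, lam s0 ≤ 1 ∧ lam s0 * K.xt ≤ 1 / 4 ∧ CZ * lam s0 ^ 2 ≤ 1 / 10 ^ 200 := by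
  obtain ⟨l, hl0, hl1, hl2⟩ : ∃ l : ℝ, 0 < l ∧ l ≤ 1 / 4000 ∧ (CZ + 1) * l ≤ 1 / 10 ^ 200 := by
    refine ⟨1 / 10 ^ 200 / (CZ + 1), by positivity, ?_, ?_⟩
    · exact (div_le_self (by positivity) (by linarith)).trans (by norm_num)
    · rw [mul_div_cancel₀ _ (by positivity)]
  have e : lam (-(2 * Real.log l)) = l := by
    rw [lam, neg_neg, mul_div_cancel_left₀ _ two_ne_zero, Real.exp_log hl0]
  refine ⟨-(2 * Real.log l), ?_, ?_, ?_⟩ <;> rw [e]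
  · linarith
  · nlinarith [K.hxt', K.hxt]
  · nlinarith [mul_nonneg h hl0.le]

theorem main_good {K : Cert} {X : Cut} {S : Sol} {s0 C CZ : ℝ}
    (hM : ∀ (l κ ε β : ℝ) (p m u : ℝ → ℕ → ℝ), Jet4 K l m u → PsiS p →
      Trap l m (eta ^ 2) → CrudeX K C l m → l * K.xt ≤ 1 / 4 → 0 ≤ κ → κ ≤ kk → 0 ≤ ε → ε ≤ eps2 →
      (∀ ξ, 0 < ξ → p ξ 0 * ξ ^ 3 / (1 + ξ) ^ 6 ≤ β / (1 + ξ) ^ 2) →
      ∫ ξ in (0:ℝ)..(1 / (2 * l)), eds K X l κ p ε m u ξ ≤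
        -(κ / 2 - ε) * NN X l p m - DD l p m / 4 + β / 10 ^ 228 + CZ * l ^ 2)
    (hC : ∀ t, 0 ≤ t → Crude S C t) (h1 : lam s0 * K.xt ≤ 1 / 4)
    (h2 : CZ * lam s0 ^ 2 ≤ 1 / 10 ^ 200)
    (i1 : N1 X (lam s0) (mm K S s0 s0) ≤ 1 / 10 ^ 100) (i2 : QQ K X S s0 s0 ≤ mu / 4) :
    Good K X S s0 := by
  refine ⟨h1, fun s hs hT κ p hp ε e0 e1 β hβ => ⟨_, hasDerivAt_En K X S s0 hp ε hs, ?_⟩, i1, i2⟩
  have hx : (0:ℝ) ≤ K.xt := by linarith [K.hxt]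
  have h3 := hM (lam s) κ ε β (p s) _ _ (jet4_mm K S s0 hs) (hp.st s) hT
    (crudeX_mm K S s0 (hC _ (tt_nonneg s0 hs.le)))
    ((mul_le_mul_of_nonneg_right (lam_anti hs.le) hx).trans h1) hp.k0 hp.k1 e0 e1 hβ
  have h4 : CZ * lam s ^ 2 ≤ Real.exp (s0 - s) / 10 ^ 200 := by
    have e : lam s ^ 2 = lam s0 ^ 2 * Real.exp (s0 - s) := by
      rw [lam_sq, lam_sq, ← Real.exp_add]
      congr 1
      ring
    have := mul_le_mul_of_nonneg_right h2 (Real.exp_pos (s0 - s)).le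
    rw [e]
    calc CZ * (lam s0 ^ 2 * Real.exp (s0 - s)) = CZ * lam s0 ^ 2 * Real.exp (s0 - s) := by ring
      _ ≤ 1 / 10 ^ 200 * Real.exp (s0 - s) := this
      _ = _ := by ring
  linarith

/-- The linear map `θ ↦ (θ.1 a + θ.2 b, θ.1 c + θ.2 d)`. -/
def mainM (a b c d : ℝ) : ℝ × ℝ →ₗ[ℝ] ℝ × ℝ where
  toFun θ := (θ.1 * a + θ.2 * b, θ.1 * c + θ.2 * d)
  map_add' θ θ' := by
    ext <;> simp only [Prod.fst_add, Prod.snd_add] <;> ring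
  map_smul' t θ := by
    ext <;> simp only [Prod.smul_fst, Prod.smul_snd, smul_eq_mul, RingHom.id_apply] <;> ring

theorem main_err {θ : ℝ × ℝ} {a b ea : ℝ} (ha : |a| ≤ ea) (hb : |b| ≤ ea) :
    |θ.1 * a + θ.2 * b| ≤ 2 * ea * ‖θ‖ := by
  have h1 : |θ.1| ≤ ‖θ‖ := norm_fst_le θ
  have h2 : |θ.2| ≤ ‖θ‖ := norm_snd_le θ
  have h3 := abs_add_le (θ.1 * a) (θ.2 * b)
  rw [abs_mul, abs_mul] at h3
  have h4 := mul_le_mul h1 ha (abs_nonneg _) (norm_nonneg _)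
  have h5 := mul_le_mul h2 hb (abs_nonneg _) (norm_nonneg _)
  linarith

theorem main_sq (θ : ℝ × ℝ) : ‖θ‖ ^ 2 ≤ θ.1 ^ 2 + θ.2 ^ 2 := by
  rw [Prod.norm_def]
  rcases le_total ‖θ.1‖ ‖θ.2‖ with h | h
  · rw [max_eq_right h, Real.norm_eq_abs, sq_abs]; nlinarith [sq_nonneg θ.1]
  · rw [max_eq_left h, Real.norm_eq_abs, sq_abs]; nlinarith [sq_nonneg θ.2]

theorem blockC' (K : Cert) : ∃ c : Polynomial ℝ, InitOK c ∧ ∀ S : Sol, ¬ Starts S c := by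
  obtain ⟨Ca0, hP⟩ := init_data K
  obtain ⟨C, hC1, hC⟩ := crude_bound Ca0
  obtain ⟨X, hX⟩ := exists_Cut (h := 1 / (200 * C)) (by positivity)
    (one_div_le_one_div_of_le (by norm_num) (by linarith))
  have hXC : X.h * C ≤ 1 / 200 := by
    rw [hX]
    apply le_of_eq
    field_simp
  obtain ⟨CZ, hCZ, hM⟩ := master_static K X hC1 hXC
  obtain ⟨s0, hl1, hl2, hl3⟩ := main_s0 K hCZ
  have hl0 := lam_pos s0
  obtain ⟨ea1, hea1, hI⟩ := init_en K X hl0 hl2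
  obtain ⟨ea, hea0, hea, hea'⟩ : ∃ ea : ℝ, 0 < ea ∧ ea ≤ ea1 ∧ ea ≤ 1 / 10 ^ 80 :=
    ⟨min ea1 (1 / 10 ^ 80), lt_min hea1 (by norm_num), min_le_left _ _, min_le_right _ _⟩
  obtain ⟨c, E, L, p1, p2, p3, p4, p5⟩ := hP (lam s0) hl0 hl1 ea hea0
  have hρ : ∀ θ : ℝ × ℝ, ‖θ‖ ≤ rho → ‖θ‖ ≤ 1 / 10 ^ 10 := fun θ h =>
    h.trans (by norm_num [rho])
  by_contra hno
  have hex : ∀ θ : ℝ × ℝ, ∃ S : Sol, ‖θ‖ ≤ rho → Starts S (c θ) := by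
    have h0 : ∀ θ : ℝ × ℝ, ‖θ‖ ≤ rho → ∃ S : Sol, Starts S (c θ) := fun θ h => by
      by_contra hh
      exact hno ⟨c θ, p1 θ (hρ θ h), fun S hS => hh ⟨S, hS⟩⟩
    intro θ
    by_cases h : ‖θ‖ ≤ rho
    · obtain ⟨S, hS⟩ := h0 θ h
      exact ⟨S, fun _ => hS⟩
    · obtain ⟨S, -⟩ := h0 0 (by norm_num [rho])
      exact ⟨S, fun h' => absurd h' h⟩
  choose Sf hS using hex
  have hm : ∀ θ : ℝ × ℝ, ‖θ‖ ≤ rho → ∀ ξ, 0 < ξ → lam s0 * ξ ≤ 1 / 2 → ∀ j, j ≤ 1 →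
      mm K (Sf θ) s0 s0 ξ j =
        E 0 ξ j + θ.1 * (K.f 0 ξ j + E 1 ξ j) + θ.2 * (K.f 1 ξ j + E 2 ξ j) := by
    intro θ h ξ h0 h1 j hj
    rw [mm, wt, tt_self]
    exact p4 θ _ (hS θ h) ξ h0 h1 j hj
  have hin : ∀ θ : ℝ × ℝ, ‖θ‖ ≤ rho → N1 X (lam s0) (mm K (Sf θ) s0 s0) ≤ 1 / 10 ^ 100 ∧
      QQ K X (Sf θ) s0 s0 ≤ -(θ.1 ^ 2 + θ.2 ^ 2) / 2 + mu / 4 := by
    intro θ h
    refine hI θ _ h (jet1_mm K (Sf θ) s0 le_rfl) fun ξ h0 h1 j hj => ?_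
    have e : mm K (Sf θ) s0 s0 ξ j - tf K θ ξ j = E 0 ξ j + (θ.1 * E 1 ξ j + θ.2 * E 2 ξ j) := by
      rw [hm θ h ξ h0 h1 j hj, tf]
      ring
    have e1 := main_err (θ := θ) (p5 1 ξ j h0 h1 hj) (p5 2 ξ j h0 h1 hj)
    have e2 := p5 0 ξ j h0 h1 hj
    have e3 := abs_add_le (E 0 ξ j) (θ.1 * E 1 ξ j + θ.2 * E 2 ξ j)
    have e4 := hρ θ h
    rw [e]
    nlinarith
  have hG : ∀ θ : ℝ × ℝ, ‖θ‖ ≤ rho → Good K X (Sf θ) s0 := fun θ h =>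
    main_good hM (hC _ (p2 θ (hρ θ h) _ (hS θ h))) hl2 hl3 (hin θ h).1
      ((hin θ h).2.trans (by nlinarith [sq_nonneg θ.1, sq_nonneg θ.2]))
  have hx1 : 0 < K.x1 := by linarith [K.hx1]
  have hx2 : 0 < K.x2 := by linarith [K.hx12]
  have hy2 : lam s0 * K.x2 ≤ 1 / 2 := by nlinarith [K.hx2t]
  have hy1 : lam s0 * K.x1 ≤ 1 / 2 := by nlinarith [K.hx12]
  refine topo (fun θ => QQ K X (Sf θ) s0) (fun θ => PP K (Sf θ) s0) mu s0 rho (1 / (6 * 10 ^ 10))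
    (E 0 K.x1 0, E 0 K.x2 0)
    (mainM (K.f 0 K.x1 0 + E 1 K.x1 0) (K.f 1 K.x1 0 + E 2 K.x1 0) (K.f 0 K.x2 0 + E 1 K.x2 0)
      (K.f 1 K.x2 0 + E 2 K.x2 0)) (by norm_num [rho]) (by norm_num)
    (fun θ _ => continuousOn_QQ K X _ s0) (fun θ _ => continuousOn_PP K _ s0 hl2)
    (fun θ h => q_exits (hG θ h)) (fun θ h s1 hs hT h1 => q_trans (hG θ h) hs hT h1)
    (fun θ h s hs h1 => q_nz (hG θ h) hs h1) ?_ ?_ ?_ ?_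
  · intro θ0 h0 S1 ε hε
    obtain ⟨δ, hδ, hst⟩ := q_stab K X (Sf θ0) s0 S1 ε hε
    refine ⟨min 1 (δ / (|L| + 1)), lt_min one_pos (by positivity), fun θ h hd s1 hs1 hT => ?_⟩
    refine hst (Sf θ) (hG θ h) ((p3 θ θ0 _ _ (hS θ h) (hS θ0 h0)).trans ?_) s1 hs1 hT
    have d1 := (lt_min_iff.1 hd).1
    have d2 := (lt_min_iff.1 hd).2
    rw [lt_div_iff₀ (by positivity)] at d2
    have d3 := norm_nonneg (θ - θ0)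
    have d4 : ‖θ - θ0‖ ^ 2 ≤ ‖θ - θ0‖ := by nlinarith
    have d5 := mul_le_mul (le_abs_self L) d4 (sq_nonneg _) (abs_nonneg L)
    nlinarith
  · intro θ h
    refine ⟨(hin θ h.le).2.trans ?_, ?_⟩
    · have := main_sq θ
      rw [h] at this
      norm_num [rho, mu] at this ⊢
      linarith
    · refine Prod.ext ?_ ?_
      · show mm K (Sf θ) s0 s0 K.x1 0 = E 0 K.x1 0 +
          (θ.1 * (K.f 0 K.x1 0 + E 1 K.x1 0) + θ.2 * (K.f 1 K.x1 0 + E 2 K.x1 0))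
        rw [hm θ h.le _ hx1 hy1 0 zero_le_one, add_assoc]
      · show mm K (Sf θ) s0 s0 K.x2 0 = E 0 K.x2 0 +
          (θ.1 * (K.f 0 K.x2 0 + E 1 K.x2 0) + θ.2 * (K.f 1 K.x2 0 + E 2 K.x2 0))
        rw [hm θ h.le _ hx2 hy2 0 zero_le_one, add_assoc]
  · intro θ
    have h1 := tf_lower K θ
    have e : (tf K θ K.x1 0, tf K θ K.x2 0) =
        mainM (K.f 0 K.x1 0 + E 1 K.x1 0) (K.f 1 K.x1 0 + E 2 K.x1 0) (K.f 0 K.x2 0 + E 1 K.x2 0)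
          (K.f 1 K.x2 0 + E 2 K.x2 0) θ -
        (θ.1 * E 1 K.x1 0 + θ.2 * E 2 K.x1 0, θ.1 * E 1 K.x2 0 + θ.2 * E 2 K.x2 0) := by
      refine Prod.ext ?_ ?_
      · show tf K θ K.x1 0 = θ.1 * (K.f 0 K.x1 0 + E 1 K.x1 0) + θ.2 * (K.f 1 K.x1 0 + E 2 K.x1 0)
          - (θ.1 * E 1 K.x1 0 + θ.2 * E 2 K.x1 0)
        rw [tf]; ring
      · show tf K θ K.x2 0 = θ.1 * (K.f 0 K.x2 0 + E 1 K.x2 0) + θ.2 * (K.f 1 K.x2 0 + E 2 K.x2 0)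
          - (θ.1 * E 1 K.x2 0 + θ.2 * E 2 K.x2 0)
        rw [tf]; ring
    have h2 : ‖(θ.1 * E 1 K.x1 0 + θ.2 * E 2 K.x1 0, θ.1 * E 1 K.x2 0 + θ.2 * E 2 K.x2 0)‖ ≤
        2 * ea * ‖θ‖ := by
      rw [Prod.norm_def]
      exact max_le (main_err (p5 1 _ 0 hx1 hy1 zero_le_one) (p5 2 _ 0 hx1 hy1 zero_le_one))
        (main_err (p5 1 _ 0 hx2 hy2 zero_le_one) (p5 2 _ 0 hx2 hy2 zero_le_one))
    rw [e] at h1
    have h3 := norm_sub_le (mainM (K.f 0 K.x1 0 + E 1 K.x1 0) (K.f 1 K.x1 0 + E 2 K.x1 0)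
      (K.f 0 K.x2 0 + E 1 K.x2 0) (K.f 1 K.x2 0 + E 2 K.x2 0) θ)
      (θ.1 * E 1 K.x1 0 + θ.2 * E 2 K.x1 0, θ.1 * E 1 K.x2 0 + θ.2 * E 2 K.x2 0)
    have h4 := mul_le_mul_of_nonneg_right hea' (norm_nonneg θ)
    have h5 := norm_nonneg θ
    linarith
  · have : ‖(E 0 K.x1 0, E 0 K.x2 0)‖ ≤ ea := by
      rw [Prod.norm_def]
      exact max_le (p5 0 _ 0 hx1 hy1 zero_le_one) (p5 0 _ 0 hx2 hy2 zero_le_one)
    refine (this.trans hea').trans_lt ?_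
    norm_num [rho]

end Vale.Agent.P264
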