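import Vale.Agent.P264.C.Integ
import Vale.Agent.P264.C.AlgF
import Vale.Agent.P264.C.AlgG

/-!
# P264 C/Point  (TASK; notes/P264.md section C, notes/P264C.md)

The pointwise bounds for `PT / ξ`.  `pt_fine`: `χ = 1, χ' = χ'' = 0` (`X.one`), so `om = p`, `omd = ξ p'`, `omdd = ξ² p''`, `cc = ccd = 0`; `alg_fine` (with `K.main`, `K.bW`, `K.bY1`, `K.bg1`, ..,
`Jet1.n_le`), `alg_core` for `ξ ≤ xt`, `alg_tail` for `ξ ≥ xt` (`K.tail`), `K.res`, and `ξ²/2 · ξ/(1+ξ)² ≤ ξ²` for the last term.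
`pt_crude`: for `l ξ ≥ 1/4 + h` all weights vanish and `PT = 0`.  Otherwise `yt = 1 - ξ (W0 + m0) ∈ [1/40, 2]`: at `ξ = 1/(4l)` it is `YY - n`, its derivative is
`-(W0 + m0 + ξ (W1 + m1))`, at most `3/2 C l`, and `h C ≤ 1/200`; `yt1 = -ξ (W0 + m0 + ξ (W1 + m1))`; `|n| = |YY - yt| ≤ 2`; `|a0|, |a1| ≤ (C + 4 10^6) l`, `1/ξ ≤ 4 l`;
`a2² / ξ = ξ³ m2² ≤ 2 ξ³ (W2 + m2)² + 2 ξ³ W2²`; `alg_crude` with a constant depending on `C`, `X.M` only, `alg_tail`.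
-/

open Set MeasureTheory Filter Topology

noncomputable section

namespace Vale.Agent.P264

theorem point_SW (K : Cert) {ξ : ℝ} (h0 : 0 < ξ) :
    |S2 (K.W ξ) ξ| * (1 + ξ) ^ 3 ≤ 111 * 10 ^ 6 := by
  have b2 : |K.W ξ 2| * (1 + ξ) ^ 3 ≤ 10 ^ 6 := K.bW 2 ξ (by norm_num) h0.le
  have b3 : |K.W ξ 3| * (1 + ξ) ^ 4 ≤ 10 ^ 6 := K.bW 3 ξ (by norm_num) h0.le
  have b4 : |K.W ξ 4| * (1 + ξ) ^ 5 ≤ 10 ^ 6 := K.bW 4 ξ (by norm_num) h0.le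
  have e : |S2 (K.W ξ) ξ| ≤ ξ ^ 2 * |K.W ξ 4| + 20 * ξ * |K.W ξ 3| + 90 * |K.W ξ 2| :=
    c1_abs3 (by positivity) (by positivity) (by norm_num)
  have t3 : ξ * |K.W ξ 3| * (1 + ξ) ^ 3 ≤ |K.W ξ 3| * (1 + ξ) ^ 4 := by
    calc ξ * |K.W ξ 3| * (1 + ξ) ^ 3 ≤ (1 + ξ) * |K.W ξ 3| * (1 + ξ) ^ 3 := by
          gcongr
          linarith
      _ = _ := by ring
  have t4 : ξ ^ 2 * |K.W ξ 4| * (1 + ξ) ^ 3 ≤ |K.W ξ 4| * (1 + ξ) ^ 5 := by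
    calc ξ ^ 2 * |K.W ξ 4| * (1 + ξ) ^ 3 ≤ (1 + ξ) ^ 2 * |K.W ξ 4| * (1 + ξ) ^ 3 := by
          gcongr
          linarith
      _ = _ := by ring
  have := mul_le_mul_of_nonneg_right e (by positivity : (0:ℝ) ≤ (1 + ξ) ^ 3)
  linarith

theorem point_NQ {ξ : ℝ} (h0 : 0 < ξ) (a : ℕ → ℝ) : 0 ≤ NQ ξ a := by
  have := (vp_pos h0).1
  unfold NQ
  positivity

theorem point_res (K : Cert) {ξ q β : ℝ} (h0 : 0 < ξ) (hq : 0 < q)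
    (hβ : q * ξ ^ 3 / (1 + ξ) ^ 6 ≤ β / (1 + ξ) ^ 2) :
    10 ^ 32 * q * (ξ ^ 2 * RR K ξ) ^ 2 ≤ β / 10 ^ 228 * (1 / (1 + ξ) ^ 2) * ξ := by
  have r1 : |RR K ξ| * (1 + ξ) ^ 3 ≤ 1 / 10 ^ 130 := K.res ξ h0
  have r2 : RR K ξ ^ 2 * (1 + ξ) ^ 6 ≤ (1 / 10 ^ 130) ^ 2 := by
    have := pow_le_pow_left₀ (by positivity) r1 2
    rwa [mul_pow, sq_abs, ← pow_mul] at this
  have r3 : RR K ξ ^ 2 ≤ (1 / 10 ^ 130) ^ 2 / (1 + ξ) ^ 6 := (le_div_iff₀ (by positivity)).2 r2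
  have c : (10:ℝ) ^ 32 * (1 / 10 ^ 130) ^ 2 = 1 / 10 ^ 228 := by norm_num
  calc 10 ^ 32 * q * (ξ ^ 2 * RR K ξ) ^ 2 = 10 ^ 32 * q * ξ ^ 4 * RR K ξ ^ 2 := by ring
    _ ≤ 10 ^ 32 * q * ξ ^ 4 * ((1 / 10 ^ 130) ^ 2 / (1 + ξ) ^ 6) := by gcongr
    _ = (10 ^ 32 * (1 / 10 ^ 130) ^ 2) * (q * ξ ^ 3 / (1 + ξ) ^ 6) * ξ := by
        generalize ((1:ℝ) / 10 ^ 130) ^ 2 = A
        generalize (10:ℝ) ^ 32 = B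
        ring
    _ ≤ (10 ^ 32 * (1 / 10 ^ 130) ^ 2) * (β / (1 + ξ) ^ 2) * ξ := by gcongr
    _ = _ := by
        rw [c]
        generalize (10:ℝ) ^ 228 = B
        ring

theorem pt_fine {K : Cert} (X : Cut) {l κ ε β : ℝ} {p m : ℝ → ℕ → ℝ} (h : Jet1 l m) (hp : PsiS p)
    (hT : Trap l m (eta ^ 2)) (hκ : 0 ≤ κ) (hκ' : κ ≤ kk) (hε : 0 ≤ ε) (hε' : ε ≤ eps2)
    {ξ : ℝ} (h0 : 0 < ξ) (h1 : l * ξ ≤ 1 / 4)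
    (hβ : p ξ 0 * ξ ^ 3 / (1 + ξ) ^ 6 ≤ β / (1 + ξ) ^ 2) :
    PT K X l κ p ε m ξ / ξ ≤ -(κ / 2 - ε) * (om X l p ξ * nn m ξ) - 5 / 8 * (p ξ 0 * dd m ξ)
      + 10 ^ 38 * (p ξ 0 * (ξ * sc m ξ 1 ^ 2 * (sc m ξ 1 ^ 2 + sc m ξ 2 ^ 2)))
      + β / 10 ^ 228 * (1 / (1 + ξ) ^ 2) := by
  obtain ⟨c0, c1, c2⟩ := X.one _ h1
  have p0 := (hp.pos ξ h0).1
  obtain ⟨v0, v1, -⟩ := vp_pos h0
  have e0 : om X l p ξ = p ξ 0 := by rw [om, c0, one_mul]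
  have e1 : omd X l p ξ = ξ * p ξ 1 := by rw [omd, c0, c1]; ring
  have e2 : omdd X l p ξ = ξ ^ 2 * p ξ 2 := by rw [omdd, c0, c1, c2]; ring
  have e3 : cc K X l p ξ = 0 := by rw [cc, c1]; ring
  have e4 : ccd K X l p ξ = 0 := by rw [ccd, c1, c2]; ring
  have w0 : 0 ≤ ξ / (1 + ξ) ^ 2 := by positivity
  have w1 : ξ / (1 + ξ) ^ 2 ≤ vp ξ := by
    rw [vp]
    gcongr
    nlinarith
  obtain ⟨g1, g2, g3, g4⟩ := K.bg1 ξ h0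
  have g5 : |K.g1 ξ 0| ≤ 10 ^ 14 := by rwa [abs_of_nonneg (by linarith)]
  have hY1 : |YY1 K ξ| * (1 + ξ) ^ 3 ≤ 10 ^ 6 * ξ := by
    have := mul_le_mul_of_nonneg_right (K.bY1 ξ h0.le) h0.le
    rw [YY1, abs_mul, abs_neg, abs_of_pos h0]
    linarith
  have hh : |ε * vp ξ| ≤ eps2 * vp ξ ∧ |ε * (ξ / (1 + ξ) ^ 2)| ≤ eps2 * vp ξ := by
    rw [abs_of_nonneg (mul_nonneg hε v0.le), abs_of_nonneg (mul_nonneg hε w0)]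
    exact ⟨mul_le_mul_of_nonneg_right hε' v0.le, mul_le_mul hε' w1 w0 (hε.trans hε')⟩
  have A := alg_fine (Y := YY K ξ) (R := RR K ξ) (qd := K.qd ξ) h0 (K.bY ξ h0.le) hY1
    (point_SW K h0) p0 (hp.b1 ξ h0) (hp.b2 ξ h0) ⟨g5, g3, g4⟩ (K.bg0 ξ h0) hh
    (fun i => (K.bq i ξ h0).1) (fun i hi => (K.bq0 i ξ hi h0).1) (h.n_le hT h0 h1)
    (K.main ξ h0 (sc m ξ))
  have B : GT ξ 1 (gam κ p ξ) (gamd κ p ξ) (K.g1 ξ 0) (K.g0 ξ 0) (ε * vp ξ) K.ct (sc m ξ) ≤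
      -(κ / 2) * p ξ 0 * (ξ ^ 2 * (sc m ξ 0 ^ 2 + sc m ξ 1 ^ 2)) +
        1 / 8 * p ξ 0 * NQ ξ (sc m ξ) := by
    rcases le_total ξ K.xt with hx | hx
    · refine alg_core h0 (hx.trans K.hxt') p0 (hp.b1 ξ h0) hκ hκ' hε hε' K.hct K.ct_le g5 ?_
      exact (K.bg0 ξ h0).1.trans (mul_le_of_le_one_right (by norm_num) v1)
    · obtain ⟨t1, -, -, t2, -⟩ := K.tail ξ hx
      have := alg_tail (a := sc m ξ) (K.hxt.trans hx) zero_le_one p0 (hp.b1 ξ h0) hκ hε K.hct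
        K.ct_le
      rw [one_mul] at this
      rw [t1, t2]
      refine this.trans (le_add_of_nonneg_right ?_)
      have := point_NQ h0 (sc m ξ)
      positivity
  have C : ξ ^ 2 / 2 * p ξ 0 * (ε * (ξ / (1 + ξ) ^ 2)) * sc m ξ 0 ^ 2 ≤
      ε * p ξ 0 * (ξ ^ 2 * (sc m ξ 0 ^ 2 + sc m ξ 1 ^ 2)) := by
    calc ξ ^ 2 / 2 * p ξ 0 * (ε * (ξ / (1 + ξ) ^ 2)) * sc m ξ 0 ^ 2
        ≤ ξ ^ 2 * p ξ 0 * (ε * 1) * (sc m ξ 0 ^ 2 + sc m ξ 1 ^ 2) := by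
          gcongr
          · linarith [sq_nonneg ξ]
          · exact w1.trans v1
          · linarith [sq_nonneg (sc m ξ 1)]
      _ = _ := by ring
  have D := point_res K h0 p0 hβ
  have E : dd m ξ * ξ = NQ ξ (sc m ξ) := div_mul_cancel₀ _ h0.ne'
  rw [div_le_iff₀ h0, PT, e0, e1, e2, e3, e4, c0, ee, nn]
  generalize (10:ℝ) ^ 38 = c38 at *
  generalize (10:ℝ) ^ 32 * p ξ 0 * (ξ ^ 2 * RR K ξ) ^ 2 = c32 at *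
  generalize β / 10 ^ 228 = c228 at *
  rw [← E] at A B
  linarith

end Vale.Agent.P264
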