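import Vale.Agent.P264.C.Defs

/-!
# P264 C/PsiA  (TASK; notes/P264.md section C, notes/P264C.md)

The cut-off and the two weight families.  `exists_Cut`: `χ x = θ((x - 1/4) / h)^4`, `θ = 1 - Real.smoothTransition` (or any `C²` choice); `θ', θ''` are
bounded (continuous, zero outside `[0,1]`).  `exists_Ps`: `P z = (z / (1 + z²))^kk`, `z P' = kk (1 - z²)/(1 + z²) P`.
`dbl` follows from the explicit formulas (`(5/2)^kk ≤ 2`, ...) or from `b1`.
`psiD_scale`: `lam' = -lam / 2`.  `beta_scale`: `z = (lam s / r) ξ`: `P z ≤ y⁻¹ (1 + ξ)` and `P z ≤ y (1 + ξ) / ξ`;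
`min y y⁻¹ ≤ 2 y / (1 + y²)` for `y = (lam s / r)^(-kk) = r^kk exp (kk s / 2)`.
-/

open Set MeasureTheory Filter Topology

noncomputable section

namespace Vale.Agent.P264

theorem lam_pos (s : ℝ) : 0 < lam s := Real.exp_pos _

theorem lam_sq (s : ℝ) : lam s ^ 2 = Real.exp (-s) := by
  rw [lam, sq, ← Real.exp_add, add_halves]

theorem lam_anti {s s' : ℝ} (h : s ≤ s') : lam s' ≤ lam s :=
  Real.exp_le_exp.2 (by linarith)

theorem hasDerivAt_lam (s : ℝ) : HasDerivAt lam (-lam s / 2) s :=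
  (((hasDerivAt_id s).neg.div_const 2).exp).congr_deriv (by simp [lam]; ring)

theorem continuous_lam : Continuous lam :=
  continuous_iff_continuousAt.2 fun s => (hasDerivAt_lam s).continuousAt

theorem vp_pos {ξ : ℝ} (h : 0 < ξ) : 0 < vp ξ ∧ vp ξ ≤ 1 ∧ vp ξ ≤ ξ := by
  have h1 : 0 < 1 + ξ := by linarith
  refine ⟨div_pos h h1, (div_le_one h1).2 (by linarith), div_le_self h.le (by linarith)⟩

theorem hasDerivAt_vp {ξ : ℝ} (h : 0 < ξ) : HasDerivAt vp (1 / (1 + ξ) ^ 2) ξ := by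
  have h1 : (1 + ξ) ≠ 0 := by linarith
  exact ((hasDerivAt_id ξ).div ((hasDerivAt_id ξ).const_add 1) h1).congr_deriv (by simp)

theorem Cert.ct_le (K : Cert) : K.ct ≤ 10 ^ 14 := by
  have h := (K.bg1 K.xt (by linarith [K.hxt])).2.1
  rwa [(K.tail K.xt le_rfl).1] at h

theorem exists_Cut {h : ℝ} (h0 : 0 < h) (h1 : h ≤ 1 / 8) : ∃ X : Cut, X.h = h := by
  obtain ⟨g, hg⟩ : ∃ g : ℝ → ℝ, g = fun x => Real.smoothTransition (2 - 2 * (x - 1 / 4) / h) :=
    ⟨_, rfl⟩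
  have c0 : ContDiff ℝ 2 g := by
    rw [hg]
    exact Real.smoothTransition.contDiff.comp (by fun_prop)
  have c1 : ContDiff ℝ 1 (deriv g) := c0.deriv'
  have c2 : Continuous (deriv (deriv g)) := c1.continuous_deriv le_rfl
  have d0 : ∀ x, HasDerivAt g (deriv g x) x := fun x =>
    (c0.differentiable (by norm_num) x).hasDerivAt
  have d1 : ∀ x, HasDerivAt (deriv g) (deriv (deriv g) x) x := fun x =>
    (c1.differentiable (by norm_num) x).hasDerivAt
  have r0 : ∀ x, 0 ≤ g x ∧ g x ≤ 1 := fun x => by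
    rw [hg]
    exact ⟨Real.smoothTransition.nonneg _, Real.smoothTransition.le_one _⟩
  have an : Antitone g := fun x y hxy => by
    rw [hg]
    refine Real.smoothTransition.monotone ?_
    have := div_le_div_of_nonneg_right (show 2 * (x - 1 / 4) ≤ 2 * (y - 1 / 4) by linarith) h0.le
    linarith
  have o1 : ∀ x, x ≤ 1 / 4 → g x = 1 ∧ deriv g x = 0 ∧ deriv (deriv g) x = 0 := fun x hx => by
    have e : g =ᶠ[𝓝 x] fun _ => 1 := by
      filter_upwards [Iio_mem_nhds (show x < 1 / 4 + h / 2 by linarith)] with y hy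
      rw [hg]
      refine Real.smoothTransition.one_of_one_le ?_
      have : 2 * (y - 1 / 4) / h ≤ 1 := (div_le_one h0).2 (by linarith [mem_Iio.1 hy])
      linarith
    refine ⟨e.self_of_nhds, by simpa using e.deriv_eq, by simpa using e.deriv.deriv_eq⟩
  have z1 : ∀ x, 1 / 4 + h ≤ x → g x = 0 := fun x hx => by
    rw [hg]
    refine Real.smoothTransition.zero_of_nonpos ?_
    have : 2 ≤ 2 * (x - 1 / 4) / h := (le_div_iff₀ h0).2 (by linarith)
    linarith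
  have k0 := c0.continuous
  have k1 := c1.continuous
  obtain ⟨M, hM⟩ := (isCompact_Icc (a := (1 / 4 : ℝ)) (b := 1 / 4 + h)).exists_bound_of_continuousOn
    (f := fun x => 16 * g x ^ 2 * deriv g x ^ 2
      + (12 * deriv g x ^ 2 + 4 * g x * deriv (deriv g) x) ^ 2) (by fun_prop)
  refine ⟨⟨h, max 1 M, fun x j => if j = 0 then g x ^ 4 else if j = 1 then 4 * g x ^ 3 * deriv g x
    else 12 * g x ^ 2 * deriv g x ^ 2 + 4 * g x ^ 3 * deriv (deriv g) x, h0, h1, le_max_left _ _,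
    fun j x hj => ?_, ?_, fun x hx => ?_, fun x hx => ?_, fun x => ?_, fun x => ?_⟩, rfl⟩
  · obtain rfl | rfl : j = 0 ∨ j = 1 := by omega
    · exact ((d0 x).fun_pow 4).congr_deriv (by simp)
    · exact ((((d0 x).fun_pow 3).const_mul 4).fun_mul (d1 x)).congr_deriv (by simp; ring)
  · show Continuous fun x => 12 * g x ^ 2 * deriv g x ^ 2 + 4 * g x ^ 3 * deriv (deriv g) x
    fun_prop
  · simp [o1 x hx]
  · simp [z1 x hx]
  · exact ⟨pow_nonneg (r0 x).1 4, pow_le_one₀ (r0 x).1 (r0 x).2,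
      mul_nonpos_of_nonneg_of_nonpos (mul_nonneg (by norm_num) (pow_nonneg (r0 x).1 3))
        an.deriv_nonpos⟩
  · show (4 * g x ^ 3 * deriv g x) ^ 2 ≤ max 1 M * g x ^ 4 ∧
      (12 * g x ^ 2 * deriv g x ^ 2 + 4 * g x ^ 3 * deriv (deriv g) x) ^ 2 ≤ max 1 M * g x ^ 4
    have m0 : (0:ℝ) ≤ max 1 M := zero_le_one.trans (le_max_left _ _)
    rcases le_total x (1 / 4) with hx | hx
    · simp [o1 x hx]
    rcases le_total (1 / 4 + h) x with hx' | hx'
    · simp [z1 x hx']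
    have a1 := ((le_abs_self _).trans (hM x ⟨hx, hx'⟩)).trans (le_max_right 1 M)
    have a2 : 0 ≤ 16 * g x ^ 2 * deriv g x ^ 2 := by positivity
    have a3 := sq_nonneg (12 * deriv g x ^ 2 + 4 * g x * deriv (deriv g) x)
    have a4 : 0 ≤ g x ^ 4 := pow_nonneg (r0 x).1 4
    constructor
    · exact (le_of_eq (by ring)).trans
        (mul_le_mul_of_nonneg_right ((le_add_of_nonneg_right a3).trans a1) a4)
    · exact (le_of_eq (by ring)).trans
        (mul_le_mul_of_nonneg_right ((le_add_of_nonneg_left a2).trans a1) a4)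

theorem Cut.abs_le (X : Cut) (x : ℝ) : |X.c x 1| ≤ X.M ∧ |X.c x 2| ≤ X.M := by
  have h1 := X.M1
  have h2 := X.rg x
  have h3 : X.M * X.c x 0 ≤ X.M ^ 2 := by nlinarith [h2.2.1]
  exact ⟨abs_le_of_sq_le_sq' ((X.sq x).1.trans h3) (by linarith) |> _root_.abs_le.2,
    abs_le_of_sq_le_sq' ((X.sq x).2.trans h3) (by linarith) |> _root_.abs_le.2⟩

theorem PsiA_kk : 0 < kk ∧ kk ≤ 1 / 4000 := by norm_num [kk]

theorem PsiA_one {ξ : ℝ} (h : 0 < ξ) : ξ * psi0 ξ 1 = -kk * vp ξ * psi0 ξ 0 := by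
  have h1 : 0 < 1 + ξ := by linarith
  show ξ * (-kk * (1 + ξ) ^ (-kk - 1)) = -kk * (ξ / (1 + ξ)) * (1 + ξ) ^ (-kk)
  rw [Real.rpow_sub_one h1.ne']
  ring

theorem PsiA_two {ξ : ℝ} (h : 0 < ξ) :
    ξ ^ 2 * psi0 ξ 2 = kk * (kk + 1) * vp ξ ^ 2 * psi0 ξ 0 := by
  have h1 : 0 < 1 + ξ := by linarith
  show ξ ^ 2 * (kk * (kk + 1) * (1 + ξ) ^ (-kk - 2)) =
    kk * (kk + 1) * (ξ / (1 + ξ)) ^ 2 * (1 + ξ) ^ (-kk)
  rw [Real.rpow_sub h1, Real.rpow_two, div_pow]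
  ring

theorem psiD_psi0 : PsiD (kk / 2) fun _ => psi0 := by
  have k := PsiA_kk
  have p0 : ∀ ξ, 0 < ξ → 0 < psi0 ξ 0 := fun ξ h => Real.rpow_pos_of_pos (by linarith) _
  refine ⟨by linarith [k.1], by linarith [k.1], fun _ => ⟨fun j ξ hj h => ?_, fun ξ h =>
    ⟨p0 ξ h, Real.rpow_le_one_of_one_le_of_nonpos (by linarith) (by linarith [k.1])⟩,
    fun ξ h => ?_, fun ξ h => ?_, fun ξ ξ' h h' a b => ?_⟩, fun s ξ h => ?_⟩
  · have h1 : (1 + ξ) ≠ 0 := by linarith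
    obtain rfl | rfl : j = 0 ∨ j = 1 := by omega
    · exact (((hasDerivAt_id ξ).const_add 1).rpow_const (p := -kk) (Or.inl h1)).congr_deriv
        (by simp [psi0])
    · refine ((((hasDerivAt_id ξ).const_add 1).rpow_const (p := -kk - 1) (Or.inl h1)).const_mul
        (-kk)).congr_deriv ?_
      show _ = kk * (kk + 1) * (1 + ξ) ^ (-kk - 2)
      rw [show -kk - 2 = -kk - 1 - 1 by ring, id]
      ring
  · have v := vp_pos h
    have a := mul_pos k.1 (p0 ξ h)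
    rw [PsiA_one h, abs_le]
    constructor <;> nlinarith [mul_pos a v.1, mul_le_mul_of_nonneg_left v.2.1 a.le]
  · have v := vp_pos h
    have a := mul_pos k.1 (p0 ξ h)
    have b : vp ξ ^ 2 ≤ 1 := pow_le_one₀ v.1.le v.2.1
    have c : (kk + 1) * vp ξ ^ 2 ≤ 4 := by nlinarith [k.1, k.2, sq_nonneg (vp ξ)]
    have d := p0 ξ h
    have e := k.1
    rw [PsiA_two h, abs_of_nonneg (by positivity)]
    nlinarith [mul_le_mul_of_nonneg_left c a.le]
  · show (1 + ξ) ^ (-kk) ≤ 2 * (1 + ξ') ^ (-kk)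
    have a1 : (2 * (1 + ξ)) ^ (-kk) ≤ (1 + ξ') ^ (-kk) :=
      Real.rpow_le_rpow_of_nonpos (by linarith) (by linarith) (by linarith [k.1])
    have a2 : (2:ℝ) ^ (-1 : ℝ) ≤ 2 ^ (-kk) :=
      Real.rpow_le_rpow_of_exponent_le one_le_two (by linarith [k.2])
    rw [Real.mul_rpow zero_le_two (by linarith)] at a1
    rw [Real.rpow_neg_one] at a2
    have a3 : 0 < (1 + ξ) ^ (-kk) := p0 ξ h
    nlinarith [mul_le_mul_of_nonneg_right a2 a3.le]
  · refine (hasDerivAt_const s (psi0 ξ 0)).congr_deriv ?_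
    rw [PsiA_one h]
    ring

theorem psi0_ge {ξ : ℝ} (h : 0 < ξ) : 1 - kk * ξ ≤ psi0 ξ 0 := by
  have h1 : 0 < 1 + ξ := by linarith
  show _ ≤ (1 + ξ) ^ (-kk)
  rw [Real.rpow_def_of_pos h1]
  have a := Real.add_one_le_exp (Real.log (1 + ξ) * -kk)
  have b := mul_le_mul_of_nonneg_left (Real.log_le_sub_one_of_pos h1) PsiA_kk.1.le
  linarith

theorem psi0_half {ξ : ℝ} (h : 0 < ξ) (h' : ξ ≤ 2000) : 1 / 2 ≤ psi0 ξ 0 := by
  have a := psi0_ge h
  have k := PsiA_kk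
  nlinarith [mul_le_mul k.2 h' h.le (by norm_num)]

theorem PsiS.beta_one {p : ℝ → ℕ → ℝ} (hp : PsiS p) {ξ : ℝ} (h : 0 < ξ) :
    p ξ 0 * ξ ^ 3 / (1 + ξ) ^ 6 ≤ 1 / (1 + ξ) ^ 2 := by
  have a := hp.pos ξ h
  have h1 : 0 < 1 + ξ := by linarith
  have b : ξ ^ 3 ≤ (1 + ξ) ^ 3 := pow_le_pow_left₀ h.le (by linarith) 3
  have c : (1 + ξ) ^ 3 ≤ (1 + ξ) ^ 4 := pow_le_pow_right₀ (by linarith) (by norm_num)
  have d : p ξ 0 * ξ ^ 3 ≤ (1 + ξ) ^ 4 :=
    (mul_le_of_le_one_left (by positivity) a.2).trans (b.trans c)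
  rw [div_le_div_iff₀ (by positivity) (by positivity)]
  exact (mul_le_mul_of_nonneg_right d (by positivity)).trans_eq (by ring)

end Vale.Agent.P264
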