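import Vale.Agent.P264.Cert
import Vale.Agent.P264.C.C1

/-!
# P264 C/SMain  (block C1, S-level estimates; notes/P264.md section C1)

Interface of C1.  `JJ` and `Ca` are defined in `C/C1`, where the estimates are proved.
-/

open Set MeasureTheory

namespace Vale.Agent.P264

/-- Crude bounds on `[1/4, 1/2]` at time `t`. -/
def Crude (S : Sol) (C t : ℝ) : Prop :=
  (∀ x ∈ Icc (1 / 4 : ℝ) (1 / 2), |S.w t x 0| ≤ C ∧ |S.w t x 1| ≤ C) ∧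
    ∫ x in (1 / 4 : ℝ)..(1 / 2), S.w t x 2 ^ 2 ≤ C

/-- C1 (a). -/
theorem crude_bound (Ca0 : ℝ) :
    ∃ C : ℝ, 1 ≤ C ∧ ∀ S : Sol, Ca S 0 ≤ Ca0 → ∀ t, 0 ≤ t → Crude S C t := by
  obtain ⟨C, h1, h2⟩ := c1_a Ca0
  exact ⟨C, h1, fun S hS t ht => h2 S hS t ht⟩

/-- C1 (b). -/
theorem stab_bound (S' : Sol) (t1 e ε : ℝ) (he : 0 < e) (hε : 0 < ε) :
    ∃ δ : ℝ, 0 < δ ∧ ∀ S : Sol, JJ S S' 0 ≤ δ → ∀ t' ∈ Icc (0:ℝ) t1,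
      (∀ t ∈ Icc (0:ℝ) t', ∀ x ∈ Ioc (0:ℝ) (1 / 4), 1 / 40 ≤ 1 - x * S.w t x 0) →
      ∀ t ∈ Icc (0:ℝ) t', ∀ x ∈ Icc e (1 / 2),
        |S.w t x 0 - S'.w t x 0| ≤ ε ∧ |S.w t x 1 - S'.w t x 1| ≤ ε := by
  obtain ⟨δ, h1, h2⟩ := c1_b S' t1 e ε he hε
  exact ⟨δ, h1, fun S hS t' ht' hy t ht x hx =>
    h2 S hS t' ht' hy t ht x ⟨hx.1, hx.2.trans_lt (by norm_num)⟩⟩

end Vale.Agent.P264
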