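import Vale.Agent.P264.C.Integ

/-!
# P264 C/StatA  (TASK; notes/P264.md section C, notes/P264C.md)

Static facts I.  `En_eq`: the flux `ct om ξ² a0²` vanishes at both ends (`flux_le` for both signs, `F = ∅`); its derivative cancels the term `cc`.
`form = g1 a1² + (g0 + 2 ct) a0² + 2 ct a0 a1 + ct (ξ p'/p) a0²` lies in `[-3B, 5B] (a0² + a1²)`, and is `≥ a0² + a1²` for `ξ ≥ xt` (`K.tail`, `a1² + 2 a0 a1 + 3/2 a0² ≥ 21/100 (a0² + a1²)`).
`loc_le_far`: pointwise `ξ om form ≥ 1_{[u/2,u]} nn / 4 - 6 B om(p) nn` (for `ξ ≤ xt`: `pr ≤ 1 ≤ 2 p`).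
-/

open Set MeasureTheory Filter Topology

noncomputable section

namespace Vale.Agent.P264

variable {l : ℝ} {p m : ℝ → ℕ → ℝ}

/-- The integrand of `En_eq`. -/
def StatA_T (K : Cert) (X : Cut) (l : ℝ) (p m : ℝ → ℕ → ℝ) (ξ : ℝ) : ℝ :=
  ξ * (om X l p ξ * K.g1 ξ 0 * sc m ξ 1 ^ 2
      + (om X l p ξ * (K.g0 ξ 0 + 2 * K.ct) + K.ct * X.c (l * ξ) 0 * (ξ * p ξ 1)) * sc m ξ 0 ^ 2
      + 2 * K.ct * om X l p ξ * (sc m ξ 0 * sc m ξ 1))

def StatA_phi (K : Cert) (X : Cut) (l : ℝ) (p m : ℝ → ℕ → ℝ) (ξ : ℝ) : ℝ :=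
  ξ * ((0:ℝ) * sc m ξ 1 ^ 2 + K.ct * (2 * om X l p ξ + omd X l p ξ) * sc m ξ 0 ^ 2
      + 2 * K.ct * om X l p ξ * (sc m ξ 0 * sc m ξ 1))

theorem StatA_L (hl : 0 < l) : 0 < 1 / (2 * l) ∧ l * (1 / (2 * l)) = 1 / 2 := by
  refine ⟨by positivity, ?_⟩
  field_simp

theorem StatA_le {ξ : ℝ} (hl : 0 < l) (h : ξ ≤ 1 / (2 * l)) : l * ξ ≤ 1 / 2 := by
  rw [← (StatA_L hl).2]
  exact mul_le_mul_of_nonneg_left h hl.le

theorem StatA_kk : 0 < kk ∧ kk ≤ 1 / 100 := by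
  unfold kk
  constructor <;> norm_num

theorem StatA_e (X : Cut) (hp : PsiS p) {ξ : ℝ} (h0 : 0 < ξ) :
    |X.c (l * ξ) 0 * (ξ * p ξ 1)| ≤ kk * om X l p ξ := by
  have h1 := (X.rg (l * ξ)).1
  rw [abs_mul, abs_of_nonneg h1]
  have := mul_le_mul_of_nonneg_left (hp.b1 ξ h0) h1
  unfold om
  linarith

theorem StatA_ct (K : Cert) : 0 ≤ K.ct := le_trans (by norm_num) K.hct

theorem StatA_ii_phi (K : Cert) (X : Cut) (h : Jet1 l m) (hp : PsiS p) :
    IntervalIntegrable (StatA_phi K X l p m) volume 0 (1 / (2 * l)) := by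
  have hl := h.l0
  have hc := cont_G K X l 0 0 hp
  have hct := StatA_ct K
  have hM := X.M1
  refine h.ii_quad (A := fun _ => 0) (B := fun ξ => K.ct * (2 * om X l p ξ + omd X l p ξ))
    (D := fun ξ => 2 * K.ct * om X l p ξ) (C := K.ct * (3 + X.M)) continuousOn_const
    (continuousOn_const.mul ((continuousOn_const.mul hc.1).add hc.2.1))
    (continuousOn_const.mul hc.1) ?_ le_rfl (StatA_L hl).1.le (StatA_L hl).2.le
  intro ξ h0 h1
  obtain ⟨o0, -, o1⟩ := om_range X l hp h0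
  have he := StatA_e (l := l) X hp h0
  have hk := StatA_kk
  have hp0 := hp.pos ξ h0
  have hc1 := (X.abs_le (l * ξ)).1
  have hlx : 0 < l * ξ := mul_pos hl h0
  have h2 : |l * ξ * X.c (l * ξ) 1 * p ξ 0| ≤ X.M := by
    rw [abs_mul, abs_mul, abs_of_pos hlx, abs_of_pos hp0.1]
    have h3 : l * ξ * |X.c (l * ξ) 1| ≤ 1 * X.M :=
      mul_le_mul (by linarith) hc1 (abs_nonneg _) (by norm_num)
    have h4 : l * ξ * |X.c (l * ξ) 1| * p ξ 0 ≤ 1 * X.M * 1 :=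
      mul_le_mul h3 hp0.2 hp0.1.le (by linarith)
    linarith
  have h5 : kk * om X l p ξ ≤ 1 := by nlinarith
  have h6 : |omd X l p ξ| ≤ X.M + 1 := by
    unfold omd
    refine (abs_add_le _ _).trans ?_
    linarith
  refine ⟨?_, ?_, ?_⟩
  · rw [abs_zero]
    positivity
  · rw [abs_mul, abs_of_nonneg hct]
    refine mul_le_mul_of_nonneg_left ?_ hct
    have := abs_le.1 h6
    rw [abs_le]
    constructor <;> linarith [this.1, this.2]
  · rw [abs_of_nonneg (by positivity)]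
    nlinarith

theorem StatA_T_eq (K : Cert) (X : Cut) (ξ : ℝ) :
    StatA_T K X l p m ξ = ed K X l p 0 m ξ + StatA_phi K X l p m ξ := by
  unfold StatA_T StatA_phi ed G1 G0 cc omd
  ring

theorem StatA_ii_T (K : Cert) (X : Cut) (h : Jet1 l m) (hp : PsiS p) :
    IntervalIntegrable (StatA_T K X l p m) volume 0 (1 / (2 * l)) := by
  have hl := h.l0
  have h1 := (h.ii_ed K X hp 0 le_rfl (StatA_L hl).1.le (StatA_L hl).2.le).add
    (StatA_ii_phi K X h hp)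
  have : StatA_T K X l p m = fun ξ => ed K X l p 0 m ξ + StatA_phi K X l p m ξ :=
    funext fun ξ => StatA_T_eq K X ξ
  rw [this]
  exact h1

theorem StatA_phi_zero (K : Cert) (X : Cut) (h : Jet1 l m) (hp : PsiS p) :
    ∫ ξ in (0:ℝ)..(1 / (2 * l)), StatA_phi K X l p m ξ = 0 := by
  have hl := h.l0
  have hL := StatA_L hl
  have hct := StatA_ct K
  set g : ℝ → ℝ := fun ξ => K.ct * (om X l p ξ * (ξ ^ 2 * sc m ξ 0 ^ 2)) with hg
  have hd : ∀ x, 0 < x → l * x < 1 → HasDerivAt g (StatA_phi K X l p m x) x := by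
    intro x h0 h1
    have d1 := d_om X l hp h0
    have d2 := h.d_sc h0 h1
    have d3 := (d1.mul ((hasDerivAt_pow 2 x).mul (d2.pow 2))).const_mul K.ct
    refine d3.congr_deriv ?_
    unfold StatA_phi
    have := h0.ne'
    simp only [Pi.mul_apply, Pi.pow_apply]
    push_cast
    field_simp
    ring
  have hcg : ContinuousOn g (Ioc 0 (1 / (2 * l))) := fun x hx =>
    (hd x hx.1 (by linarith [StatA_le hl hx.2])).continuousAt.continuousWithinAt
  have hend : g (1 / (2 * l)) = 0 := by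
    have h1 : X.c (l * (1 / (2 * l))) 0 = 0 := by
      refine (X.zero _ ?_).1
      rw [hL.2]
      linarith [X.h1]
    simp only [hg, om, h1, zero_mul, mul_zero]
  obtain ⟨C, hC⟩ := h.bd
  have h0 : Tendsto g (𝓝[>] 0) (𝓝 0) := by
    have t1 : Tendsto (fun x : ℝ => K.ct * (x ^ 2 * C ^ 2)) (𝓝[>] 0) (𝓝 0) := by
      have : Continuous fun x : ℝ => K.ct * (x ^ 2 * C ^ 2) := by fun_prop
      have t := this.tendsto 0
      simp only [ne_eq, OfNat.ofNat_ne_zero, not_false_eq_true, zero_pow, zero_mul,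
        mul_zero] at t
      exact t.mono_left nhdsWithin_le_nhds
    refine squeeze_zero_norm' ?_ t1
    filter_upwards [Ioc_mem_nhdsGT hL.1] with x hx
    obtain ⟨o0, -, o1⟩ := om_range X l hp hx.1
    have b0 := (hC x hx.1 (StatA_le hl hx.2)).1
    have b1 : sc m x 0 ^ 2 ≤ C ^ 2 := by
      rw [← sq_abs (sc m x 0)]
      exact pow_le_pow_left₀ (abs_nonneg _) b0 2
    rw [Real.norm_eq_abs, abs_of_nonneg (by simp only [hg]; positivity)]
    refine mul_le_mul_of_nonneg_left ?_ hct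
    have b2 : x ^ 2 * sc m x 0 ^ 2 ≤ x ^ 2 * C ^ 2 :=
      mul_le_mul_of_nonneg_left b1 (sq_nonneg _)
    have b3 : om X l p x * (x ^ 2 * sc m x 0 ^ 2) ≤ 1 * (x ^ 2 * sc m x 0 ^ 2) :=
      mul_le_mul_of_nonneg_right o1 (by positivity)
    linarith
  have hi := StatA_ii_phi K X h hp
  have u1 := flux_le hL.1 ∅ hcg h0 hi fun x hx _ =>
    ⟨_, hd x hx.1 (by linarith [StatA_le hl hx.2.le]), le_rfl⟩
  have u2 := flux_le (g := fun x => -g x) (φ := fun x => -StatA_phi K X l p m x) hL.1 ∅ hcg.neg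
    (by simpa using h0.neg) hi.neg fun x hx _ =>
    ⟨_, (hd x hx.1 (by linarith [StatA_le hl hx.2.le])).neg, le_rfl⟩
  rw [intervalIntegral.integral_neg] at u2
  simp only [hend] at u1 u2
  linarith

theorem StatA_En (K : Cert) (X : Cut) (h : Jet1 l m) (hp : PsiS p) :
    En K X l p 0 m = ∫ ξ in (0:ℝ)..(1 / (2 * l)), StatA_T K X l p m ξ := by
  have hl := h.l0
  simp only [StatA_T_eq]
  rw [intervalIntegral.integral_add (h.ii_ed K X hp 0 le_rfl (StatA_L hl).1.le (StatA_L hl).2.le)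
    (StatA_ii_phi K X h hp), StatA_phi_zero K X h hp, add_zero]
  rfl

theorem StatA_alg {B w g1 g0 ct e k a0 a1 : ℝ} (hw : 0 ≤ w) (h1 : 1 ≤ g1) (h1' : g1 ≤ B)
    (h0 : |g0| ≤ B) (hc : 0 ≤ ct) (hc' : ct ≤ B) (he : |e| ≤ k * w) (hk : k ≤ 1) :
    -(3 * B) * (w * (a0 ^ 2 + a1 ^ 2)) ≤
      w * g1 * a1 ^ 2 + (w * (g0 + 2 * ct) + ct * e) * a0 ^ 2 + 2 * ct * w * (a0 * a1) ∧
    w * g1 * a1 ^ 2 + (w * (g0 + 2 * ct) + ct * e) * a0 ^ 2 + 2 * ct * w * (a0 * a1) ≤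
      5 * B * (w * (a0 ^ 2 + a1 ^ 2)) := by
  have hB : 0 ≤ B := hc.trans hc'
  obtain ⟨g0l, g0u⟩ := abs_le.1 h0
  have he' : |e| ≤ w := he.trans (by nlinarith)
  obtain ⟨el, eu⟩ := abs_le.1 he'
  have s0 := sq_nonneg a0
  have s1 := sq_nonneg a1
  have p0 : 0 ≤ w * a0 ^ 2 := by positivity
  have p1 : 0 ≤ w * a1 ^ 2 := by positivity
  have c1 : ct * e * a0 ^ 2 ≤ B * (w * a0 ^ 2) := by
    have : ct * e ≤ B * w := by nlinarith
    nlinarith
  have c2 : -(B * (w * a0 ^ 2)) ≤ ct * e * a0 ^ 2 := by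
    have : -(B * w) ≤ ct * e := by nlinarith
    nlinarith
  have q1 : 0 ≤ ct * w * (a0 - a1) ^ 2 := by positivity
  have q2 : 0 ≤ ct * w * (a0 + a1) ^ 2 := by positivity
  have r0 : ct * (w * a0 ^ 2) ≤ B * (w * a0 ^ 2) := mul_le_mul_of_nonneg_right hc' p0
  have r1 : ct * (w * a1 ^ 2) ≤ B * (w * a1 ^ 2) := mul_le_mul_of_nonneg_right hc' p1
  have r2 : g1 * (w * a1 ^ 2) ≤ B * (w * a1 ^ 2) := mul_le_mul_of_nonneg_right h1' p1
  have r3 : 0 ≤ g1 * (w * a1 ^ 2) := mul_nonneg (by linarith) p1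
  have r4 : g0 * (w * a0 ^ 2) ≤ B * (w * a0 ^ 2) := mul_le_mul_of_nonneg_right g0u p0
  have r5 : -B * (w * a0 ^ 2) ≤ g0 * (w * a0 ^ 2) := mul_le_mul_of_nonneg_right g0l p0
  have r6 : 0 ≤ ct * (w * a0 ^ 2) := mul_nonneg hc p0
  have r7 : 0 ≤ B * (w * a1 ^ 2) := mul_nonneg hB p1
  constructor <;> nlinarith

theorem StatA_alg2 {w ct e k a0 a1 : ℝ} (hw : 0 ≤ w) (hc : 5 ≤ ct) (he : |e| ≤ k * w)
    (hk : k ≤ 1 / 100) :
    w * (a0 ^ 2 + a1 ^ 2) ≤
      w * ct * a1 ^ 2 + (w * (-ct / 2 + 2 * ct) + ct * e) * a0 ^ 2 + 2 * ct * w * (a0 * a1) := by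
  have he' : |e| ≤ w / 100 := he.trans (by nlinarith)
  obtain ⟨el, -⟩ := abs_le.1 he'
  have s0 := sq_nonneg a0
  have q : (a0 ^ 2 + a1 ^ 2) / 5 ≤ a1 ^ 2 + (3 / 2 - 1 / 100) * a0 ^ 2 + 2 * (a0 * a1) := by
    nlinarith [sq_nonneg (4 * a1 + 5 * a0)]
  have c1 : -(w / 100) * a0 ^ 2 ≤ e * a0 ^ 2 := mul_le_mul_of_nonneg_right el s0
  have q1 : w * ((a0 ^ 2 + a1 ^ 2) / 5) ≤
      w * (a1 ^ 2 + (3 / 2 - 1 / 100) * a0 ^ 2 + 2 * (a0 * a1)) :=
    mul_le_mul_of_nonneg_left q hw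
  have q2 : w * ((a0 ^ 2 + a1 ^ 2) / 5) ≤
      w * a1 ^ 2 + (w * (3 / 2) + e) * a0 ^ 2 + 2 * w * (a0 * a1) := by nlinarith
  have q3 := mul_le_mul_of_nonneg_left q2 (le_trans (by norm_num) hc : (0:ℝ) ≤ ct)
  have q4 : 0 ≤ w * ((a0 ^ 2 + a1 ^ 2) / 5) := by positivity
  have q5 := mul_le_mul_of_nonneg_right hc q4
  nlinarith

theorem StatA_bd (K : Cert) (X : Cut) (hp : PsiS p) {ξ : ℝ} (h0 : 0 < ξ) :
    -(3 * 10 ^ 14) * (om X l p ξ * nn m ξ) ≤ StatA_T K X l p m ξ ∧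
      StatA_T K X l p m ξ ≤ 5 * 10 ^ 14 * (om X l p ξ * nn m ξ) := by
  have hg1 := K.bg1 ξ h0
  have hv := vp_pos h0
  have hg0 : |K.g0 ξ 0| ≤ 10 ^ 14 := by
    refine (K.bg0 ξ h0).1.trans ?_
    have : ξ / (1 + ξ) ≤ 1 := hv.2.1
    linarith
  obtain ⟨u1, u2⟩ := StatA_alg (a0 := sc m ξ 0) (a1 := sc m ξ 1) (om_range X l hp h0).1 hg1.1
    hg1.2.1 hg0 (StatA_ct K) K.ct_le (StatA_e (l := l) X hp h0) (by linarith [StatA_kk.2])
  have v1 := mul_le_mul_of_nonneg_left u1 h0.le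
  have v2 := mul_le_mul_of_nonneg_left u2 h0.le
  unfold StatA_T nn
  constructor <;> linarith

theorem StatA_tail (K : Cert) (X : Cut) (hp : PsiS p) {ξ : ℝ} (h0 : K.xt ≤ ξ) :
    om X l p ξ * nn m ξ ≤ StatA_T K X l p m ξ := by
  have hξ : 0 < ξ := by linarith [K.hxt]
  obtain ⟨t1, -, -, t0, -⟩ := K.tail ξ h0
  have u := StatA_alg2 (a0 := sc m ξ 0) (a1 := sc m ξ 1) (om_range X l hp hξ).1 K.hct
    (StatA_e (l := l) X hp hξ) StatA_kk.2
  have v := mul_le_mul_of_nonneg_left u hξ.le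
  unfold StatA_T nn
  rw [t1, t0]
  linarith

theorem StatA_loc (h : Jet1 l m) {u : ℝ} (h0 : 0 < u) (h1 : l * u ≤ 1 / 4) {F : ℝ → ℝ}
    (hF : IntervalIntegrable F volume 0 (1 / (2 * l))) (hF0 : ∀ ξ, 0 < ξ → 0 ≤ F ξ)
    (hle : ∀ ξ ∈ Icc (u / 2) u, nn m ξ ≤ F ξ) :
    Loc m u ≤ ∫ ξ in (0:ℝ)..(1 / (2 * l)), F ξ := by
  have hl := h.l0
  have hu : u ≤ 1 / (2 * l) := by
    rw [le_div_iff₀ (by positivity)]
    linarith
  have ha : (0:ℝ) ≤ u / 2 := by linarith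
  have hab : u / 2 ≤ u := by linarith
  have hF' : IntervalIntegrable F volume (u / 2) u := by
    refine hF.mono_set ?_
    rw [uIcc_of_le hab, uIcc_of_le (StatA_L hl).1.le]
    exact Icc_subset_Icc ha hu
  refine (intervalIntegral.integral_mono_on hab (h.ii_nn ha hab (by linarith)) hF' hle).trans ?_
  refine intervalIntegral.integral_mono_interval ha hab hu ?_ hF
  refine (ae_restrict_iff' measurableSet_Ioc).2 (Eventually.of_forall fun x hx => hF0 x hx.1)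

theorem StatA_one (X : Cut) (hl : 0 < l) {u ξ : ℝ} (h1 : l * u ≤ 1 / 4) (hξ : ξ ≤ u) :
    X.c (l * ξ) 0 = 1 :=
  (X.one _ ((mul_le_mul_of_nonneg_left hξ hl.le).trans h1)).1

theorem En_eq (K : Cert) (X : Cut) (h : Jet1 l m) (hp : PsiS p) :
    En K X l p 0 m = ∫ ξ in (0:ℝ)..(1 / (2 * l)), ξ * (om X l p ξ * K.g1 ξ 0 * sc m ξ 1 ^ 2
      + (om X l p ξ * (K.g0 ξ 0 + 2 * K.ct) + K.ct * X.c (l * ξ) 0 * (ξ * p ξ 1)) * sc m ξ 0 ^ 2
      + 2 * K.ct * om X l p ξ * (sc m ξ 0 * sc m ξ 1)) := by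
  exact StatA_En K X h hp

theorem abs_En_le (K : Cert) (X : Cut) (h : Jet1 l m) (hp : PsiS p) :
    |En K X l p 0 m| ≤ 5 * 10 ^ 14 * NN X l p m := by
  have hl := h.l0
  have hL := StatA_L hl
  have hi := h.ii_om_nn X hp le_rfl hL.1.le hL.2.le
  have hT := StatA_ii_T K X h hp
  have hN := NN_nonneg X hl hp m
  have u1 := intervalIntegral.integral_mono_on_of_le_Ioo hL.1.le
    (hi.const_mul (-(3 * 10 ^ 14))) hT fun x hx => (StatA_bd K X hp hx.1).1
  have u2 := intervalIntegral.integral_mono_on_of_le_Ioo hL.1.le hT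
    (hi.const_mul (5 * 10 ^ 14)) fun x hx => (StatA_bd K X hp hx.1).2
  rw [intervalIntegral.integral_const_mul] at u1 u2
  rw [StatA_En K X h hp, abs_le]
  unfold NN at hN ⊢
  constructor <;> linarith

theorem StatA_ii_eps (K : Cert) (X : Cut) (h : Jet1 l m) (hp : PsiS p) :
    IntervalIntegrable (fun ξ => om X l p ξ * (ξ * vp ξ * sc m ξ 0 ^ 2)) volume 0
      (1 / (2 * l)) := by
  have hL := StatA_L h.l0
  have h1 := (h.ii_ed K X hp 1 le_rfl hL.1.le hL.2.le).sub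
    (h.ii_ed K X hp 0 le_rfl hL.1.le hL.2.le)
  have : (fun ξ => om X l p ξ * (ξ * vp ξ * sc m ξ 0 ^ 2)) =
      fun ξ => ed K X l p 1 m ξ - ed K X l p 0 m ξ := by
    funext ξ
    unfold ed G0
    ring
  rw [this]
  exact h1

theorem En_eps (K : Cert) (X : Cut) (h : Jet1 l m) (hp : PsiS p) (ε : ℝ) :
    En K X l p ε m = En K X l p 0 m +
      ε * ∫ ξ in (0:ℝ)..(1 / (2 * l)), om X l p ξ * (ξ * vp ξ * sc m ξ 0 ^ 2) := by
  have hL := StatA_L h.l0
  have e : ∀ ξ, ed K X l p ε m ξ =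
      ed K X l p 0 m ξ + ε * (om X l p ξ * (ξ * vp ξ * sc m ξ 0 ^ 2)) := by
    intro ξ
    unfold ed G0
    ring
  unfold En
  simp only [e]
  rw [intervalIntegral.integral_add (h.ii_ed K X hp 0 le_rfl hL.1.le hL.2.le)
    ((StatA_ii_eps K X h hp).const_mul ε), intervalIntegral.integral_const_mul]

theorem En_eps_le (K : Cert) (X : Cut) (h : Jet1 l m) (hp : PsiS p) {ε : ℝ} (hε : 0 ≤ ε) :
    En K X l p 0 m ≤ En K X l p ε m ∧ En K X l p ε m ≤ En K X l p 0 m + ε * NN X l p m := by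
  have hL := StatA_L h.l0
  have hi := StatA_ii_eps K X h hp
  have u1 := intervalIntegral.integral_mono_on_of_le_Ioo (f := fun _ => (0:ℝ)) hL.1.le
    intervalIntegrable_const hi fun x hx => by
      have := (om_range X l hp hx.1).1
      have := (vp_pos hx.1).1
      have := hx.1
      positivity
  have u2 := intervalIntegral.integral_mono_on_of_le_Ioo hL.1.le hi
    (h.ii_om_nn X hp le_rfl hL.1.le hL.2.le) fun x hx => by
      refine mul_le_mul_of_nonneg_left ?_ (om_range X l hp hx.1).1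
      have hv := (vp_pos hx.1).2.1
      have hx0 := hx.1
      have a1 : vp x * sc m x 0 ^ 2 ≤ sc m x 0 ^ 2 + sc m x 1 ^ 2 := by
        nlinarith [sq_nonneg (sc m x 0), sq_nonneg (sc m x 1)]
      have a2 := mul_le_mul_of_nonneg_left a1 hx0.le
      unfold nn
      linarith
  simp only [intervalIntegral.integral_zero] at u1
  rw [En_eps K X h hp ε]
  have v1 := mul_nonneg hε u1
  have v2 := mul_le_mul_of_nonneg_left u2 hε
  unfold NN
  constructor <;> linarith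

theorem NN_le_N1 (X : Cut) (h : Jet1 l m) (hp : PsiS p) : NN X l p m ≤ N1 X l m := by
  have hL := StatA_L h.l0
  exact intervalIntegral.integral_mono_on_of_le_Ioo hL.1.le
    (h.ii_om_nn X hp le_rfl hL.1.le hL.2.le) (h.ii_c_nn X le_rfl hL.1.le hL.2.le) fun x hx =>
      mul_le_mul_of_nonneg_right (om_range X l hp hx.1).2.1 (nn_nonneg m hx.1.le)

theorem loc_le_N1 (X : Cut) (h : Jet1 l m) {u : ℝ} (h0 : 0 < u) (h1 : l * u ≤ 1 / 4) :
    Loc m u ≤ N1 X l m := by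
  have hL := StatA_L h.l0
  refine StatA_loc h h0 h1 (h.ii_c_nn X le_rfl hL.1.le hL.2.le)
    (fun ξ hξ => mul_nonneg (X.rg _).1 (nn_nonneg m hξ.le)) fun ξ hξ => ?_
  rw [StatA_one X h.l0 h1 hξ.2, one_mul]

theorem loc_le_near (X : Cut) (h : Jet1 l m) {u : ℝ} (h0 : 0 < u) (h1 : l * u ≤ 1 / 4)
    (h2 : u ≤ 2000) : Loc m u ≤ 2 * NN X l psi0 m := by
  have hL := StatA_L h.l0
  have hp : PsiS psi0 := psiD_psi0.st 0
  have := StatA_loc h h0 h1 ((h.ii_om_nn X hp le_rfl hL.1.le hL.2.le).const_mul 2)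
    (fun ξ hξ => mul_nonneg (by norm_num)
      (mul_nonneg (om_range X l hp hξ).1 (nn_nonneg m hξ.le))) fun ξ hξ => by
      have hx : 0 < ξ := by linarith [hξ.1]
      have a1 := psi0_half hx (hξ.2.trans h2)
      have a2 := mul_le_mul_of_nonneg_right a1 (nn_nonneg m hx.le)
      unfold om
      rw [StatA_one X h.l0 h1 hξ.2]
      linarith
  rw [intervalIntegral.integral_const_mul] at this
  exact this

theorem loc_le_far (K : Cert) (X : Cut) (h : Jet1 l m) (hp : PsiS p) {u : ℝ} (h1 : l * u ≤ 1 / 4)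
    (h2 : 2 * K.xt ≤ u) (h3 : ∀ ξ ∈ Icc (u / 2) u, 1 / 4 ≤ p ξ 0) :
    Loc m u ≤ 4 * (En K X l p 0 m + 6 * 10 ^ 14 * NN X l psi0 m) := by
  have hL := StatA_L h.l0
  have hq : PsiS psi0 := psiD_psi0.st 0
  have hxt := K.hxt
  have h0 : 0 < u := by linarith
  have hi := (h.ii_om_nn X hq le_rfl hL.1.le hL.2.le).const_mul (6 * 10 ^ 14)
  have hT := StatA_ii_T K X h hp
  have := StatA_loc h h0 h1 ((hT.add hi).const_mul 4) (fun ξ hξ => by
      have n0 := nn_nonneg m hξ.le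
      have a0 := mul_nonneg (om_range X l hq hξ).1 n0
      rcases le_total K.xt ξ with hx | hx
      · have a1 := StatA_tail (l := l) (m := m) K X hp hx
        have a2 := mul_nonneg (om_range X l hp hξ).1 n0
        linarith
      · have a1 := (StatA_bd (l := l) (m := m) K X hp hξ).1
        have a2 := psi0_half hξ (by linarith [K.hxt'])
        have a3 : om X l p ξ ≤ 2 * om X l psi0 ξ := by
          refine (om_range X l hp hξ).2.1.trans ?_
          have := mul_le_mul_of_nonneg_left a2 (X.rg (l * ξ)).1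
          unfold om
          linarith
        have a4 := mul_le_mul_of_nonneg_right a3 n0
        linarith) fun ξ hξ => by
      have hx : K.xt ≤ ξ := by linarith [hξ.1]
      have hξ0 : 0 < ξ := by linarith
      have n0 := nn_nonneg m hξ0.le
      have a0 := mul_nonneg (om_range X l hq hξ0).1 n0
      have a1 := StatA_tail (l := l) (m := m) K X hp hx
      have a2 := mul_le_mul_of_nonneg_right (h3 ξ hξ) n0
      have a3 : om X l p ξ = p ξ 0 := by
        unfold om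
        rw [StatA_one X h.l0 h1 hξ.2, one_mul]
      rw [a3] at a1
      linarith
  rw [intervalIntegral.integral_const_mul, intervalIntegral.integral_add hT hi,
    intervalIntegral.integral_const_mul, ← StatA_En K X h hp] at this
  exact this

end Vale.Agent.P264
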