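import Vale.Agent.P264.C.StatA

/-!
# P264 C/StatB  (TASK; notes/P264.md section C, notes/P264C.md)

Static facts II.  `index_le`: on `(0,x1]`, `[x1,x2]`, `[x2, 1/(2l)]` apply `flux_le` / `int_le_off` to `φ = om nn / 2 - ed`, `g = r_i om ξ² a0²` (`K.index`, `K.dr`, `K.cr`, `K.br`;
`|r χ ξ p'| ≤ B kk om`; where `χ' ≠ 0` we have `ξ ≥ xt`, `r 2 = ct`, which cancels `cc`).
`hardy`: flux `ξ² (2 - ξ) a0²` on `[0,2]` gives `∫_0^2 ξ a0² ≤ 9/2 ∫_0^2 ξ vp a0² + ∫_0^2 ξ a1²`; `1/2 ≤ psi0 ≤ 1` and `χ = 1` there, `vp ≥ 2/3` beyond `2`;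
with `E0 = ∫ om ξ vp a0²`, `A1 = ∫ om ξ a1² ≤ En 0 + B E0` (`g1 ≥ 1`, `g0 ≥ -B vp`, `cc ≥ 0`) and `NN ≤ 3 A1 + 11 E0`.
`small_lo`, `small_hi`: on `(0, e]`, `χ = 1`, `cc = 0`, `|g0| ξ a0² ≤ B n²`, `n² ≤ 9 eta²`; `ξ a1² ≤ e² a1² / ξ ≤ e² dd`.
-/

open Set MeasureTheory Filter Topology

noncomputable section

namespace Vale.Agent.P264

variable {l : ℝ} {p m u : ℝ → ℕ → ℝ}

/-- The flux of the index inequality. -/
def statb_g (K : Cert) (X : Cut) (l : ℝ) (p m : ℝ → ℕ → ℝ) (i : ℕ) (ξ : ℝ) : ℝ :=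
  K.r i ξ 0 * om X l p ξ * ξ ^ 2 * sc m ξ 0 ^ 2

theorem statb_cont (K : Cert) (X : Cut) (h : Jet1 l m) (hp : PsiS p) (i : ℕ) :
    ContinuousOn (statb_g K X l p m i) {ξ | 0 < ξ ∧ l * ξ < 1} :=
  ((((K.cr i).mul (cont_G K X l 0 0 hp).1).mono fun _ hx => hx.1).mul
    (continuousOn_id.pow 2)).mul ((h.cont_sc zero_le_one).pow 2)

theorem statb_bd (K : Cert) (X : Cut) (l : ℝ) (hp : PsiS p) (m : ℝ → ℕ → ℝ) (i : ℕ) {ξ : ℝ}
    (h0 : 0 < ξ) : |statb_g K X l p m i ξ| ≤ 10 ^ 14 * ξ ^ 2 * sc m ξ 0 ^ 2 := by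
  obtain ⟨h1, -, h2⟩ := om_range X l hp h0
  rw [statb_g, abs_mul, abs_mul, abs_mul, abs_sq, abs_sq, abs_of_nonneg h1]
  gcongr
  exact (mul_le_of_le_one_right (abs_nonneg _) h2).trans (K.br i ξ h0).1

theorem statb_der (K : Cert) (X : Cut) (h : Jet1 l m) (hp : PsiS p) (hl : l * K.xt ≤ 1 / 4)
    {i : ℕ} {ξ : ℝ} (h0 : 0 < ξ) (h1 : l * ξ < 1) (hB : ξ ∉ K.Bk)
    (hi : (i = 0 ∧ ξ < K.x1) ∨ (i = 1 ∧ K.x1 ≤ ξ ∧ ξ < K.x2) ∨ (i = 2 ∧ K.x2 ≤ ξ)) :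
    ∃ g', HasDerivAt (statb_g K X l p m i) g' ξ ∧
      om X l p ξ * nn m ξ / 2 - ed K X l p 0 m ξ ≤ g' := by
  refine ⟨_, (((K.dr i ξ h0 hB).mul (d_om X l hp h0)).mul (hasDerivAt_pow 2 ξ)).mul
    ((h.d_sc h0 h1).pow 2), ?_⟩
  have h2 := mul_le_mul_of_nonneg_left (K.index i ξ h0 hi (sc m ξ 0) (sc m ξ 1))
    (om_range X l hp h0).1
  have h3 : (K.r i ξ 0 - K.ct) * X.c (l * ξ) 1 = 0 := by
    rcases le_or_gt (l * ξ) (1 / 4) with h4 | h4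
    · rw [(X.one _ h4).2.1, mul_zero]
    · have h5 : K.xt < ξ := lt_of_mul_lt_mul_left (hl.trans_lt h4) h.l0.le
      have := K.hx12
      have := K.hx2t
      obtain rfl : i = 2 := by
        rcases hi with h6 | h6 | h6
        · linarith [h6.2]
        · linarith [h6.2.2]
        · exact h6.1
      rw [(K.rtail ξ h5.le).1, sub_self, zero_mul]
  have h4 : |K.r i ξ 0 * (ξ * p ξ 1)| ≤ p ξ 0 / 2 := by
    rw [abs_mul]
    refine (mul_le_mul (K.br i ξ h0).1 (hp.b1 ξ h0) (abs_nonneg _) (by positivity)).trans ?_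
    have := (hp.pos ξ h0).1
    rw [kk]
    linarith
  have h5 := mul_le_mul_of_nonneg_right (mul_le_mul_of_nonneg_left (abs_le.1 h4).1
    (X.rg (l * ξ)).1) (sq_nonneg (sc m ξ 0))
  have h6 := mul_nonneg (om_range X l hp h0).1 (sq_nonneg (sc m ξ 1))
  have h7 : (K.r i ξ 0 - K.ct) * X.c (l * ξ) 1 * (l * ξ * p ξ 0 * sc m ξ 0 ^ 2) = 0 := by
    rw [h3, zero_mul]
  have key : om X l p ξ * (sc m ξ 0 ^ 2 + sc m ξ 1 ^ 2) / 2 - (G1 K X l p ξ * sc m ξ 1 ^ 2 +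
      G0 K X l p 0 ξ * sc m ξ 0 ^ 2) ≤ om X l p ξ * ((ξ * K.r i ξ 1 + 2 * K.r i ξ 0) *
        sc m ξ 0 ^ 2 + 2 * K.r i ξ 0 * sc m ξ 0 * sc m ξ 1) +
        K.r i ξ 0 * omd X l p ξ * sc m ξ 0 ^ 2 := by
    simp only [G1, G0, cc, omd, om] at h2 h6 ⊢
    linarith
  refine le_of_eq_of_le ?_ ((mul_le_mul_of_nonneg_left key h0.le).trans_eq ?_)
  · rw [nn, ed]
    ring
  · simp only [Pi.mul_apply, Pi.pow_apply]
    field_simp
    ring

theorem index_le (K : Cert) (X : Cut) (h : Jet1 l m) (hp : PsiS p) (hl : l * K.xt ≤ 1 / 4) :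
    NN X l p m / 2 - 2 * 10 ^ 20 * (m K.x1 0 ^ 2 + m K.x2 0 ^ 2) ≤ En K X l p 0 m := by
  have l0 := h.l0
  have a1 := K.hx1
  have a2 := K.hx12
  have a3 := K.hx2t
  have hL : l * (1 / (2 * l)) = 1 / 2 := by field_simp
  have h2 : l * K.x2 ≤ 1 / 4 := (mul_le_mul_of_nonneg_left a3.le l0.le).trans hl
  have h1 : l * K.x1 ≤ 1 / 4 := (mul_le_mul_of_nonneg_left a2.le l0.le).trans h2
  have h3 : K.x2 ≤ 1 / (2 * l) := le_of_mul_le_mul_left (by linarith) l0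
  have ii : ∀ {a b : ℝ}, 0 ≤ a → a ≤ b → l * b ≤ 1 / 2 → IntervalIntegrable
      (fun ξ => om X l p ξ * nn m ξ / 2 - ed K X l p 0 m ξ) volume a b := fun ha hab hb =>
    ((h.ii_om_nn X hp ha hab hb).div_const 2).sub (h.ii_ed K X hp 0 ha hab hb)
  have i0 := ii le_rfl (show 0 ≤ K.x1 by linarith) (by linarith)
  have i1 := ii (show 0 ≤ K.x1 by linarith) a2.le (by linarith)
  have i2 := ii (show 0 ≤ K.x2 by linarith) h3 hL.le
  have lt : ∀ {x b : ℝ}, x ≤ b → l * b ≤ 1 / 2 → l * x < 1 := fun hx hb => by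
    linarith [mul_le_mul_of_nonneg_left hx l0.le]
  have t0 : Tendsto (statb_g K X l p m 0) (𝓝[>] 0) (𝓝 0) := by
    obtain ⟨C, hC⟩ := h.bd
    have c : Continuous fun ξ : ℝ => 10 ^ 14 * ξ ^ 2 * C ^ 2 := by fun_prop
    refine squeeze_zero_norm' ?_ (tendsto_nhdsWithin_of_tendsto_nhds (c.tendsto' 0 0 (by simp)))
    filter_upwards [Ioc_mem_nhdsGT (show 0 < K.x1 by linarith)] with ξ hξ
    refine (statb_bd K X l hp m 0 hξ.1).trans (mul_le_mul_of_nonneg_left ?_ (by positivity))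
    exact sq_le_sq' (abs_le.1 (hC ξ hξ.1 (by
      linarith [mul_le_mul_of_nonneg_left hξ.2 l0.le])).1).1 (abs_le.1 (hC ξ hξ.1 (by
        linarith [mul_le_mul_of_nonneg_left hξ.2 l0.le])).1).2
  have f0 := flux_le (by linarith) K.Bk
    ((statb_cont K X h hp 0).mono fun x hx => ⟨hx.1, lt hx.2 (by linarith)⟩) t0 i0
    fun x hx hB => statb_der K X h hp hl hx.1 (lt hx.2.le (by linarith)) hB (Or.inl ⟨rfl, hx.2⟩)
  have f1 := int_le_off a2.le K.Bk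
    ((statb_cont K X h hp 1).mono fun x hx => ⟨by linarith [hx.1], lt hx.2 (by linarith)⟩) i1
    fun x hx hB => statb_der K X h hp hl (by linarith [hx.1]) (lt hx.2.le (by linarith)) hB
      (Or.inr (Or.inl ⟨rfl, hx.1.le, hx.2⟩))
  have f2 := int_le_off h3 K.Bk
    ((statb_cont K X h hp 2).mono fun x hx => ⟨by linarith [hx.1], lt hx.2 hL.le⟩) i2
    fun x hx hB => statb_der K X h hp hl (by linarith [hx.1]) (lt hx.2.le hL.le) hB
      (Or.inr (Or.inr ⟨rfl, hx.1.le⟩))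
  have z : statb_g K X l p m 2 (1 / (2 * l)) = 0 := by
    rw [statb_g, om, (X.zero _ (by linarith [X.h1])).1, zero_mul, mul_zero, zero_mul, zero_mul]
  have b : ∀ i x, 1 ≤ x → x < K.xt → |statb_g K X l p m i x| ≤ 10 ^ 20 * m x 0 ^ 2 :=
    fun i x hx hx' => by
      refine (statb_bd K X l hp m i (by linarith)).trans ?_
      rw [sc, pow_zero, one_mul]
      exact mul_le_mul_of_nonneg_right (by nlinarith [K.hxt']) (sq_nonneg _)
  have b1 := abs_le.1 (b 0 K.x1 a1 (by linarith))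
  have b2 := abs_le.1 (b 1 K.x1 a1 (by linarith))
  have b3 := abs_le.1 (b 1 K.x2 (by linarith) a3)
  have b4 := abs_le.1 (b 2 K.x2 (by linarith) a3)
  have e1 := intervalIntegral.integral_add_adjacent_intervals i0 i1
  have e2 := intervalIntegral.integral_add_adjacent_intervals (i0.trans i1) i2
  have hL0 : 0 ≤ 1 / (2 * l) := by positivity
  rw [intervalIntegral.integral_sub ((h.ii_om_nn X hp le_rfl hL0 hL.le).div_const 2)
    (h.ii_ed K X hp 0 le_rfl hL0 hL.le), intervalIntegral.integral_div] at e2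
  rw [NN, En]
  linarith

end Vale.Agent.P264
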